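import Crest.Agent.R30.Clock

/-!
# R30/Stop: deterministic facts on the unfolding tree
-/

set_option autoImplicit false

open Finset
open Crest.CombinatoricsR.TriangleRemoval

namespace Crest.Agent.R30

variable {n : ℕ}

variable {E : St n} {L : ℕ}

lemma tau_le (k : ℕ) (x : TS n) (ω : Node n → ℕ) : tau E L k x ω ≤ L := by
  cases k with
  | zero => exact le_rfl
  | succ k => exact ((le_tau_succ E L k x ω _).1 le_rfl).1

/-- `tau k` only reads nodes of depth `< k` (induction on `k`). -/
lemma tau_congr {k : ℕ} {x : TS n} {ω ω' : Node n → ℕ}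
    (h : ∀ i : Node n, i.1.length < k → ω' i = ω i) : tau E L k x ω' = tau E L k x ω := by
  induction k generalizing x ω ω' with
  | zero => rfl
  | succ k ih =>
    have h1 : ∀ w, ω' ([], w) = ω ([], w) := fun w => h _ (Nat.succ_pos k)
    have h2 : ∀ g : Stp n, tau E L k (child x g) (sh g ω') = tau E L k (child x g) (sh g ω) :=
      fun g => ih fun i hi => h (g :: i.1, i.2) (Nat.succ_lt_succ hi)
    simp only [tau, h1, h2]

/-- Stopping-set property; induction on `k` generalising `x t ω ω'`.  For `k+1`: the nodes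
`([], w)`, `w ∈ ch E x`, are in `InS`, so their clocks agree.  For `w ∈ ch E x` with
`ω([],w) < t`, `ω([],w) ≤ tau (k+1) x ω`, and `g = (w,b)`: if `InS k (child x g) (dl ..ω) (sh g ω)
(l,w')` then `InS (k+1) x t ω (g :: l, w')`; the induction hypothesis for both children with
horizon `h = dl E L k x w ω` gives `min τ'(ω') h = min τ'(ω) h`, `min τ''(ω') h = min τ''(ω) h`,
from which (`omega`) `dl ω' = dl ω` and "accepted" (`c ≤ τ' ∧ c ≤ τ''`) agree for `ω, ω'`.
Then for `s ≤ t`, `s ≤ tau ω ↔ s ≤ tau ω'` (`le_tau_succ`): (→) an accepted `w` for `ω'` with clock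
`< s` would be accepted for `ω`; (←) if `tau ω < s ≤ L` then, applying `le_tau_succ` to
`tau ω + 1`, some accepted `w` has clock `= tau ω < t`, and it is accepted for `ω'`. -/
theorem stop (k : ℕ) (x : TS n) (t : ℕ) (ω ω' : Node n → ℕ)
    (h : ∀ i, InS E L k x t ω i → ω' i = ω i) :
    min (tau E L k x ω') t = min (tau E L k x ω) t ∧
      ∀ l, Ex E L k x t l ω' ↔ Ex E L k x t l ω := by
  induction k generalizing x t ω ω' with
  | zero => exact ⟨rfl, fun l => by cases l <;> simp⟩
  | succ k ih =>
    have hc : ∀ w ∈ ch E x, ω' ([], w) = ω ([], w) := fun w hw =>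
      h ([], w) ⟨Nat.succ_pos k, Ex_nil .., hw⟩
    have key : ∀ g : Stp n, g.1 ∈ ch E x → ω ([], g.1) < t → ω ([], g.1) ≤ tau E L (k + 1) x ω →
        _ := fun g hw h1 h2 => ih (child x g) (dl E L k x g.1 ω) (sh g ω) (sh g ω') fun i hi =>
      h (g :: i.1, i.2) ⟨Nat.succ_lt_succ hi.1, (Ex_succ_cons ..).2 ⟨hw, h1, h2, hi.2.1⟩, hi.2.2⟩
    have key2 : ∀ w ∈ ch E x, ω ([], w) < t → ω ([], w) ≤ tau E L (k + 1) x ω →
        dl E L k x w ω' = dl E L k x w ω ∧
        ((ω ([], w) ≤ tau E L k (child x (w, false)) (sh (w, false) ω') ∧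
          ω ([], w) ≤ tau E L k (child x (w, true)) (sh (w, true) ω')) ↔
        (ω ([], w) ≤ tau E L k (child x (w, false)) (sh (w, false) ω) ∧
          ω ([], w) ≤ tau E L k (child x (w, true)) (sh (w, true) ω))) := by
      intro w hw h1 h2
      have h3 := (key (w, false) hw h1 h2).1
      have h4 := (key (w, true) hw h1 h2).1
      simp only [dl, hc w hw] at h3 h4 ⊢
      omega
    have main : ∀ s ≤ t, s ≤ tau E L (k + 1) x ω' ↔ s ≤ tau E L (k + 1) x ω := by
      intro s hs
      constructor
      · intro h1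
        by_contra h2
        have h3 := (le_tau_succ E L k x ω' s).1 h1
        have h4 := mt (le_tau_succ E L k x ω (tau E L (k + 1) x ω + 1)).2 (by omega)
        simp only [not_and, not_forall] at h4
        obtain ⟨w, hw, h5, h6, h7⟩ := h4 (by omega)
        have h8 := (key2 w hw (by omega) (by omega)).2.2 ⟨h5, h6⟩
        have h9 := h3.2 w hw
        rw [hc w hw] at h9
        have := h9 h8.1 h8.2
        omega
      · intro h1
        have h3 := (le_tau_succ E L k x ω s).1 h1
        refine (le_tau_succ E L k x ω' s).2 ⟨h3.1, fun w hw => ?_⟩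
        rw [hc w hw]
        intro h5 h6
        by_contra h7
        have h8 := (key2 w hw (by omega) (by omega)).2.1 ⟨h5, h6⟩
        exact h7 (h3.2 w hw h8.1 h8.2)
    refine ⟨?_, fun l => ?_⟩
    · have h1 := main _ (min_le_right (tau E L (k + 1) x ω') t)
      have h2 := main _ (min_le_right (tau E L (k + 1) x ω) t)
      omega
    · cases l with
      | nil => simp
      | cons g l =>
        rw [Ex_succ_cons, Ex_succ_cons]
        refine and_congr_right fun hw => ?_
        rw [hc _ hw]
        refine and_congr_right fun h1 => ?_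
        rw [main _ h1.le]
        refine and_congr_right fun h2 => ?_
        rw [(key2 _ hw h1 h2).1]
        exact (key g hw h1 h2).2 l

lemma Ex.mono {k : ℕ} {x : TS n} {t t' : ℕ} {l : List (Stp n)} {ω : Node n → ℕ}
    (h : Ex E L k x t l ω) (ht : t ≤ t') : Ex E L k x t' l ω := by
  cases l with
  | nil => simp
  | cons g l =>
    cases k with
    | zero => simp at h
    | succ k => exact ⟨h.1, h.2.1.trans_le ht, h.2.2⟩

lemma Ex.val {k : ℕ} {x : TS n} {t : ℕ} {l : List (Stp n)} {ω : Node n → ℕ}
    (h : Ex E L k x t l ω) : Val E x l := by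
  induction l generalizing k x t ω with
  | nil => trivial
  | cons g l ih =>
    cases k with
    | zero => simp at h
    | succ k => exact ⟨h.1, ih h.2.2.2⟩

lemma Ex.length_le {k : ℕ} {x : TS n} {t : ℕ} {l : List (Stp n)} {ω : Node n → ℕ}
    (h : Ex E L k x t l ω) : l.length ≤ k := by
  induction l generalizing k x t ω with
  | nil => exact Nat.zero_le k
  | cons g l ih =>
    cases k with
    | zero => simp at h
    | succ k => exact Nat.succ_le_succ (ih h.2.2.2)

/-- Induction on `α`; the horizon drops at each step since `dl ≤ ω([],g.1) < t ≤ k + 1`. -/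
lemma Ex.append {k : ℕ} {x : TS n} {t : ℕ} {α β : List (Stp n)} {ω : Node n → ℕ}
    (h : Ex E L k x t (α ++ β) ω) (ht : t ≤ k) :
    Ex E L k x t α ω ∧ Ex E L (k - α.length) (en x α) (k - α.length) β (shL α ω) := by
  induction α generalizing k x t ω with
  | nil => exact ⟨Ex_nil .., h.mono ht⟩
  | cons g α ih =>
    cases k with
    | zero => simp at h
    | succ k =>
      obtain ⟨h1, h2, h3, h4⟩ := h
      obtain ⟨h5, h6⟩ := ih h4 ((min_le_right _ _).trans (by omega))
      refine ⟨⟨h1, h2, h3, h5⟩, ?_⟩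
      rw [List.length_cons, Nat.succ_sub_succ]
      exact h6

lemma Ex.of_append {k : ℕ} {x : TS n} {t : ℕ} {α β : List (Stp n)} {ω : Node n → ℕ}
    (h : Ex E L k x t (α ++ β) ω) : Ex E L k x t α ω := by
  induction α generalizing k x t ω with
  | nil => simp
  | cons g α ih =>
    cases k with
    | zero => simp at h
    | succ k => exact ⟨h.1, h.2.1, h.2.2.1, ih h.2.2.2⟩

lemma Val_append {x : TS n} {α β : List (Stp n)} :
    Val E x (α ++ β) ↔ Val E x α ∧ Val E (en x α) β := by
  induction α generalizing x with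
  | nil => simp [Val]
  | cons g α ih => simp only [List.cons_append, Val, ih, en_cons, and_assoc]

lemma edge_child {x : TS n} {g : Stp n} (hg : g.1 ∈ ch E x) :
    s((child x g).a, (child x g).b) ∈ E := by
  obtain ⟨w, c⟩ := g
  cases c
  · exact (mem_ch.1 hg).1.1
  · exact (mem_ch.1 hg).1.2

lemma Val.edge {x : TS n} {l : List (Stp n)} (hx : s(x.a, x.b) ∈ E) (h : Val E x l) :
    s((en x l).a, (en x l).b) ∈ E := by
  induction l generalizing x with
  | nil => exact hx
  | cons g l ih => exact ih (edge_child h.1) h.2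

lemma FE_subset {x : TS n} {l : List (Stp n)} {w : Fin n} (hx : s(x.a, x.b) ∈ E) (h : Val E x l)
    (hw : w ∈ ch E (en x l)) : FE x l w ⊆ E := by
  induction l generalizing x with
  | nil =>
    exact insert_subset hx (insert_subset (mem_ch.1 hw).1.1
      (singleton_subset_iff.2 (mem_ch.1 hw).1.2))
  | cons g l ih =>
    exact union_subset (insert_subset hx (insert_subset (mem_ch.1 h.1).1.1
      (singleton_subset_iff.2 (mem_ch.1 h.1).1.2))) (ih (edge_child h.1) h.2 hw)

lemma InS.val {k : ℕ} {x : TS n} {t : ℕ} {ω : Node n → ℕ} {i : Node n} (h : InS E L k x t ω i) :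
    Val E x i.1 ∧ i.2 ∈ ch E (en x i.1) := ⟨h.2.1.val, h.2.2⟩

/-- The examined nodes are closed under taking the parent. -/
lemma InS.parent {k : ℕ} {x : TS n} {t : ℕ} {ω : Node n → ℕ} {l : List (Stp n)} {g : Stp n}
    {w : Fin n} (h : InS E L k x t ω (l ++ [g], w)) : InS E L k x t ω (l, g.1) := by
  refine ⟨?_, h.2.1.of_append, (Val_append.1 h.2.1.val).2.1⟩
  have := h.1
  simp only [List.length_append] at this
  exact (Nat.le_add_right _ _).trans_lt this

lemma sh_proj (c : Finset (Fin n) → ℕ) (x : TS n) (g : Stp n) :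
    sh g (fun i => c (proj x i)) = fun i => c (proj (child x g) i) := rfl

lemma mem_sweep_iff (c : Finset (Fin n) → ℕ) (t : ℕ) (e : Sym2 (Fin n)) :
    e ∈ sweep E c t ↔ e ∈ E ∧ ∀ s < t, ∀ T ∈ triangles (sweep E c s), c T = s → e ∉ T.sym2 := by
  induction t with
  | zero => simp [sweep]
  | succ t ih =>
    simp only [sweep, mem_sdiff, ih, mem_biUnion, mem_filter, not_exists, not_and,
      Nat.forall_lt_succ_right, and_assoc]

/-- The tree computes the sweep.  Induction on `k` generalising `x t`.  For `k+1`, by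
`le_tau_succ` the left side says: no `w ∈ ch E x` has `s := c {a,b,w} < t` with `s ≤ τ'`, `s ≤ τ''`.
For such `w, s` the induction hypothesis applies to both children at time `s ≤ k` (their parent
triangle is `{a,b,w}` up to order, with clock `s`; `sh_proj`), so `s ≤ τ' ↔ s(a,w) ∈ sweep s`, etc.
Compare with `mem_sweep_iff`: (←) if `s(a,b) ∈ sweep t ⊆ sweep s` then `{a,b,w}` would be a
triangle of `sweep s` (`triple_mem_triangles`) with clock `s`; (→) a triangle of `sweep s` through
`a ≠ b` is `{a,b,w}` (`exists_cn_of_mem_triangles`), and `some w ≠ x.o` because `s < t ≤ c(parent)`. -/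
theorem tau_pull (hE : Simple E) (c : Finset (Fin n) → ℕ) (k : ℕ) (x : TS n) (t : ℕ)
    (hx : s(x.a, x.b) ∈ E) (htk : t ≤ k) (htL : t ≤ L)
    (ho : ∀ o, x.o = some o → t ≤ c {x.a, x.b, o}) :
    t ≤ tau E L k x (fun i => c (proj x i)) ↔ s(x.a, x.b) ∈ sweep E c t := by
  induction k generalizing x t with
  | zero =>
    obtain rfl := Nat.le_zero.1 htk
    exact ⟨fun _ => hx, fun _ => Nat.zero_le _⟩
  | succ k ih =>
    have key : ∀ w ∈ ch E x, c {x.a, x.b, w} < t →
        (c {x.a, x.b, w} ≤ tau E L k (child x (w, false)) (fun i => c (proj (child x (w, false)) i))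
          ↔ s(x.a, w) ∈ sweep E c (c {x.a, x.b, w})) ∧
        (c {x.a, x.b, w} ≤ tau E L k (child x (w, true)) (fun i => c (proj (child x (w, true)) i))
          ↔ s(x.b, w) ∈ sweep E c (c {x.a, x.b, w})) := fun w hw h1 =>
      ⟨ih (child x (w, false)) _ (edge_child hw) (by omega) (by omega) fun o ho => by
          obtain rfl : x.b = o := Option.some.inj ho
          rw [child_false, pair_comm w x.b],
        ih (child x (w, true)) _ (edge_child hw) (by omega) (by omega) fun o ho => by
          obtain rfl : x.a = o := Option.some.inj ho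
          rw [child_true, pair_comm w x.a, insert_comm x.b x.a]⟩
    rw [le_tau_succ]
    simp only [sh_proj]
    change (t ≤ L ∧ ∀ w ∈ ch E x, c {x.a, x.b, w} ≤ _ → c {x.a, x.b, w} ≤ _ →
      t ≤ c {x.a, x.b, w}) ↔ _
    constructor
    · rintro ⟨-, h⟩
      refine (mem_sweep_iff c t _).2 ⟨hx, fun s hs T hT hc hm => ?_⟩
      obtain ⟨h1, h2⟩ := mk_mem_sym2_iff.1 hm
      obtain ⟨w, hw, -, -, rfl⟩ := exists_cn_of_mem_triangles hT (hE.ne hx) h1 h2
      obtain ⟨h3, h4⟩ := mem_cn.1 hw
      subst hc
      have hw' : w ∈ ch E x := mem_ch.2 ⟨⟨sweep_subset _ _ _ h3, sweep_subset _ _ _ h4⟩,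
        fun e => absurd (ho w e.symm) (not_le.2 hs)⟩
      exact absurd (h w hw' ((key w hw' hs).1.2 h3) ((key w hw' hs).2.2 h4)) (not_le.2 hs)
    · intro h
      refine ⟨htL, fun w hw h1 h2 => le_of_not_gt fun hs => ?_⟩
      exact ((mem_sweep_iff c t _).1 h).2 _ hs _ (triple_mem_triangles
        (hE.subset (sweep_subset _ _ _)) (sweep_anti E c hs.le h) ((key w hw hs).1.1 h1)
        ((key w hw hs).2.1 h2)) rfl (mk_mem_sym2_iff.2 ⟨by simp, by simp⟩)

end Crest.Agent.R30
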