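import Crest.Agent.R30.Stab
import Crest.Agent.R30.Stop

/-!
# R30/BP: the survival probability on the tree follows the mean-field solution
-/

set_option autoImplicit false

open Finset
open Crest.CombinatoricsR.TriangleRemoval

namespace Crest.Agent.R30

variable {n : ℕ}

/-- The mean-field solution. -/
noncomputable def pbar (d : ℝ) (L : ℕ) : ℕ → ℝ
  | 0 => 1
  | s + 1 => pbar d L s * Real.exp (-(d * pbar d L s ^ 2 / L))

/-- With `u s = (pbar s)⁻²`: `u (s+1) = u s * exp (x)`, `x = 2d/(L u s) ∈ [0,1]`, so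
`u s + 2d/L ≤ u (s+1) ≤ u s + 2d/L + 4d²/L²` (`1 + x ≤ exp x ≤ 1 + x + x²`, `u ≥ 1`), and
`∑_{r<s} d pbar² / L = -log (pbar s) = (log (u s))/2`, which is monotone in `s`. -/
theorem pbar_facts (d : ℝ) (L : ℕ) (hd : 1 ≤ d) (hL : 4 * d ^ 2 ≤ L) :
    (∀ s, 0 < pbar d L s ∧ pbar d L s ≤ 1) ∧
    (∀ s, Real.log (pbar d L s) = -∑ r ∈ range s, d * pbar d L r ^ 2 / L) ∧
    (1 + 2 * d ≤ (pbar d L L ^ 2)⁻¹ ∧ (pbar d L L ^ 2)⁻¹ ≤ 2 + 2 * d) ∧
    ∑ r ∈ range L, d * pbar d L r ^ 2 / L ≤ Real.log (2 + 2 * d) / 2 := by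
  have hd2 : 1 ≤ d ^ 2 := one_le_pow₀ hd
  have hL0 : (0 : ℝ) < L := by linarith
  have hdL : 4 * d ≤ L := by nlinarith
  have h1 : ∀ s, 0 < pbar d L s ∧ pbar d L s ≤ 1 := by
    intro s
    induction s with
    | zero => simp [pbar]
    | succ s ih =>
      rw [pbar]
      refine ⟨mul_pos ih.1 (Real.exp_pos _), ?_⟩
      have : Real.exp (-(d * pbar d L s ^ 2 / L)) ≤ 1 :=
        Real.exp_le_one_iff.2 (neg_nonpos.2 (by positivity))
      exact mul_le_one₀ ih.2 (Real.exp_pos _).le this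
  have h2 : ∀ s, Real.log (pbar d L s) = -∑ r ∈ range s, d * pbar d L r ^ 2 / L := by
    intro s
    induction s with
    | zero => simp [pbar]
    | succ s ih =>
      rw [pbar, Real.log_mul (h1 s).1.ne' (Real.exp_pos _).ne', Real.log_exp, ih, sum_range_succ]
      ring
  have h3 : ∀ s : ℕ, 1 + s * (2 * d / L) ≤ (pbar d L s ^ 2)⁻¹ ∧
      (pbar d L s ^ 2)⁻¹ ≤ 1 + s * (2 * d / L + 1 / L) := by
    intro s
    induction s with
    | zero => simp [pbar]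
    | succ s ih =>
      obtain ⟨hp0, hp1⟩ := h1 s
      have hp2 : 0 < pbar d L s ^ 2 := by positivity
      have hp3 : pbar d L s ^ 2 ≤ 1 := pow_le_one₀ hp0.le hp1
      set x : ℝ := 2 * d / L * pbar d L s ^ 2 with hx
      have e1 : (pbar d L (s + 1) ^ 2)⁻¹ = (pbar d L s ^ 2)⁻¹ * Real.exp x := by
        rw [pbar, mul_pow, mul_inv, ← Real.exp_nat_mul, ← Real.exp_neg]
        congr 2
        rw [hx]; push_cast; ring
      have hc0 : 0 ≤ 2 * d / L := by positivity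
      have hc1 : 2 * d / L ≤ 1 := by rw [div_le_one hL0]; linarith
      have hx0 : 0 ≤ x := by positivity
      have hx1 : x ≤ 1 := mul_le_one₀ hc1 hp2.le hp3
      have e2 : 1 + x ≤ Real.exp x := by linarith [Real.add_one_le_exp x]
      have e3 : Real.exp x ≤ 1 + x + x ^ 2 := by
        have := Real.abs_exp_sub_one_sub_id_le (x := x) (by rw [abs_of_nonneg hx0]; exact hx1)
        linarith [(abs_le.1 this).2]
      have hu : 0 < (pbar d L s ^ 2)⁻¹ := by positivity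
      have e4 : (pbar d L s ^ 2)⁻¹ * x = 2 * d / L := by rw [hx]; field_simp
      have e5 : (pbar d L s ^ 2)⁻¹ * x ^ 2 ≤ 1 / L := by
        rw [sq x, ← mul_assoc, e4, hx]
        calc 2 * d / L * (2 * d / L * pbar d L s ^ 2) ≤ 2 * d / L * (2 * d / L * 1) := by gcongr
          _ = 4 * d ^ 2 / L / L := by ring
          _ ≤ 1 / L := by gcongr; rw [div_le_one hL0]; exact hL
      rw [e1]
      push_cast
      constructor
      · linarith only [mul_le_mul_of_nonneg_left e2 hu.le, ih.1, e4]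
      · linarith only [mul_le_mul_of_nonneg_left e3 hu.le, ih.2, e4, e5]
  have h4 : 1 + 2 * d ≤ (pbar d L L ^ 2)⁻¹ ∧ (pbar d L L ^ 2)⁻¹ ≤ 2 + 2 * d := by
    obtain ⟨a, b⟩ := h3 L
    have e1 : (L : ℝ) * (2 * d / L) = 2 * d := by field_simp
    have e2 : (L : ℝ) * (2 * d / L + 1 / L) = 2 * d + 1 := by field_simp
    rw [e1] at a
    rw [e2] at b
    exact ⟨a, by linarith⟩
  refine ⟨h1, h2, h4, ?_⟩
  have h5 := Real.log_le_log (by have := (h1 L).1; positivity) h4.2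
  rw [Real.log_inv, Real.log_pow, h2 L] at h5
  push_cast at h5
  linarith

/-- survival probability of a root edge -/
noncomputable def bpQ (E : St n) (L : ℕ) (a b : Fin n) (s : ℕ) : ℝ := q E L ⟨a, b, none⟩ s

/-- the factor of the triangle `a b w` seen from the edge `a b` -/
noncomputable def bpF (E : St n) (L : ℕ) (a b w : Fin n) (s : ℕ) : ℝ := fac E L ⟨a, b, none⟩ w s

/-- logarithmic deviation from the mean-field solution -/
noncomputable def bpl (E : St n) (L : ℕ) (d : ℝ) (s : ℕ) (a b : Fin n) : ℝ :=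
  Real.log (bpQ E L a b s) - Real.log (pbar d L s)

/-- the induction hypothesis -/
def bpP (E : St n) (L : ℕ) (d α δ₁ : ℝ) (s : ℕ) : Prop :=
  ∀ a b, s(a, b) ∈ E → (∀ w ∈ cn E a b, 1 - α ≤ bpF E L a b w s) ∧ |bpl E L d s a b| ≤ δ₁

section aux

variable {E : St n} {L : ℕ} {d α δ₁ : ℝ}

lemma bp_Q_eq (a b : Fin n) (s : ℕ) : bpQ E L a b s = ∏ w ∈ cn E a b, bpF E L a b w s := by
  rw [bpQ, q_eq]
  refine prod_congr ?_ fun _ _ => rfl
  ext w
  simp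

lemma bp_q_some {a b o : Fin n} (ho : o ∈ cn E a b) (s : ℕ) :
    q E L ⟨a, b, some o⟩ s * bpF E L a b o s = bpQ E L a b s := by
  rw [bp_Q_eq, ← prod_erase_mul _ _ ho, q_eq]
  congr 1
  refine prod_congr ?_ fun _ _ => rfl
  ext w
  simp [and_comm]

lemma bp_F_succ (a b w : Fin n) (s : ℕ) : bpF E L a b w (s + 1) =
    bpF E L a b w s - (L : ℝ)⁻¹ * (q E L ⟨a, w, some b⟩ s * q E L ⟨b, w, some a⟩ s) := by
  simp only [bpF, fac, sum_range_succ, child_false, child_true]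
  ring

lemma bp_l_zero (a b : Fin n) : bpl E L d 0 a b = 0 := by
  simp [bpl, bp_Q_eq, bpF, fac, pbar]

lemma bp_prod_sub {ι : Type*} [DecidableEq ι] {S T : Finset ι} (hST : S ⊆ T) {k : ℕ}
    (hk : (T \ S).card ≤ k) {f : ι → ℝ} {c : ℝ} (hc0 : 0 ≤ c) (hc1 : c ≤ 1)
    (hf : ∀ w ∈ T, c ≤ f w) : c ^ k * ∏ w ∈ S, f w ≤ ∏ w ∈ T, f w := by
  rw [← prod_sdiff hST]
  refine mul_le_mul_of_nonneg_right ?_ (prod_nonneg fun w hw => hc0.trans (hf w (hST hw)))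
  refine (pow_le_pow_of_le_one hc0 hc1 hk).trans ?_
  rw [← prod_const]
  exact prod_le_prod (fun _ _ => hc0) fun w hw => hf w (sdiff_subset hw)

lemma bp_card_sdiff (x : TS n) : (cn E x.a x.b \ ch E x).card ≤ 1 := by
  refine card_le_one.2 fun u hu v hv => ?_
  simp only [mem_sdiff, mem_cn, mem_ch, not_and, not_not, ne_eq] at hu hv
  exact Option.some_injective _ ((hu.2 hu.1).trans (hv.2 hv.1).symm)

lemma bp_card_sdiff_erase (x : TS n) (w : Fin n) : (cn E x.a x.b \ (ch E x).erase w).card ≤ 2 := by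
  have h : cn E x.a x.b \ (ch E x).erase w ⊆ insert w (cn E x.a x.b \ ch E x) := by
    intro u hu
    rw [mem_sdiff, mem_erase] at hu
    rw [mem_insert, mem_sdiff]
    tauto
  exact (card_le_card h).trans ((card_insert_le _ _).trans (Nat.succ_le_succ (bp_card_sdiff x)))

lemma bpP.Q_pos {s : ℕ} (h : bpP E L d α δ₁ s) (hα : α ≤ 1 / 1000) {a b : Fin n}
    (hab : s(a, b) ∈ E) : 0 < bpQ E L a b s := by
  rw [bp_Q_eq]
  exact prod_pos fun w hw => by linarith [(h a b hab).1 w hw]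

lemma bpP.Q_exp {s : ℕ} (h : bpP E L d α δ₁ s) (hα : α ≤ 1 / 1000) (hp : 0 < pbar d L s)
    {a b : Fin n} (hab : s(a, b) ∈ E) :
    bpQ E L a b s = pbar d L s * Real.exp (bpl E L d s a b) := by
  rw [bpl, Real.exp_sub, Real.exp_log (h.Q_pos hα hab), Real.exp_log hp]
  field_simp

lemma bp_exp_bd {x c : ℝ} (hx : |x| ≤ c) (hc : c ≤ 1) :
    1 - c ≤ Real.exp x ∧ Real.exp x ≤ 1 + 2 * c := by
  have h1 := Real.abs_exp_sub_one_le (hx.trans hc)
  have h2 := Real.add_one_le_exp x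
  have h3 := abs_le.1 hx
  exact ⟨by linarith [h3.1], by linarith [(abs_le.1 h1).2]⟩

lemma bpP.Q_le {s : ℕ} (h : bpP E L d α δ₁ s) (hα : α ≤ 1 / 1000) (hδ : δ₁ ≤ 1 / 1000)
    (hp : 0 < pbar d L s) {a b : Fin n} (hab : s(a, b) ∈ E) :
    bpQ E L a b s ≤ 1002 / 1000 * pbar d L s := by
  rw [h.Q_exp hα hp hab, mul_comm]
  refine mul_le_mul_of_nonneg_right ?_ hp.le
  linarith [(bp_exp_bd (h a b hab).2 (by linarith)).2]

lemma bpP.q_le {s : ℕ} (h : bpP E L d α δ₁ s) (hα : α ≤ 1 / 1000) (hδ : δ₁ ≤ 1 / 1000)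
    (hp : 0 < pbar d L s) {x : TS n} (hx : s(x.a, x.b) ∈ E) :
    q E L x s ≤ 11 / 10 * pbar d L s := by
  have h1 := bp_prod_sub (S := ch E x) (T := cn E x.a x.b) (filter_subset _ _) (bp_card_sdiff x)
    (f := fun w => bpF E L x.a x.b w s) (c := 999 / 1000) (by norm_num) (by norm_num)
    (fun w hw => by linarith [(h _ _ hx).1 w hw])
  have h2 := h.Q_le hα hδ hp hx
  rw [← bp_Q_eq] at h1
  have h3 : q E L x s = ∏ w ∈ ch E x, bpF E L x.a x.b w s := q_eq E L x s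
  rw [← h3] at h1
  linarith

lemma bpP.q2_le {s : ℕ} (h : bpP E L d α δ₁ s) (hα : α ≤ 1 / 1000) (hδ : δ₁ ≤ 1 / 1000)
    (hp : 0 < pbar d L s) {x : TS n} (hx : s(x.a, x.b) ∈ E) (w : Fin n) :
    q2 E L x w s ≤ 11 / 10 * pbar d L s := by
  have h1 := bp_prod_sub (S := (ch E x).erase w) (T := cn E x.a x.b)
    ((erase_subset _ _).trans (filter_subset _ _)) (bp_card_sdiff_erase x w)
    (f := fun w => bpF E L x.a x.b w s) (c := 999 / 1000) (by norm_num) (by norm_num)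
    (fun w hw => by linarith [(h _ _ hx).1 w hw])
  have h2 := h.Q_le hα hδ hp hx
  rw [← bp_Q_eq] at h1
  have h3 : q2 E L x w s = ∏ w' ∈ (ch E x).erase w, bpF E L x.a x.b w' s := rfl
  rw [← h3] at h1
  linarith

lemma bp_log_bd {x : ℝ} (h1 : x ≤ 1 / 2) : |Real.log (1 - x) + x| ≤ 2 * x ^ 2 := by
  have hp : 0 < 1 - x := by linarith
  have h2 := Real.log_le_sub_one_of_pos hp
  have h3 := Real.one_sub_inv_le_log_of_pos hp
  have h4 : (1 - x)⁻¹ ≤ 1 + x + 2 * x ^ 2 := by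
    rw [inv_le_iff_one_le_mul₀ hp]
    nlinarith [mul_nonneg (sq_nonneg x) (by linarith : 0 ≤ 1 - 2 * x)]
  rw [abs_le]
  constructor <;> nlinarith [sq_nonneg x]

lemma bp_scalar {y η σ t : ℝ} (hy0 : 0 ≤ y) (hy : y ≤ η) (hη : η ≤ 1 / 4) (hσ : |σ| ≤ 2 * δ₁)
    (hδ : δ₁ ≤ 1 / 1000) (ht1 : 1 ≤ t) (ht : t ≤ 1 + 4 * α) (hα : α ≤ 1 / 1000) :
    y * Real.exp σ * t ≤ 1 / 2 ∧
      |Real.log (1 - y * Real.exp σ * t) + y * (1 + σ)| ≤ y * (4 * δ₁ ^ 2 + 6 * α + 8 * η) := by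
  have he := Real.exp_pos σ
  have h1 : Real.exp σ ≤ 1004 / 1000 := by linarith [(bp_exp_bd hσ (by linarith)).2]
  have h2 : Real.exp σ * t ≤ 2 := by nlinarith
  have h3 : y * Real.exp σ * t ≤ 2 * y := by
    rw [mul_assoc, mul_comm 2 y]; exact mul_le_mul_of_nonneg_left h2 hy0
  have h4 : 0 ≤ y * Real.exp σ * t := by positivity
  have h5 := bp_log_bd (x := y * Real.exp σ * t) (by linarith)
  have h6 : 2 * (y * Real.exp σ * t) ^ 2 ≤ y * (8 * η) := by nlinarith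
  have h7 : |Real.exp σ - 1 - σ| ≤ 4 * δ₁ ^ 2 := by
    refine (Real.abs_exp_sub_one_sub_id_le (by linarith)).trans ?_
    have := pow_le_pow_left₀ (abs_nonneg σ) hσ 2
    rw [sq_abs] at this
    linarith
  have h8 : |Real.exp σ * t - Real.exp σ| ≤ 6 * α := by
    rw [abs_of_nonneg (by nlinarith)]
    nlinarith
  have h9 : |Real.exp σ * t - (1 + σ)| ≤ 4 * δ₁ ^ 2 + 6 * α := by
    rw [abs_le] at h7 h8 ⊢
    constructor <;> linarith [h7.1, h7.2, h8.1, h8.2]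
  have h10 : |y * (Real.exp σ * t - (1 + σ))| ≤ y * (4 * δ₁ ^ 2 + 6 * α) := by
    rw [abs_mul, abs_of_nonneg hy0]
    exact mul_le_mul_of_nonneg_left h9 hy0
  refine ⟨by linarith, ?_⟩
  rw [abs_le] at h5 h10 ⊢
  constructor <;> linarith only [h5.1, h5.2, h10.1, h10.2, h6]

lemma bp_inv_bd {x y z : ℝ} (hα0 : 0 ≤ α) (hα : α ≤ 1 / 1000) (hx : 1 - α ≤ x) (hy : 1 - α ≤ y)
    (hz : 1 - α ≤ z) (hx1 : x ≤ 1) (hy1 : y ≤ 1) (hz1 : z ≤ 1) :
    1 ≤ (x * y * z)⁻¹ ∧ (x * y * z)⁻¹ ≤ 1 + 4 * α := by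
  have h0 : 0 < 1 - α := by linarith
  have hx0 : 0 < x := by linarith
  have hy0 : 0 < y := by linarith
  have hz0 : 0 < z := by linarith
  have hp : 0 < x * y * z := by positivity
  constructor
  · rw [one_le_inv₀ hp]
    exact mul_le_one₀ (mul_le_one₀ hx1 hy0.le hy1) hz0.le hz1
  · rw [inv_le_iff_one_le_mul₀ hp]
    have h1 : (1 - α) * (1 - α) * (1 - α) ≤ x * y * z := by gcongr
    have h2 : 1 - 3 * α ≤ (1 - α) * (1 - α) * (1 - α) := by
      nlinarith [mul_nonneg (sq_nonneg α) (by linarith : 0 ≤ 3 - α)]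
    nlinarith

/-- one factor, one step -/
lemma bpP.fac_step {r : ℕ} (h : bpP E L d α δ₁ r) (hr : r ≤ L) (hL : (4 : ℝ) ≤ L) (hα0 : 0 ≤ α)
    (hα : α ≤ 1 / 1000) (hδ : δ₁ ≤ 1 / 1000) (hp : 0 < pbar d L r) (hp1 : pbar d L r ≤ 1)
    {a b w : Fin n} (hab : s(a, b) ∈ E) (hw : w ∈ cn E a b) :
    0 < bpF E L a b w (r + 1) ∧
    |Real.log (bpF E L a b w (r + 1)) - Real.log (bpF E L a b w r) +
      pbar d L r ^ 2 / L * (1 + (bpl E L d r a w + bpl E L d r b w))| ≤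
      pbar d L r ^ 2 / L * (4 * δ₁ ^ 2 + 6 * α + 8 * (1 / L)) := by
  obtain ⟨haw, hbw⟩ := mem_cn.1 hw
  have hL0 : (0 : ℝ) < L := by linarith
  have hb : b ∈ cn E a w := mem_cn.2 ⟨hab, by rwa [Sym2.eq_swap]⟩
  have ha : a ∈ cn E b w := mem_cn.2 ⟨by rwa [Sym2.eq_swap], by rwa [Sym2.eq_swap]⟩
  have f1 := (h a b hab).1 w hw
  have f2 := (h a w haw).1 b hb
  have f3 := (h b w hbw).1 a ha
  have g1 : bpF E L a b w r ≤ 1 := (fac_mem E L r hr _ _).2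
  have g2 : bpF E L a w b r ≤ 1 := (fac_mem E L r hr _ _).2
  have g3 : bpF E L b w a r ≤ 1 := (fac_mem E L r hr _ _).2
  have p1 : 0 < bpF E L a b w r := by linarith
  have p2 : 0 < bpF E L a w b r := by linarith
  have p3 : 0 < bpF E L b w a r := by linarith
  obtain ⟨t1, t2⟩ := bp_inv_bd hα0 hα f1 f2 f3 g1 g2 g3
  have e2 := bp_q_some (L := L) hb r
  have e3 := bp_q_some (L := L) ha r
  rw [h.Q_exp hα hp haw, ← eq_div_iff p2.ne'] at e2
  rw [h.Q_exp hα hp hbw, ← eq_div_iff p3.ne'] at e3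
  have hσ : |bpl E L d r a w + bpl E L d r b w| ≤ 2 * δ₁ :=
    (abs_add_le _ _).trans (by linarith [(h a w haw).2, (h b w hbw).2])
  have hy : pbar d L r ^ 2 / L ≤ 1 / L := by
    gcongr
    exact pow_le_one₀ hp.le hp1
  have hη : (1 : ℝ) / L ≤ 1 / 4 := by gcongr
  obtain ⟨s1, s2⟩ := bp_scalar (by positivity) hy hη hσ hδ t1 t2 hα
  have e : bpF E L a b w (r + 1) = bpF E L a b w r * (1 - pbar d L r ^ 2 / L *
      Real.exp (bpl E L d r a w + bpl E L d r b w) *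
        (bpF E L a b w r * bpF E L a w b r * bpF E L b w a r)⁻¹) := by
    rw [bp_F_succ, e2, e3, Real.exp_add]
    field_simp
  refine ⟨by rw [e]; exact mul_pos p1 (by linarith), ?_⟩
  rw [e, Real.log_mul p1.ne' (by linarith), add_sub_cancel_left]
  exact s2

/-- one edge, one step -/
lemma bpP.step {r : ℕ} (h : bpP E L d α δ₁ r) (hr : r ≤ L) (hL : (4 : ℝ) ≤ L) (hα0 : 0 ≤ α)
    (hα : α ≤ 1 / 1000) (hδ : δ₁ ≤ 1 / 1000) (hp : 0 < pbar d L r) (hp1 : pbar d L r ≤ 1)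
    (hd : 0 < d) {δ : ℝ} (hδ1 : δ ≤ 1) {a b : Fin n} (hab : s(a, b) ∈ E)
    (hc : |((cn E a b).card : ℝ) / d - 1| ≤ δ) :
    |bpl E L d (r + 1) a b - bpl E L d r a b + d * pbar d L r ^ 2 / L *
      (avg (cn E a b) (bpl E L d r a) + avg (cn E a b) (bpl E L d r b))| ≤
      d * pbar d L r ^ 2 / L * (2 * δ + 8 * δ₁ ^ 2 + 12 * α + 16 * (1 / L)) := by
  have hL0 : (0 : ℝ) < L := by linarith
  have hδ0 : 0 ≤ δ₁ := (abs_nonneg _).trans (h a b hab).2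
  have hs := fun w (hw : w ∈ cn E a b) => h.fac_step hr hL hα0 hα hδ hp hp1 hab hw
  set y : ℝ := pbar d L r ^ 2 / L with hy
  have hy0 : 0 ≤ y := by positivity
  set e : ℝ := 4 * δ₁ ^ 2 + 6 * α + 8 * (1 / L) with he
  have he0 : 0 ≤ e := by positivity
  set A := avg (cn E a b) (bpl E L d r a) with hA
  set B := avg (cn E a b) (bpl E L d r b) with hB
  have hA1 : |A| ≤ δ₁ := abs_avg_le hδ0 fun w hw => (h a w (mem_cn.1 hw).1).2
  have hB1 : |B| ≤ δ₁ := abs_avg_le hδ0 fun w hw => (h b w (mem_cn.1 hw).2).2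
  set ε : ℝ := ((cn E a b).card : ℝ) / d - 1 with hε
  have hcard : ((cn E a b).card : ℝ) = d * (1 + ε) := by rw [hε]; field_simp; ring
  have h1 := (abs_sum_le_sum_abs _ _).trans (sum_le_sum fun w hw => (hs w hw).2)
  rw [sum_const, nsmul_eq_mul, sum_add_distrib, sum_sub_distrib, ← mul_sum, sum_add_distrib,
    sum_add_distrib, ← card_mul_avg _ (bpl E L d r a), ← card_mul_avg _ (bpl E L d r b),
    ← Real.log_prod fun w hw => (hs w hw).1.ne',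
    ← Real.log_prod fun w hw => by linarith [(h a b hab).1 w hw], ← bp_Q_eq, ← bp_Q_eq,
    sum_const, nsmul_eq_mul, mul_one, hcard, ← hA, ← hB] at h1
  have h2 : bpl E L d (r + 1) a b - bpl E L d r a b =
      Real.log (bpQ E L a b (r + 1)) - Real.log (bpQ E L a b r) + d * y := by
    rw [bpl, bpl, pbar, Real.log_mul hp.ne' (Real.exp_pos _).ne', Real.log_exp, hy]
    ring
  have h3 : |ε * (1 + A + B)| ≤ 2 * δ := by
    rw [abs_mul, mul_comm 2 δ]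
    refine mul_le_mul hc ?_ (abs_nonneg _) ((abs_nonneg _).trans hc)
    rw [abs_le] at hA1 hB1 ⊢
    constructor <;> linarith [hA1.1, hA1.2, hB1.1, hB1.2]
  have hk : 0 ≤ d * y := by positivity
  have h4 : |d * y * (ε * (1 + A + B))| ≤ d * y * (2 * δ) := by
    rw [abs_mul, abs_of_nonneg hk]
    exact mul_le_mul_of_nonneg_left h3 hk
  have h5 : d * (1 + ε) * (y * e) ≤ d * y * (2 * e) := by
    have : ε ≤ 1 := (le_abs_self _).trans (hc.trans hδ1)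
    nlinarith [mul_nonneg hk he0]
  have h6 : 2 * δ + 8 * δ₁ ^ 2 + 12 * α + 16 * (1 / (L : ℝ)) = 2 * δ + 2 * e := by rw [he]; ring
  rw [h2, mul_div_assoc, ← hy, h6]
  rw [abs_le] at h1 h4 ⊢
  constructor <;> linarith only [h1.1, h1.2, h4.1, h4.2, h5]

lemma bp_num {δ Λ ν : ℝ} (hd : 1 ≤ d) (hδ0 : 0 ≤ δ) (hΛ0 : 0 ≤ Λ) (hν1 : 1 ≤ ν)
    (hL : 4 * d ^ 2 ≤ L) (hcl : 2000 * (1 + Λ) ^ 3 * (δ + δ₁ ^ 2 + 1 / d) * ν ≤ δ₁) :
    δ₁ ≤ 1 / 1000 ∧ δ ≤ 1 / 3 ∧ 6 * δ * Λ ≤ 1 ∧ Λ * (1 / d) ≤ 1 / 1000 ∧ 1 / d ≤ δ₁ ∧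
      Λ / 2 * (2 * δ + 8 * δ₁ ^ 2 + 12 * (Λ * (1 / d)) + 16 * (1 / L)) ≤
        10 * (1 + Λ) ^ 2 * (δ + δ₁ ^ 2 + 1 / d) := by
  have hd0 : 0 < d := by linarith
  have hd2 : d ≤ d ^ 2 := by nlinarith
  have h1 : (1 : ℝ) / L ≤ 1 / d := by gcongr; linarith
  have hdi : 0 < 1 / d := by positivity
  have hsq := sq_nonneg δ₁
  obtain ⟨m, hm⟩ : ∃ m, m = δ + δ₁ ^ 2 + 1 / d := ⟨_, rfl⟩
  rw [← hm] at hcl ⊢
  have hm0 : 0 < m := by linarith
  have hG : 1 + Λ ≤ (1 + Λ) ^ 3 := le_self_pow₀ (by linarith) (by norm_num)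
  have hcl' : 2000 * (1 + Λ) * m ≤ δ₁ := by
    refine le_trans ?_ hcl
    calc 2000 * (1 + Λ) * m ≤ 2000 * (1 + Λ) ^ 3 * m * 1 := by rw [mul_one]; gcongr
      _ ≤ _ := by gcongr
  have hΛm : 0 ≤ Λ * m := by positivity
  have hm1 : 2000 * m ≤ δ₁ := by linarith
  have hδ₁1 : δ₁ ≤ 1 / 1000 := by
    have : 2000 * δ₁ ^ 2 ≤ δ₁ := by linarith
    nlinarith
  have h2 : Λ * (1 / d) ≤ Λ * m := mul_le_mul_of_nonneg_left (by linarith) hΛ0
  have h3 : Λ * δ ≤ Λ * m := mul_le_mul_of_nonneg_left (by linarith) hΛ0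
  refine ⟨hδ₁1, by linarith, by linarith, by linarith, by linarith, ?_⟩
  have h4 : 2 * δ + 8 * δ₁ ^ 2 + 12 * (Λ * (1 / d)) + 16 * (1 / L) ≤ 16 * (1 + Λ) * m := by linarith
  calc _ ≤ (1 + Λ) / 2 * (16 * (1 + Λ) * m) :=
        mul_le_mul (by linarith) h4 (by positivity) (by positivity)
    _ = 8 * (1 + Λ) ^ 2 * m := by ring
    _ ≤ _ := by gcongr; norm_num

lemma bp_final {p l : ℝ} (hd : 1 ≤ d) (hp : 0 < p) (hl : |l| ≤ δ₁) (hδ₁ : δ₁ ≤ 1)
    (hu1 : 1 + 2 * d ≤ (p ^ 2)⁻¹) (hu2 : (p ^ 2)⁻¹ ≤ 2 + 2 * d) (hdδ : 1 / d ≤ δ₁) :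
    |p * Real.exp l * Real.sqrt (1 + 2 * d) - 1| ≤ 3 * δ₁ := by
  have hd0 : 0 < d := by linarith
  obtain ⟨h2, h3⟩ := bp_exp_bd hl hδ₁
  have hp2 : 0 < p ^ 2 := by positivity
  have h4 : (1 + 2 * d) * p ^ 2 ≤ 1 := by
    have := mul_le_mul_of_nonneg_right hu1 hp2.le
    rwa [inv_mul_cancel₀ hp2.ne'] at this
  have h5 : 1 ≤ (2 + 2 * d) * p ^ 2 := by
    have := mul_le_mul_of_nonneg_right hu2 hp2.le
    rwa [inv_mul_cancel₀ hp2.ne'] at this
  have h6 : p ^ 2 ≤ 1 / d := by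
    rw [le_div_iff₀ hd0]
    nlinarith
  obtain ⟨v, hv⟩ : ∃ v, v = p * Real.sqrt (1 + 2 * d) := ⟨_, rfl⟩
  have hv0 : 0 ≤ v := by rw [hv]; positivity
  have hv2 : v ^ 2 = (1 + 2 * d) * p ^ 2 := by
    rw [hv, mul_pow, Real.sq_sqrt (by linarith)]; ring
  have hv1 : v ≤ 1 := by nlinarith
  have hv3 : 1 - δ₁ ≤ v := by nlinarith
  have e1 : p * Real.exp l * Real.sqrt (1 + 2 * d) = v * Real.exp l := by
    rw [hv]; ring
  have h7 := mul_le_mul hv3 h2 (by linarith) hv0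
  have h8 := mul_le_mul hv1 h3 (Real.exp_pos _).le zero_le_one
  have h9 : 0 ≤ δ₁ := (abs_nonneg _).trans hl
  rw [e1, abs_le]
  constructor <;> nlinarith [sq_nonneg δ₁]

end aux

/-- Put `κ s = d pbar(s)²/L` (`∑_{s<L} κ s ≤ Λ/2`), `ℓ s a b = log (q ⟨a,b,none⟩ s) - log (pbar s)`,
`α = Λ/d`.  The hypothesis `hcl` makes `δ₁ ≤ 1/2000`, `α ≤ δ₁/2000`, `δ (1+Λ)³ ≤ δ₁/2000`.
Note `fac E L x w s` does not depend on `x.o`, and `q ⟨a,b,some o⟩ s = q ⟨a,b,none⟩ s / fac o` if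
`o ∈ cn E a b`, else it is equal (`q_eq`, `ch` = `cn` with at most one element erased); `q2` erases
one more factor.  Prove by strong induction on `s ≤ L`:
 (A s) `1 - α ≤ fac ⟨a,b,_⟩ w s` for all edges `ab` and `w ∈ cn E a b`;
 (H s) `|ℓ s a b| ≤ δ₁` for all edges `ab` (and `q > 0`, which follows from (A s)).
(A s) from (A r), (H r), `r < s`: `q ⟨a,w,some b⟩ r ≤ pbar r e^δ₁/(1-α)`, so
`1 - fac ≤ ∑ 2 pbar(r)²/L ≤ Λ/d`.
(H s) from (A r), `r ≤ s`, and (H r), `r < s`: for `r < s` and an edge `ab`,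
`log q(r+1) - log q(r) = ∑_{w ∈ cn} log (1 - x_w)`, `x_w = q y r q y' r / (L fac(r))`
`= (pbar²/L) e^σ t`, `σ = ℓ r a w + ℓ r b w`, `1 ≤ t ≤ (1-α)⁻³ ≤ 1 + 4α`; so
`-log (1 - x_w) = (pbar²/L)(1 + σ + e_w)`, `|e_w| ≤ 4δ₁² + 6α + 8/L`
(`|e^σ - 1 - σ| ≤ σ²`, `|log(1-x) + x| ≤ 2x²`, `x_w ≤ 2 pbar²/L`).  With `#cn = d(1+ε₀)`, `|ε₀| ≤ δ`:
`|ℓ(r+1) - ℓ(r) + κ r (avg cn (ℓ r a) + avg cn (ℓ r b))| ≤ κ r (2δ + 5δ₁² + 8α + 10/L)`.
Summing, `stab` applies with `N = s`, constant `E`, `D`, `γ = 0`, `ε = ℓ`,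
`b i u` defined recursively by `b (i+1) u = b i u - κ i * avg (nb E u) (ℓ i u)`, `b 0 = 0`, and
`f = 10 (1+Λ)² (δ + δ₁² + 1/d)`; it gives `|ℓ s| ≤ 200 (1+Λ) f ν ≤ δ₁`.
Conclusions: `q(L) √(1+2d) = e^ℓ √((1+2d) pbar(L)²)` with `(1+2d) pbar(L)² ∈ [1 - 1/(2d), 1]`;
`wt r = 2 pbar(r)²/L` since `q y r * q2 x w r ≤ pbar² e^(2δ₁)/(1-α)³ ≤ 2 pbar²`. -/
theorem bp {E : St n} {D d δ : ℝ} (hR : Reg E D d δ) (P : ℕ) (hP : 1 ≤ P) (θ Λ ν δ₁ : ℝ) (L : ℕ)
    (hC : Contr E P θ) (hθ0 : 0 ≤ θ) (hθ : θ * (1 + Λ) ^ 2 ≤ 1 / 500)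
    (hD1 : 1 ≤ D) (hDn : D ≤ n) (hd : 1 ≤ d) (hδ0 : 0 ≤ δ) (hΛ : Real.log (2 + 2 * d) ≤ Λ)
    (hν1 : 1 ≤ ν) (hν : (n : ℝ) ^ 2 ≤ ν ^ P) (hL : 4 * d ^ 2 ≤ L)
    (hδ₁ : δ₁ ≤ 1) (hcl : 2000 * (1 + Λ) ^ 3 * (δ + δ₁ ^ 2 + 1 / d) * ν ≤ δ₁) :
    (∀ e ∈ oe E, |q E L (root e) L * Real.sqrt (1 + 2 * d) - 1| ≤ 3 * δ₁) ∧
      ChainW E L (Real.log (2 + 2 * d) / d) := by
  obtain ⟨hp, -, hu, hsum⟩ := pbar_facts d L hd hL
  have hd0 : 0 < d := by linarith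
  have hd2 : d ≤ d ^ 2 := by nlinarith
  have hL4 : (4 : ℝ) ≤ L := by linarith
  have hL0 : (0 : ℝ) < L := by linarith
  have hΛ0 : 0 ≤ Λ := (Real.log_nonneg (by linarith)).trans hΛ
  obtain ⟨hδ₁1, hδ3, hδΛ, hα1, hdδ, hgf⟩ := bp_num hd hδ0 hΛ0 hν1 hL hcl
  set m : ℝ := δ + δ₁ ^ 2 + 1 / d with hm
  have hm0 : 0 < m := by positivity
  set α : ℝ := Λ * (1 / d) with hα
  have hα0 : 0 ≤ α := by positivity
  set κ : ℕ → ℝ := fun r => d * pbar d L r ^ 2 / L with hκ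
  have hκ0 : ∀ r, 0 ≤ κ r := fun r => by rw [hκ]; positivity
  have hκ1 : ∀ r, κ r ≤ 1 := fun r => by
    have := pow_le_one₀ (n := 2) (hp r).1.le (hp r).2
    simp only [hκ]
    rw [div_le_one hL0]
    linarith only [mul_le_mul_of_nonneg_left this hd0.le, hd2, hL, hd]
  have hκs : ∀ s ≤ L, ∑ r ∈ range s, κ r ≤ Real.log (2 + 2 * d) / 2 := fun s hs =>
    (sum_le_sum_of_subset_of_nonneg (range_subset_range.2 hs) fun r _ _ => hκ0 r).trans hsum
  have hwt : ∀ s ≤ L, ∑ r ∈ range s, 2 * pbar d L r ^ 2 / L ≤ Real.log (2 + 2 * d) / d := by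
    intro s hs
    have e : ∑ r ∈ range s, 2 * pbar d L r ^ 2 / L = 2 / d * ∑ r ∈ range s, κ r := by
      rw [mul_sum]
      refine sum_congr rfl fun r _ => ?_
      simp only [hκ]
      field_simp
    rw [e]
    refine (mul_le_mul_of_nonneg_left (hκs s hs) (by positivity)).trans_eq ?_
    field_simp
  set g : ℝ := 2 * δ + 8 * δ₁ ^ 2 + 12 * α + 16 * (1 / L) with hg
  have hg0 : 0 ≤ g := by positivity
  have key : ∀ s ≤ L, bpP E L d α δ₁ s := by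
    intro s
    induction s using Nat.strong_induction_on with
    | _ s ih =>
      intro hs
      have ih' : ∀ r < s, bpP E L d α δ₁ r := fun r hr => ih r hr (by omega)
      have hst := stab s P hP (fun _ => E) (fun _ => D) κ (fun _ => 0) (bpl E L d)
        (fun i u => -∑ j ∈ range i, κ j * (avg (nb E u) (bpl E L d j u) - 0)) δ θ Λ
        (10 * (1 + Λ) ^ 2 * m) ν (fun _ _ => Subset.refl _) (fun _ _ => hD1) (fun _ _ => hDn)
        (fun _ _ _ _ => le_rfl) hδ0 hδ3 hδΛ (fun _ _ => hR.deg) (fun _ _ => hC) hθ0 hθ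
        (fun j _ => hκ0 j) (fun j _ => hκ1 j) (by linarith [hκs s hs]) (by positivity) hν1 hν
        (fun i hi u v huv => by
          have e : bpl E L d i u v + ∑ j ∈ range i, κ j * (avg (cn E u v) (bpl E L d j u) +
              avg (cn E u v) (bpl E L d j v) - 2 * 0) =
              ∑ j ∈ range i, (bpl E L d (j + 1) u v - bpl E L d j u v + κ j *
                (avg (cn E u v) (bpl E L d j u) + avg (cn E u v) (bpl E L d j v))) := by
            rw [sum_add_distrib, sum_range_sub (fun j => bpl E L d j u v), bp_l_zero]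
            simp
          rw [e]
          refine (abs_sum_le_sum_abs _ _).trans ((sum_le_sum (g := fun j => κ j * g)
            fun j hj => ?_).trans ?_)
          · have hj' := mem_range.1 hj
            exact (ih' j (by omega)).step (by omega) hL4 hα0 hα1 hδ₁1 (hp j).1 (hp j).2 hd0
              (by linarith) huv (hR.cod u v huv)
          · rw [← sum_mul]
            refine le_trans (mul_le_mul_of_nonneg_right ?_ hg0) hgf
            linarith [hκs i (by omega)])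
        (fun i _ u => by rw [neg_add_cancel, abs_zero]; positivity)
        (fun j _ => by rw [abs_zero]; positivity)
      intro a b hab
      refine ⟨fun w hw => ?_, (hst.1 a b hab).trans (le_trans (le_of_eq ?_) hcl)⟩
      · obtain ⟨haw, hbw⟩ := mem_cn.1 hw
        have h1 : (L : ℝ)⁻¹ * ∑ r ∈ range s, q E L ⟨a, w, some b⟩ r * q E L ⟨b, w, some a⟩ r ≤
            ∑ r ∈ range s, 2 * pbar d L r ^ 2 / L := by
          rw [mul_sum]
          refine sum_le_sum fun r hr => ?_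
          have hr' := mem_range.1 hr
          have h2 := (ih' r hr').q_le hα1 hδ₁1 (hp r).1 (x := ⟨a, w, some b⟩) haw
          have h3 := (ih' r hr').q_le hα1 hδ₁1 (hp r).1 (x := ⟨b, w, some a⟩) hbw
          have h4 := mul_le_mul h2 h3 (q_mem E L r (by omega) _).1 (by linarith [(hp r).1])
          rw [div_eq_inv_mul]
          refine mul_le_mul_of_nonneg_left (h4.trans ?_) (by positivity)
          linarith only [sq_nonneg (pbar d L r)]
        have h2 : Real.log (2 + 2 * d) / d ≤ α := by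
          rw [hα, mul_one_div]; gcongr
        simp only [bpF, fac, child_false, child_true]
        linarith [hwt s hs]
      · ring
  refine ⟨fun e he => ?_, fun r => 2 * pbar d L r ^ 2 / L, fun r => by positivity, hwt L le_rfl,
    fun x y hx hy w r hr => ?_⟩
  · have hab := mem_oe.1 he
    have h1 : q E L (root e) L = pbar d L L * Real.exp (bpl E L d L e.1 e.2) :=
      (key L le_rfl).Q_exp hα1 (hp L).1 hab
    rw [h1]
    exact bp_final hd (hp L).1 (key L le_rfl _ _ hab).2 hδ₁ hu.1 hu.2 hdδ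
  · have h2 := (key r hr.le).q_le hα1 hδ₁1 (hp r).1 hy
    have h3 := (key r hr.le).q2_le hα1 hδ₁1 (hp r).1 hx w
    have h4 := mul_le_mul h2 h3 (q2_mem E L r hr.le _ _).1 (by linarith [(hp r).1])
    have e : (L : ℝ) * (2 * pbar d L r ^ 2 / L) = 2 * pbar d L r ^ 2 := by field_simp
    rw [e]
    linarith only [sq_nonneg (pbar d L r), h4]

end Crest.Agent.R30
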