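import Crest.Agent.R30.Defs

/-!
# R30: elementary facts on averages, parameters, `q`, `GG` (done by helper54)
-/

set_option autoImplicit false

open Finset
open Crest.CombinatoricsR.TriangleRemoval

namespace Crest.Agent.R30

variable {n : ℕ}

/-! ## Averages -/

lemma avg_nonneg {α : Type*} {s : Finset α} {g : α → ℝ} (h : ∀ x ∈ s, 0 ≤ g x) : 0 ≤ avg s g :=
  div_nonneg (sum_nonneg h) (Nat.cast_nonneg _)

lemma avg_mono {α : Type*} {s : Finset α} {f g : α → ℝ} (h : ∀ x ∈ s, f x ≤ g x) :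
    avg s f ≤ avg s g :=
  div_le_div_of_nonneg_right (sum_le_sum h) (Nat.cast_nonneg _)

lemma avg_congr {α : Type*} {s : Finset α} {f g : α → ℝ} (h : ∀ x ∈ s, f x = g x) :
    avg s f = avg s g := by
  unfold avg; rw [sum_congr rfl h]

lemma avg_add {α : Type*} (s : Finset α) (f g : α → ℝ) :
    avg s (fun x => f x + g x) = avg s f + avg s g := by
  unfold avg; rw [sum_add_distrib, add_div]

lemma avg_sub {α : Type*} (s : Finset α) (f g : α → ℝ) :
    avg s (fun x => f x - g x) = avg s f - avg s g := by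
  unfold avg; rw [sum_sub_distrib, sub_div]

lemma avg_const_mul {α : Type*} (s : Finset α) (c : ℝ) (f : α → ℝ) :
    avg s (fun x => c * f x) = c * avg s f := by
  unfold avg; rw [← mul_sum, mul_div_assoc]

lemma avg_const {α : Type*} {s : Finset α} (hs : s.Nonempty) (c : ℝ) :
    avg s (fun _ => c) = c := by
  unfold avg
  have : (s.card : ℝ) ≠ 0 := by exact_mod_cast hs.card_pos.ne'
  rw [sum_const, nsmul_eq_mul]; field_simp

lemma avg_sum {α β : Type*} (s : Finset α) (t : Finset β) (f : β → α → ℝ) :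
    avg s (fun x => ∑ b ∈ t, f b x) = ∑ b ∈ t, avg s (f b) := by
  unfold avg; rw [sum_comm, sum_div]

lemma abs_avg_le {α : Type*} {s : Finset α} {g : α → ℝ} {c : ℝ} (hc : 0 ≤ c)
    (h : ∀ x ∈ s, |g x| ≤ c) : |avg s g| ≤ c := by
  rcases s.eq_empty_or_nonempty with rfl | hs
  · simpa [avg] using hc
  · rw [abs_le]
    constructor
    · rw [← avg_const hs (-c)]
      exact avg_mono fun x hx => (abs_le.1 (h x hx)).1
    · rw [← avg_const hs c]
      exact avg_mono fun x hx => (abs_le.1 (h x hx)).2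

lemma card_mul_avg {α : Type*} (s : Finset α) (g : α → ℝ) :
    (s.card : ℝ) * avg s g = ∑ x ∈ s, g x := by
  rcases s.eq_empty_or_nonempty with rfl | hs
  · simp
  · have : (s.card : ℝ) ≠ 0 := by exact_mod_cast hs.card_pos.ne'
    unfold avg; field_simp

/-! ## Parameters -/

lemma pp_anti {i j : ℕ} (h : i ≤ j) : pp n j ≤ pp n i := by
  unfold pp
  have : (i : ℝ) ≤ j := by exact_mod_cast h
  have : 6 * (i : ℝ) / (n : ℝ) ^ 2 ≤ 6 * (j : ℝ) / (n : ℝ) ^ 2 := by gcongr
  linarith

lemma pp_le_one (i : ℕ) : pp n i ≤ 1 := by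
  unfold pp
  have h1 : 0 ≤ 1 / (n : ℝ) := by positivity
  have h2 : 0 ≤ 6 * (i : ℝ) / (n : ℝ) ^ 2 := by positivity
  linarith

lemma pp_succ {i : ℕ} (hn : 0 < n) (hp : 0 < pp n i) :
    pp n (i + 1) = pp n i * (1 - kap n i) := by
  have hn' : (0 : ℝ) < n := by exact_mod_cast hn
  have : pp n i * kap n i = 6 / (n : ℝ) ^ 2 := by
    unfold kap; field_simp
  rw [mul_sub, this, mul_one]
  unfold pp; push_cast; ring

/-- Everything we need about the parameters up to a time `N` at which `dd n N ≥ 1`. -/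
structure ParFacts (n N : ℕ) : Prop where
  npos : 0 < n
  two_le : 2 ≤ n
  N_le : N + 1 ≤ n ^ 2
  pp_pos : ∀ j ≤ N, 0 < pp n j
  pp_ge : ∀ j ≤ N, 1 / (n : ℝ) ≤ pp n j
  kap_pos : ∀ j ≤ N, 0 < kap n j
  kap_le : ∀ j ≤ N, kap n j ≤ 6 / (n : ℝ)
  dd_anti : ∀ i j, i ≤ j → j ≤ N → dd n j ≤ dd n i
  DD_anti : ∀ i j, i ≤ j → DD n j ≤ DD n i
  dd_le_DD : ∀ j ≤ N, dd n j ≤ DD n j
  DD_le : ∀ j, DD n j ≤ n
  sum_kap_le_log : ∀ i ≤ N, ∑ j ∈ range i, kap n j ≤ Real.log (pp n 0 / pp n i)
  sum_kap : ∀ i ≤ N, ∑ j ∈ range i, kap n j ≤ Real.log n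
  prod_kap : ∀ i ≤ N, ∏ j ∈ range i, (1 - kap n j) = pp n i / pp n 0

lemma parFacts {N : ℕ} (hp : 0 < pp n N) (hd : 1 ≤ dd n N) : ParFacts n N := by
  have hn : 0 < n := by
    rcases Nat.eq_zero_or_pos n with h | h
    · subst h; simp [dd] at hd; linarith
    · exact h
  have hn' : (0 : ℝ) < n := by exact_mod_cast hn
  have hpos : ∀ j ≤ N, 0 < pp n j := fun j hj => lt_of_lt_of_le hp (pp_anti hj)
  have hN : 1 / (n : ℝ) + 6 * (N : ℝ) / (n : ℝ) ^ 2 < 1 := by unfold pp at hp; linarith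
  have hN0 : 0 ≤ 6 * (N : ℝ) / (n : ℝ) ^ 2 := by positivity
  have hn2 : 2 ≤ n := by
    by_contra hc
    have : n = 1 := by omega
    subst this
    norm_num at hN
    have : (0 : ℝ) ≤ N := Nat.cast_nonneg N
    linarith
  have hge : ∀ j ≤ N, 1 / (n : ℝ) ≤ pp n j := by
    intro j hj
    refine le_trans ?_ (pp_anti hj)
    rw [div_le_iff₀ hn']
    unfold dd at hd
    have := pp_le_one (n := n) N
    nlinarith [mul_pos hn' hp]
  have hkpos : ∀ j ≤ N, 0 < kap n j := fun j hj => by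
    unfold kap; have := hpos j hj; positivity
  have hprod : ∀ i ≤ N, ∏ j ∈ range i, (1 - kap n j) = pp n i / pp n 0 := by
    intro i hi
    induction i with
    | zero => have := hpos 0 hi; simp only [range_zero, prod_empty]; field_simp
    | succ i ih =>
      rw [prod_range_succ, ih (by omega), pp_succ hn (hpos i (by omega))]; ring
  have hlog : ∀ i ≤ N, ∑ j ∈ range i, kap n j ≤ Real.log (pp n 0 / pp n i) := by
    intro i hi
    induction i with
    | zero => have := hpos 0 hi; simp [div_self this.ne']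
    | succ i ih =>
      have h0 := hpos 0 (by omega)
      have hi0 := hpos i (by omega)
      have hi1 := hpos (i + 1) hi
      have hk : 0 < 1 - kap n i := by
        rw [pp_succ hn hi0] at hi1
        exact (mul_pos_iff_of_pos_left hi0).1 hi1
      rw [sum_range_succ, pp_succ hn hi0, ← div_div, Real.log_div (by positivity) hk.ne']
      have := Real.log_le_sub_one_of_pos hk
      linarith [ih (by omega)]
  refine ⟨hn, hn2, ?_, hpos, hge, hkpos, ?_, ?_, ?_, ?_, ?_, hlog, ?_, hprod⟩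
  · have h1 : 6 * (N : ℝ) / (n : ℝ) ^ 2 < 1 := by
      have : 0 < 1 / (n : ℝ) := by positivity
      linarith
    rw [div_lt_one (by positivity)] at h1
    have h2 : 6 * N < n ^ 2 := by exact_mod_cast h1
    omega
  · intro j hj
    unfold kap
    have h1 := hge j hj
    rw [div_le_iff₀ hn'] at h1
    have := hpos j hj
    apply div_le_div_of_nonneg_left (by norm_num) hn'
    nlinarith
  · intro i j hij hj
    unfold dd
    have := hpos j hj
    have := pp_anti (n := n) hij
    gcongr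
  · intro i j hij
    unfold DD
    have := pp_anti (n := n) hij
    gcongr
  · intro j hj
    unfold dd DD
    have h1 := hpos j hj
    have h2 := pp_le_one (n := n) j
    have : pp n j ^ 2 ≤ pp n j := by nlinarith
    gcongr
  · intro j
    unfold DD
    have h2 := pp_le_one (n := n) j
    nlinarith
  · intro i hi
    refine (hlog i hi).trans (Real.log_le_log (div_pos (hpos 0 (by omega)) (hpos i hi)) ?_)
    rw [div_le_iff₀ (hpos i hi)]
    have h1 := hge i hi
    rw [div_le_iff₀ hn'] at h1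
    have h2 := pp_le_one (n := n) 0
    linarith

/-! ## Large `n` -/

lemma Big.log_nonneg {y : ℝ} (_ : Big n y) : 0 ≤ Real.log n := Real.log_natCast_nonneg n

/-- `(10000 (1 + log n)) ^ k ≤ y` for every `k ≤ 100000`. -/
lemma Big.pow_le {y : ℝ} (hB : Big n y) {k : ℕ} (hk : k ≤ 100000) :
    (10000 * (1 + Real.log n)) ^ k ≤ y := by
  refine le_trans (pow_le_pow_right₀ ?_ hk) hB.big
  have := hB.log_nonneg
  nlinarith

lemma Big.le_y {y : ℝ} (hB : Big n y) : 10000 * (1 + Real.log n) ≤ y := by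
  simpa using hB.pow_le (k := 1) (by norm_num)

lemma Big.y_ge {y : ℝ} (hB : Big n y) : (10 : ℝ) ^ 40 ≤ y := by
  have h := hB.pow_le (k := 10) (by norm_num)
  have h1 := hB.log_nonneg
  have h2 : (10000 : ℝ) ^ 10 ≤ (10000 * (1 + Real.log n)) ^ 10 := by
    apply pow_le_pow_left₀ (by norm_num); nlinarith
  calc (10 : ℝ) ^ 40 = 10000 ^ 10 := by norm_num
    _ ≤ y := h2.trans h

lemma Big.one_le {y : ℝ} (hB : Big n y) : 1 ≤ y := le_trans (by norm_num) hB.y_ge

/-- `y ^ k ≤ n` for `k ≤ 4000`. -/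
lemma Big.pow_le_n {y : ℝ} (hB : Big n y) {k : ℕ} (hk : k ≤ 4000) : y ^ k ≤ n := by
  rw [← hB.pow]; exact pow_le_pow_right₀ hB.one_le hk

/-- `n ^ k ≤ exp (y / 2)` for `k ≤ 5000`. -/
lemma Big.pow_le_exp {y : ℝ} (hB : Big n y) {k : ℕ} (hk : k ≤ 5000) :
    (n : ℝ) ^ k ≤ Real.exp (y / 2) := by
  have hn : (0 : ℝ) < n := by rw [← hB.pow]; exact pow_pos hB.pos _
  have h1 := hB.le_y
  have h2 := hB.log_nonneg
  have hk' : (k : ℝ) ≤ 5000 := by exact_mod_cast hk
  have e : (n : ℝ) ^ k = Real.exp (k * Real.log n) := by rw [Real.exp_nat_mul, Real.exp_log hn]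
  rw [e]
  apply Real.exp_le_exp.2
  nlinarith

lemma eventually_big : ∀ᶠ n : ℕ in Filter.atTop, Big n ((n : ℝ) ^ ((1 : ℝ) / 4000)) := by
  have h1 : (fun x : ℝ => Real.log x ^ (100000 : ℝ)) =o[Filter.atTop]
      (fun x : ℝ => x ^ ((1 : ℝ) / 4000)) := isLittleO_log_rpow_rpow_atTop _ (by norm_num)
  obtain ⟨c, hc⟩ : ∃ c : ℝ, c = 20000 := ⟨_, rfl⟩
  have hc0 : 0 < c := by rw [hc]; norm_num
  have h2 := h1.bound (c := (c ^ 100000)⁻¹) (by positivity)
  have h3 : ∀ᶠ x : ℝ in Filter.atTop, 1 ≤ Real.log x :=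
    Real.tendsto_log_atTop.eventually_ge_atTop 1
  have h4 : ∀ᶠ x : ℝ in Filter.atTop, 0 < x := Filter.eventually_gt_atTop 0
  have h5 := tendsto_natCast_atTop_atTop (R := ℝ) |>.eventually (h2.and (h3.and h4))
  filter_upwards [h5] with n ⟨ha, hb, hn⟩
  have hy : 0 < (n : ℝ) ^ ((1 : ℝ) / 4000) := Real.rpow_pos_of_pos hn _
  refine ⟨hy, ?_, ?_⟩
  · rw [← Real.rpow_natCast, ← Real.rpow_mul hn.le]; norm_num
  · rw [Real.norm_of_nonneg hy.le, Real.norm_of_nonneg (Real.rpow_nonneg (by linarith) _)] at ha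
    have e : Real.log n ^ (100000 : ℝ) = Real.log n ^ (100000 : ℕ) := by
      rw [← Real.rpow_natCast]; norm_num
    rw [e, inv_mul_eq_div, le_div_iff₀ (by positivity), ← mul_pow] at ha
    refine le_trans (pow_le_pow_left₀ (by nlinarith) ?_ _) ha
    rw [hc]; nlinarith

/-! ## `q`, `fac`, `GG` -/

lemma q_mem (E : St n) (L : ℕ) (s : ℕ) (hs : s ≤ L) (x : TS n) :
    0 ≤ q E L x s ∧ q E L x s ≤ 1 := by
  induction s using Nat.strong_induction_on generalizing x with
  | _ s ih =>
    have hf : ∀ w, 0 ≤ fac E L x w s ∧ fac E L x w s ≤ 1 := by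
      intro w
      have h0 : 0 ≤ ∑ r ∈ range s, q E L (child x (w, false)) r * q E L (child x (w, true)) r :=
        sum_nonneg fun r hr => mul_nonneg (ih r (mem_range.1 hr) (by have := mem_range.1 hr; omega) _).1
          (ih r (mem_range.1 hr) (by have := mem_range.1 hr; omega) _).1
      have h1 : ∑ r ∈ range s, q E L (child x (w, false)) r * q E L (child x (w, true)) r ≤ L := by
        calc _ ≤ ∑ _r ∈ range s, (1 : ℝ) := sum_le_sum fun r hr => by
              have a := ih r (mem_range.1 hr) (by have := mem_range.1 hr; omega) (child x (w, false))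
              have b := ih r (mem_range.1 hr) (by have := mem_range.1 hr; omega) (child x (w, true))
              nlinarith
          _ = s := by simp
          _ ≤ L := by exact_mod_cast hs
      unfold fac
      constructor
      · rcases Nat.eq_zero_or_pos L with h | h
        · subst h; simp
        · have hL : (0 : ℝ) < L := by exact_mod_cast h
          rw [sub_nonneg, inv_mul_le_iff₀ hL]; linarith
      · have : 0 ≤ (L : ℝ)⁻¹ := by positivity
        nlinarith
    rw [q_eq]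
    exact ⟨prod_nonneg fun w _ => (hf w).1, prod_le_one (fun w _ => (hf w).1) fun w _ => (hf w).2⟩

lemma fac_mem (E : St n) (L : ℕ) (s : ℕ) (hs : s ≤ L) (x : TS n) (w : Fin n) :
    0 ≤ fac E L x w s ∧ fac E L x w s ≤ 1 := by
  have h0 : 0 ≤ ∑ r ∈ range s, q E L (child x (w, false)) r * q E L (child x (w, true)) r :=
    sum_nonneg fun r hr => mul_nonneg (q_mem E L r (by have := mem_range.1 hr; omega) _).1
      (q_mem E L r (by have := mem_range.1 hr; omega) _).1
  have h1 : ∑ r ∈ range s, q E L (child x (w, false)) r * q E L (child x (w, true)) r ≤ L := by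
    calc _ ≤ ∑ _r ∈ range s, (1 : ℝ) := sum_le_sum fun r hr => by
          have a := q_mem E L r (by have := mem_range.1 hr; omega) (child x (w, false))
          have b := q_mem E L r (by have := mem_range.1 hr; omega) (child x (w, true))
          nlinarith
      _ = s := by simp
      _ ≤ L := by exact_mod_cast hs
  unfold fac
  constructor
  · rcases Nat.eq_zero_or_pos L with h | h
    · subst h; simp
    · have hL : (0 : ℝ) < L := by exact_mod_cast h
      rw [sub_nonneg, inv_mul_le_iff₀ hL]; linarith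
  · have : 0 ≤ (L : ℝ)⁻¹ := by positivity
    nlinarith

lemma q2_mem (E : St n) (L : ℕ) (s : ℕ) (hs : s ≤ L) (x : TS n) (w : Fin n) :
    0 ≤ q2 E L x w s ∧ q2 E L x w s ≤ 1 := by
  exact ⟨prod_nonneg fun w _ => (fac_mem E L s hs x w).1,
    prod_le_one (fun w _ => (fac_mem E L s hs x w).1) fun w _ => (fac_mem E L s hs x w).2⟩

lemma GG_nonneg {W : ℝ} (hW : 0 ≤ W) (j : ℕ) : 0 ≤ GG W j := by
  unfold GG; positivity

@[simp] lemma GG_zero (W : ℝ) : GG W 0 = 1 := by simp [GG]

lemma ChainW.nonneg {E : St n} {L : ℕ} {W : ℝ} (h : ChainW E L W) : 0 ≤ W := by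
  obtain ⟨wt, h0, h1, -⟩ := h
  exact le_trans (sum_nonneg fun r _ => h0 r) h1

lemma sum_GG_le {z W : ℝ} (hz : 0 ≤ z) (hW : 0 ≤ W) (J : ℕ) :
    ∑ j ∈ range J, z ^ j * GG W j ≤ Gam z W := by
  cases J with
  | zero => simp only [range_zero, sum_empty]; unfold Gam; positivity
  | succ J =>
    rw [sum_range_succ']
    have h := Real.sum_le_exp_of_nonneg (x := z * W) (by positivity) J
    have e : ∑ k ∈ range J, z ^ (k + 1) * GG W (k + 1) =
        z * ∑ i ∈ range J, (z * W) ^ i / (i.factorial : ℝ) := by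
      rw [mul_sum]; refine sum_congr rfl fun k _ => ?_
      simp only [GG, Nat.add_sub_cancel]; ring
    rw [e]; unfold Gam
    simp only [pow_zero, GG_zero, mul_one]
    nlinarith [mul_le_mul_of_nonneg_left h hz]

lemma sum_GG_pred_le {z W : ℝ} (hz : 0 ≤ z) (hW : 0 ≤ W) (J : ℕ) :
    ∑ j ∈ range J, z ^ j * GG W (j - 1) ≤ 1 + z * Gam z W := by
  have hG : 0 ≤ Gam z W := by unfold Gam; positivity
  cases J with
  | zero => simp only [range_zero, sum_empty]; positivity
  | succ J =>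
    rw [sum_range_succ']
    have h := sum_GG_le hz hW J
    have e : ∑ k ∈ range J, z ^ (k + 1) * GG W (k + 1 - 1) =
        z * ∑ i ∈ range J, z ^ i * GG W i := by
      rw [mul_sum]; refine sum_congr rfl fun k _ => ?_
      simp only [Nat.add_sub_cancel]; ring
    rw [e]
    simp only [pow_zero, Nat.zero_sub, GG_zero, mul_one]
    nlinarith [mul_le_mul_of_nonneg_left h hz]

lemma pow_mul_GG_le {z W : ℝ} (hz : 0 ≤ z) (hW : 0 ≤ W) (J : ℕ) :
    z ^ J * GG W J ≤ (2 ^ J)⁻¹ * Gam (2 * z) W := by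
  have h := sum_GG_le (z := 2 * z) (by positivity) hW (J + 1)
  have h1 : (2 * z) ^ J * GG W J ≤ ∑ j ∈ range (J + 1), (2 * z) ^ j * GG W j :=
    single_le_sum (f := fun j => (2 * z) ^ j * GG W j)
      (fun j _ => mul_nonneg (by positivity) (GG_nonneg hW j)) (self_mem_range_succ J)
  rw [inv_mul_eq_div, le_div_iff₀ (by positivity)]
  calc z ^ J * GG W J * 2 ^ J = (2 * z) ^ J * GG W J := by rw [mul_pow]; ring
    _ ≤ _ := h1.trans h

lemma one_le_Gam {z W : ℝ} (hz : 0 ≤ z) : 1 ≤ Gam z W := by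
  unfold Gam; have := Real.exp_pos (z * W); nlinarith

end Crest.Agent.R30
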