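import Crest.Agent.R30.Tri

/-!
# R30/Chain: the Markov chain `EH` and Freedman's inequality
-/

set_option autoImplicit false

open Finset
open Crest.CombinatoricsR.TriangleRemoval

namespace Crest.Agent.R30

variable {n : ℕ}

lemma av_mono {E : St n} {f g : St n → ℝ} (h : ∀ E', Step E E' → f E' ≤ g E') :
    av E f ≤ av E g := by
  unfold av
  split_ifs with h0
  · exact h E (Or.inl ⟨h0, rfl⟩)
  · exact mul_le_mul_of_nonneg_left (sum_le_sum fun t ht => h _ (Or.inr ⟨t, ht, rfl⟩))
      (by positivity)

lemma av_congr {E : St n} {f g : St n → ℝ} (h : ∀ E', Step E E' → f E' = g E') :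
    av E f = av E g :=
  le_antisymm (av_mono fun E' hE => (h E' hE).le) (av_mono fun E' hE => (h E' hE).ge)

lemma av_const (E : St n) (c : ℝ) : av E (fun _ => c) = c := by
  unfold av
  split_ifs with h0
  · rfl
  · have : ((triangles E).card : ℝ) ≠ 0 := by exact_mod_cast h0
    rw [sum_const, nsmul_eq_mul]; field_simp

lemma av_add (E : St n) (f g : St n → ℝ) : av E (fun E' => f E' + g E') = av E f + av E g := by
  unfold av
  split_ifs with h0
  · rfl
  · rw [sum_add_distrib, mul_add]

lemma av_sub (E : St n) (f g : St n → ℝ) : av E (fun E' => f E' - g E') = av E f - av E g := by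
  unfold av
  split_ifs with h0
  · rfl
  · rw [sum_sub_distrib, mul_sub]

lemma av_const_mul (E : St n) (c : ℝ) (f : St n → ℝ) :
    av E (fun E' => c * f E') = c * av E f := by
  unfold av
  split_ifs with h0
  · rfl
  · rw [← mul_sum]; ring

lemma expectFinal_succ (φ : ℕ → ℝ) (r : ℕ) (E : St n) :
    expectFinal φ (r + 1) E = av E (expectFinal φ r) := by
  unfold av
  rw [expectFinal]
  split_ifs with h0
  · cases r with
    | zero => rw [expectFinal]
    | succ r => rw [expectFinal, if_pos h0]
  · rfl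

lemma chain_valid_update {k : ℕ} {h : Hist n} (hV : Valid k h) {E' : St n} (hE : Step (h k) E') :
    Valid (k + 1) (Function.update h (k + 1) E') := by
  refine ⟨by rw [Function.update_of_ne (by omega)]; exact hV.1, fun j hj => ?_⟩
  rw [Function.update_of_ne (by omega : j ≠ k + 1)]
  rcases Nat.lt_succ_iff_lt_or_eq.1 hj with hlt | rfl
  · rw [Function.update_of_ne (by omega)]; exact hV.2 j hlt
  · rw [Function.update_self]; exact hE

/-- Induction on `k`, generalising `Φ Ψ`: if `Valid k h` and `Step (h k) E'` then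
`Valid (k+1) (update h (k+1) E')`. -/
lemma EH_mono {k : ℕ} {Φ Ψ : Hist n → ℝ} (h : ∀ h, Valid k h → Φ h ≤ Ψ h) :
    EH k Φ ≤ EH k Ψ := by
  induction k generalizing Φ Ψ with
  | zero => exact h _ ⟨rfl, fun j hj => absurd hj (Nat.not_lt_zero j)⟩
  | succ k ih =>
    exact ih fun x hx => av_mono fun E' hE => h _ (chain_valid_update hx hE)

lemma EH_congr {k : ℕ} {Φ Ψ : Hist n → ℝ} (h : ∀ h, Valid k h → Φ h = Ψ h) :
    EH k Φ = EH k Ψ :=
  le_antisymm (EH_mono fun x hx => (h x hx).le) (EH_mono fun x hx => (h x hx).ge)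

lemma EH_const (k : ℕ) (c : ℝ) : EH k (fun _ : Hist n => c) = c := by
  induction k with
  | zero => rfl
  | succ k ih => simp only [EH, av_const, ih]

lemma EH_add (k : ℕ) (Φ Ψ : Hist n → ℝ) : EH k (fun h => Φ h + Ψ h) = EH k Φ + EH k Ψ := by
  induction k generalizing Φ Ψ with
  | zero => rfl
  | succ k ih => simp only [EH, av_add, ih]

lemma EH_const_mul (k : ℕ) (c : ℝ) (Φ : Hist n → ℝ) : EH k (fun h => c * Φ h) = c * EH k Φ := by
  induction k generalizing Φ with
  | zero => rfl
  | succ k ih => simp only [EH, av_const_mul, ih]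

lemma EH_sum {β : Type*} (k : ℕ) (s : Finset β) (Φ : β → Hist n → ℝ) :
    EH k (fun h => ∑ b ∈ s, Φ b h) = ∑ b ∈ s, EH k (Φ b) := by
  classical
  induction s using Finset.induction_on with
  | empty => simp only [sum_empty, EH_const]
  | insert b s hb ih => simp only [sum_insert hb, EH_add, ih]

lemma EH_nonneg {k : ℕ} {Φ : Hist n → ℝ} (h : ∀ h, Valid k h → 0 ≤ Φ h) : 0 ≤ EH k Φ := by
  rw [← EH_const (n := n) k 0]; exact EH_mono h

/-- A function of the first `i` steps has the same expectation at all later horizons. -/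
lemma EH_adapted {i k : ℕ} (hik : i ≤ k) (Φ : Hist n → ℝ)
    (hΦ : ∀ h h' : Hist n, (∀ j ≤ i, h j = h' j) → Φ h = Φ h') : EH k Φ = EH i Φ := by
  induction k, hik using Nat.le_induction with
  | base => rfl
  | succ k hik ih =>
    rw [← ih, EH]
    congr 1
    funext h
    rw [← av_const (h k) (Φ h)]
    congr 1
    funext E'
    exact hΦ _ _ fun j hj => Function.update_of_ne (by omega) _ _

lemma Valid.subset {k : ℕ} {h : Hist n} (hV : Valid k h) {i j : ℕ} (hij : i ≤ j) (hj : j ≤ k) :
    h j ⊆ h i := by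
  induction j, hij using Nat.le_induction with
  | base => exact Subset.refl _
  | succ j hij ih => exact (hV.2 j (by omega)).subset.trans (ih (by omega))

lemma Valid.simple {k : ℕ} {h : Hist n} (hV : Valid k h) {i : ℕ} (hi : i ≤ k) : Simple (h i) := by
  have h0 : Simple (h 0) := by rw [hV.1]; exact simple_allEdges
  exact h0.subset (hV.subset (Nat.zero_le i) hi)

/-- Induction on `k` generalising `r`, with `expectFinal_succ`. -/
lemma expectFinal_eq_EH (φ : ℕ → ℝ) (k r : ℕ) :
    expectFinal φ (k + r) (allEdges n) = EH k (fun h : Hist n => expectFinal φ r (h k)) := by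
  induction k generalizing r with
  | zero => rw [Nat.zero_add]; rfl
  | succ k ih =>
    rw [show k + 1 + r = k + (r + 1) by omega, ih, EH]
    simp only [Function.update_self, expectFinal_succ]

lemma expectFinal_le (φ : ℕ → ℝ) (C : ℝ) (r : ℕ) (E : St n) (h : ∀ e ≤ E.card, φ e ≤ C) :
    expectFinal φ r E ≤ C := by
  induction r generalizing E with
  | zero => exact h _ le_rfl
  | succ r ih =>
    rw [expectFinal_succ, ← av_const E C]
    exact av_mono fun E' hE => ih E' fun e he => h e (he.trans (card_le_card hE.subset))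

lemma expectFinal_nonneg (φ : ℕ → ℝ) (hφ : ∀ e, 0 ≤ φ e) (r : ℕ) (E : St n) :
    0 ≤ expectFinal φ r E := by
  induction r generalizing E with
  | zero => exact hφ _
  | succ r ih =>
    rw [expectFinal_succ, ← av_const E 0]
    exact av_mono fun E' _ => ih E' 

lemma law_nonneg (δ : ℝ) (i : ℕ) (E : St n) : 0 ≤ law δ i E :=
  EH_nonneg fun _ _ => ind_nonneg _

/-- `ind A * g (h i) = ∑ E, g E * ind (A ∧ h i = E)` pointwise, then linearity. -/
lemma EH_eq_sum_law (δ : ℝ) (i : ℕ) (g : St n → ℝ) :
    EH i (fun h : Hist n => ind (∀ j < i, Good δ j (h j)) * g (h i)) = ∑ E, law δ i E * g E := by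
  have e : ∀ h : Hist n, ind (∀ j < i, Good δ j (h j)) * g (h i)
      = ∑ E, g E * ind ((∀ j < i, Good δ j (h j)) ∧ h i = E) := fun h => by
    rw [sum_eq_single (h i)]
    · rw [ind_and, ind_true (rfl : h i = h i)]; ring
    · intro E _ hE
      rw [ind_false fun hc => hE hc.2.symm, mul_zero]
    · simp
  simp only [e, EH_sum, EH_const_mul, law]
  exact sum_congr rfl fun E _ => mul_comm _ _

lemma chain_mgf (X : ℕ → St n → St n → ℝ) (v : ℕ → ℝ) (c θ : ℝ) (i : ℕ)
    (hθ : 0 ≤ θ) (hθc : θ * c ≤ 1)
    (h0 : ∀ j < i, ∀ E, av E (X j E) = 0)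
    (hb : ∀ j < i, ∀ E E', Step E E' → |X j E E'| ≤ c)
    (hv : ∀ j < i, ∀ E, av E (fun E' => X j E E' ^ 2) ≤ v j) :
    EH i (fun h : Hist n => Real.exp (θ * ∑ j ∈ range i, X j (h j) (h (j + 1)))) ≤
      Real.exp (θ ^ 2 * ∑ j ∈ range i, v j) := by
  induction i with
  | zero => simp [EH]
  | succ i ih =>
    have ih' := ih (fun j hj => h0 j (by omega)) (fun j hj => hb j (by omega))
      (fun j hj => hv j (by omega))
    have step : ∀ E : St n, av E (fun E' => Real.exp (θ * X i E E')) ≤ Real.exp (θ ^ 2 * v i) := by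
      intro E
      calc _ ≤ av E (fun E' => (1 + θ * X i E E') + θ ^ 2 * X i E E' ^ 2) := by
            refine av_mono fun E' hE => ?_
            have h1 : |θ * X i E E'| ≤ 1 := by
              rw [abs_mul, abs_of_nonneg hθ]
              exact (mul_le_mul_of_nonneg_left (hb i (by omega) E E' hE) hθ).trans hθc
            have h2 := (abs_le.1 (Real.abs_exp_sub_one_sub_id_le h1)).2
            nlinarith
        _ = 1 + θ ^ 2 * av E (fun E' => X i E E' ^ 2) := by
            rw [av_add, av_add, av_const, av_const_mul, av_const_mul]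
            have := h0 i (by omega) E
            simp only [this, mul_zero, add_zero]
        _ ≤ θ ^ 2 * v i + 1 := by
            have := mul_le_mul_of_nonneg_left (hv i (by omega) E) (sq_nonneg θ)
            linarith
        _ ≤ _ := Real.add_one_le_exp _
    rw [EH, sum_range_succ v, mul_add, Real.exp_add, mul_comm (Real.exp _)]
    refine le_trans (EH_mono fun h _ => ?_) ((EH_const_mul i (Real.exp (θ ^ 2 * v i)) _).le.trans
      (mul_le_mul_of_nonneg_left ih' (Real.exp_pos _).le))
    have e : ∀ E' : St n, Real.exp (θ * ∑ j ∈ range (i + 1),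
        X j (Function.update h (i + 1) E' j) (Function.update h (i + 1) E' (j + 1)))
        = Real.exp (θ * ∑ j ∈ range i, X j (h j) (h (j + 1))) * Real.exp (θ * X i (h i) E') := by
      intro E'
      rw [← Real.exp_add, ← mul_add, sum_range_succ, Function.update_self,
        Function.update_of_ne (by omega)]
      congr 3
      refine sum_congr rfl fun j hj => ?_
      have := mem_range.1 hj
      rw [Function.update_of_ne (by omega), Function.update_of_ne (by omega)]
    simp only [e, av_const_mul]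
    rw [mul_comm]
    exact mul_le_mul_of_nonneg_right (step _) (Real.exp_pos _).le

/-- Freedman/Bernstein.  With `S i h = ∑ j < i, X j (h j) (h (j+1))`, show by induction on `i`
`EH i (exp (θ S i)) ≤ exp (θ² ∑ j < i, v j)`, using `exp x ≤ 1 + x + x²` for `|x| ≤ 1`
(`Real.abs_exp_sub_one_sub_id_le`) and `av (1 + θX + θ²X²) ≤ 1 + θ² v ≤ exp (θ² v)`.  Apply it
to `X` and `-X`; `ind (f < |S|) ≤ exp (θ (S - f)) + exp (θ (-S - f))`; pass from `i` to `k` with
`EH_adapted`. -/
theorem freedman (X : ℕ → St n → St n → ℝ) (v : ℕ → ℝ) (c θ f : ℝ) (i k : ℕ) (hik : i ≤ k)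
    (hθ : 0 ≤ θ) (hθc : θ * c ≤ 1)
    (h0 : ∀ j < i, ∀ E, av E (X j E) = 0)
    (hb : ∀ j < i, ∀ E E', Step E E' → |X j E E'| ≤ c)
    (hv : ∀ j < i, ∀ E, av E (fun E' => X j E E' ^ 2) ≤ v j) :
    EH k (fun h : Hist n => ind (f < |∑ j ∈ range i, X j (h j) (h (j + 1))|)) ≤
      2 * Real.exp (-θ * f + θ ^ 2 * ∑ j ∈ range i, v j) := by
  rw [EH_adapted hik _ fun h h' hh => by
    rw [sum_congr rfl fun j hj => by
      have := mem_range.1 hj
      rw [hh j (by omega), hh (j + 1) (by omega)]]]
  have h1 := chain_mgf X v c θ i hθ hθc h0 hb hv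
  have h2 := chain_mgf (fun j E E' => (-1) * X j E E') v c θ i hθ hθc
    (fun j hj E => by rw [av_const_mul]; exact mul_eq_zero_of_right _ (h0 j hj E))
    (fun j hj E E' hE => by simpa using hb j hj E E' hE)
    (fun j hj E => by simpa using hv j hj E)
  calc _ ≤ EH i (fun h : Hist n =>
        Real.exp (-θ * f) * Real.exp (θ * ∑ j ∈ range i, X j (h j) (h (j + 1))) +
        Real.exp (-θ * f) * Real.exp (θ * ∑ j ∈ range i, (-1) * X j (h j) (h (j + 1)))) := by
        refine EH_mono fun h _ => ?_
        rw [← mul_sum, ← Real.exp_add, ← Real.exp_add]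
        set S := ∑ j ∈ range i, X j (h j) (h (j + 1))
        by_cases hf : f < |S|
        · rw [ind_true hf]
          rcases lt_abs.1 hf with h3 | h3
          · have : 1 ≤ Real.exp (-θ * f + θ * S) := Real.one_le_exp (by nlinarith)
            linarith [Real.exp_pos (-θ * f + θ * (-1 * S))]
          · have : 1 ≤ Real.exp (-θ * f + θ * (-1 * S)) := Real.one_le_exp (by nlinarith)
            linarith [Real.exp_pos (-θ * f + θ * S)]
        · rw [ind_false hf]; positivity
    _ ≤ _ := by
        rw [EH_add, EH_const_mul, EH_const_mul, Real.exp_add]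
        have := Real.exp_pos (-θ * f)
        nlinarith

end Crest.Agent.R30
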