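import Crest.Agent.R30.Tri

/-!
# R30/Clock: the process run with independent clocks
-/

set_option autoImplicit false

open Finset
open Crest.CombinatoricsR.TriangleRemoval

namespace Crest.Agent.R30

variable {n : ℕ}

lemma sweep_succ_subset (E : St n) (c : Finset (Fin n) → ℕ) (t : ℕ) :
    sweep E c (t + 1) ⊆ sweep E c t := sdiff_subset

lemma sweep_anti (E : St n) (c : Finset (Fin n) → ℕ) {s t : ℕ} (h : s ≤ t) :
    sweep E c t ⊆ sweep E c s := by
  induction h with
  | refl => exact Subset.refl _
  | step _ ih => exact (sweep_succ_subset E c _).trans ih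

lemma sweep_subset (E : St n) (c : Finset (Fin n) → ℕ) (t : ℕ) : sweep E c t ⊆ E :=
  sweep_anti E c (Nat.zero_le t)

lemma clock_not_mem {E : St n} {T : Finset (Fin n)} (hT : T ∈ triangles E) :
    T ∉ triangles (E \ T.sym2) := by
  intro h
  rw [mem_triangles] at h
  obtain ⟨u, hu, v, hv, huv⟩ := one_lt_card.1 (show 1 < T.card by rw [h.1]; norm_num)
  exact (mem_sdiff.1 (h.2 u hu v hv huv)).2 (mk_mem_sym2_iff.2 ⟨hu, hv⟩)

lemma clock_sweep_const {E : St n} {c : Finset (Fin n) → ℕ} {t : ℕ}
    (h : ∀ T ∈ triangles E, t ≤ c T) : sweep E c t = E := by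
  induction t with
  | zero => rfl
  | succ t ih =>
    have h1 := ih fun T hT => (Nat.le_succ t).trans (h T hT)
    rw [sweep, h1, filter_eq_empty_iff.2 fun T hT e => by have := h T hT; omega]
    simp

lemma clock_sweep_congr {E E' : St n} {c : Finset (Fin n) → ℕ} {s t : ℕ} (hst : s ≤ t)
    (h : sweep E c s = sweep E' c s) : sweep E c t = sweep E' c t := by
  induction hst with
  | refl => exact h
  | step _ ih => rw [sweep, sweep, ih]

/-- If `T` is the triangle of `E` with the strictly smallest clock and `c T < L`, then the sweeps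
of `E` and of `E \ T.sym2` agree from time `c T + 1` on: up to time `c T` they are constant
(`triangles_mono`; `T` is not a triangle of `E \ T.sym2`). -/
lemma sweep_argmin {E : St n} {c : Finset (Fin n) → ℕ} {T : Finset (Fin n)} (hT : T ∈ triangles E)
    (hmin : ∀ T' ∈ triangles E, T' ≠ T → c T < c T') {L : ℕ} (hL : c T < L) :
    sweep E c L = sweep (E \ T.sym2) c L := by
  refine clock_sweep_congr (s := c T + 1) hL ?_
  have h1 : sweep E c (c T) = E := clock_sweep_const fun T' hT' => by
    by_cases e : T' = T
    · rw [e]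
    · exact (hmin T' hT' e).le
  have h2 : sweep (E \ T.sym2) c (c T + 1) = E \ T.sym2 := clock_sweep_const fun T' hT' =>
    hmin T' (triangles_mono sdiff_subset hT') fun e => clock_not_mem hT (e ▸ hT')
  have h3 : (triangles E).filter (fun T' => c T' = c T) = {T} := by
    ext T'
    simp only [mem_filter, mem_singleton]
    constructor
    · rintro ⟨hT', e⟩
      by_contra hne
      have := hmin T' hT' hne
      omega
    · rintro rfl
      exact ⟨hT, rfl⟩
  rw [h2, sweep, h1, h3, singleton_biUnion]

lemma clock_swap_mem {α : Type*} [DecidableEq α] {s : Finset α} {S S' U : α} (hS : S ∈ s)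
    (hS' : S' ∈ s) (hU : U ∈ s) : Equiv.swap S S' U ∈ s := by
  rw [Equiv.swap_apply_def]
  split_ifs <;> assumption

lemma clock_swap_min {α β : Type*} [DecidableEq α] [LT β] {s : Finset α} {S S' : α} (hS : S ∈ s)
    (hS' : S' ∈ s) (c : α → β) (T : α) :
    (∀ U ∈ s, U ≠ T → (c ∘ Equiv.swap S S') T < (c ∘ Equiv.swap S S') U) ↔
      ∀ U ∈ s, U ≠ Equiv.swap S S' T → c (Equiv.swap S S' T) < c U := by
  constructor
  · intro h U hU hne
    have := h (Equiv.swap S S' U) (clock_swap_mem hS hS' hU) fun e => hne (by
      rw [← e, Equiv.swap_apply_self])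
    simpa using this
  · intro h U hU hne
    exact h _ (clock_swap_mem hS hS' hU) fun e => hne ((Equiv.swap S S').injective e)

lemma clock_sum_swap {α β : Type*} [DecidableEq α] [Fintype α] [Fintype β] (S S' : α)
    (f : (α → β) → ℝ) : ∑ c, f (c ∘ Equiv.swap S S') = ∑ c, f c := by
  refine Fintype.sum_bijective (fun c : α → β => c ∘ Equiv.swap S S')
    (Function.Involutive.bijective fun c => ?_) _ _ fun _ => rfl
  funext x
  simp

/-- Key induction on `r`, for every weight `wt` on clock assignments that vanishes unless `c` is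
injective on `triangles E` and is invariant under swapping two triangles of `E`.
If there is no triangle, `sweep E c L = E`.  Otherwise split by the triangle `T` with the smallest
clock: `wt_T c = wt c * ind (∀ T' ∈ triangles E, T' ≠ T → c T < c T')`, `∑_T wt_T = wt`, all
`∑_c wt_T c` are equal (swap), `wt_T` satisfies the hypotheses for `E \ T.sym2`
(whose triangles are triangles of `E` other than `T`), `card_sdiff_tri_lt`, `sweep_argmin`. -/
theorem clock_weighted (φ : ℕ → ℝ) (L : ℕ) (r : ℕ) (E : St n) (hr : E.card ≤ r)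
    (wt : (Finset (Fin n) → Fin L) → ℝ)
    (hinj : ∀ c, wt c ≠ 0 → Set.InjOn c (triangles E : Set (Finset (Fin n))))
    (hsw : ∀ T ∈ triangles E, ∀ T' ∈ triangles E, ∀ c, wt (c ∘ Equiv.swap T T') = wt c) :
    ∑ c, wt c * φ (sweep E (fun T => (c T : ℕ)) L).card = (∑ c, wt c) * expectFinal φ r E := by
  have triv : ∀ (E : St n) (wt : (Finset (Fin n) → Fin L) → ℝ), (triangles E).card = 0 →
      ∑ c, wt c * φ (sweep E (fun T => (c T : ℕ)) L).card = (∑ c, wt c) * φ E.card := by
    intro E wt h0
    rw [sum_mul]
    refine sum_congr rfl fun c _ => ?_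
    rw [clock_sweep_const fun T hT => by rw [card_eq_zero.1 h0] at hT; simp at hT]
  induction r generalizing E wt with
  | zero =>
    refine triv E wt (card_eq_zero.2 (eq_empty_of_forall_notMem fun T hT => ?_))
    have := card_sdiff_tri_lt hT
    omega
  | succ r ih =>
    rw [expectFinal]
    split_ifs with h0
    · exact triv E wt h0
    have hne : (triangles E).Nonempty := card_pos.1 (Nat.pos_of_ne_zero h0)
    let w : Finset (Fin n) → (Finset (Fin n) → Fin L) → ℝ := fun T c =>
      wt c * ind (∀ U ∈ triangles E, U ≠ T → c T < c U)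
    have hsum : ∀ c, ∑ T ∈ triangles E, w T c = wt c := by
      intro c
      by_cases hc : wt c = 0
      · simp [w, hc]
      obtain ⟨T₀, hT₀, hmin⟩ := exists_min_image (triangles E) c hne
      rw [sum_eq_single_of_mem T₀ hT₀]
      · simp only [w]
        rw [ind_true, mul_one]
        intro U hU hne'
        exact lt_of_le_of_ne (hmin U hU) fun e => hne' (hinj c hc hT₀ hU e).symm
      · intro T hT hne'
        simp only [w]
        rw [ind_false, mul_zero]
        intro h
        exact absurd (h T₀ hT₀ (Ne.symm hne')) (not_lt.2 (hmin T hT))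
    have heq : ∀ T ∈ triangles E, ∀ T' ∈ triangles E, ∑ c, w T c = ∑ c, w T' c := by
      intro T hT T' hT'
      rw [← clock_sum_swap T T' (w T)]
      refine sum_congr rfl fun c _ => ?_
      simp only [w]
      rw [hsw T hT T' hT', ind_congr (clock_swap_min hT hT' c T), Equiv.swap_apply_left]
    have hcard : (0 : ℝ) < (triangles E).card := by exact_mod_cast hne.card_pos
    have hval : ∀ T ∈ triangles E, ∑ c, w T c = ((triangles E).card : ℝ)⁻¹ * ∑ c, wt c := by
      intro T hT
      have h1 : ∑ c, wt c = (triangles E).card * ∑ c, w T c := by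
        rw [← sum_congr rfl fun c _ => hsum c, sum_comm,
          sum_congr rfl fun T' hT' => heq T' hT' T hT, sum_const, nsmul_eq_mul]
      rw [h1, ← mul_assoc, inv_mul_cancel₀ hcard.ne', one_mul]
    have hstep : ∀ T ∈ triangles E, ∑ c, w T c * φ (sweep E (fun T => (c T : ℕ)) L).card =
        (∑ c, w T c) * expectFinal φ r (E \ T.sym2) := by
      intro T hT
      have hsub : triangles (E \ T.sym2) ⊆ triangles E := triangles_mono sdiff_subset
      rw [← ih (E \ T.sym2) (by have := card_sdiff_tri_lt hT; omega) (w T)]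
      · refine sum_congr rfl fun c _ => ?_
        by_cases hmin : ∀ U ∈ triangles E, U ≠ T → c T < c U
        · rw [sweep_argmin (c := fun T => (c T : ℕ)) hT (fun U hU hne' => hmin U hU hne') (c T).2]
        · simp only [w]
          rw [ind_false hmin, mul_zero, zero_mul, zero_mul]
      · intro c hc
        exact (hinj c (left_ne_zero_of_mul hc)).mono (coe_subset.2 hsub)
      · intro S hS S' hS' c
        have h1 : T ≠ S := fun e => clock_not_mem hT (e ▸ hS)
        have h2 : T ≠ S' := fun e => clock_not_mem hT (e ▸ hS')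
        simp only [w]
        rw [hsw S (hsub hS) S' (hsub hS'), ind_congr (clock_swap_min (hsub hS) (hsub hS') c T),
          Equiv.swap_apply_of_ne_of_ne h1 h2]
    calc ∑ c, wt c * φ (sweep E (fun T => (c T : ℕ)) L).card
        = ∑ c, ∑ T ∈ triangles E, w T c * φ (sweep E (fun T => (c T : ℕ)) L).card :=
          sum_congr rfl fun c _ => by rw [← sum_mul, hsum]
      _ = ∑ T ∈ triangles E, (((triangles E).card : ℝ)⁻¹ * ∑ c, wt c) *
            expectFinal φ r (E \ T.sym2) := by
          rw [sum_comm]
          exact sum_congr rfl fun T hT => by rw [hstep T hT, hval T hT]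
      _ = _ := by rw [← mul_sum]; ring

lemma clock_expect_nonneg (φ : ℕ → ℝ) (hφ : ∀ e, 0 ≤ φ e) (r : ℕ) (E : St n) :
    0 ≤ expectFinal φ r E := by
  induction r generalizing E with
  | zero => exact hφ _
  | succ r ih =>
    rw [expectFinal]
    split_ifs
    · exact hφ _
    · exact mul_nonneg (inv_nonneg.2 (Nat.cast_nonneg _)) (sum_nonneg fun T _ => ih _)

lemma clock_pair {α : Type*} [DecidableEq α] [Fintype α] {L : ℕ} (hL : 0 < L) {T T' : α}
    (h : T ≠ T') :
    (L : ℝ) * ∑ c : α → Fin L, ind (c T = c T') = Fintype.card (α → Fin L) := by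
  have : NeZero L := ⟨hL.ne'⟩
  have h1 : ∀ a : Fin L, ∑ c : α → Fin L, ind (c T + a = c T') = ∑ c : α → Fin L, ind (c T = c T') := by
    intro a
    refine Fintype.sum_bijective (fun c : α → Fin L => Function.update c T (c T + a))
      (Finite.injective_iff_bijective.1 fun c c' e => ?_) _ _ fun c => ?_
    · funext x
      have := congrFun e x
      by_cases hx : x = T
      · subst hx
        simpa using this
      · simpa [Function.update_of_ne hx] using this
    · simp [Function.update_of_ne (Ne.symm h)]
  have h2 : ∀ c : α → Fin L, ∑ a : Fin L, ind (c T + a = c T') = 1 := by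
    intro c
    rw [sum_eq_single (c T' - c T), ind_true (by abel)]
    · intro a _ ha
      exact ind_false fun e => ha (by rw [← e]; abel)
    · simp
  calc (L : ℝ) * ∑ c : α → Fin L, ind (c T = c T')
      = ∑ a : Fin L, ∑ c : α → Fin L, ind (c T + a = c T') := by
        simp only [h1, sum_const, card_univ, Fintype.card_fin, nsmul_eq_mul]
    _ = ∑ _c : α → Fin L, (1 : ℝ) := by rw [sum_comm]; exact sum_congr rfl fun c _ => h2 c
    _ = _ := by simp

/-- Birthday bound: the fraction of `c` that are not injective on `triangles E` is at most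
`#triangles² / L ≤ n⁶ / L ≤ 1/2` (for `T ≠ T'` exactly a fraction `1/L` of all `c` has
`c T = c T'`).  Apply `clock_weighted` to `wt = ind (InjOn c ..)` and use `φ ≥ 0`
(`expectFinal φ r E ≥ 0` follows from the same identity, or by induction). -/
theorem clock (φ : ℕ → ℝ) (hφ : ∀ e, 0 ≤ φ e) (L : ℕ) (hL0 : 0 < L) (hL : 2 * n ^ 6 ≤ L) (r : ℕ)
    (E : St n) (hr : E.card ≤ r) :
    expectFinal φ r E ≤ 2 * EC L (fun c => φ (sweep E c L).card) := by
  set N : ℝ := (Fintype.card (Finset (Fin n) → Fin L) : ℝ) with hN
  have hLr : (0 : ℝ) < L := by exact_mod_cast hL0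
  have hNpos : 0 < N := by
    have : Nonempty (Fin L) := ⟨⟨0, hL0⟩⟩
    rw [hN]
    exact_mod_cast Fintype.card_pos
  let wt : (Finset (Fin n) → Fin L) → ℝ := fun c =>
    ind (Set.InjOn c (triangles E : Set (Finset (Fin n))))
  have key := clock_weighted φ L r E hr wt
    (fun c hc => by
      by_contra h
      exact hc (ind_false h))
    (fun T hT T' hT' c => by
      have aux : ∀ c : Finset (Fin n) → Fin L, Set.InjOn c (triangles E : Set (Finset (Fin n))) →
          Set.InjOn (c ∘ Equiv.swap T T') (triangles E : Set (Finset (Fin n))) :=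
        fun c hc U hU V hV e => (Equiv.swap T T').injective
          (hc (clock_swap_mem hT hT' hU) (clock_swap_mem hT hT' hV) e)
      refine ind_congr ⟨fun h => ?_, aux c⟩
      have := aux _ h
      rwa [Function.comp_assoc, ← Equiv.coe_trans, Equiv.swap_swap, Equiv.coe_refl,
        Function.comp_id] at this)
  have hbad : ∑ c : Finset (Fin n) → Fin L, (1 - wt c) ≤ N / 2 := by
    have h1 : ∀ c : Finset (Fin n) → Fin L,
        1 - wt c ≤ ∑ p ∈ (triangles E).offDiag, ind (c p.1 = c p.2) := by
      intro c
      rw [← ind_not]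
      refine (ind_mono fun h => ?_).trans (ind_exists_le _ _)
      by_contra hcon
      refine h fun U hU V hV e => ?_
      by_contra hne
      exact hcon ⟨(U, V), mem_offDiag.2 ⟨hU, hV, hne⟩, e⟩
    have h2 : ∀ p ∈ (triangles E).offDiag,
        ∑ c : Finset (Fin n) → Fin L, ind (c p.1 = c p.2) = N / L := by
      intro p hp
      rw [eq_div_iff hLr.ne', mul_comm]
      exact clock_pair hL0 (mem_offDiag.1 hp).2.2
    have h3 : (((triangles E).offDiag).card : ℝ) ≤ (n : ℝ) ^ 6 := by
      have a1 : ((triangles E).offDiag).card ≤ (triangles E).card * (triangles E).card := by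
        rw [offDiag_card]; omega
      have a2 := card_triangles_le E
      have a3 : ((triangles E).offDiag).card ≤ n ^ 6 :=
        a1.trans ((Nat.mul_le_mul a2 a2).trans_eq (by ring))
      exact_mod_cast a3
    have h4 : 2 * (n : ℝ) ^ 6 ≤ L := by exact_mod_cast hL
    calc ∑ c : Finset (Fin n) → Fin L, (1 - wt c)
        ≤ ∑ c : Finset (Fin n) → Fin L, ∑ p ∈ (triangles E).offDiag, ind (c p.1 = c p.2) :=
          sum_le_sum fun c _ => h1 c
      _ = ((triangles E).offDiag).card * (N / L) := by
          rw [sum_comm, sum_congr rfl h2, sum_const, nsmul_eq_mul]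
      _ ≤ (L / 2) * (N / L) := mul_le_mul_of_nonneg_right (by linarith) (by positivity)
      _ = N / 2 := by field_simp
  have hw : N / 2 ≤ ∑ c, wt c := by
    rw [sum_sub_distrib, sum_const, card_univ, nsmul_eq_mul, mul_one, ← hN] at hbad
    linarith
  have h5 : ∑ c : Finset (Fin n) → Fin L, wt c * φ (sweep E (fun T => (c T : ℕ)) L).card ≤
      ∑ c : Finset (Fin n) → Fin L, φ (sweep E (fun T => (c T : ℕ)) L).card :=
    sum_le_sum fun c _ => mul_le_of_le_one_left (hφ _) (ind_le_one _)
  have h6 := mul_le_mul_of_nonneg_right hw (clock_expect_nonneg φ hφ r E)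
  rw [EC, avg, card_univ, ← hN, ← mul_div_assoc, le_div_iff₀ hNpos]
  linarith

end Crest.Agent.R30
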