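import Crest.Agent.R30.Stop

/-!
# R30/Coll: a minimal collision forces an extra edge
-/

set_option autoImplicit false

open Finset
open Crest.CombinatoricsR.TriangleRemoval

namespace Crest.Agent.R30

variable {n : ℕ}

/-- The strict ancestors of the nodes with path `l`. -/
private def coll_anc : List (Stp n) → Finset (Node n)
  | [] => ∅
  | g :: l => insert ([], g.1) ((coll_anc l).image fun i => (g :: i.1, i.2))

private lemma coll_mem_anc {l : List (Stp n)} {i : Node n} :
    i ∈ coll_anc l ↔ ∃ c l₁, l = i.1 ++ (i.2, c) :: l₁ := by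
  induction l generalizing i with
  | nil => simp [coll_anc]
  | cons g l ih =>
    obtain ⟨m, w⟩ := i
    obtain ⟨v, c⟩ := g
    simp only [coll_anc, mem_insert, mem_image, ih]
    constructor
    · rintro (h | ⟨j, ⟨c', l₁, rfl⟩, h⟩)
      · obtain ⟨rfl, rfl⟩ := Prod.mk.inj h
        exact ⟨c, l, rfl⟩
      · obtain ⟨rfl, rfl⟩ := Prod.mk.inj h
        exact ⟨c', l₁, rfl⟩
    · rintro ⟨c', l₁, h⟩
      cases m with
      | nil =>
        obtain ⟨h1, -⟩ := List.cons.inj h
        obtain ⟨rfl, -⟩ := Prod.mk.inj h1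
        exact Or.inl rfl
      | cons g' m =>
        obtain ⟨rfl, rfl⟩ := List.cons.inj h
        exact Or.inr ⟨(m, w), ⟨c', l₁, rfl⟩, rfl⟩

private lemma coll_card_anc (l : List (Stp n)) : (coll_anc l).card = l.length := by
  induction l with
  | nil => rfl
  | cons g l ih =>
    rw [coll_anc, card_insert_of_notMem (by simp), card_image_of_injective _ ?_, ih,
      List.length_cons]
    rintro ⟨m, w⟩ ⟨m', w'⟩ h
    simpa using h

private lemma coll_anc_lt {l : List (Stp n)} {i : Node n} (h : i ∈ coll_anc l) :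
    i.1.length < l.length := by
  obtain ⟨c, l₁, rfl⟩ := coll_mem_anc.1 h
  simp

private lemma coll_anc_concat (l : List (Stp n)) (g : Stp n) : (l, g.1) ∈ coll_anc (l ++ [g]) :=
  coll_mem_anc.2 ⟨g.2, [], rfl⟩

private lemma coll_anc_closed {p l : List (Stp n)} {g : Stp n} {w : Fin n}
    (h : (l ++ [g], w) ∈ coll_anc p) : (l, g.1) ∈ coll_anc p := by
  obtain ⟨c, l₁, rfl⟩ := coll_mem_anc.1 h
  exact coll_mem_anc.2 ⟨g.2, (w, c) :: l₁, by simp⟩

private lemma coll_anc_sub {S : Set (Node n)} (hcl : ∀ l g w, (l ++ [g], w) ∈ S → (l, g.1) ∈ S)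
    {l : List (Stp n)} {w : Fin n} (h : (l, w) ∈ S) {i : Node n} (hi : i ∈ coll_anc l) : i ∈ S := by
  obtain ⟨c, l₁, rfl⟩ := coll_mem_anc.1 hi
  clear hi
  induction l₁ using List.reverseRecOn generalizing w with
  | nil => exact hcl _ _ _ h
  | append_singleton l₁ g ih =>
    refine ih (w := g.1) (hcl _ g w ?_)
    simpa using h

/-- The two new edges of a node. -/
private def coll_ed (x : TS n) (p : Node n × Bool) : Sym2 (Fin n) :=
  s((child (en x p.1.1) (p.1.2, p.2)).a, p.1.2)

private lemma coll_root_mem (x : TS n) (l : List (Stp n)) (w : Fin n) :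
    s(x.a, x.b) ∈ FE x l w := by
  cases l <;> simp [FE]

private lemma coll_self_mem (x : TS n) (l : List (Stp n)) (w : Fin n) (c : Bool) :
    coll_ed x ((l, w), c) ∈ FE x l w := by
  induction l generalizing x with
  | nil => cases c <;> simp [FE, coll_ed]
  | cons g l ih => exact mem_union_right _ (ih (child x g))

private lemma coll_anc_mem (x : TS n) {l : List (Stp n)} (w : Fin n) {i : Node n}
    (hi : i ∈ coll_anc l) (c : Bool) : coll_ed x (i, c) ∈ FE x l w := by
  obtain ⟨m, v⟩ := i
  obtain ⟨c', l₁, rfl⟩ := coll_mem_anc.1 hi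
  clear hi
  induction m generalizing x with
  | nil => exact mem_union_left _ (by cases c <;> simp [coll_ed])
  | cons g m ih => exact mem_union_right _ (ih (child x g))

private lemma coll_split {l l' : List (Stp n)} (hne : l ≠ l') (hle : l.length ≤ l'.length) :
    ∃ α β g γ, l = α ++ β ∧ l' = α ++ g :: γ ∧ β.head? ≠ some g := by
  induction l' generalizing l with
  | nil => exact absurd (List.length_eq_zero_iff.1 (Nat.le_zero.1 hle)) hne
  | cons g γ ih =>
    by_cases h : l.head? = some g
    · obtain ⟨l₂, rfl⟩ := List.head?_eq_some_iff.1 h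
      obtain ⟨α, β, g', γ', rfl, rfl, h'⟩ := ih (l := l₂) (fun h => hne (by rw [h]))
        (by simpa using hle)
      exact ⟨g :: α, β, g', γ', rfl, rfl, h'⟩
    · exact ⟨[], l, g, γ, rfl, rfl, h⟩

/-- A closed collision-free set of valid nodes. -/
private structure coll_Free (E : St n) (e : Fin n × Fin n) (A : Set (Node n)) : Prop where
  simple : Simple E
  edge : s(e.1, e.2) ∈ E
  val : ∀ i ∈ A, Val E (root e) i.1
  cl : ∀ l g w, (l ++ [g], w) ∈ A → (l, g.1) ∈ A
  ne : ∀ i ∈ A, i.2 ≠ e.1 ∧ i.2 ≠ e.2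
  inj : ∀ i ∈ A, ∀ j ∈ A, i.2 = j.2 → i = j

/-- The rank of a vertex. -/
private def coll_Rk (e : Fin n × Fin n) (A : Set (Node n)) (v : Fin n) (k : ℕ) : Prop :=
  (k = 0 ∧ (v = e.1 ∨ v = e.2)) ∨ ∃ l, (l, v) ∈ A ∧ k = l.length + 1

section free

variable {E : St n} {e : Fin n × Fin n} {A : Set (Node n)}

private lemma coll_Rk_node {i : Node n} (hi : i ∈ A) : coll_Rk e A i.2 (i.1.length + 1) :=
  Or.inr ⟨i.1, hi, rfl⟩

private lemma coll_en_concat (x : TS n) (l : List (Stp n)) (g : Stp n) :
    en x (l ++ [g]) = child (en x l) g := by rw [en_append]; rfl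

private lemma coll_child_b (x : TS n) (g : Stp n) : (child x g).b = g.1 := by
  obtain ⟨v, c⟩ := g
  cases c <;> rfl

variable (hA : coll_Free E e A)
include hA

private lemma coll_Rk_uniq {v : Fin n} {k k' : ℕ} (h : coll_Rk e A v k) (h' : coll_Rk e A v k') :
    k = k' := by
  rcases h with ⟨rfl, h⟩ | ⟨l, h, rfl⟩ <;> rcases h' with ⟨rfl, h'⟩ | ⟨l', h', rfl⟩
  · rfl
  · exact absurd h (not_or.2 (hA.ne _ h'))
  · exact absurd h' (not_or.2 (hA.ne _ h))
  · rw [(Prod.mk.inj (hA.inj _ h _ h' rfl)).1]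

private lemma coll_rank {l : List (Stp n)} (h : ∀ l₀ g, l = l₀ ++ [g] → (l₀, g.1) ∈ A) :
    coll_Rk e A (en (root e) l).b l.length ∧
      ∃ k ≤ l.length - 1, coll_Rk e A (en (root e) l).a k := by
  induction l using List.reverseRecOn with
  | nil => exact ⟨Or.inl ⟨rfl, Or.inr rfl⟩, 0, le_rfl, Or.inl ⟨rfl, Or.inl rfl⟩⟩
  | append_singleton l g ih =>
    have h1 := h l g rfl
    obtain ⟨h2, k, hk, h3⟩ := ih fun l₀ g' e => hA.cl l₀ g' g.1 (e ▸ h1)
    rw [coll_en_concat, coll_child_b, List.length_append, List.length_singleton]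
    refine ⟨coll_Rk_node h1, ?_⟩
    obtain ⟨v, c⟩ := g
    cases c
    · exact ⟨k, by omega, h3⟩
    · exact ⟨_, by omega, h2⟩

private lemma coll_rank_node {i : Node n} (hi : i ∈ A) :
    coll_Rk e A (en (root e) i.1).b i.1.length ∧
      ∃ k ≤ i.1.length - 1, coll_Rk e A (en (root e) i.1).a k :=
  coll_rank hA fun l₀ g h => hA.cl l₀ g i.2 (h ▸ hi)

private lemma coll_rank_ed {i : Node n} (hi : i ∈ A) (c : Bool) :
    ∃ k ≤ i.1.length, coll_Rk e A (child (en (root e) i.1) (i.2, c)).a k := by
  obtain ⟨h1, k, hk, h2⟩ := coll_rank_node hA hi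
  cases c
  · exact ⟨k, by omega, h2⟩
  · exact ⟨_, le_rfl, h1⟩

private lemma coll_ab {i : Node n} (hi : i ∈ A) : (en (root e) i.1).a ≠ (en (root e) i.1).b :=
  hA.simple.ne (Val.edge (x := root e) hA.edge (hA.val i hi))

private lemma coll_injOn : Set.InjOn (proj (root e)) A := by
  have key : ∀ i ∈ A, ∀ j ∈ A, i.1.length ≤ j.1.length → proj (root e) i = proj (root e) j →
      i = j := by
    intro i hi j hj hle h
    have h1 : j.2 ∈ proj (root e) i := by rw [h]; simp [proj]
    obtain ⟨h2, k, hk, h3⟩ := coll_rank_node hA hi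
    have h4 := coll_Rk_node (e := e) hj
    simp only [proj, mem_insert, mem_singleton] at h1
    rcases h1 with h1 | h1 | h1
    · have := coll_Rk_uniq hA h4 (h1 ▸ h3); omega
    · have := coll_Rk_uniq hA h4 (h1 ▸ h2); omega
    · exact hA.inj i hi j hj h1.symm
  intro i hi j hj h
  rcases le_total i.1.length j.1.length with hle | hle
  · exact key i hi j hj hle h
  · exact (key j hj i hi hle h.symm).symm

private lemma coll_ed_inj {i j : Node n} (hi : i ∈ A) (hj : j ∈ A) {c c' : Bool}
    (h : coll_ed (root e) (i, c) = coll_ed (root e) (j, c')) : (i, c) = (j, c') := by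
  rcases Sym2.eq_iff.1 h with ⟨h1, h2⟩ | ⟨h1, h2⟩
  · obtain rfl := hA.inj i hi j hj h2
    have := coll_ab hA hi
    cases c <;> cases c' <;> first | rfl | exact absurd h1 this | exact absurd h1.symm this
  · obtain ⟨k, hk, h3⟩ := coll_rank_ed hA hi c
    obtain ⟨k', hk', h4⟩ := coll_rank_ed hA hj c'
    have h5 := coll_Rk_uniq hA h3 (h1 ▸ coll_Rk_node hj)
    have h6 := coll_Rk_uniq hA h4 (h2 ▸ coll_Rk_node hi)
    omega

private lemma coll_ne_root {u v : Fin n} {l : List (Stp n)} (hi : (l, v) ∈ A) :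
    s(u, v) ≠ s(e.1, e.2) := fun h => by
  rcases Sym2.eq_iff.1 h with ⟨-, h2⟩ | ⟨-, h2⟩
  · exact (hA.ne _ hi).2 h2
  · exact (hA.ne _ hi).1 h2

private lemma coll_new {l' : List (Stp n)} {w : Fin n} {k : ℕ}
    (hp : ∀ l₀ g, l' = l₀ ++ [g] → (l₀, g.1) ∈ A) (hw : w ∈ ch E (en (root e) l'))
    (hn : (l', w) ∉ A) (hk : coll_Rk e A w k) (hkl : k ≤ l'.length + 1) :
    ∃ c, coll_ed (root e) ((l', w), c) ≠ s(e.1, e.2) ∧
      ∀ j ∈ A, ∀ c', coll_ed (root e) ((l', w), c) ≠ coll_ed (root e) (j, c') := by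
  obtain ⟨⟨hw1, hw2⟩, hw3⟩ := mem_ch.1 hw
  have hw1' := hA.simple.ne hw1
  have hw2' := hA.simple.ne hw2
  rcases List.eq_nil_or_concat' l' with rfl | ⟨l₀, g, rfl⟩
  · exfalso
    rcases hk with ⟨-, rfl | rfl⟩ | ⟨l, hl, rfl⟩
    · exact hw1' rfl
    · exact hw2' rfl
    · rw [List.length_eq_zero_iff.1 (by simpa using hkl : l.length = 0)] at hl
      exact hn hl
  have h0 := hp l₀ g rfl
  obtain ⟨hb, ka, hka, ha⟩ := coll_rank hA hp
  have hab := coll_ab hA h0
  by_contra hc
  simp only [not_exists, not_and, not_forall, not_not, ne_eq] at hc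
  obtain ⟨⟨m, v⟩, hj, c, h1⟩ := hc true (by
    simp only [coll_ed, child_true, coll_en_concat, coll_child_b]
    rw [Sym2.eq_swap]
    exact coll_ne_root hA h0)
  simp only [coll_ed, child_true] at h1
  rcases Sym2.eq_iff.1 h1 with ⟨h2, rfl⟩ | ⟨h2, h3⟩
  · have hkm := coll_Rk_uniq hA hk (coll_Rk_node hj)
    obtain ⟨hb', ka', hka', ha'⟩ := coll_rank_node hA hj
    simp only [List.length_append, List.length_singleton] at hkl hb hka hkm hka'
    cases c
    · have := coll_Rk_uniq hA hb (h2 ▸ ha')
      omega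
    · have hm := coll_Rk_uniq hA hb (k' := m.length) (by rw [h2]; exact hb')
      rcases List.eq_nil_or_concat' m with rfl | ⟨m₀, g', rfl⟩
      · simp at hm
      simp only [child_true, coll_en_concat, coll_child_b] at h2
      have h4 := hA.inj _ h0 _ (hA.cl _ _ _ hj) h2
      obtain rfl : l₀ = m₀ := (Prod.mk.inj h4).1
      obtain ⟨⟨m', v'⟩, hj', c', h5⟩ := hc false (coll_ne_root hA hj)
      simp only [coll_ed, child_false] at h5
      rcases Sym2.eq_iff.1 h5 with ⟨h6, rfl⟩ | ⟨h6, h7⟩
      · obtain rfl : l₀ ++ [g'] = m' := (Prod.mk.inj (hA.inj _ hj _ hj' rfl)).1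
        cases c'
        · obtain ⟨u, d⟩ := g
          obtain ⟨u', d'⟩ := g'
          obtain rfl : u = u' := h2
          simp only [child_false, coll_en_concat] at h6
          cases d <;> cases d' <;>
            first | exact hn hj | exact hab h6 | exact hab h6.symm
        · simp only [child_true, coll_en_concat, coll_child_b, ← h2] at h6
          rw [← coll_en_concat] at h6
          have := coll_Rk_uniq hA ha (h6 ▸ coll_Rk_node h0)
          simp only at this
          omega
      · obtain ⟨k', hk', h8⟩ := coll_rank_ed hA hj' c'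
        have h9 := coll_Rk_uniq hA hk (h7 ▸ h8)
        have h10 := coll_Rk_uniq hA ha (h6 ▸ coll_Rk_node hj')
        simp only [List.length_append, List.length_singleton] at h10 hk' hkm
        omega
  · rw [coll_en_concat, coll_child_b] at h2
    obtain ⟨rfl, rfl⟩ := Prod.mk.inj (hA.inj _ h0 _ hj h2)
    obtain ⟨u, d⟩ := g
    rw [coll_en_concat] at hw1' hw3
    cases d <;> cases c <;> first | exact hw1' h3.symm | exact hw3 (congrArg some h3)

end free

private lemma coll_card {E : St n} {e : Fin n × Fin n} {A : Finset (Node n)}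
    (hA : coll_Free E e A) {l' : List (Stp n)} {w : Fin n} {k : ℕ}
    (hp : coll_anc l' ⊆ A) (hw : w ∈ ch E (en (root e) l'))
    (hn : (l', w) ∉ A) (hk : coll_Rk e A w k) (hkl : k ≤ l'.length + 1) {F : St n}
    (hF : FE (root e) l' w ⊆ F) (hF' : ∀ j ∈ A, ∀ c, coll_ed (root e) (j, c) ∈ F) :
    2 * A.card + 2 ≤ F.card := by
  obtain ⟨c, h1, h2⟩ := coll_new hA (fun l₀ g h => hp (by rw [h]; exact coll_anc_concat l₀ g))
    hw hn hk hkl
  have h3 : (insert (coll_ed (root e) ((l', w), c)) (insert s(e.1, e.2)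
      ((A ×ˢ (univ : Finset Bool)).image (coll_ed (root e))))).card = 2 * A.card + 2 := by
    rw [card_insert_of_notMem, card_insert_of_notMem, card_image_of_injOn, card_product,
      card_univ, Fintype.card_bool, mul_comm]
    · rintro ⟨i, d⟩ hi ⟨j, d'⟩ hj h
      exact coll_ed_inj hA (mem_product.1 hi).1 (mem_product.1 hj).1 h
    · intro h
      obtain ⟨⟨i, d⟩, hi, h⟩ := mem_image.1 h
      exact coll_ne_root hA (l := i.1) (mem_product.1 hi).1 h
    · intro h
      rcases mem_insert.1 h with h | h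
      · exact h1 h
      · obtain ⟨⟨i, d⟩, hi, h⟩ := mem_image.1 h
        exact h2 i (mem_product.1 hi).1 d h.symm
  rw [← h3]
  refine card_le_card (insert_subset (hF (coll_self_mem _ _ _ _))
    (insert_subset (hF (coll_root_mem (root e) _ _)) fun x hx => ?_))
  obtain ⟨⟨i, d⟩, hi, rfl⟩ := mem_image.1 hx
  exact hF' i (mem_product.1 hi).1 d

private lemma coll_need (α β : List (Stp n)) (g : Stp n) (γ : List (Stp n)) (w : Fin n)
    (h : β.head? ≠ some g) : need α β g γ w ≤
      2 * (insert (α ++ β, w) (coll_anc (α ++ β) ∪ coll_anc (α ++ g :: γ))).card + 2 := by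
  have hP : (insert (α ++ β, w) (coll_anc (α ++ β))).card = α.length + β.length + 1 := by
    rw [card_insert_of_notMem fun h => lt_irrefl _ (coll_anc_lt h), coll_card_anc,
      List.length_append]
  have hQ : ((coll_anc γ).image fun i : Node n => (α ++ g :: i.1, i.2)).card = γ.length := by
    rw [card_image_of_injective, coll_card_anc]
    rintro ⟨m, v⟩ ⟨m', v'⟩ h
    simpa using h
  have hd : Disjoint (insert (α ++ β, w) (coll_anc (α ++ β)))
      ((coll_anc γ).image fun i : Node n => (α ++ g :: i.1, i.2)) := by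
    refine disjoint_right.2 fun i hi hi' => h ?_
    obtain ⟨j, -, rfl⟩ := mem_image.1 hi
    rcases mem_insert.1 hi' with h' | h'
    · rw [← List.append_cancel_left (Prod.mk.inj h').1]; rfl
    · obtain ⟨c, l₁, h'⟩ := coll_mem_anc.1 h'
      rw [List.append_assoc] at h'
      rw [List.append_cancel_left h']; rfl
  have hU := card_union_of_disjoint hd
  have hs : insert (α ++ β, w) (coll_anc (α ++ β)) ∪
      ((coll_anc γ).image fun i : Node n => (α ++ g :: i.1, i.2)) ⊆
      insert (α ++ β, w) (coll_anc (α ++ β) ∪ coll_anc (α ++ g :: γ)) := by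
    refine union_subset (insert_subset_insert _ subset_union_left) fun i hi => ?_
    obtain ⟨j, hj, rfl⟩ := mem_image.1 hi
    obtain ⟨c, l₁, rfl⟩ := coll_mem_anc.1 hj
    exact mem_insert_of_mem (mem_union_right _ (coll_mem_anc.2 ⟨c, l₁, by simp⟩))
  unfold need
  split_ifs with hg
  · have := card_le_card hs
    omega
  · have h1 : (α, g.1) ∉ insert (α ++ β, w) (coll_anc (α ++ β)) ∪
        ((coll_anc γ).image fun i : Node n => (α ++ g :: i.1, i.2)) := by
      intro h'
      rcases mem_union.1 h' with h' | h'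
      · rcases mem_insert.1 h' with h' | h'
        · obtain ⟨h2, h3⟩ := Prod.mk.inj h'
          obtain rfl : β = [] := by simpa using h2
          exact hg h3
        · obtain ⟨c, l₁, h'⟩ := coll_mem_anc.1 h'
          rw [List.append_cancel_left h'] at hg
          exact hg rfl
      · obtain ⟨j, -, h'⟩ := mem_image.1 h'
        simpa using (Prod.mk.inj h').1
    have h2 : (α, g.1) ∈ coll_anc (α ++ g :: γ) := coll_mem_anc.2 ⟨g.2, γ, rfl⟩
    have := card_le_card (insert_subset (mem_insert_of_mem (mem_union_right _ h2)) hs)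
    rw [card_insert_of_notMem h1] at this
    omega

/-- Write `a = e.1`, `b = e.2`, depth of a node = length of its path, apex of `(l,w)` = `w`.
A *collision* in `S` is a node with apex in `{a,b}` (type I, measure `3^depth`) or a pair of
distinct nodes with the same apex (type II, measure `3^d + 3^d'`).
Call a set `A ⊆ S` of nodes *closed* if it contains the parents `(l, g.1)` of its nodes
`(l ++ [g], w)`, and *free* if it has no collision.  For a closed free `A` define the rank of a
vertex: `0` for `a, b`, `depth + 1` for the apex of a node of `A`.  If all ancestors of the path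
`l` lie in `A` then: `(en l).a ≠ (en l).b` (edge, `Val.edge`); for `l = []` they are `a, b`; for
`l = l₀ ++ [g]`, `(en l).b = g.1` has rank `|l|`, `(en l).a` has smaller rank, `(en l).o = some o`,
and `{(en l₀).a, (en l₀).b} = {(en l).a, o}`.
(1) If `S` is free, `proj` is injective on `S`: the apex is the vertex of top rank of the triangle.
So there is a collision; take one of minimal measure; in type II order it as `i = (l,w)`,
`i' = (l',w)` with `|l| ≤ |l'|`.  Let `A` = strict ancestors of `i'`, plus (type II) `i` and its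
ancestors.  Any collision inside `A` has smaller measure, so `A` is free, and `i' ∉ A`.
(2) `FF A = {ab} ∪ ⋃_{(l,w) ∈ A} {s((en l).a, w), s((en l).b, w)}` has `1 + 2 #A` elements (an edge
determines its top-rank endpoint, hence the node).
(3) One of the two edges of `i'` is not in `FF A`.  `l' ≠ []` (type I: `w ∈ cn a b`; type II:
`l = l' = []` is impossible).  Let `l' = l₀ ++ [g]`, `en l' = (a', b', some o')`.  If `b'w ∈ FF A`,
it is not `ab`; it is not an edge of the node with apex `b'`, as `w ∉ {a', o'}`; so it is an edge of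
the node with apex `w`, which must be `i` (type II), with `b' ∈ {(en l).a, (en l).b}`; ranks give
`|l| = |l'|`, `b' = (en l).b`, `l = l₀ ++ [(g.1, !g.2)]`, `(en l).a = o'`.  Then `a'w ∉ FF A`: its
top vertex is `w`, and `a' ∉ {o', b'}`.
(4) Type I: `#A = |l'|` and `FE (root e) l' w ⊇ FF A ∪ {new edge}`.  Type II: `l'` is not a prefix
of `l`, so `l = α ++ β`, `l' = α ++ g :: γ` with `β.head? ≠ some g`;
`#A = |α| + |β| + 1 + |γ| + (0 if (α, g.1) is an ancestor of or equal to i, else 1)`.
Any other organisation of the proof is fine (e.g. induction along the paths keeping a `Nodup`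
list of vertices). -/
theorem collision {E : St n} (hE : Simple E) {e : Fin n × Fin n} (he : e ∈ oe E)
    (S : Set (Node n)) (hval : ∀ i ∈ S, Val E (root e) i.1 ∧ i.2 ∈ ch E (en (root e) i.1))
    (hcl : ∀ l g w, (l ++ [g], w) ∈ S → (l, g.1) ∈ S)
    (hn : ¬ Set.InjOn (proj (root e)) S) :
    (∃ l w, (l, w) ∈ S ∧ (w = e.1 ∨ w = e.2) ∧ 2 * l.length + 2 ≤ (FE (root e) l w).card) ∨
    (∃ α β g γ w, (α ++ β, w) ∈ S ∧ (α ++ g :: γ, w) ∈ S ∧ β.head? ≠ some g ∧
      need α β g γ w ≤ (FE (root e) (α ++ β) w ∪ FE (root e) (α ++ g :: γ) w).card) := by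
  classical
  let C : ℕ → Prop := fun m => (∃ i ∈ S, (i.2 = e.1 ∨ i.2 = e.2) ∧ 3 ^ i.1.length = m) ∨
    ∃ i ∈ S, ∃ j ∈ S, i ≠ j ∧ i.2 = j.2 ∧ 3 ^ i.1.length + 3 ^ j.1.length = m
  have free : ∀ (A : Set (Node n)) (P : ℕ → Prop), A ⊆ S →
      (∀ l g w, (l ++ [g], w) ∈ A → (l, g.1) ∈ A) → (∀ m, P m → ¬ C m) →
      (∀ i ∈ A, P (3 ^ i.1.length)) →
      (∀ i ∈ A, ∀ j ∈ A, i ≠ j → P (3 ^ i.1.length + 3 ^ j.1.length)) → coll_Free E e A :=
    fun A P hAS hc hP h1 h2 => ⟨hE, mem_oe.1 he, fun i hi => (hval i (hAS hi)).1, hc,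
      fun i hi => not_or.1 fun h => hP _ (h1 i hi) (Or.inl ⟨i, hAS hi, h, rfl⟩),
      fun i hi j hj h => by_contra fun hne =>
        hP _ (h2 i hi j hj hne) (Or.inr ⟨i, hAS hi, j, hAS hj, hne, h, rfl⟩)⟩
  have hC : ∃ m, C m := by_contra fun h => hn (coll_injOn (free S (fun _ => True) subset_rfl hcl
    (fun m _ hm => h ⟨m, hm⟩) (fun _ _ => trivial) fun _ _ _ _ _ => trivial))
  have p3 : ∀ {a b : ℕ}, a < b → 3 * 3 ^ a ≤ 3 ^ b := fun h => by
    rw [← pow_succ']; exact Nat.pow_le_pow_right (by norm_num) h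
  have p0 : ∀ a : ℕ, 0 < 3 ^ a := fun a => by positivity
  have two : ∀ l l' w, (l, w) ∈ S → (l', w) ∈ S → l ≠ l' → l.length ≤ l'.length →
      3 ^ l.length + 3 ^ l'.length = Nat.find hC →
      ∃ α β g γ w, (α ++ β, w) ∈ S ∧ (α ++ g :: γ, w) ∈ S ∧ β.head? ≠ some g ∧
        need α β g γ w ≤ (FE (root e) (α ++ β) w ∪ FE (root e) (α ++ g :: γ) w).card := by
    intro l l' w hl hl' hne hle hm
    have hlt : ∀ i ∈ insert (l, w) (coll_anc l ∪ coll_anc l'),
        i = (l, w) ∨ i.1.length < l'.length := fun i hi =>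
      (mem_insert.1 hi).imp_right fun h => (mem_union.1 h).elim
        (fun h => (coll_anc_lt h).trans_le hle) coll_anc_lt
    have hA := free (insert (l, w) (coll_anc l ∪ coll_anc l') : Finset (Node n))
      (· < Nat.find hC) (fun i hi => by
        rcases mem_insert.1 hi with rfl | hi
        · exact hl
        · exact (mem_union.1 hi).elim (coll_anc_sub hcl hl) (coll_anc_sub hcl hl'))
      (fun m g v hi => by
        refine mem_insert_of_mem ?_
        rcases mem_insert.1 hi with hi | hi
        · exact mem_union_left _ ((Prod.mk.inj hi).1 ▸ coll_anc_concat m g)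
        · exact mem_union.2 ((mem_union.1 hi).imp coll_anc_closed coll_anc_closed))
      (fun m hm => Nat.find_min hC hm)
      (fun i hi => by
        have := p0 l.length
        have := p0 l'.length
        rcases hlt i hi with rfl | h
        · simp only; omega
        · have := p3 h; omega)
      (fun i hi j hj hij => by
        have := p0 l.length
        have := p0 l'.length
        rcases hlt i hi with rfl | h <;> rcases hlt j hj with rfl | h'
        · exact absurd rfl hij
        · have := p3 h'; simp only; omega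
        · have := p3 h; simp only; omega
        · have := p3 h; have := p3 h'; omega)
    have hcard := coll_card hA (F := FE (root e) l w ∪ FE (root e) l' w)
      (fun i hi => mem_insert_of_mem (mem_union_right _ hi)) (hval _ hl').2
      (fun h => (hlt _ h).elim (fun h => hne (Prod.mk.inj h).1.symm) (lt_irrefl _))
      (coll_Rk_node (i := (l, w)) (mem_insert_self _ _)) (Nat.succ_le_succ hle)
      subset_union_right fun j hj c => by
        rcases mem_insert.1 hj with rfl | hj
        · exact mem_union_left _ (coll_self_mem _ _ _ _)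
        · exact mem_union.2 ((mem_union.1 hj).imp (coll_anc_mem _ _ · c) (coll_anc_mem _ _ · c))
    obtain ⟨α, β, g, γ, rfl, rfl, h⟩ := coll_split hne hle
    exact ⟨α, β, g, γ, w, hl, hl', h, (coll_need α β g γ w h).trans hcard⟩
  rcases Nat.find_spec hC with ⟨⟨l, w⟩, hl, hw, hm⟩ | ⟨⟨l, w⟩, hl, ⟨l', w'⟩, hl', hne, rfl, hm⟩
  · refine Or.inl ⟨l, w, hl, hw, ?_⟩
    have hA := free (coll_anc l) (· < Nat.find hC) (fun i hi => coll_anc_sub hcl hl hi)
      (fun m g v hi => coll_anc_closed hi) (fun m hm => Nat.find_min hC hm)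
      (fun i hi => by
        have := p3 (coll_anc_lt hi)
        have := p0 i.1.length
        simp only at hm; omega)
      (fun i hi j hj _ => by
        have := p3 (coll_anc_lt hi)
        have := p3 (coll_anc_lt hj)
        have := p0 i.1.length
        simp only at hm; omega)
    rw [← coll_card_anc l]
    exact coll_card hA subset_rfl (hval _ hl).2 (fun h => lt_irrefl _ (coll_anc_lt h))
      (Or.inl ⟨rfl, hw⟩) (Nat.zero_le _) subset_rfl fun j hj c => coll_anc_mem _ _ hj c
  · have hne' : l ≠ l' := fun h => hne (by rw [h])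
    rcases le_total l.length l'.length with hle | hle
    · exact Or.inr (two l l' _ hl hl' hne' hle hm)
    · exact Or.inr (two l' l _ hl' hl hne'.symm hle (by rw [add_comm]; exact hm))

end Crest.Agent.R30
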