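import Mathlib
import Crest.Prelude.Def_TriangleRemoval

/-!
# R30 (S0040, triangle removal): definitions

Overview of the proof.

* Phase 1 (steps `0 … N`, where the codegree `dd n N` is about `n^(1/100)`): degrees and
  codegrees of edges stay within relative error `δ` of `DD n i = n p_i`, `dd n i = n p_i²`.
  Tool: a deterministic `ℓ^P` Gronwall lemma (`Stab`) fed by martingale bounds (`Freedman`,
  `Drift`) and by expansion of the links (`Contr`), which comes from a moment bound on
  self-avoiding walks in links (`FProb`, `Paths`, `Spec`, `Interp`).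
* Phase 2: the rest of the process is run with independent clocks on triangles (`Clock`);
  survival of an edge is computed on the unfolding tree (`tau`), compared with independent
  clocks on the tree by a stopping-set coupling (`Prod`, `Stop`, `Pair`), where the survival
  probability `q` solves a recursion analysed in `BP`; collisions are bounded in `TreeProb`,
  `Coll`, `Anneal`, `BadSum`, `Cross`; the second moment is `Second`; `Final` concludes.
-/

set_option autoImplicit false

open Finset
open Crest.CombinatoricsR.TriangleRemoval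

namespace Crest.Agent.R30

noncomputable section

/-- Edge sets on `Fin n`. -/
abbrev St (n : ℕ) := Finset (Sym2 (Fin n))

open Classical in
/-- Real indicator of a proposition. -/
def ind (P : Prop) : ℝ := if P then 1 else 0

lemma ind_true {P : Prop} (h : P) : ind P = 1 := by simp [ind, h]
lemma ind_false {P : Prop} (h : ¬ P) : ind P = 0 := by simp [ind, h]
lemma ind_nonneg (P : Prop) : 0 ≤ ind P := by
  by_cases h : P <;> simp [ind, h]
lemma ind_le_one (P : Prop) : ind P ≤ 1 := by
  by_cases h : P <;> simp [ind, h]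
lemma ind_mono {P Q : Prop} (h : P → Q) : ind P ≤ ind Q := by
  by_cases hP : P
  · rw [ind_true hP, ind_true (h hP)]
  · rw [ind_false hP]; exact ind_nonneg Q
lemma ind_congr {P Q : Prop} (h : P ↔ Q) : ind P = ind Q := by rw [propext h]
lemma ind_and (P Q : Prop) : ind (P ∧ Q) = ind P * ind Q := by
  by_cases hP : P <;> by_cases hQ : Q <;> simp [ind, hP, hQ]
lemma ind_not (P : Prop) : ind (¬ P) = 1 - ind P := by
  by_cases hP : P <;> simp [ind, hP]
lemma ind_or_le (P Q : Prop) : ind (P ∨ Q) ≤ ind P + ind Q := by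
  by_cases hP : P <;> by_cases hQ : Q <;> simp [ind, hP, hQ]
lemma ind_exists_le {α : Type*} (s : Finset α) (P : α → Prop) :
    ind (∃ a ∈ s, P a) ≤ ∑ a ∈ s, ind (P a) := by
  by_cases h : ∃ a ∈ s, P a
  · obtain ⟨a, ha, hP⟩ := h
    rw [ind_true ⟨a, ha, hP⟩, ← ind_true hP]
    exact single_le_sum (f := fun a => ind (P a)) (fun b _ => ind_nonneg _) ha
  · rw [ind_false h]; exact sum_nonneg fun b _ => ind_nonneg _
lemma ind_eq_ite (P : Prop) [Decidable P] : ind P = if P then 1 else 0 := by
  by_cases h : P <;> simp [ind, h]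

/-- Average of `g` over `s` (`0` when `s` is empty). -/
def avg {α : Type*} (s : Finset α) (g : α → ℝ) : ℝ := (∑ x ∈ s, g x) / s.card

variable {n : ℕ}

/-! ## Graphs -/

/-- No loops. -/
def Simple (E : St n) : Prop := ∀ e ∈ E, ¬ e.IsDiag

/-- Neighbours. -/
def nb (E : St n) (u : Fin n) : Finset (Fin n) := univ.filter (fun w => s(u, w) ∈ E)

/-- Common neighbours. -/
def cn (E : St n) (u v : Fin n) : Finset (Fin n) :=
  univ.filter (fun w => s(u, w) ∈ E ∧ s(v, w) ∈ E)

/-- Oriented edges. -/
def oe (E : St n) : Finset (Fin n × Fin n) := univ.filter (fun e => s(e.1, e.2) ∈ E)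

@[simp] lemma mem_nb {E : St n} {u w : Fin n} : w ∈ nb E u ↔ s(u, w) ∈ E := by simp [nb]
@[simp] lemma mem_cn {E : St n} {u v w : Fin n} :
    w ∈ cn E u v ↔ s(u, w) ∈ E ∧ s(v, w) ∈ E := by simp [cn]
@[simp] lemma mem_oe {E : St n} {e : Fin n × Fin n} : e ∈ oe E ↔ s(e.1, e.2) ∈ E := by simp [oe]

lemma cn_comm (E : St n) (u v : Fin n) : cn E u v = cn E v u := by
  ext w; simp [and_comm]

lemma Simple.ne {E : St n} (h : Simple E) {u v : Fin n} (huv : s(u, v) ∈ E) : u ≠ v := by
  intro e
  exact h _ huv (by simp [e])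

/-- Degrees are `D (1 ± δ)`, codegrees of edges are `d (1 ± δ)`. -/
structure Reg (E : St n) (D d δ : ℝ) : Prop where
  simple : Simple E
  deg : ∀ u, |((nb E u).card : ℝ) / D - 1| ≤ δ
  cod : ∀ u v, s(u, v) ∈ E → |((cn E u v).card : ℝ) / d - 1| ≤ δ

/-- `ℓ^P` contraction of (random walk on the link of `u`) minus (average over the link). -/
def Contr (E : St n) (P : ℕ) (θ : ℝ) : Prop :=
  ∀ (u : Fin n) (g : Fin n → ℝ),
    ∑ v ∈ nb E u, |avg (cn E u v) g - avg (nb E u) g| ^ P ≤ θ ^ P * ∑ v ∈ nb E u, |g v| ^ P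

/-- Self-avoiding walks with `j` steps from `x` to `y` in the link of `u`. -/
def sawSet (E : St n) (u : Fin n) (j : ℕ) (x y : Fin n) : Finset (Fin (j + 1) → Fin n) :=
  univ.filter (fun w => Function.Injective w ∧ w 0 = x ∧ w (Fin.last j) = y ∧
    (∀ k, w k ≠ u ∧ s(u, w k) ∈ E) ∧ ∀ k : Fin j, s(w k.castSucc, w k.succ) ∈ E)

/-- A weight `μ ≥ 0` on graphs under which `m ≤ s` given edges are all present with weight
at most `p ^ m`. -/
def Spread (μ : St n → ℝ) (p : ℝ) (s : ℕ) : Prop :=
  (∀ E, 0 ≤ μ E) ∧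
    ∀ (F : St n) (m : ℕ), m ≤ F.card → m ≤ s → ∑ E, μ E * ind (F ⊆ E) ≤ p ^ m

/-! ## The Markov chain -/

/-- One-step average. -/
def av (E : St n) (ψ : St n → ℝ) : ℝ :=
  if (triangles E).card = 0 then ψ E
  else ((triangles E).card : ℝ)⁻¹ * ∑ t ∈ triangles E, ψ (E \ t.sym2)

/-- Histories. -/
abbrev Hist (n : ℕ) := ℕ → St n

/-- Expectation over the first `k` steps of the process started at the complete graph. -/
def EH : ℕ → (Hist n → ℝ) → ℝ
  | 0, Φ => Φ (fun _ => allEdges n)
  | k + 1, Φ => EH k (fun h => av (h k) (fun E' => Φ (Function.update h (k + 1) E')))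

/-- A possible step. -/
def Step (E E' : St n) : Prop :=
  ((triangles E).card = 0 ∧ E' = E) ∨ ∃ t ∈ triangles E, E' = E \ t.sym2

/-- A possible history of length `k`. -/
def Valid (k : ℕ) (h : Hist n) : Prop :=
  h 0 = allEdges n ∧ ∀ j < k, Step (h j) (h (j + 1))

/-- Edge density after `i` steps: the number of edges is `n² pp / 2`. -/
def pp (n i : ℕ) : ℝ := 1 - 1 / (n : ℝ) - 6 * (i : ℝ) / (n : ℝ) ^ 2
/-- Relative decrement of the density: `pp (i+1) = pp i * (1 - kap i)`. -/
def kap (n i : ℕ) : ℝ := 6 / ((n : ℝ) ^ 2 * pp n i)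
/-- Predicted degree. -/
def DD (n i : ℕ) : ℝ := (n : ℝ) * pp n i
/-- Predicted codegree. -/
def dd (n i : ℕ) : ℝ := (n : ℝ) * pp n i ^ 2

/-- The state at time `i` follows the prediction. -/
structure Good (δ : ℝ) (i : ℕ) (E : St n) : Prop where
  reg : Reg E (DD n i) (dd n i) δ
  card : (E.card : ℝ) = (n : ℝ) ^ 2 * pp n i / 2

/-- Relative error of the codegree. -/
def eps (i : ℕ) (E : St n) (u v : Fin n) : ℝ := ((cn E u v).card : ℝ) / dd n i - 1
/-- Relative error of the degree. -/
def bb (i : ℕ) (E : St n) (u : Fin n) : ℝ := ((nb E u).card : ℝ) / DD n i - 1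
/-- Mean relative error of the codegree over oriented edges. -/
def gam (i : ℕ) (E : St n) : ℝ := avg (oe E) (fun e => eps i E e.1 e.2)

/-- Martingale increment of `eps` (switched off at bad states and non-edges). -/
def Xe (δ : ℝ) (u v : Fin n) (j : ℕ) (E E' : St n) : ℝ :=
  ind (Good δ j E ∧ s(u, v) ∈ E) * (eps (j + 1) E' u v - av E (fun E'' => eps (j + 1) E'' u v))
/-- Martingale increment of `bb` (switched off at bad states). -/
def Xb (δ : ℝ) (u : Fin n) (j : ℕ) (E E' : St n) : ℝ :=
  ind (Good δ j E) * (bb (j + 1) E' u - av E (fun E'' => bb (j + 1) E'' u))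

/-- All martingales stay below `f`. -/
def MartOK (δ f : ℝ) (N : ℕ) (h : Hist n) : Prop :=
  ∀ i ≤ N, ∀ u v : Fin n,
    |∑ j ∈ range i, Xe δ u v j (h j) (h (j + 1))| ≤ f ∧
    |∑ j ∈ range i, Xb δ u j (h j) (h (j + 1))| ≤ f

/-- The walk bound holds at each time before which all states were good. -/
def SawOK (δ τ : ℝ) (jw N : ℕ) (h : Hist n) : Prop :=
  ∀ i ≤ N, (∀ j < i, Good δ j (h j)) → ∀ u x y : Fin n,
    ((sawSet (h i) u jw x y).card : ℝ) ≤ (1 + τ) * dd n i ^ jw / DD n i

/-- Sub-probability law of the state at time `i` on the event that all earlier states are good. -/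
def law (δ : ℝ) (i : ℕ) (E : St n) : ℝ :=
  EH i (fun h => ind ((∀ j < i, Good δ j (h j)) ∧ h i = E))

/-- `n` is large and `y = n ^ (1/4000)`. -/
structure Big (n : ℕ) (y : ℝ) : Prop where
  pos : 0 < y
  pow : y ^ 4000 = n
  big : (10000 * (1 + Real.log n)) ^ 100000 ≤ y

/-! ## Clocks -/

/-- State after all clock values `< t` have been processed. -/
def sweep (E : St n) (c : Finset (Fin n) → ℕ) : ℕ → St n
  | 0 => E
  | t + 1 => sweep E c t \
      ((triangles (sweep E c t)).filter (fun T => c T = t)).biUnion (fun T => T.sym2)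

/-- Expectation over independent uniform clocks in `{0, …, L-1}` on all vertex sets. -/
def EC (L : ℕ) (Φ : (Finset (Fin n) → ℕ) → ℝ) : ℝ :=
  avg (univ : Finset (Finset (Fin n) → Fin L)) (fun c => Φ (fun T => (c T : ℕ)))

/-! ## The unfolding tree -/

/-- A step down the tree: an apex and which of the two new edges is followed. -/
abbrev Stp (n : ℕ) := Fin n × Bool
/-- A triangle node of the tree: the path to its base edge, and its apex. -/
abbrev Node (n : ℕ) := List (Stp n) × Fin n

/-- An edge node of the tree: the edge `a b` and the third vertex of the parent triangle. -/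
structure TS (n : ℕ) where
  a : Fin n
  b : Fin n
  o : Option (Fin n)

/-- Root at the oriented edge `e`. -/
def root (e : Fin n × Fin n) : TS n := ⟨e.1, e.2, none⟩

/-- Apexes of the child triangles. -/
def ch (E : St n) (x : TS n) : Finset (Fin n) := (cn E x.a x.b).filter (fun w => some w ≠ x.o)

/-- Child edge. -/
def child (x : TS n) (g : Stp n) : TS n :=
  match g.2 with
  | false => ⟨x.a, g.1, some x.b⟩
  | true => ⟨x.b, g.1, some x.a⟩

@[simp] lemma child_false (x : TS n) (w : Fin n) : child x (w, false) = ⟨x.a, w, some x.b⟩ := rfl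
@[simp] lemma child_true (x : TS n) (w : Fin n) : child x (w, true) = ⟨x.b, w, some x.a⟩ := rfl
@[simp] lemma mem_ch {E : St n} {x : TS n} {w : Fin n} :
    w ∈ ch E x ↔ (s(x.a, w) ∈ E ∧ s(x.b, w) ∈ E) ∧ some w ≠ x.o := by simp [ch]

/-- The edge node at the end of a path. -/
def en (x : TS n) (l : List (Stp n)) : TS n := l.foldl child x

@[simp] lemma en_nil (x : TS n) : en x [] = x := rfl
@[simp] lemma en_cons (x : TS n) (g : Stp n) (l : List (Stp n)) :
    en x (g :: l) = en (child x g) l := rfl
lemma en_append (x : TS n) (l l' : List (Stp n)) : en x (l ++ l') = en (en x l) l' := by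
  simp [en, List.foldl_append]

/-- The triangle of the graph that a node of the tree stands for. -/
def proj (x : TS n) (i : Node n) : Finset (Fin n) := {(en x i.1).a, (en x i.1).b, i.2}

/-- Clocks of the subtree below one step. -/
def sh (g : Stp n) (ω : Node n → ℕ) : Node n → ℕ := fun i => ω (g :: i.1, i.2)
/-- Clocks of the subtree below a path. -/
def shL (l : List (Stp n)) (ω : Node n → ℕ) : Node n → ℕ := fun i => ω (l ++ i.1, i.2)

/-- Death time of the edge node `x` in the tree cut at depth `k` (`L` if it never dies): the least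
clock of a child triangle whose two other edges are alive at that clock. -/
def tau (E : St n) (L : ℕ) : ℕ → TS n → (Node n → ℕ) → ℕ
  | 0, _, _ => L
  | k + 1, x, ω =>
      ((ch E x).filter (fun w =>
        ω ([], w) ≤ tau E L k (child x (w, false)) (sh (w, false) ω) ∧
        ω ([], w) ≤ tau E L k (child x (w, true)) (sh (w, true) ω))).fold min L
          (fun w => ω ([], w))

lemma le_tau_succ (E : St n) (L k : ℕ) (x : TS n) (ω : Node n → ℕ) (t : ℕ) :
    t ≤ tau E L (k + 1) x ω ↔ t ≤ L ∧ ∀ w ∈ ch E x,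
      ω ([], w) ≤ tau E L k (child x (w, false)) (sh (w, false) ω) →
      ω ([], w) ≤ tau E L k (child x (w, true)) (sh (w, true) ω) → t ≤ ω ([], w) := by
  rw [tau, Finset.le_fold_min]
  simp only [mem_filter, and_imp]

/-- Horizon up to which the two child edges below the apex `w` are explored. -/
def dl (E : St n) (L k : ℕ) (x : TS n) (w : Fin n) (ω : Node n → ℕ) : ℕ :=
  min (min (tau E L k (child x (w, false)) (sh (w, false) ω) + 1)
    (tau E L k (child x (w, true)) (sh (w, true) ω) + 1)) (ω ([], w))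

/-- The edge node at the end of the path is examined when `min (tau k x) t` is computed. -/
def Ex (E : St n) (L : ℕ) : ℕ → TS n → ℕ → List (Stp n) → (Node n → ℕ) → Prop
  | _, _, _, [], _ => True
  | 0, _, _, _ :: _, _ => False
  | k + 1, x, t, g :: l, ω =>
      g.1 ∈ ch E x ∧ ω ([], g.1) < t ∧ ω ([], g.1) ≤ tau E L (k + 1) x ω ∧
        Ex E L k (child x g) (dl E L k x g.1 ω) l (sh g ω)

@[simp] lemma Ex_nil (E : St n) (L k : ℕ) (x : TS n) (t : ℕ) (ω : Node n → ℕ) :
    Ex E L k x t [] ω := by cases k <;> simp [Ex]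
@[simp] lemma Ex_zero_cons (E : St n) (L : ℕ) (x : TS n) (t : ℕ) (g : Stp n) (l : List (Stp n))
    (ω : Node n → ℕ) : ¬ Ex E L 0 x t (g :: l) ω := by simp [Ex]
lemma Ex_succ_cons (E : St n) (L k : ℕ) (x : TS n) (t : ℕ) (g : Stp n) (l : List (Stp n))
    (ω : Node n → ℕ) : Ex E L (k + 1) x t (g :: l) ω ↔
      g.1 ∈ ch E x ∧ ω ([], g.1) < t ∧ ω ([], g.1) ≤ tau E L (k + 1) x ω ∧
        Ex E L k (child x g) (dl E L k x g.1 ω) l (sh g ω) := by simp only [Ex]

/-- The nodes whose clocks are looked at. -/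
def InS (E : St n) (L k : ℕ) (x : TS n) (t : ℕ) (ω : Node n → ℕ) (i : Node n) : Prop :=
  i.1.length < k ∧ Ex E L k x t i.1 ω ∧ i.2 ∈ ch E (en x i.1)

/-- The path exists in the tree. -/
def Val (E : St n) : TS n → List (Stp n) → Prop
  | _, [] => True
  | x, g :: l => g.1 ∈ ch E x ∧ Val E (child x g) l

/-- All graph edges met along the path `l` and the final triangle with apex `w`. -/
def FE : TS n → List (Stp n) → Fin n → St n
  | x, [], w => {s(x.a, x.b), s(x.a, w), s(x.b, w)}
  | x, g :: l, w => {s(x.a, x.b), s(x.a, g.1), s(x.b, g.1)} ∪ FE (child x g) l w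

/-- Nodes of depth `< k`. -/
def Idx (n k : ℕ) := {i : Node n // i.1.length < k}

instance (k : ℕ) : Finite (Idx n k) := by
  have h : (setOf fun i : Node n => i.1.length < k).Finite := by
    have := (List.finite_length_lt (Stp n) k).prod (Set.finite_univ (α := Fin n))
    refine this.subset ?_
    intro i hi
    exact ⟨hi, trivial⟩
  exact h.to_subtype

instance (k : ℕ) : Fintype (Idx n k) := Fintype.ofFinite _
instance (k : ℕ) : DecidableEq (Idx n k) := inferInstanceAs (DecidableEq {i : Node n // _})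

/-- Extension by zero of clocks on nodes of depth `< k`. -/
def ext {k L : ℕ} (η : Idx n k → Fin L) : Node n → ℕ :=
  fun i => if h : i.1.length < k then (η ⟨i, h⟩ : ℕ) else 0

/-- Expectation over independent uniform clocks in `{0, …, L-1}` on the nodes of depth `< k`. -/
def ET (L k : ℕ) (Φ : (Node n → ℕ) → ℝ) : ℝ :=
  avg (univ : Finset (Idx n k → Fin L)) (fun η => Φ (ext η))

/-- Probability that the edge node `x` is alive at time `s` on the tree with independent clocks. -/
def q (E : St n) (L : ℕ) (x : TS n) (s : ℕ) : ℝ :=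
  ∏ w ∈ ch E x, (1 - (L : ℝ)⁻¹ *
    ∑ r : Fin s, q E L (child x (w, false)) r * q E L (child x (w, true)) r)
termination_by s
decreasing_by all_goals exact r.2

/-- Probability that the child triangle with apex `w` does not kill `x` before time `s`. -/
def fac (E : St n) (L : ℕ) (x : TS n) (w : Fin n) (s : ℕ) : ℝ :=
  1 - (L : ℝ)⁻¹ * ∑ r ∈ range s, q E L (child x (w, false)) r * q E L (child x (w, true)) r

lemma q_eq (E : St n) (L : ℕ) (x : TS n) (s : ℕ) : q E L x s = ∏ w ∈ ch E x, fac E L x w s := by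
  rw [q]
  refine prod_congr rfl fun w _ => ?_
  rw [fac, Finset.sum_range]

/-- As `q`, without the child triangle with apex `w`. -/
def q2 (E : St n) (L : ℕ) (x : TS n) (w : Fin n) (s : ℕ) : ℝ :=
  ∏ w' ∈ (ch E x).erase w, fac E L x w' s

/-- Bound for the probability that a given path of length `j` is examined. -/
def GG (W : ℝ) (j : ℕ) : ℝ := W ^ (j - 1) / ((j - 1).factorial : ℝ)

/-- Bound for `∑ j, z ^ j * GG W j`. -/
def Gam (z W : ℝ) : ℝ := 1 + z * Real.exp (z * W)

/-- Uniform weights dominating `q * q2 / L`, of total mass at most `W`. -/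
def ChainW (E : St n) (L : ℕ) (W : ℝ) : Prop :=
  ∃ wt : ℕ → ℝ, (∀ r, 0 ≤ wt r) ∧ ∑ r ∈ range L, wt r ≤ W ∧
    ∀ x y : TS n, s(x.a, x.b) ∈ E → s(y.a, y.b) ∈ E → ∀ (w : Fin n), ∀ r < L,
      q E L y r * q2 E L x w r ≤ L * wt r

/-- Probability that two examined nodes stand for the same triangle. -/
def bad (E : St n) (L : ℕ) (x : TS n) : ℝ :=
  ET L L (fun ω => ind (¬ Set.InjOn (proj x) {i | InS E L L x L ω i}))

/-- Probability that some examined node stands for the triangle `T`. -/
def hit (E : St n) (L : ℕ) (x : TS n) (T : Finset (Fin n)) : ℝ :=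
  ET L L (fun ω => ind (∃ i, InS E L L x L ω i ∧ proj x i = T))

/-- Paths of length `j`. -/
def LL (n : ℕ) : ℕ → Finset (List (Stp n))
  | 0 => {[]}
  | j + 1 => ((univ : Finset (Stp n)) ×ˢ LL n j).image (fun p => p.1 :: p.2)

lemma mem_LL {j : ℕ} {l : List (Stp n)} : l ∈ LL n j ↔ l.length = j := by
  induction j generalizing l with
  | zero => simp [LL, List.length_eq_zero_iff]
  | succ j ih =>
    cases l with
    | nil => simp [LL]
    | cons g l => simp [LL, ih]

lemma sum_LL_succ (j : ℕ) (f : List (Stp n) → ℝ) :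
    ∑ l ∈ LL n (j + 1), f l = ∑ g : Stp n, ∑ l ∈ LL n j, f (g :: l) := by
  rw [LL, sum_image, sum_product]
  rintro ⟨g, l⟩ _ ⟨g', l'⟩ _ h
  simpa using h

lemma card_LL (j : ℕ) : ((LL n j).card : ℝ) = (2 * n) ^ j := by
  induction j with
  | zero => simp [LL]
  | succ j ih =>
    have := sum_LL_succ (n := n) j (fun _ => 1)
    simp only [sum_const, nsmul_eq_mul, mul_one, card_univ, Fintype.card_prod, Fintype.card_fin,
      Fintype.card_bool] at this
    rw [this, ih]; push_cast; ring

/-- Number of edges forced by a minimal collision of two nodes. -/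
def need (α β : List (Stp n)) (g : Stp n) (γ : List (Stp n)) (w : Fin n) : ℕ :=
  2 * (α.length + β.length + γ.length +
    (if g.1 = (β.head?.map Prod.fst).getD w then 1 else 2)) + 2

/-- Weighted count of the collision patterns of depth `< J` present in `E`. -/
def Zs (E : St n) (W : ℝ) (J : ℕ) : ℝ :=
  ∑ e : Fin n × Fin n,
    ((∑ j ∈ range J, ∑ l ∈ LL n j, ∑ w : Fin n, GG W j *
        ind ((w = e.1 ∨ w = e.2) ∧ 2 * j + 2 ≤ (FE (root e) l w).card ∧ FE (root e) l w ⊆ E)) +
      ∑ ja ∈ range J, ∑ jb ∈ range J, ∑ jc ∈ range J,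
        ∑ α ∈ LL n ja, ∑ β ∈ LL n jb, ∑ γ ∈ LL n jc, ∑ g : Stp n, ∑ w : Fin n,
          GG W ja * GG W (jb - 1) * GG W jc *
            ind (need α β g γ w ≤ (FE (root e) (α ++ β) w ∪ FE (root e) (α ++ g :: γ) w).card ∧
              FE (root e) (α ++ β) w ∪ FE (root e) (α ++ g :: γ) w ⊆ E))

end

end Crest.Agent.R30
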