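import Crest.Agent.R30.Chain

/-!
# R30/Drift: one-step means, increments and variances of `eps` and `bb`

Notation at a good state `E` at time `i`: `p = pp n i`, `κ = kap n i`, `d = dd n i`, `D = DD n i`,
`γ = gam i E`, `Q = #triangles E`.  Facts: `#oe E = 2 #E = n² p` (`card_oe`, `Good.card`), so
`6 Q = ∑_oe #cn = n² p d (1 + γ)` (`six_mul_card_tri`), i.e. `Q = d (1+γ) / κ > 0`;
`dd n (i+1) = d (1-κ)²`, `DD n (i+1) = D (1-κ)` (`pp_succ`); `d ≤ D` (`pp_le_one`);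
`|eps| ≤ δ` on edges, `|bb| ≤ δ`, `|γ| ≤ δ` (`abs_avg_le`).
-/

set_option autoImplicit false

open Finset
open Crest.CombinatoricsR.TriangleRemoval

namespace Crest.Agent.R30

variable {n : ℕ}

/-- Standing numeric assumptions at time `i`. -/
structure DPar (n i : ℕ) (δ : ℝ) : Prop where
  pp_pos : 0 < pp n i
  δ_nonneg : 0 ≤ δ
  δ_le : δ ≤ 1 / 10
  dd_ge : 10 ≤ dd n i
  kap_le : kap n i ≤ 1 / 10

/-! ### scalar lemmas -/

lemma drift_expand {ε X ρ κ δ B : ℝ} (hκ : 0 ≤ κ) (hδ : δ ≤ 1 / 10) (hε : |ε| ≤ δ)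
    (hX : |X| ≤ 4 * δ) (hρ : |ρ| ≤ B) :
    |(1 + ε) * (1 - κ * X + κ * ρ) - 1 - ε + κ * X| ≤ κ * (4 * δ ^ 2 + 2 * B) := by
  have e : (1 + ε) * (1 - κ * X + κ * ρ) - 1 - ε + κ * X = κ * (-(ε * X) + (1 + ε) * ρ) := by ring
  have hδ0 : 0 ≤ δ := (abs_nonneg _).trans hε
  rw [e, abs_mul, abs_of_nonneg hκ]
  refine mul_le_mul_of_nonneg_left ((abs_add_le _ _).trans (add_le_add ?_ ?_)) hκ
  · rw [abs_neg, abs_mul]
    calc |ε| * |X| ≤ δ * (4 * δ) := mul_le_mul hε hX (abs_nonneg _) hδ0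
      _ = 4 * δ ^ 2 := by ring
  · rw [abs_mul]
    refine mul_le_mul ?_ hρ (abs_nonneg _) (by norm_num)
    have := abs_le.1 hε
    rw [abs_le]
    constructor <;> linarith [this.1, this.2]

lemma drift_abs_div {r x g B : ℝ} (hg : |g| ≤ 1 / 10) (hr : r * (1 + g) = x) (hx : |x| ≤ B) :
    |r| ≤ 10 / 9 * B := by
  have h1 := abs_le.1 hg
  rw [← hr, abs_mul, abs_of_pos (by linarith [h1.1] : 0 < 1 + g)] at hx
  nlinarith [abs_nonneg r, h1.1]

lemma drift_phi {A γ z δ : ℝ} (hδ : δ ≤ 1 / 10) (hA : |A| ≤ 2 * δ) (hγ : |γ| ≤ δ) (hz0 : 0 ≤ z)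
    (hz : z ≤ 1 / 10) : 0 ≤ (2 + A - z) / (1 + γ) ∧ (2 + A - z) / (1 + γ) ≤ 5 / 2 := by
  have h1 := abs_le.1 hA
  have h2 := abs_le.1 hγ
  have h3 : 0 < 1 + γ := by linarith [h2.1]
  refine ⟨div_nonneg (by linarith [h1.1]) h3.le, ?_⟩
  rw [div_le_iff₀ h3]
  linarith [h1.2, h2.1]

lemma drift_psi {a γ δ : ℝ} (hδ : δ ≤ 1 / 10) (ha : |a| ≤ δ) (hγ : |γ| ≤ δ) :
    0 ≤ (1 + a) / (1 + γ) ∧ (1 + a) / (1 + γ) ≤ 5 / 2 := by
  have h1 := abs_le.1 ha
  have h2 := abs_le.1 hγ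
  have h3 : 0 < 1 + γ := by linarith [h2.1]
  refine ⟨div_nonneg (by linarith [h1.1]) h3.le, ?_⟩
  rw [div_le_iff₀ h3]
  linarith [h1.2, h2.1]

lemma drift_num_eps {ε A γ z κ δ : ℝ} (hκ0 : 0 ≤ κ) (hκ : κ ≤ 1 / 10) (hδ : δ ≤ 1 / 10)
    (hε : |ε| ≤ δ) (hA : |A| ≤ 2 * δ) (hγ : |γ| ≤ δ) (hz0 : 0 ≤ z) (hz : z ≤ 1 / 10) :
    |(1 + ε) * (1 - κ * ((2 + A - z) / (1 + γ))) / (1 - κ) ^ 2 - 1 - ε + κ * (A - 2 * γ)| ≤
      30 * κ * (δ ^ 2 + z + κ) := by
  obtain ⟨hφ0, hφ1⟩ := drift_phi hδ hA hγ hz0 hz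
  have hδ0 : 0 ≤ δ := (abs_nonneg _).trans hε
  have hg : 0 < 1 + γ := by linarith [(abs_le.1 hγ).1]
  have hk : 0 < 1 - κ := by linarith
  set φ := (2 + A - z) / (1 + γ) with hφ
  have hφ' : φ * (1 + γ) = 2 + A - z := div_mul_cancel₀ _ hg.ne'
  have h1 : |φ - (2 + A - 2 * γ)| ≤ 10 / 9 * (z + 4 * δ ^ 2) := by
    refine drift_abs_div (hγ.trans hδ) (x := -z - A * γ + 2 * γ ^ 2) (by linear_combination hφ') ?_
    have a1 : |A * γ| ≤ 2 * δ * δ := by
      rw [abs_mul]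
      exact mul_le_mul hA hγ (abs_nonneg _) (by positivity)
    have a2 : γ ^ 2 ≤ δ ^ 2 := sq_le_sq' (abs_le.1 hγ).1 (abs_le.1 hγ).2
    have a3 := abs_le.1 a1
    rw [abs_le]
    constructor <;> nlinarith [sq_nonneg γ, a3.1, a3.2]
  obtain ⟨t, ht⟩ : ∃ t, t * (1 - κ) ^ 2 = 3 - 2 * κ := ⟨_, div_mul_cancel₀ _ (by positivity)⟩
  have hk2 : 81 / 100 ≤ (1 - κ) ^ 2 := by nlinarith
  have ht0 : 0 ≤ t := by
    by_contra hc
    nlinarith
  have ht1 : t ≤ 4 := by
    by_contra hc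
    nlinarith
  have h2 : |t - φ * (2 + κ * t)| ≤ 10 := by
    have a1 : 0 ≤ κ * t := by positivity
    have a2 : κ * t ≤ 1 := by nlinarith
    have a3 : 0 ≤ φ * (2 + κ * t) := by positivity
    have a4 : φ * (2 + κ * t) ≤ 5 / 2 * 3 := mul_le_mul hφ1 (by linarith) (by linarith) (by norm_num)
    rw [abs_le]
    constructor <;> linarith
  have h3 : |-(φ - (2 + A - 2 * γ)) + κ * (t - φ * (2 + κ * t))| ≤
      10 / 9 * (z + 4 * δ ^ 2) + κ * 10 := by
    refine (abs_add_le _ _).trans (add_le_add (by rwa [abs_neg]) ?_)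
    rw [abs_mul, abs_of_nonneg hκ0]
    exact mul_le_mul_of_nonneg_left h2 hκ0
  have hX : |A - 2 * γ| ≤ 4 * δ := by
    have a1 := abs_le.1 hA
    have a2 := abs_le.1 hγ
    rw [abs_le]
    constructor <;> linarith [a1.1, a1.2, a2.1, a2.2]
  have e : (1 + ε) * (1 - κ * φ) / (1 - κ) ^ 2 = (1 + ε) * (1 - κ * (A - 2 * γ) +
      κ * (-(φ - (2 + A - 2 * γ)) + κ * (t - φ * (2 + κ * t)))) := by
    rw [div_eq_iff (by positivity)]
    linear_combination (-(1 + ε) * (1 - κ * φ) * κ ^ 2) * ht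
  rw [e]
  refine (drift_expand hκ0 hδ hε hX h3).trans ?_
  rw [mul_comm 30 κ, mul_assoc]
  refine mul_le_mul_of_nonneg_left ?_ hκ0
  nlinarith [sq_nonneg δ]

lemma drift_num_bb {b a γ z κ δ : ℝ} (hκ0 : 0 ≤ κ) (hκ : κ ≤ 1 / 10) (hδ : δ ≤ 1 / 10)
    (hb : |b| ≤ δ) (ha : |a| ≤ δ) (hγ : |γ| ≤ δ) (hz0 : 0 ≤ z) :
    |(1 + b) * (1 - κ * ((1 + a) / (1 + γ))) / (1 - κ) - 1 - b + κ * (a - γ)| ≤
      30 * κ * (δ ^ 2 + z + κ) := by
  obtain ⟨hφ0, hφ1⟩ := drift_psi hδ ha hγ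
  have hδ0 : 0 ≤ δ := (abs_nonneg _).trans hb
  have hg : 0 < 1 + γ := by linarith [(abs_le.1 hγ).1]
  have hk : 0 < 1 - κ := by linarith
  set φ := (1 + a) / (1 + γ) with hφ
  have hφ' : φ * (1 + γ) = 1 + a := div_mul_cancel₀ _ hg.ne'
  have h1 : |φ - (1 + a - γ)| ≤ 10 / 9 * (2 * δ ^ 2) := by
    refine drift_abs_div (hγ.trans hδ) (x := γ ^ 2 - a * γ) (by linear_combination hφ') ?_
    have a1 : |a * γ| ≤ δ * δ := by
      rw [abs_mul]
      exact mul_le_mul ha hγ (abs_nonneg _) hδ0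
    have a2 : γ ^ 2 ≤ δ ^ 2 := sq_le_sq' (abs_le.1 hγ).1 (abs_le.1 hγ).2
    have a3 := abs_le.1 a1
    rw [abs_le]
    constructor <;> nlinarith [sq_nonneg γ, a3.1, a3.2]
  obtain ⟨t, ht⟩ : ∃ t, t * (1 - κ) = 1 := ⟨_, div_mul_cancel₀ _ hk.ne'⟩
  have ht0 : 0 ≤ t := by
    by_contra hc
    nlinarith
  have ht1 : t ≤ 4 := by
    by_contra hc
    nlinarith
  have h2 : |t - φ * (1 + κ * t)| ≤ 10 := by
    have a1 : 0 ≤ κ * t := by positivity
    have a2 : κ * t ≤ 1 := by nlinarith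
    have a3 : 0 ≤ φ * (1 + κ * t) := by positivity
    have a4 : φ * (1 + κ * t) ≤ 5 / 2 * 3 := mul_le_mul hφ1 (by linarith) (by linarith) (by norm_num)
    rw [abs_le]
    constructor <;> linarith
  have h3 : |-(φ - (1 + a - γ)) + κ * (t - φ * (1 + κ * t))| ≤ 10 / 9 * (2 * δ ^ 2) + κ * 10 := by
    refine (abs_add_le _ _).trans (add_le_add (by rwa [abs_neg]) ?_)
    rw [abs_mul, abs_of_nonneg hκ0]
    exact mul_le_mul_of_nonneg_left h2 hκ0
  have hX : |a - γ| ≤ 4 * δ := by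
    have a1 := abs_le.1 ha
    have a2 := abs_le.1 hγ
    rw [abs_le]
    constructor <;> linarith [a1.1, a1.2, a2.1, a2.2]
  have e : (1 + b) * (1 - κ * φ) / (1 - κ) = (1 + b) * (1 - κ * (a - γ) +
      κ * (-(φ - (1 + a - γ)) + κ * (t - φ * (1 + κ * t)))) := by
    rw [div_eq_iff hk.ne']
    linear_combination (-(1 + b) * (1 - κ * φ) * κ ^ 2) * ht
  rw [e]
  refine (drift_expand hκ0 hδ hb hX h3).trans ?_
  rw [mul_comm 30 κ, mul_assoc]
  refine mul_le_mul_of_nonneg_left ?_ hκ0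
  nlinarith [sq_nonneg δ]

lemma drift_num_var {x x' d ε φ κ : ℝ} (hd : 0 < d) (hx : d ≤ x) (hx' : 81 / 100 * x ≤ x')
    (hε : |ε| ≤ 1 / 10) (hφ0 : 0 ≤ φ) (hφ : φ ≤ 5 / 2) (hκ : 0 ≤ κ) :
    2 * (x * (1 + ε) * (κ * φ)) / x' ^ 2 ≤ 30 * κ / d := by
  have hx0 : 0 < x := by linarith
  have h1 : 2 * (x * (1 + ε) * (κ * φ)) ≤ 2 * (x * (11 / 10) * (κ * (5 / 2))) := by
    have := (abs_le.1 hε).2
    gcongr
    linarith
  calc 2 * (x * (1 + ε) * (κ * φ)) / x' ^ 2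
      ≤ 2 * (x * (11 / 10) * (κ * (5 / 2))) / (81 / 100 * x) ^ 2 := by gcongr
    _ = (55000 / 6561) * κ / x := by field_simp; ring
    _ ≤ 30 * κ / d := by gcongr; norm_num

/-! ### one step averages of a count -/

lemma drift_av_aff (E : St n) (c : St n → ℝ) (x : ℝ) :
    av E (fun E' => c E' / x - 1) = (c E - av E (fun E' => c E - c E')) / x - 1 := by
  rw [av_sub, av_sub, av_const, av_const, sub_sub_cancel]
  simp only [div_eq_inv_mul, av_const_mul]

lemma drift_inc {E E' : St n} (c : St n → ℝ) {x : ℝ} (hx : 0 < x)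
    (hc : ∀ E'', Step E E'' → 0 ≤ c E - c E'' ∧ c E - c E'' ≤ 2) (hS : Step E E') :
    |c E' / x - 1 - av E (fun E'' => c E'' / x - 1)| ≤ 2 / x := by
  have h0 : 0 ≤ av E (fun E'' => c E - c E'') :=
    (av_const E 0).symm.le.trans (av_mono fun E'' h => (hc E'' h).1)
  have h2 : av E (fun E'' => c E - c E'') ≤ 2 :=
    (av_mono fun E'' h => (hc E'' h).2).trans (av_const E 2).le
  have e : c E' / x - 1 - av E (fun E'' => c E'' / x - 1) =
      (av E (fun E'' => c E - c E'') - (c E - c E')) / x := by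
    rw [drift_av_aff]
    ring
  rw [e, abs_div, abs_of_pos hx]
  refine div_le_div_of_nonneg_right ?_ hx.le
  have := hc E' hS
  rw [abs_le]
  constructor <;> linarith [this.1, this.2]

lemma drift_var {E : St n} (c : St n → ℝ) {x : ℝ} (hx : 0 < x)
    (hc : ∀ E'', Step E E'' → 0 ≤ c E - c E'' ∧ c E - c E'' ≤ 2) :
    av E (fun E' => (c E' / x - 1 - av E (fun E'' => c E'' / x - 1)) ^ 2) ≤
      2 * av E (fun E' => c E - c E') / x ^ 2 := by
  rw [drift_av_aff]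
  set m := av E (fun E' => c E - c E') with hm
  calc _ ≤ av E (fun E' => m ^ 2 / x ^ 2 + (2 - 2 * m) / x ^ 2 * (c E - c E')) := by
        refine av_mono fun E' hS => ?_
        have h := hc E' hS
        have e1 : (c E' / x - 1 - ((c E - m) / x - 1)) ^ 2 = (m - (c E - c E')) ^ 2 / x ^ 2 := by
          ring
        have e2 : m ^ 2 / x ^ 2 + (2 - 2 * m) / x ^ 2 * (c E - c E') =
            (m ^ 2 + (2 - 2 * m) * (c E - c E')) / x ^ 2 := by ring
        rw [e1, e2]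
        refine div_le_div_of_nonneg_right ?_ (by positivity)
        nlinarith [mul_nonneg h.1 (sub_nonneg.2 h.2)]
    _ = (2 * m - m ^ 2) / x ^ 2 := by
        rw [av_add, av_const, av_const_mul, ← hm]
        ring
    _ ≤ 2 * m / x ^ 2 := div_le_div_of_nonneg_right (by linarith [sq_nonneg m]) (by positivity)

lemma drift_cn_step {E : St n} (hE : Simple E) (u v : Fin n) (E' : St n) (hS : Step E E') :
    0 ≤ ((cn E u v).card : ℝ) - (cn E' u v).card ∧ ((cn E u v).card : ℝ) - (cn E' u v).card ≤ 2 := by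
  rcases hS with ⟨-, rfl⟩ | ⟨t, ht, rfl⟩
  · simp
  · obtain ⟨h1, h2⟩ := cn_drop_bounds hE ht u v
    have h1' : ((cn (E \ t.sym2) u v).card : ℝ) ≤ (cn E u v).card := by exact_mod_cast h1
    have h2' : ((cn E u v).card : ℝ) ≤ (cn (E \ t.sym2) u v).card + 2 := by exact_mod_cast h2
    constructor <;> linarith

lemma drift_nb_step {E : St n} (hE : Simple E) (u : Fin n) (E' : St n) (hS : Step E E') :
    0 ≤ ((nb E u).card : ℝ) - (nb E' u).card ∧ ((nb E u).card : ℝ) - (nb E' u).card ≤ 2 := by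
  rcases hS with ⟨-, rfl⟩ | ⟨t, ht, rfl⟩
  · simp
  · obtain ⟨h1, h2⟩ := nb_drop_bounds hE ht u
    have h1' : ((nb (E \ t.sym2) u).card : ℝ) ≤ (nb E u).card := by exact_mod_cast h1
    have h2' : ((nb E u).card : ℝ) ≤ (nb (E \ t.sym2) u).card + 2 := by exact_mod_cast h2
    constructor <;> linarith

/-! ### parameters -/

namespace DPar

variable {i : ℕ} {δ : ℝ}

lemma npos (hP : DPar n i δ) : 0 < n := by
  rcases Nat.eq_zero_or_pos n with h | h
  · have := hP.dd_ge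
    subst h
    simp only [dd, Nat.cast_zero, zero_mul] at this
    linarith
  · exact h

lemma npos' (hP : DPar n i δ) : (0 : ℝ) < n := by exact_mod_cast hP.npos

lemma dd_pos (hP : DPar n i δ) : 0 < dd n i := by linarith [hP.dd_ge]

lemma kap_pos (hP : DPar n i δ) : 0 < kap n i := by
  have := hP.npos'
  have := hP.pp_pos
  unfold kap
  positivity

lemma dd_le_DD (hP : DPar n i δ) : dd n i ≤ DD n i := by
  have h1 := mul_pos hP.npos' hP.pp_pos
  have h2 := pp_le_one (n := n) i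
  unfold dd DD
  nlinarith

lemma DD_pos (hP : DPar n i δ) : 0 < DD n i := hP.dd_pos.trans_le hP.dd_le_DD

lemma dd_succ (hP : DPar n i δ) : dd n (i + 1) = dd n i * (1 - kap n i) ^ 2 := by
  unfold dd
  rw [pp_succ hP.npos hP.pp_pos]
  ring

lemma DD_succ (hP : DPar n i δ) : DD n (i + 1) = DD n i * (1 - kap n i) := by
  unfold DD
  rw [pp_succ hP.npos hP.pp_pos]
  ring

lemma dd_succ_ge (hP : DPar n i δ) : 81 / 100 * dd n i ≤ dd n (i + 1) := by
  have h1 : 81 / 100 ≤ (1 - kap n i) ^ 2 := by nlinarith [hP.kap_le, hP.kap_pos]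
  rw [hP.dd_succ, mul_comm]
  exact mul_le_mul_of_nonneg_left h1 hP.dd_pos.le

lemma DD_succ_ge (hP : DPar n i δ) : 81 / 100 * DD n i ≤ DD n (i + 1) := by
  rw [hP.DD_succ, mul_comm]
  exact mul_le_mul_of_nonneg_left (by linarith [hP.kap_le]) hP.DD_pos.le

lemma inv_dd (hP : DPar n i δ) : 0 ≤ 1 / dd n i ∧ 1 / dd n i ≤ 1 / 10 :=
  ⟨(one_div_pos.2 hP.dd_pos).le, one_div_le_one_div_of_le (by norm_num) hP.dd_ge⟩

lemma cn_eq (hP : DPar n i δ) (E : St n) (u v : Fin n) :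
    ((cn E u v).card : ℝ) = dd n i * (1 + eps i E u v) := by
  have := hP.dd_pos
  unfold eps
  field_simp
  ring

lemma nb_eq (hP : DPar n i δ) (E : St n) (u : Fin n) :
    ((nb E u).card : ℝ) = DD n i * (1 + bb i E u) := by
  have := hP.DD_pos
  unfold bb
  field_simp
  ring

lemma sum_cn (hP : DPar n i δ) (E : St n) (u : Fin n) (s : Finset (Fin n)) :
    ∑ w ∈ s, ((cn E u w).card : ℝ) = dd n i * s.card * (1 + avg s (eps i E u)) := by
  simp only [hP.cn_eq]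
  rw [← mul_sum, sum_add_distrib, ← card_mul_avg s (eps i E u)]
  simp only [sum_const, nsmul_eq_mul]
  ring

end DPar

lemma drift_card_oe {δ : ℝ} {i : ℕ} {E : St n} (hG : Good δ i E) :
    ((oe E).card : ℝ) = (n : ℝ) ^ 2 * pp n i := by
  rw [card_oe hG.reg.simple]
  push_cast
  rw [hG.card]
  ring

lemma abs_gam_le {δ : ℝ} {i : ℕ} {E : St n} (hP : DPar n i δ) (hG : Good δ i E) :
    |gam i E| ≤ δ := by
  exact abs_avg_le hP.δ_nonneg fun e he => hG.reg.cod e.1 e.2 (mem_oe.1 he)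

lemma card_tri_eq {δ : ℝ} {i : ℕ} {E : St n} (hP : DPar n i δ) (hG : Good δ i E) :
    ((triangles E).card : ℝ) = dd n i * (1 + gam i E) / kap n i := by
  have h1 := six_mul_card_tri hG.reg.simple
  simp only [hP.cn_eq] at h1
  rw [← mul_sum, sum_add_distrib, ← card_mul_avg (oe E) (fun e => eps i E e.1 e.2), sum_const,
    nsmul_eq_mul, drift_card_oe hG] at h1
  have hn := hP.npos'
  have hp := hP.pp_pos
  unfold kap gam
  field_simp
  linarith

lemma card_tri_ne_zero {δ : ℝ} {i : ℕ} {E : St n} (hP : DPar n i δ) (hG : Good δ i E) :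
    (triangles E).card ≠ 0 := by
  have hg : 0 < 1 + gam i E := by linarith [(abs_le.1 (abs_gam_le hP hG)).1, hP.δ_le]
  have h : (0 : ℝ) < (triangles E).card := by
    rw [card_tri_eq hP hG]
    exact div_pos (mul_pos hP.dd_pos hg) hP.kap_pos
  exact_mod_cast h.ne'

/-- A step from a good state keeps the predicted number of edges (`card_sdiff_tri`). -/
lemma card_step {δ : ℝ} {i : ℕ} {E E' : St n} (hP : DPar n i δ) (hG : Good δ i E)
    (hS : Step E E') : (E'.card : ℝ) = (n : ℝ) ^ 2 * pp n (i + 1) / 2 := by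
  rcases hS with ⟨h, -⟩ | ⟨t, ht, rfl⟩
  · exact absurd h (card_tri_ne_zero hP hG)
  · have h1 : ((E \ t.sym2).card : ℝ) + 3 = E.card := by
      exact_mod_cast card_sdiff_tri hG.reg.simple ht
    have h2 := hG.card
    have hn := hP.npos'
    have e : (n : ℝ) ^ 2 * pp n (i + 1) / 2 = (n : ℝ) ^ 2 * pp n i / 2 - 3 := by
      unfold pp
      push_cast
      field_simp
      ring
    linarith

/-- `γ - avg ρ = avg_oe (b_u + b_v) = 2 ∑ deg_u b_u / (n D) = (2/n) (∑ b + ∑ b²)` and `∑ b = 0`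
since `∑ deg = n D`. -/
lemma gam_le {δ : ℝ} {i : ℕ} {E : St n} (hP : DPar n i δ) (hG : Good δ i E) :
    |gam i E| ≤ |avg (oe E) (fun e => eps i E e.1 e.2 - bb i E e.1 - bb i E e.2)| + 2 * δ ^ 2 := by
  have hn := hP.npos'
  have hD := hP.DD_pos
  have hoe : ((oe E).card : ℝ) = n * DD n i := by
    rw [drift_card_oe hG]
    unfold DD
    ring
  have h0 : ∑ u, bb i E u = 0 := by
    have h1 := sum_card_nb E
    simp only [hP.nb_eq] at h1
    rw [← mul_sum, sum_add_distrib, hoe] at h1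
    simp only [sum_const, card_univ, Fintype.card_fin, nsmul_eq_mul, mul_one] at h1
    refine mul_left_cancel₀ hD.ne' ?_
    linarith
  have h1 : ∑ e ∈ oe E, bb i E e.1 = DD n i * ∑ u, bb i E u ^ 2 := by
    rw [sum_oe E (fun u _ => bb i E u)]
    simp only [sum_const, nsmul_eq_mul, hP.nb_eq]
    have e : ∀ u, DD n i * (1 + bb i E u) * bb i E u =
        DD n i * bb i E u + DD n i * bb i E u ^ 2 := fun u => by ring
    simp only [e]
    rw [sum_add_distrib, ← mul_sum, ← mul_sum, h0]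
    ring
  have h2 : ∑ e ∈ oe E, bb i E e.2 = DD n i * ∑ u, bb i E u ^ 2 := by
    rw [← h1]
    exact (sum_oe_swap E (fun u _ => bb i E u)).symm
  have h3 : 0 ≤ ∑ u, bb i E u ^ 2 := sum_nonneg fun _ _ => sq_nonneg _
  have h4 : ∑ u, bb i E u ^ 2 ≤ n * δ ^ 2 := by
    calc ∑ u, bb i E u ^ 2 ≤ ∑ _u : Fin n, δ ^ 2 := sum_le_sum fun u _ =>
          sq_le_sq' (abs_le.1 (hG.reg.deg u)).1 (abs_le.1 (hG.reg.deg u)).2
      _ = n * δ ^ 2 := by simp
  have h5 : gam i E = avg (oe E) (fun e => eps i E e.1 e.2 - bb i E e.1 - bb i E e.2) +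
      2 * ((∑ u, bb i E u ^ 2) / n) := by
    rw [avg_sub, avg_sub]
    unfold gam
    simp only [avg, h1, h2, hoe]
    field_simp
    ring
  have h6 : (∑ u, bb i E u ^ 2) / n ≤ δ ^ 2 := by
    rw [div_le_iff₀ hn]
    linarith
  have h7 : 0 ≤ (∑ u, bb i E u ^ 2) / n := by positivity
  rw [h5]
  refine (abs_add_le _ _).trans (add_le_add le_rfl ?_)
  rw [abs_of_nonneg (by positivity)]
  linarith

lemma drift_abs_A {δ : ℝ} {i : ℕ} {E : St n} (hP : DPar n i δ) (hG : Good δ i E) (u v : Fin n) :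
    |avg (cn E u v) (eps i E u) + avg (cn E u v) (eps i E v)| ≤ 2 * δ := by
  have h1 : |avg (cn E u v) (eps i E u)| ≤ δ :=
    abs_avg_le hP.δ_nonneg fun w hw => hG.reg.cod u w (mem_cn.1 hw).1
  have h2 : |avg (cn E u v) (eps i E v)| ≤ δ :=
    abs_avg_le hP.δ_nonneg fun w hw => hG.reg.cod v w (mem_cn.1 hw).2
  linarith [abs_add_le (avg (cn E u v) (eps i E u)) (avg (cn E u v) (eps i E v))]

lemma drift_abs_a {δ : ℝ} {i : ℕ} {E : St n} (hP : DPar n i δ) (hG : Good δ i E) (u : Fin n) :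
    |avg (nb E u) (eps i E u)| ≤ δ :=
  abs_avg_le hP.δ_nonneg fun w hw => hG.reg.cod u w (mem_nb.1 hw)

/-- mean drop of the codegree -/
lemma drift_mean_cn {δ : ℝ} {i : ℕ} {E : St n} (hP : DPar n i δ) (hG : Good δ i E) {u v : Fin n}
    (huv : s(u, v) ∈ E) :
    av E (fun E' => ((cn E u v).card : ℝ) - (cn E' u v).card) =
      dd n i * (1 + eps i E u v) * (kap n i * ((2 + (avg (cn E u v) (eps i E u) +
        avg (cn E u v) (eps i E v)) - 1 / dd n i) / (1 + gam i E))) := by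
  have hd := hP.dd_pos
  have hk := hP.kap_pos
  have hg : 0 < 1 + gam i E := by linarith [(abs_le.1 (abs_gam_le hP hG)).1, hP.δ_le]
  unfold av
  rw [if_neg (card_tri_ne_zero hP hG), sum_tri_cn_drop hG.reg.simple huv, card_tri_eq hP hG,
    sum_sub_distrib, sum_add_distrib, hP.sum_cn, hP.sum_cn, sum_const, nsmul_eq_mul, ← hP.cn_eq]
  field_simp
  ring

/-- mean drop of the degree -/
lemma drift_mean_nb {δ : ℝ} {i : ℕ} {E : St n} (hP : DPar n i δ) (hG : Good δ i E) (u : Fin n) :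
    av E (fun E' => ((nb E u).card : ℝ) - (nb E' u).card) =
      DD n i * (1 + bb i E u) * (kap n i * ((1 + avg (nb E u) (eps i E u)) / (1 + gam i E))) := by
  have hd := hP.dd_pos
  have hk := hP.kap_pos
  have hg : 0 < 1 + gam i E := by linarith [(abs_le.1 (abs_gam_le hP hG)).1, hP.δ_le]
  unfold av
  rw [if_neg (card_tri_ne_zero hP hG), sum_tri_nb_drop hG.reg.simple, card_tri_eq hP hG,
    hP.sum_cn, ← hP.nb_eq]
  field_simp

/-- Let `Y = #cn E u v = d (1+ε)`, `A = avg (cn) (eps u) + avg (cn) (eps v)`, `|A| ≤ 2δ`.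
By `sum_tri_cn_drop` the mean of the new codegree is `Y (1 - κ φ)`, `φ = (2 + A - 1/d)/(1+γ)`.
Write `φ = 2 + A - 2γ + r₁`, `r₁ = (-1/d - Aγ + 2γ²)/(1+γ)`, `|r₁| ≤ 2/d + 5δ²`, `0 ≤ φ ≤ 5/2`,
`1/(1-κ)² = 1 + 2κ + r₂`, `0 ≤ r₂ ≤ 4κ²`.  The mean of the new `eps` is
`(1+ε)(1-κφ)(1+2κ+r₂) - 1`; expand. (True constant about 12.) -/
theorem drift_eps {δ : ℝ} {i : ℕ} {E : St n} (hP : DPar n i δ) (hG : Good δ i E) {u v : Fin n}
    (huv : s(u, v) ∈ E) :
    |av E (fun E' => eps (i + 1) E' u v) - eps i E u v +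
        kap n i * (avg (cn E u v) (eps i E u) + avg (cn E u v) (eps i E v) - 2 * gam i E)| ≤
      30 * kap n i * (δ ^ 2 + 1 / dd n i + kap n i) := by
  have hd := hP.dd_pos
  have hk : 0 < 1 - kap n i := by linarith [hP.kap_le]
  have h1 := drift_av_aff E (fun E' => ((cn E' u v).card : ℝ)) (dd n (i + 1))
  rw [drift_mean_cn hP hG huv, hP.cn_eq E] at h1
  have h2 := drift_num_eps hP.kap_pos.le hP.kap_le hP.δ_le (ε := eps i E u v) (hG.reg.cod u v huv)
    (drift_abs_A hP hG u v) (abs_gam_le hP hG) hP.inv_dd.1 hP.inv_dd.2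
  have h3 : av E (fun E' => eps (i + 1) E' u v) = (1 + eps i E u v) * (1 - kap n i *
      ((2 + (avg (cn E u v) (eps i E u) + avg (cn E u v) (eps i E v)) - 1 / dd n i) /
        (1 + gam i E))) / (1 - kap n i) ^ 2 - 1 := by
    refine h1.trans ?_
    rw [hP.dd_succ]
    generalize (2 + (avg (cn E u v) (eps i E u) + avg (cn E u v) (eps i E v)) - 1 / dd n i) /
      (1 + gam i E) = φ
    field_simp
  rwa [h3]

/-- By `sum_tri_nb_drop` the mean of the new degree is `deg (1 - κ (1+a)/(1+γ))` with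
`a = avg (nb E u) (eps u)`; divide by `D (1-κ)`. -/
theorem drift_bb {δ : ℝ} {i : ℕ} {E : St n} (hP : DPar n i δ) (hG : Good δ i E) (u : Fin n) :
    |av E (fun E' => bb (i + 1) E' u) - bb i E u +
        kap n i * (avg (nb E u) (eps i E u) - gam i E)| ≤
      30 * kap n i * (δ ^ 2 + 1 / dd n i + kap n i) := by
  have hd := hP.DD_pos
  have hk : 0 < 1 - kap n i := by linarith [hP.kap_le]
  have h1 := drift_av_aff E (fun E' => ((nb E' u).card : ℝ)) (DD n (i + 1))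
  rw [drift_mean_nb hP hG u, hP.nb_eq E] at h1
  have h2 := drift_num_bb hP.kap_pos.le hP.kap_le hP.δ_le (b := bb i E u) (hG.reg.deg u)
    (drift_abs_a hP hG u) (abs_gam_le hP hG) hP.inv_dd.1
  have h3 : av E (fun E' => bb (i + 1) E' u) = (1 + bb i E u) * (1 - kap n i *
      ((1 + avg (nb E u) (eps i E u)) / (1 + gam i E))) / (1 - kap n i) - 1 := by
    refine h1.trans ?_
    rw [hP.DD_succ]
    generalize (1 + avg (nb E u) (eps i E u)) / (1 + gam i E) = φ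
    field_simp
  rwa [h3]

lemma av_Xe (δ : ℝ) (u v : Fin n) (j : ℕ) (E : St n) : av E (Xe δ u v j E) = 0 := by
  unfold Xe
  rw [av_const_mul, av_sub, av_const, sub_self, mul_zero]

lemma av_Xb (δ : ℝ) (u : Fin n) (j : ℕ) (E : St n) : av E (Xb δ u j E) = 0 := by
  unfold Xb
  rw [av_const_mul, av_sub, av_const, sub_self, mul_zero]

/-- The new codegree lies in `[Y-2, Y]` (`cn_drop_bounds`), so the new `eps` and its mean lie in
an interval of length `2 / (d (1-κ)²) ≤ 3/d`. -/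
theorem abs_Xe_le {δ : ℝ} {j : ℕ} (hP : DPar n j δ) (u v : Fin n) {E E' : St n} (hS : Step E E') :
    |Xe δ u v j E E'| ≤ 30 / dd n j := by
  have hd := hP.dd_pos
  have hd' := hP.dd_succ_ge
  unfold Xe
  by_cases h : Good δ j E ∧ s(u, v) ∈ E
  · rw [ind_true h, one_mul]
    refine (drift_inc (fun E' => ((cn E' u v).card : ℝ)) (by linarith)
      (drift_cn_step h.1.reg.simple u v) hS).trans ?_
    rw [div_le_div_iff₀ (by linarith) hd]
    linarith
  · rw [ind_false h, zero_mul, abs_zero]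
    positivity

theorem abs_Xb_le {δ : ℝ} {j : ℕ} (hP : DPar n j δ) (u : Fin n) {E E' : St n} (hS : Step E E') :
    |Xb δ u j E E'| ≤ 30 / dd n j := by
  have hd := hP.dd_pos
  have hd' := hP.DD_succ_ge
  have hD := hP.dd_le_DD
  unfold Xb
  by_cases h : Good δ j E
  · rw [ind_true h, one_mul]
    refine (drift_inc (fun E' => ((nb E' u).card : ℝ)) (by linarith)
      (drift_nb_step h.reg.simple u) hS).trans ?_
    rw [div_le_div_iff₀ (by linarith) hd]
    linarith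
  · rw [ind_false h, zero_mul, abs_zero]
    positivity

/-- Variance ≤ mean square deviation from the constant `Y/d' - 1`, which is
`av (ΔY²)/d'² ≤ 2 av ΔY / d'² = 2 Y κ φ / d'² ≤ 9 κ / d` (`ΔY ∈ {0,1,2}`). -/
theorem var_Xe_le {δ : ℝ} {j : ℕ} (hP : DPar n j δ) (u v : Fin n) (E : St n) :
    av E (fun E' => Xe δ u v j E E' ^ 2) ≤ 30 * kap n j / dd n j := by
  have hd := hP.dd_pos
  have hd' := hP.dd_succ_ge
  have hk := hP.kap_pos
  unfold Xe
  by_cases h : Good δ j E ∧ s(u, v) ∈ E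
  · simp only [ind_true h, one_mul]
    refine (drift_var (fun E' => ((cn E' u v).card : ℝ)) (by linarith)
      (drift_cn_step h.1.reg.simple u v)).trans ?_
    rw [drift_mean_cn hP h.1 h.2]
    obtain ⟨h0, h1⟩ := drift_phi hP.δ_le (drift_abs_A hP h.1 u v) (abs_gam_le hP h.1)
      hP.inv_dd.1 hP.inv_dd.2
    exact drift_num_var hd le_rfl hd' ((h.1.reg.cod u v h.2).trans hP.δ_le) h0 h1 hk.le
  · simp only [ind_false h, zero_mul]
    rw [av_const, zero_pow two_ne_zero]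
    positivity

/-- As `var_Xe_le`: `≤ 2 deg κ (1+a)/(1+γ) / D'² ≤ 4 κ / D ≤ 4 κ / d`. -/
theorem var_Xb_le {δ : ℝ} {j : ℕ} (hP : DPar n j δ) (u : Fin n) (E : St n) :
    av E (fun E' => Xb δ u j E E' ^ 2) ≤ 30 * kap n j / dd n j := by
  have hd := hP.dd_pos
  have hd' := hP.DD_succ_ge
  have hD := hP.dd_le_DD
  have hk := hP.kap_pos
  unfold Xb
  by_cases h : Good δ j E
  · simp only [ind_true h, one_mul]
    refine (drift_var (fun E' => ((nb E' u).card : ℝ)) (by linarith)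
      (drift_nb_step h.reg.simple u)).trans ?_
    rw [drift_mean_nb hP h u]
    obtain ⟨h0, h1⟩ := drift_psi hP.δ_le (drift_abs_a hP h u) (abs_gam_le hP h)
    exact drift_num_var hd hD hd' ((h.reg.deg u).trans hP.δ_le) h0 h1 hk.le
  · simp only [ind_false h, zero_mul]
    rw [av_const, zero_pow two_ne_zero]
    positivity

end Crest.Agent.R30
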