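import Crest.Agent.R30.Drift

/-!
# R30/FProb: given edges survive together with at most the product probability
-/

set_option autoImplicit false

open Finset
open Crest.CombinatoricsR.TriangleRemoval

namespace Crest.Agent.R30

variable {n : ℕ}

lemma fprob_exp_le {κ : ℝ} (h0 : 0 ≤ κ) (h1 : κ ≤ 1 / 2) :
    Real.exp (-κ) ≤ (1 - κ) * Real.exp (κ ^ 2) := by
  have hy : 0 ≤ κ + κ ^ 2 := by positivity
  have h2 := Real.quadratic_le_exp_of_nonneg hy
  have h3 : 1 ≤ (1 - κ) * (1 + (κ + κ ^ 2) + (κ + κ ^ 2) ^ 2 / 2) := by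
    have e : (1 - κ) * (1 + (κ + κ ^ 2) + (κ + κ ^ 2) ^ 2 / 2) =
        1 + κ ^ 2 * (1 - κ - κ ^ 2 - κ ^ 3) / 2 := by ring
    have h4 : κ ^ 2 ≤ 1 / 4 := by nlinarith
    have h5 : κ ^ 3 ≤ 1 / 8 := by nlinarith
    have h6 : 0 ≤ κ ^ 2 * (1 - κ - κ ^ 2 - κ ^ 3) := mul_nonneg (sq_nonneg _) (by linarith)
    rw [e]
    linarith
  have h4 : 1 ≤ (1 - κ) * Real.exp (κ + κ ^ 2) :=
    h3.trans (mul_le_mul_of_nonneg_left h2 (by linarith))
  calc Real.exp (-κ) = Real.exp (-κ) * 1 := (mul_one _).symm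
    _ ≤ Real.exp (-κ) * ((1 - κ) * Real.exp (κ + κ ^ 2)) :=
        mul_le_mul_of_nonneg_left h4 (Real.exp_pos _).le
    _ = (1 - κ) * (Real.exp (-κ) * Real.exp (κ + κ ^ 2)) := by ring
    _ = (1 - κ) * Real.exp (κ ^ 2) := by
        rw [← Real.exp_add]
        congr 2
        ring

/-- One step of the chain. -/
lemma fprob_step {δ ω : ℝ} {k s : ℕ} {E : St n} (hP : DPar n k δ) (hG : Good δ k E)
    (hω : 0 < ω) (hd : ω ≤ dd n k) (F : St n) (hF : F.card ≤ s) :
    av E (fun E' => ind (F ⊆ E')) ≤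
      Real.exp (-(kap n k * (F.card * (1 - (2 * δ + s / ω))))) * ind (F ⊆ E) := by
  by_cases hFE : F ⊆ E
  swap
  · rw [ind_false hFE, mul_zero, ← av_const E 0]
    exact av_mono fun E' hE' => (ind_false fun h => hFE (h.trans hE'.subset)).le
  rw [ind_true hFE, mul_one]
  refine le_trans ?_ (Real.add_one_le_exp _)
  have hQ0 := card_tri_ne_zero hP hG
  have hQ : (0 : ℝ) < (triangles E).card := by exact_mod_cast Nat.pos_of_ne_zero hQ0
  have hκ := hP.kap_pos
  have hdd := hP.dd_pos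
  have hδ := hP.δ_nonneg
  have hγ := abs_le.1 (abs_gam_le hP hG)
  have hQκ : kap n k * (triangles E).card = dd n k * (1 + gam k E) := by
    rw [card_tri_eq hP hG]
    field_simp
  have hH := card_hit_ge hG.reg.simple hFE (dd n k * (1 - δ)) (fun u v huv => by
    have := (abs_le.1 (hG.reg.cod u v (hFE huv))).1
    rw [mul_comm, ← le_div_iff₀ hdd]
    linarith)
  set H : ℝ := (((triangles E).filter (fun t => ¬ F ⊆ E \ t.sym2)).card : ℝ) with hHdef
  have hH0 : 0 ≤ H := Nat.cast_nonneg _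
  have hsum : ∑ t ∈ triangles E, ind (F ⊆ E \ t.sym2) = (triangles E).card - H := by
    rw [hHdef, ← sum_boole, card_eq_sum_ones (triangles E)]
    push_cast
    rw [← sum_sub_distrib]
    refine sum_congr rfl fun t _ => ?_
    by_cases h : F ⊆ E \ t.sym2
    · rw [ind_true h, if_neg (not_not.2 h), sub_zero]
    · rw [ind_false h, if_pos h, sub_self]
  have hm0 : (0 : ℝ) ≤ F.card := Nat.cast_nonneg _
  have hms : (F.card : ℝ) ≤ s := by exact_mod_cast hF
  have hx0 : 0 ≤ (s : ℝ) / ω := div_nonneg (Nat.cast_nonneg _) hω.le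
  have hx : (F.card : ℝ) ≤ dd n k * (s / ω) := by
    refine hms.trans ?_
    calc (s : ℝ) = ω * (s / ω) := by field_simp
      _ ≤ dd n k * (s / ω) := mul_le_mul_of_nonneg_right hd hx0
  have key : (F.card * (1 - (2 * δ + s / ω))) * (dd n k * (1 + gam k E)) ≤ H := by
    rcases le_total (1 - (2 * δ + s / ω)) 0 with h | h
    · refine le_trans (mul_nonpos_of_nonpos_of_nonneg (mul_nonpos_of_nonneg_of_nonpos hm0 h)
        (mul_nonneg hdd.le (by linarith [hP.δ_le]))) hH0
    · have h1 : (1 - (2 * δ + s / ω)) * (1 + gam k E) ≤ 1 - δ - s / ω := by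
        have h2 : (1 - (2 * δ + s / ω)) * (1 + gam k E) ≤ (1 - (2 * δ + s / ω)) * (1 + δ) :=
          mul_le_mul_of_nonneg_left (by linarith) h
        nlinarith [mul_nonneg hδ hx0, sq_nonneg δ]
      calc (F.card * (1 - (2 * δ + s / ω))) * (dd n k * (1 + gam k E))
          = (F.card * dd n k) * ((1 - (2 * δ + s / ω)) * (1 + gam k E)) := by ring
        _ ≤ (F.card * dd n k) * (1 - δ - s / ω) :=
            mul_le_mul_of_nonneg_left h1 (mul_nonneg hm0 hdd.le)
        _ = F.card * (dd n k * (1 - δ)) - F.card * (dd n k * (s / ω)) := by ring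
        _ ≤ F.card * (dd n k * (1 - δ)) - (F.card : ℝ) ^ 2 := by
            have := mul_le_mul_of_nonneg_left hx hm0
            nlinarith
        _ ≤ H := hH
  rw [← hQκ] at key
  unfold av
  rw [if_neg hQ0, hsum, inv_mul_le_iff₀ hQ]
  nlinarith

lemma fprob_chain {δ ω : ℝ} {i s : ℕ} (hP : ∀ k < i, DPar n k δ) (hω : 0 < ω)
    (hd : ∀ k < i, ω ≤ dd n k) (F : St n) (hF : F.card ≤ s) :
    EH i (fun h : Hist n => ind (∀ j < i, Good δ j (h j)) * ind (F ⊆ h i)) ≤
      Real.exp (-((∑ k ∈ range i, kap n k) * (F.card * (1 - (2 * δ + s / ω))))) := by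
  induction i with
  | zero =>
    simp only [range_zero, sum_empty, zero_mul, neg_zero, Real.exp_zero]
    rw [← EH_const (n := n) 0 1]
    exact EH_mono fun h _ => mul_le_one₀ (ind_le_one _) (ind_nonneg _) (ind_le_one _)
  | succ k ih =>
    have ih' := ih (fun j hj => hP j (by omega)) (fun j hj => hd j (by omega))
    set c := Real.exp (-(kap n k * (F.card * (1 - (2 * δ + s / ω))))) with hc
    have hc0 : 0 ≤ c := (Real.exp_pos _).le
    have h1 : EH (k + 1)
        (fun h : Hist n => ind (∀ j < k + 1, Good δ j (h j)) * ind (F ⊆ h (k + 1))) ≤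
        EH k (fun h : Hist n => c * (ind (∀ j < k, Good δ j (h j)) * ind (F ⊆ h k))) := by
      rw [EH]
      refine EH_mono fun h _ => ?_
      have e : ∀ E' : St n, (∀ j < k + 1, Good δ j (Function.update h (k + 1) E' j)) ↔
          ∀ j < k + 1, Good δ j (h j) := fun E' =>
        forall₂_congr fun j hj => by rw [Function.update_of_ne (by omega)]
      simp only [e, Function.update_self]
      rw [av_const_mul]
      by_cases hG : ∀ j < k + 1, Good δ j (h j)
      · rw [ind_true hG, ind_true (fun j hj => hG j (by omega)), one_mul, one_mul]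
        exact fprob_step (hP k (by omega)) (hG k (by omega)) hω (hd k (by omega)) F hF
      · rw [ind_false hG, zero_mul]
        exact mul_nonneg hc0 (mul_nonneg (ind_nonneg _) (ind_nonneg _))
    rw [EH_const_mul] at h1
    refine h1.trans ((mul_le_mul_of_nonneg_left ih' hc0).trans (le_of_eq ?_))
    rw [hc, ← Real.exp_add, sum_range_succ]
    congr 1
    ring

/-- Shrink `F` to exactly `m` edges (`Finset.exists_subset_card_eq`).  Put
`a k = EH k (ind ((∀ j < k, Good δ j (h j)) ∧ F ⊆ h k))`; by `EH_eq_sum_law` and `ind_and` the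
quantity to bound is `a i`.  One step, for `k < i`, at a state `E` with `Good δ k E`, `F ⊆ E`
(otherwise the integrand vanishes as `Step E E' → E' ⊆ E`): with `κ = kap n k`, `d = dd n k ≥ ω`,
`Q = d (1+γ)/κ ≤ d (1+δ)/κ` (`card_tri_eq`, `abs_gam_le`) and `H ≥ max 0 (m d (1-δ) - m²)` the
number of triangles hitting `F` (`card_hit_ge`):
`av E (ind (F ⊆ ·)) = 1 - H/Q ≤ 1 - κ m (1 - ζ₀) ≤ exp (-κ m (1-ζ₀))`, `ζ₀ = 2δ + s/ω`
(use `(1-δ-x)/(1+δ) ≥ 1-2δ-x` for `x ≥ 0`; if `1-δ-m/d < 0` use `H ≥ 0`).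
So `a i ≤ exp (-m (1-ζ₀) ∑ κ)`.  Finally `exp (-κ) ≤ (1-κ) exp (κ²)` for `κ ≤ 1/2`,
`∏ (1-κ) = pp i / pp 0`, `κ ≤ 6/n`, `∑ κ ≤ log n` (`parFacts`), `1 / pp 0 = 1/(1-1/n) ≤ exp (2/n)`. -/
theorem spread_law (δ ω ζ : ℝ) (i s : ℕ) (hp : 0 < pp n i) (hω : 10 ≤ ω) (hd : ω ≤ dd n i)
    (hn : 60 ≤ n) (hδ0 : 0 ≤ δ) (hδ : δ ≤ 1 / 10)
    (hζ : (2 * δ + s / ω + 6 / n) * Real.log n + 2 / n ≤ ζ) :
    Spread (law (n := n) δ i) (pp n i * Real.exp ζ) s := by
  have hPF : ParFacts n i := parFacts hp (by linarith)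
  have hn' : (60 : ℝ) ≤ n := by exact_mod_cast hn
  have hn0 : (0 : ℝ) < n := by linarith
  have h6 : 6 / (n : ℝ) ≤ 1 / 10 := by
    rw [div_le_div_iff₀ hn0 (by norm_num)]
    linarith
  have hdk : ∀ k < i, ω ≤ dd n k := fun k hk => hd.trans (hPF.dd_anti k i hk.le le_rfl)
  have hP : ∀ k < i, DPar n k δ := fun k hk =>
    ⟨hPF.pp_pos k hk.le, hδ0, hδ, hω.trans (hdk k hk), (hPF.kap_le k hk.le).trans h6⟩
  set S := ∑ k ∈ range i, kap n k with hS
  have hS1 : S ≤ Real.log n := hPF.sum_kap i le_rfl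
  have hζ0 : 0 ≤ 2 * δ + s / ω := by
    have : 0 ≤ (s : ℝ) / ω := div_nonneg (Nat.cast_nonneg _) (by linarith)
    linarith
  have hp0 : 0 < pp n 0 := hPF.pp_pos 0 (Nat.zero_le _)
  have h1 : Real.exp (-S) ≤ pp n i / pp n 0 * Real.exp (6 / n * S) := by
    rw [← hPF.prod_kap i le_rfl, hS, mul_sum, Real.exp_sum, ← prod_mul_distrib, ← sum_neg_distrib,
      Real.exp_sum]
    refine prod_le_prod (fun k _ => (Real.exp_pos _).le) fun k hk => ?_
    have hk' := (mem_range.1 hk).le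
    have a0 := (hPF.kap_pos k hk').le
    have a1 := hPF.kap_le k hk'
    refine (fprob_exp_le a0 (by linarith)).trans (mul_le_mul_of_nonneg_left ?_ (by linarith))
    rw [Real.exp_le_exp, sq]
    exact mul_le_mul_of_nonneg_right a1 a0
  have h2 : 1 / pp n 0 ≤ Real.exp (2 / n) := by
    rw [div_le_iff₀ hp0]
    have e : pp n 0 = 1 - 1 / (n : ℝ) := by simp [pp]
    have hx0 : 0 ≤ 1 / (n : ℝ) := by positivity
    have hx1 : 1 / (n : ℝ) ≤ 1 / 2 := one_div_le_one_div_of_le (by norm_num) (by linarith)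
    have h3 := Real.add_one_le_exp (2 / (n : ℝ))
    have e2 : 2 / (n : ℝ) = 2 * (1 / n) := by ring
    rw [e]
    calc (1 : ℝ) ≤ (2 * (1 / (n : ℝ)) + 1) * (1 - 1 / n) := by nlinarith
      _ ≤ Real.exp (2 / n) * (1 - 1 / n) :=
          mul_le_mul_of_nonneg_right (by rw [← e2]; exact h3) (by linarith)
  have h3 : Real.exp (-(S * (1 - (2 * δ + s / ω)))) ≤ pp n i * Real.exp ζ := by
    have h60 : 0 ≤ 6 / (n : ℝ) := by positivity
    calc Real.exp (-(S * (1 - (2 * δ + s / ω))))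
        = Real.exp (-S) * Real.exp ((2 * δ + s / ω) * S) := by
          rw [← Real.exp_add]
          congr 1
          ring
      _ ≤ (pp n i / pp n 0 * Real.exp (6 / n * S)) * Real.exp ((2 * δ + s / ω) * S) :=
          mul_le_mul_of_nonneg_right h1 (Real.exp_pos _).le
      _ = pp n i * (1 / pp n 0 * Real.exp ((2 * δ + s / ω + 6 / n) * S)) := by
          rw [add_mul (2 * δ + s / ω), Real.exp_add]
          ring
      _ ≤ pp n i * (Real.exp (2 / n) * Real.exp ((2 * δ + s / ω + 6 / n) * Real.log n)) := by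
          refine mul_le_mul_of_nonneg_left (mul_le_mul h2 ?_ (Real.exp_pos _).le
            (Real.exp_pos _).le) hp.le
          rw [Real.exp_le_exp]
          exact mul_le_mul_of_nonneg_left hS1 (by linarith)
      _ ≤ pp n i * Real.exp ζ := by
          refine mul_le_mul_of_nonneg_left ?_ hp.le
          rw [← Real.exp_add, Real.exp_le_exp]
          linarith
  refine ⟨law_nonneg δ i, fun F m hmF hms => ?_⟩
  obtain ⟨F', hF', rfl⟩ := exists_subset_card_eq hmF
  calc ∑ E, law δ i E * ind (F ⊆ E) ≤ ∑ E, law δ i E * ind (F' ⊆ E) :=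
        sum_le_sum fun E _ => mul_le_mul_of_nonneg_left (ind_mono fun h => hF'.trans h)
          (law_nonneg δ i E)
    _ = EH i (fun h : Hist n => ind (∀ j < i, Good δ j (h j)) * ind (F' ⊆ h i)) :=
        (EH_eq_sum_law δ i (fun E => ind (F' ⊆ E))).symm
    _ ≤ Real.exp (-(S * (F'.card * (1 - (2 * δ + s / ω))))) :=
        fprob_chain hP (by linarith) hdk F' hms
    _ = Real.exp (-(S * (1 - (2 * δ + s / ω)))) ^ F'.card := by
        rw [← Real.exp_nat_mul]
        congr 1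
        ring
    _ ≤ (pp n i * Real.exp ζ) ^ F'.card := pow_le_pow_left₀ (Real.exp_pos _).le h3 _

end Crest.Agent.R30
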