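import Crest.Agent.R30.TreeProb

/-!
# R30/Pair: comparing the graph with the tree

Use `couple` with `A = Fin L`, `κ = Finset (Fin n)`.  For a root `x = root e`: `ι = Idx n L`,
`π i = proj x i.1`, `S η = {i | InS E L L x L (ext η) i.1}`, `f η = ind (L ≤ tau E L L x (ext η))`.
`stop` gives the two stopping hypotheses (if `η'` agrees with `η` on `S η` then `ext η'` agrees
with `ext η` on `InS`, since `InS` contains `length < L`).  `ext (c ∘ π)` agrees with
`fun i => c (proj x i)` on nodes of depth `< L`, so `tau_congr` and `tau_pull` identify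
`f (c ∘ π)` with `ind (s(e.1,e.2) ∈ sweep E c L)`; `ET_tau` gives `avg f = q`.
-/

set_option autoImplicit false

open Finset
open Crest.CombinatoricsR.TriangleRemoval

namespace Crest.Agent.R30

variable {n : ℕ}

variable {E : St n} {L : ℕ}

/-- The examined coordinates. -/
def pair_S (E : St n) (L : ℕ) (x : TS n) (η : Idx n L → Fin L) : Set (Idx n L) :=
  {i | InS E L L x L (ext η) i.1}

/-- Survival on the tree. -/
noncomputable def pair_f (E : St n) (L : ℕ) (x : TS n) (η : Idx n L → Fin L) : ℝ :=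
  ind (L ≤ tau E L L x (ext η))

/-- The projection of the coordinates. -/
def pair_pi (L : ℕ) (x : TS n) (i : Idx n L) : Finset (Fin n) := proj x i.1

lemma pair_ext_apply {k : ℕ} (η : Idx n k → Fin L) (i : Node n) (h : i.1.length < k) :
    ext η i = (η ⟨i, h⟩ : ℕ) := by
  unfold ext; rw [dif_pos h]

lemma pair_stop {x : TS n} {η η' : Idx n L → Fin L} (h : ∀ i ∈ pair_S E L x η, η' i = η i) :
    pair_S E L x η' = pair_S E L x η ∧ pair_f E L x η' = pair_f E L x η := by
  have h1 := stop (E := E) (L := L) L x L (ext η) (ext η') (fun i hi => by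
    rw [pair_ext_apply η i hi.1, pair_ext_apply η' i hi.1, h ⟨i, hi.1⟩ hi])
  constructor
  · ext i
    simp only [pair_S, Set.mem_ofPred_eq, InS, h1.2]
  · refine ind_congr ?_
    have := h1.1
    omega

lemma pair_f_nonneg (x : TS n) (η : Idx n L → Fin L) : 0 ≤ pair_f E L x η := ind_nonneg _
lemma pair_f_le_one (x : TS n) (η : Idx n L → Fin L) : pair_f E L x η ≤ 1 := ind_le_one _

lemma pair_pull (hE : Simple E) {e : Fin n × Fin n} (he : e ∈ oe E)
    (c : Finset (Fin n) → Fin L) :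
    pair_f E L (root e) (c ∘ pair_pi L (root e)) =
      ind (s(e.1, e.2) ∈ sweep E (fun T => (c T : ℕ)) L) := by
  refine ind_congr ?_
  rw [tau_congr (ω := fun i => (c (proj (root e) i) : ℕ))
    (fun i hi => by rw [pair_ext_apply _ i hi]; rfl)]
  exact tau_pull hE (fun T => (c T : ℕ)) L (root e) L (mem_oe.1 he) le_rfl le_rfl
    (fun o ho => by simp [root] at ho)

lemma pair_avg_f (hL : 0 < L) (x : TS n) : avg univ (pair_f E L x) = q E L x L :=
  ET_tau hL L x L le_rfl le_rfl

lemma pair_inj_iff (x : TS n) (η : Idx n L → Fin L) :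
    Set.InjOn (pair_pi L x) (pair_S E L x η) ↔
      Set.InjOn (proj x) {i | InS E L L x L (ext η) i} := by
  constructor
  · intro h i hi j hj e
    have := h (x₁ := ⟨i, hi.1⟩) hi (x₂ := ⟨j, hj.1⟩) hj e
    exact congrArg Subtype.val this
  · intro h i hi j hj e
    exact Subtype.ext (h hi hj e)

lemma pair_avg_bad (x : TS n) :
    avg univ (fun η => ind (¬ Set.InjOn (pair_pi L x) (pair_S E L x η))) = bad E L x :=
  avg_congr fun η _ => ind_congr (not_congr (pair_inj_iff x η))

lemma pair_avg_hit (x : TS n) (T : Finset (Fin n)) :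
    avg univ (fun η => ind (∃ i ∈ pair_S E L x η, pair_pi L x i = T)) = hit E L x T :=
  avg_congr fun η _ => ind_congr
    ⟨fun ⟨i, hi, e⟩ => ⟨i.1, hi, e⟩, fun ⟨i, hi, e⟩ => ⟨⟨i, hi.1⟩, hi, e⟩⟩

theorem single_bound (hE : Simple E) (hL : 0 < L) {e : Fin n × Fin n} (he : e ∈ oe E) :
    |EC L (fun c => ind (s(e.1, e.2) ∈ sweep E c L)) - q E L (root e) L| ≤ bad E L (root e) := by
  have : Nonempty (Fin L) := ⟨⟨0, hL⟩⟩
  have h := couple (A := Fin L) (pair_pi L (root e)) (pair_S E L (root e))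
    (fun η η' h => (pair_stop h).1) (pair_f E L (root e)) (pair_f_nonneg _) (pair_f_le_one _)
    (fun η η' h => (pair_stop h).2)
  rw [pair_avg_f hL, pair_avg_bad] at h
  simp only [pair_pull hE he] at h
  exact h

/-- Same with `ι = Idx n L ⊕ Idx n L`, `π = Sum.elim π₁ π₂`, `S η = inl '' S₁ (η ∘ inl) ∪
inr '' S₂ (η ∘ inr)`, `f η = f₁ (η ∘ inl) * f₂ (η ∘ inr)`.  If `π` is not injective on `S η` then
`π₁` or `π₂` is not injective on its set, or some `T` is hit by both; use `avg_sum_type` (also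
with one factor `1`) for all terms. -/
theorem pair_bound (hE : Simple E) (hL : 0 < L) {e e' : Fin n × Fin n} (he : e ∈ oe E)
    (he' : e' ∈ oe E) :
    EC L (fun c => ind (s(e.1, e.2) ∈ sweep E c L) * ind (s(e'.1, e'.2) ∈ sweep E c L)) ≤
      q E L (root e) L * q E L (root e') L + bad E L (root e) + bad E L (root e') +
        ∑ T, hit E L (root e) T * hit E L (root e') T := by
  have : Nonempty (Fin L) := ⟨⟨0, hL⟩⟩
  have hst : ∀ η η' : Idx n L ⊕ Idx n L → Fin L,
      (∀ i ∈ {i : Idx n L ⊕ Idx n L | Sum.elim (pair_S E L (root e) (η ∘ Sum.inl))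
        (pair_S E L (root e') (η ∘ Sum.inr)) i}, η' i = η i) →
      (∀ i ∈ pair_S E L (root e) (η ∘ Sum.inl), (η' ∘ Sum.inl) i = (η ∘ Sum.inl) i) ∧
      (∀ i ∈ pair_S E L (root e') (η ∘ Sum.inr), (η' ∘ Sum.inr) i = (η ∘ Sum.inr) i) :=
    fun η η' h => ⟨fun i hi => h (Sum.inl i) hi, fun i hi => h (Sum.inr i) hi⟩
  have h := couple (A := Fin L) (Sum.elim (pair_pi L (root e)) (pair_pi L (root e')))
    (fun η => {i : Idx n L ⊕ Idx n L | Sum.elim (pair_S E L (root e) (η ∘ Sum.inl))
        (pair_S E L (root e') (η ∘ Sum.inr)) i})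
    (fun η η' h => by
      obtain ⟨h1, h2⟩ := hst η η' h
      rw [(pair_stop h1).1, (pair_stop h2).1])
    (fun η => pair_f E L (root e) (η ∘ Sum.inl) * pair_f E L (root e') (η ∘ Sum.inr))
    (fun η => mul_nonneg (pair_f_nonneg _ _) (pair_f_nonneg _ _))
    (fun η => mul_le_one₀ (pair_f_le_one _ _) (pair_f_nonneg _ _) (pair_f_le_one _ _))
    (fun η η' h => by
      obtain ⟨h1, h2⟩ := hst η η' h
      simp only [(pair_stop h1).2, (pair_stop h2).2])
  rw [avg_sum_type, pair_avg_f hL, pair_avg_f hL] at h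
  have e1 : avg univ (fun c : Finset (Fin n) → Fin L =>
      pair_f E L (root e) ((c ∘ Sum.elim (pair_pi L (root e)) (pair_pi L (root e'))) ∘ Sum.inl) *
      pair_f E L (root e') ((c ∘ Sum.elim (pair_pi L (root e)) (pair_pi L (root e'))) ∘ Sum.inr)) =
      EC L (fun c => ind (s(e.1, e.2) ∈ sweep E c L) * ind (s(e'.1, e'.2) ∈ sweep E c L)) := by
    refine avg_congr fun c _ => ?_
    exact congrArg₂ (· * ·) (pair_pull hE he c) (pair_pull hE he' c)
  rw [e1] at h
  have e2 : avg univ (fun η : Idx n L ⊕ Idx n L → Fin L =>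
      ind (¬ Set.InjOn (Sum.elim (pair_pi L (root e)) (pair_pi L (root e')))
        {i : Idx n L ⊕ Idx n L | Sum.elim (pair_S E L (root e) (η ∘ Sum.inl))
          (pair_S E L (root e') (η ∘ Sum.inr)) i})) ≤
      bad E L (root e) + bad E L (root e') + ∑ T, hit E L (root e) T * hit E L (root e') T := by
    have a1 := avg_sum_type (A := Fin L) (ι := Idx n L) (κ := Idx n L)
      (fun η => ind (¬ Set.InjOn (pair_pi L (root e)) (pair_S E L (root e) η))) (fun _ => 1)
    have a2 := avg_sum_type (A := Fin L) (ι := Idx n L) (κ := Idx n L) (fun _ => 1)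
      (fun η => ind (¬ Set.InjOn (pair_pi L (root e')) (pair_S E L (root e') η)))
    rw [avg_const univ_nonempty, pair_avg_bad] at a1 a2
    simp only [mul_one, one_mul] at a1 a2
    have a3 : ∀ T, avg univ (fun η : Idx n L ⊕ Idx n L → Fin L =>
        ind (∃ i ∈ pair_S E L (root e) (η ∘ Sum.inl), pair_pi L (root e) i = T) *
        ind (∃ i ∈ pair_S E L (root e') (η ∘ Sum.inr), pair_pi L (root e') i = T)) =
        hit E L (root e) T * hit E L (root e') T := fun T => by
      rw [← pair_avg_hit, ← pair_avg_hit]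
      exact avg_sum_type (A := Fin L) (ι := Idx n L) (κ := Idx n L)
        (fun η => ind (∃ i ∈ pair_S E L (root e) η, pair_pi L (root e) i = T))
        (fun η => ind (∃ i ∈ pair_S E L (root e') η, pair_pi L (root e') i = T))
    rw [← a1, ← a2, ← sum_congr rfl fun T _ => a3 T, ← avg_sum, ← avg_add, ← avg_add]
    refine avg_mono fun η _ => ?_
    have n1 := ind_nonneg (¬ Set.InjOn (pair_pi L (root e)) (pair_S E L (root e) (η ∘ Sum.inl)))
    have n2 := ind_nonneg (¬ Set.InjOn (pair_pi L (root e')) (pair_S E L (root e') (η ∘ Sum.inr)))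
    have n3 : ∀ T, 0 ≤ ind (∃ i ∈ pair_S E L (root e) (η ∘ Sum.inl), pair_pi L (root e) i = T) *
        ind (∃ i ∈ pair_S E L (root e') (η ∘ Sum.inr), pair_pi L (root e') i = T) :=
      fun T => mul_nonneg (ind_nonneg _) (ind_nonneg _)
    have n4 := sum_nonneg (s := univ) fun T _ => n3 T
    by_cases h1 : Set.InjOn (pair_pi L (root e)) (pair_S E L (root e) (η ∘ Sum.inl))
    swap
    · rw [ind_true h1]
      exact (ind_le_one _).trans (by linarith)
    by_cases h2 : Set.InjOn (pair_pi L (root e')) (pair_S E L (root e') (η ∘ Sum.inr))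
    swap
    · rw [ind_true h2]
      exact (ind_le_one _).trans (by linarith)
    by_cases h3 : ∃ T, (∃ i ∈ pair_S E L (root e) (η ∘ Sum.inl), pair_pi L (root e) i = T) ∧
        (∃ i ∈ pair_S E L (root e') (η ∘ Sum.inr), pair_pi L (root e') i = T)
    · obtain ⟨T, h4, h5⟩ := h3
      have n5 := single_le_sum (s := univ) (fun T _ => n3 T) (mem_univ T)
      simp only [ind_true h4, ind_true h5, mul_one] at n5
      exact (ind_le_one _).trans (by linarith)
    · rw [ind_false]
      · linarith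
      · rw [not_not]
        rintro (i | i) hi (j | j) hj hij
        · exact congrArg Sum.inl (h1 hi hj hij)
        · exact absurd ⟨_, ⟨i, hi, rfl⟩, ⟨j, hj, hij.symm⟩⟩ h3
        · exact absurd ⟨_, ⟨j, hj, rfl⟩, ⟨i, hi, hij⟩⟩ h3
        · exact congrArg Sum.inr (h2 hi hj hij)
  have := (abs_le.1 h).2
  linarith

/-- `2 #sweep = #oe (sweep) = ∑ e ∈ oe E, ind (e ∈ sweep) =: X` (`card_oe`, `sweep_subset`);
`EC (X - c')² = EC X² - 2 c' EC X + c'²` (`avg_add`, `avg_sum`, ...), with
`EC X² ≤ m² + 2 #oe Z + ∑_T (∑_e hit)²` (`pair_bound`) and `EC X ≥ m - Z` (`single_bound`),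
`m = ∑ q`, `Z = ∑ bad`. -/
theorem second_moment (hE : Simple E) (hL : 0 < L) (c' : ℝ) (hc : 0 ≤ c') :
    EC L (fun c => (2 * ((sweep E c L).card : ℝ) - c') ^ 2) ≤
      (∑ e ∈ oe E, q E L (root e) L - c') ^ 2 +
        2 * ((oe E).card + c') * ∑ e ∈ oe E, bad E L (root e) +
        ∑ T, (∑ e ∈ oe E, hit E L (root e) T) ^ 2 := by
  have : Nonempty (Fin L) := ⟨⟨0, hL⟩⟩
  have hX : ∀ c : Finset (Fin n) → ℕ, 2 * ((sweep E c L).card : ℝ) =
      ∑ e ∈ oe E, ind (s(e.1, e.2) ∈ sweep E c L) := by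
    intro c
    have h1 : ((oe (sweep E c L)).card : ℝ) = 2 * ((sweep E c L).card : ℝ) := by
      exact_mod_cast card_oe (hE.subset (sweep_subset E c L))
    have h2 : oe (sweep E c L) = (oe E).filter fun e => s(e.1, e.2) ∈ sweep E c L := by
      ext e
      simp only [mem_oe, mem_filter]
      exact ⟨fun h => ⟨sweep_subset E c L h, h⟩, fun h => h.2⟩
    rw [← h1, h2]
    simp only [ind_eq_ite, sum_boole]
  have hexp : EC L (fun c => (2 * ((sweep E c L).card : ℝ) - c') ^ 2) =
      ∑ e ∈ oe E, ∑ e' ∈ oe E,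
        EC L (fun c => ind (s(e.1, e.2) ∈ sweep E c L) * ind (s(e'.1, e'.2) ∈ sweep E c L)) -
      2 * c' * ∑ e ∈ oe E, EC L (fun c => ind (s(e.1, e.2) ∈ sweep E c L)) + c' ^ 2 := by
    unfold EC
    simp only [← avg_sum]
    rw [← avg_const_mul, ← avg_sub,
      ← avg_const (s := (univ : Finset (Finset (Fin n) → Fin L))) univ_nonempty (c' ^ 2), ← avg_add]
    refine avg_congr fun c _ => ?_
    rw [hX, ← sum_mul_sum]
    ring
  have h1 : ∑ e ∈ oe E, ∑ e' ∈ oe E,
      EC L (fun c => ind (s(e.1, e.2) ∈ sweep E c L) * ind (s(e'.1, e'.2) ∈ sweep E c L)) ≤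
      (∑ e ∈ oe E, q E L (root e) L) ^ 2 + 2 * (oe E).card * ∑ e ∈ oe E, bad E L (root e) +
        ∑ T, (∑ e ∈ oe E, hit E L (root e) T) ^ 2 := by
    refine (sum_le_sum fun e he => sum_le_sum fun e' he' => pair_bound hE hL he he').trans
      (le_of_eq ?_)
    simp only [sum_add_distrib, sum_const, nsmul_eq_mul, ← mul_sum]
    have e3 : ∑ e ∈ oe E, ∑ e' ∈ oe E, ∑ T, hit E L (root e) T * hit E L (root e') T =
        ∑ T, (∑ e ∈ oe E, hit E L (root e) T) ^ 2 := by
      simp only [sq, sum_mul_sum]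
      rw [sum_comm (s := univ)]
      exact sum_congr rfl fun e _ => sum_comm
    rw [e3, ← sum_mul]
    ring
  have h2 : ∑ e ∈ oe E, q E L (root e) L - ∑ e ∈ oe E, bad E L (root e) ≤
      ∑ e ∈ oe E, EC L (fun c => ind (s(e.1, e.2) ∈ sweep E c L)) := by
    rw [← sum_sub_distrib]
    refine sum_le_sum fun e he => ?_
    have := (abs_le.1 (single_bound hE hL he)).1
    linarith
  rw [hexp]
  nlinarith [mul_le_mul_of_nonneg_left h2 hc]

end Crest.Agent.R30
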