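import Crest.Agent.R30.TreeProbAux1

/-!
# R30/TreeProbAux2: the chain bound (helper68)
-/

set_option autoImplicit false

open Finset
open Crest.CombinatoricsR.TriangleRemoval

namespace Crest.Agent.R30

variable {n : ℕ}

variable {E : St n} {L : ℕ}

lemma treeprob_pow_add (a b : ℝ) (ha : 0 ≤ a) (hb : 0 ≤ b) (j : ℕ) :
    a ^ (j + 1) + ((j : ℝ) + 1) * b * a ^ j ≤ (a + b) ^ (j + 1) := by
  induction j with
  | zero => simp
  | succ j ih =>
    have h1 : 0 ≤ ((j : ℝ) + 1) * b * a ^ j * b := by positivity
    calc a ^ (j + 1 + 1) + (((j + 1 : ℕ) : ℝ) + 1) * b * a ^ (j + 1)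
        ≤ (a ^ (j + 1) + ((j : ℝ) + 1) * b * a ^ j) * (a + b) := by
          have : (a ^ (j + 1) + ((j : ℝ) + 1) * b * a ^ j) * (a + b) =
              a ^ (j + 1 + 1) + (((j + 1 : ℕ) : ℝ) + 1) * b * a ^ (j + 1) +
                ((j : ℝ) + 1) * b * a ^ j * b := by push_cast; ring
          linarith
      _ ≤ (a + b) ^ (j + 1) * (a + b) := mul_le_mul_of_nonneg_right ih (by positivity)
      _ = (a + b) ^ (j + 1 + 1) := by ring

lemma treeprob_sum_pow (wt : ℕ → ℝ) (h0 : ∀ r, 0 ≤ wt r) (j r : ℕ) :
    ∑ r' ∈ range r, wt r' * ((∑ u ∈ range r', wt u) ^ j / (j.factorial : ℝ)) ≤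
      (∑ u ∈ range r, wt u) ^ (j + 1) / ((j + 1).factorial : ℝ) := by
  induction r with
  | zero => simp
  | succ r ih =>
    rw [sum_range_succ, sum_range_succ (f := wt)]
    have ha : 0 ≤ ∑ u ∈ range r, wt u := sum_nonneg fun u _ => h0 u
    have h := treeprob_pow_add _ _ ha (h0 r) j
    have hf : (0 : ℝ) < j.factorial := by exact_mod_cast j.factorial_pos
    have e : wt r * ((∑ u ∈ range r, wt u) ^ j / (j.factorial : ℝ)) =
        ((j : ℝ) + 1) * wt r * (∑ u ∈ range r, wt u) ^ j / ((j + 1).factorial : ℝ) := by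
      rw [Nat.factorial_succ]; push_cast; field_simp
    rw [e]
    refine le_trans (add_le_add_left ih _) ?_
    rw [← add_div]
    exact div_le_div_of_nonneg_right h (by positivity)

/-- The event of the claim. -/
def tpEv (E : St n) (L k : ℕ) (x : TS n) (g : Stp n) (r : ℕ) (l : List (Stp n))
    (ω : Node n → ℕ) : Prop :=
  ω ([], g.1) = r ∧ g.1 ∈ ch E x ∧ r ≤ tau E L (k + 1) x ω ∧
    Ex E L k (child x g) (dl E L k x g.1 ω) l (sh g ω)

/-- The horizon with the clock of the apex replaced by `r`. -/
def tpDl (E : St n) (L k : ℕ) (x : TS n) (w : Fin n) (r : ℕ) (ω : Node n → ℕ) : ℕ :=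
  min (min (tau E L k (child x (w, false)) (sh (w, false) ω) + 1)
    (tau E L k (child x (w, true)) (sh (w, true) ω) + 1)) r

/-- Step 1: split off the clock of the apex and the other apexes. -/
lemma treeprob_step1 (hL : 0 < L) (k : ℕ) (x : TS n) (g : Stp n) (r : ℕ) (hrk : r ≤ k)
    (hrL : r < L) (l : List (Stp n)) (Ψ : (Node n → ℕ) → ℝ) (hΨ : ∀ ω, 0 ≤ Ψ ω) :
    ET L (k + 1) (fun ω => ind (tpEv E L k x g r l ω) * Ψ (shL l (sh g ω))) ≤
      (L : ℝ)⁻¹ * q2 E L x g.1 r *
        ET L (k + 1) (fun ω => ind (Ex E L k (child x g) (tpDl E L k x g.1 r ω) l (sh g ω)) *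
          Ψ (shL l (sh g ω))) := by
  set Θ : (Node n → ℕ) → ℝ := fun ω =>
    ind (Ex E L k (child x g) (tpDl E L k x g.1 r ω) l (sh g ω)) * Ψ (shL l (sh g ω)) with hΘ
  have hΘD : DependsOn Θ (tpD g.1) := by
    intro ω ω' h
    have h1 := treeprob_sh_eq_of_D h g rfl
    have h2 := treeprob_sh_eq_of_D h (g.1, false) rfl
    have h3 := treeprob_sh_eq_of_D h (g.1, true) rfl
    simp only [hΘ, tpDl, h1, h2, h3]
  have hC : DependsOn (fun ω : Node n → ℕ => ind (ω ([], g.1) = r) * Θ ω) (tpC g.1) := by
    intro ω ω' h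
    have h1 : ω ([], g.1) = ω' ([], g.1) := h _ (Or.inl rfl)
    have h2 : Θ ω = Θ ω' := hΘD fun i hi => h i (Or.inr hi)
    simp only [h1, h2]
  have hP : DependsOn (fun ω : Node n → ℕ =>
      ∏ w ∈ (ch E x).erase g.1, (1 - ind (tpAcc E L k x w r ω))) (tpC g.1)ᶜ := by
    intro ω ω' h
    refine prod_congr rfl fun w hw => ?_
    refine treeprob_dep_acc k x w r fun i hi => h i ?_
    exact Set.disjoint_left.1 (treeprob_disj_C (ne_of_mem_erase hw)) hi
  have key : ET L (k + 1) (fun ω => (∏ w ∈ (ch E x).erase g.1, (1 - ind (tpAcc E L k x w r ω))) *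
      (ind (ω ([], g.1) = r) * Θ ω)) = (L : ℝ)⁻¹ * q2 E L x g.1 r * ET L (k + 1) Θ := by
    rw [ET_mul_indep hL _ _ _ _ disjoint_compl_left hP hC,
      treeprob_prod_fac hL k (treeprob_ET_tau hL k) x _ r (by omega) hrL.le,
      treeprob_coord_mul hL k g.1 r hrL Θ hΘD, q2]
    ring
  rw [← key]
  refine ET_mono hL fun ω _ => ?_
  rw [treeprob_prod_ind, hΘ]
  simp only
  rw [← mul_assoc, ← mul_assoc, ← ind_and, ← ind_and]
  refine mul_le_mul_of_nonneg_right (ind_mono ?_) (hΨ _)
  rintro ⟨h1, h2, h3, h4⟩
  refine ⟨⟨fun w hw => (treeprob_le_tau k x ω r hrL.le).1 h3 w (mem_of_mem_erase hw), h1⟩, ?_⟩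
  have : tpDl E L k x g.1 r ω = dl E L k x g.1 ω := by rw [tpDl, dl, h1]
  rw [this]; exact h4

/-- The sibling step. -/
def tpSib (g : Stp n) : Stp n := (g.1, !g.2)

lemma tpSib_ne (g : Stp n) : tpSib g ≠ g := by
  intro h
  have := congrArg Prod.snd h
  simp [tpSib] at this

lemma treeprob_lt_dl {k : ℕ} {x : TS n} {g : Stp n} {r r' : ℕ} {ω : Node n → ℕ}
    (h : r' < tpDl E L k x g.1 r ω) :
    r' < r ∧ r' ≤ tau E L k (child x (tpSib g)) (sh (tpSib g) ω) := by
  obtain ⟨w, b⟩ := g
  simp only [tpDl, lt_min_iff] at h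
  cases b
  · exact ⟨h.2, Nat.lt_succ_iff.1 h.1.2⟩
  · exact ⟨h.2, Nat.lt_succ_iff.1 h.1.1⟩

/-- The claim. -/
lemma treeprob_claim (hL : 0 < L) (wt : ℕ → ℝ) (h0 : ∀ r, 0 ≤ wt r)
    (hw : ∀ x y : TS n, s(x.a, x.b) ∈ E → s(y.a, y.b) ∈ E → ∀ (w : Fin n), ∀ r < L,
      q E L y r * q2 E L x w r ≤ L * wt r)
    (Ψ : (Node n → ℕ) → ℝ) (hΨ : ∀ ω, 0 ≤ Ψ ω) (l : List (Stp n)) :
    ∀ (k : ℕ) (x : TS n) (g : Stp n) (r : ℕ), r ≤ k → r < L →
      ET L (k + 1) (fun ω => ind (tpEv E L k x g r l ω) * Ψ (shL l (sh g ω))) ≤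
        (L : ℝ)⁻¹ * q2 E L x g.1 r * ((∑ u ∈ range r, wt u) ^ l.length /
          (l.length.factorial : ℝ) * ET L (k - l.length) Ψ) := by
  have hL' : (0 : ℝ) < L := by exact_mod_cast hL
  induction l with
  | nil =>
    intro k x g r hrk hrL
    refine (treeprob_step1 hL k x g r hrk hrL [] Ψ hΨ).trans (le_of_eq ?_)
    congr 1
    simp only [List.length_nil, pow_zero, Nat.factorial_zero, Nat.cast_one, div_one, one_mul,
      Nat.sub_zero]
    rw [← ET_sh hL g Ψ]
    refine ET_congr hL fun ω _ => ?_
    rw [ind_true (Ex_nil _ _ _ _ _ _), one_mul]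
    rfl
  | cons g' l' ih =>
    intro k x g r hrk hrL
    have hq2 := (q2_mem E L r hrL.le x g.1).1
    have hW : ∀ r, 0 ≤ ∑ u ∈ range r, wt u := fun r => sum_nonneg fun u _ => h0 u
    have hET : ∀ m, 0 ≤ ET L m Ψ := fun m => ET_nonneg hΨ
    by_cases hg : g.1 ∈ ch E x
    swap
    · have : ET L (k + 1) (fun ω => ind (tpEv E L k x g r (g' :: l') ω) *
          Ψ (shL (g' :: l') (sh g ω))) = 0 := by
        rw [← ET_const (n := n) (k := k + 1) hL 0]
        refine ET_congr hL fun ω _ => ?_
        rw [ind_false (fun h => hg h.2.1), zero_mul]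
      rw [this]
      have := hW r
      have := hET (k - (g' :: l').length)
      positivity
    refine (treeprob_step1 hL k x g r hrk hrL _ Ψ hΨ).trans ?_
    refine mul_le_mul_of_nonneg_left ?_ (by positivity)
    cases k with
    | zero =>
      have : ET L (0 + 1) (fun ω => ind (Ex E L 0 (child x g) (tpDl E L 0 x g.1 r ω) (g' :: l')
          (sh g ω)) * Ψ (shL (g' :: l') (sh g ω))) = 0 := by
        rw [← ET_const (n := n) (k := 0 + 1) hL 0]
        refine ET_congr hL fun ω _ => ?_
        rw [ind_false (Ex_zero_cons _ _ _ _ _ _ _), zero_mul]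
      rw [this]
      have := hW r
      have := hET (0 - (g' :: l').length)
      positivity
    | succ k =>
      have hy : s((child x g).a, (child x g).b) ∈ E := edge_child hg
      have hz : s((child x (tpSib g)).a, (child x (tpSib g)).b) ∈ E :=
        edge_child (g := tpSib g) hg
      have hlen : k + 1 - (g' :: l').length = k - l'.length := by
        simp only [List.length_cons]; omega
      rw [hlen, List.length_cons]
      calc _ ≤ ET L (k + 1 + 1) (fun ω => ∑ r' ∈ range r,
            ind (r' ≤ tau E L (k + 1) (child x (tpSib g)) (sh (tpSib g) ω)) *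
              (ind (tpEv E L k (child x g) g' r' l' (sh g ω)) *
                Ψ (shL l' (sh g' (sh g ω))))) := by
            refine ET_mono hL fun ω _ => ?_
            by_cases h : Ex E L (k + 1) (child x g) (tpDl E L (k + 1) x g.1 r ω) (g' :: l')
              (sh g ω)
            · rw [ind_true h, one_mul]
              rw [Ex_succ_cons] at h
              obtain ⟨h1, h2, h3, h4⟩ := h
              obtain ⟨h5, h6⟩ := treeprob_lt_dl h2
              refine le_trans (le_of_eq ?_) (single_le_sum (f := fun r' =>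
                ind (r' ≤ tau E L (k + 1) (child x (tpSib g)) (sh (tpSib g) ω)) *
                  (ind (tpEv E L k (child x g) g' r' l' (sh g ω)) *
                    Ψ (shL l' (sh g' (sh g ω)))))
                (fun r' _ => mul_nonneg (ind_nonneg _) (mul_nonneg (ind_nonneg _) (hΨ _)))
                (mem_range.2 h5))
              rw [ind_true h6, ind_true ⟨rfl, h1, h3, h4⟩, one_mul, one_mul]
              rfl
            · rw [ind_false h, zero_mul]
              exact sum_nonneg fun r' _ =>
                mul_nonneg (ind_nonneg _) (mul_nonneg (ind_nonneg _) (hΨ _))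
        _ = ∑ r' ∈ range r, q E L (child x (tpSib g)) r' *
              ET L (k + 1) (fun ω => ind (tpEv E L k (child x g) g' r' l' ω) *
                Ψ (shL l' (sh g' ω))) := by
            rw [ET_sum]
            refine sum_congr rfl fun r' hr' => ?_
            have := mem_range.1 hr'
            rw [treeprob_two hL (k + 1) (tpSib_ne g)
              (fun ω => ind (r' ≤ tau E L (k + 1) (child x (tpSib g)) ω))
              (fun ω => ind (tpEv E L k (child x g) g' r' l' ω) * Ψ (shL l' (sh g' ω))),
              treeprob_ET_tau hL (k + 1) _ r' (by omega) (by omega)]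
        _ ≤ ∑ r' ∈ range r, wt r' * ((∑ u ∈ range r', wt u) ^ l'.length /
              (l'.length.factorial : ℝ)) * ET L (k - l'.length) Ψ := by
            refine sum_le_sum fun r' hr' => ?_
            have hr'' := mem_range.1 hr'
            have h1 := ih k (child x g) g' r' (by omega) (by omega)
            have h2 := hw (child x g) (child x (tpSib g)) hy hz g'.1 r' (by omega)
            have h3 := (q_mem E L r' (by omega) (child x (tpSib g))).1
            have h4 : 0 ≤ (∑ u ∈ range r', wt u) ^ l'.length / (l'.length.factorial : ℝ) *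
                ET L (k - l'.length) Ψ := by
              have := hW r'
              have := hET (k - l'.length)
              positivity
            have h5 : (L : ℝ)⁻¹ * (q E L (child x (tpSib g)) r' * q2 E L (child x g) g'.1 r') ≤
                wt r' := by
              rw [inv_mul_le_iff₀ hL']; exact h2
            calc _ ≤ q E L (child x (tpSib g)) r' * ((L : ℝ)⁻¹ * q2 E L (child x g) g'.1 r' *
                  ((∑ u ∈ range r', wt u) ^ l'.length / (l'.length.factorial : ℝ) *
                    ET L (k - l'.length) Ψ)) := mul_le_mul_of_nonneg_left h1 h3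
              _ = ((L : ℝ)⁻¹ * (q E L (child x (tpSib g)) r' * q2 E L (child x g) g'.1 r')) *
                  ((∑ u ∈ range r', wt u) ^ l'.length / (l'.length.factorial : ℝ) *
                    ET L (k - l'.length) Ψ) := by ring
              _ ≤ wt r' * ((∑ u ∈ range r', wt u) ^ l'.length / (l'.length.factorial : ℝ) *
                    ET L (k - l'.length) Ψ) := mul_le_mul_of_nonneg_right h5 h4
              _ = _ := by ring
        _ ≤ _ := by
            rw [← sum_mul]
            exact mul_le_mul_of_nonneg_right (treeprob_sum_pow wt h0 _ _) (hET _)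

theorem treeprob_chain_bound (hL : 0 < L) {W : ℝ} (hW : ChainW E L W) (k : ℕ) (x : TS n)
    (t : ℕ) (ht : t ≤ k) (l : List (Stp n)) (Ψ : (Node n → ℕ) → ℝ)
    (hΨ : ∀ ω, 0 ≤ Ψ ω) :
    ET L k (fun ω => ind (Ex E L k x t l ω) * Ψ (shL l ω)) ≤
      GG W l.length * ET L (k - l.length) Ψ := by
  have hW0 := hW.nonneg
  obtain ⟨wt, h0, h1, hw⟩ := hW
  have hL' : (0 : ℝ) < L := by exact_mod_cast hL
  have hET : ∀ m, 0 ≤ ET L m Ψ := fun m => ET_nonneg hΨ
  cases l with
  | nil =>
    simp only [List.length_nil, GG_zero, one_mul, Nat.sub_zero]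
    refine le_of_eq (ET_congr hL fun ω _ => ?_)
    rw [ind_true (Ex_nil _ _ _ _ _ _), one_mul]
    rfl
  | cons g l =>
    cases k with
    | zero =>
      have : ET L 0 (fun ω => ind (Ex E L 0 x t (g :: l) ω) * Ψ (shL (g :: l) ω)) = 0 := by
        rw [← ET_const (n := n) (k := 0) hL 0]
        refine ET_congr hL fun ω _ => ?_
        rw [ind_false (Ex_zero_cons _ _ _ _ _ _ _), zero_mul]
      rw [this]
      exact mul_nonneg (GG_nonneg hW0 _) (hET _)
    | succ k =>
      have hlen : k + 1 - (g :: l).length = k - l.length := by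
        simp only [List.length_cons]; omega
      have hGG : GG W (g :: l).length = W ^ l.length / (l.length.factorial : ℝ) := by
        simp [GG]
      rw [hlen, hGG]
      have hB : 0 ≤ W ^ l.length / (l.length.factorial : ℝ) * ET L (k - l.length) Ψ := by
        have := hET (k - l.length)
        positivity
      calc _ ≤ ET L (k + 1) (fun ω => ∑ r ∈ range (min t L),
            ind (tpEv E L k x g r l ω) * Ψ (shL l (sh g ω))) := by
            refine ET_mono hL fun ω hω => ?_
            by_cases h : Ex E L (k + 1) x t (g :: l) ω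
            · rw [ind_true h, one_mul]
              rw [Ex_succ_cons] at h
              obtain ⟨h1, h2, h3, h4⟩ := h
              refine le_trans (le_of_eq ?_) (single_le_sum (f := fun r =>
                ind (tpEv E L k x g r l ω) * Ψ (shL l (sh g ω)))
                (fun r' _ => mul_nonneg (ind_nonneg _) (hΨ _))
                (mem_range.2 (lt_min h2 (hω _))))
              rw [ind_true ⟨rfl, h1, h3, h4⟩, one_mul]
              rfl
            · rw [ind_false h, zero_mul]
              exact sum_nonneg fun r' _ => mul_nonneg (ind_nonneg _) (hΨ _)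
        _ ≤ ∑ _r ∈ range (min t L), (L : ℝ)⁻¹ *
              (W ^ l.length / (l.length.factorial : ℝ) * ET L (k - l.length) Ψ) := by
            rw [ET_sum]
            refine sum_le_sum fun r hr => ?_
            have hr' := lt_min_iff.1 (mem_range.1 hr)
            refine (treeprob_claim hL wt h0 hw Ψ hΨ l k x g r (by omega) hr'.2).trans ?_
            have hq := q2_mem E L r hr'.2.le x g.1
            have hs0 : 0 ≤ ∑ u ∈ range r, wt u := sum_nonneg fun u _ => h0 u
            have hs1 : ∑ u ∈ range r, wt u ≤ W :=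
              le_trans (sum_le_sum_of_subset_of_nonneg (range_mono hr'.2.le)
                fun u _ _ => h0 u) h1
            have := hET (k - l.length)
            rw [mul_assoc]
            refine mul_le_mul_of_nonneg_left ?_ (by positivity)
            calc _ ≤ 1 * ((∑ u ∈ range r, wt u) ^ l.length / (l.length.factorial : ℝ) *
                  ET L (k - l.length) Ψ) := mul_le_mul_of_nonneg_right hq.2 (by positivity)
              _ ≤ _ := by rw [one_mul]; gcongr
        _ ≤ _ := by
            rw [sum_const, card_range, nsmul_eq_mul, ← mul_assoc]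
            have h2 : ((min t L : ℕ) : ℝ) * (L : ℝ)⁻¹ ≤ 1 := by
              rw [mul_inv_le_iff₀ hL', one_mul]
              exact_mod_cast min_le_right t L
            calc _ ≤ 1 * (W ^ l.length / (l.length.factorial : ℝ) * ET L (k - l.length) Ψ) :=
                  mul_le_mul_of_nonneg_right h2 hB
              _ = _ := one_mul _

end Crest.Agent.R30
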