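import Crest.Agent.R30.Prod
import Crest.Agent.R30.Stop
import Crest.Agent.R30.TreeProbAux2

/-!
# R30/TreeProb: probabilities on the tree with independent clocks

Coordinate sets: `{([], w)}`, and for a step `g` the set `{i | i.1.head? = some g}` on which
`fun ω => Φ (sh g ω)` depends.  For an apex `w` let `C w` be the union of `{([], w)}` and the sets
for `(w,false)`, `(w,true)`; these are pairwise disjoint.
-/

set_option autoImplicit false

open Finset
open Crest.CombinatoricsR.TriangleRemoval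

namespace Crest.Agent.R30

variable {n : ℕ}

variable {E : St n} {L : ℕ}

/-- Induction on `k` generalising `x s`.  `k = 0`: `s = 0`, `q x 0 = 1` (`q_eq`, `fac`).
`k+1`: by `le_tau_succ`, `ind (s ≤ tau) = ∏ w ∈ ch E x, (1 - ind (c w < s ∧ c w ≤ τ' ∧ c w ≤ τ''))`
and `ind (..) = ∑ r < s, ind (c w = r) * ind (r ≤ τ') * ind (r ≤ τ'')`; use `ET_prod_indep`,
`ET_mul_indep`, `ET_coord`, `ET_sh` and the induction hypothesis at `r < s ≤ k+1`.
It pays to prove first the factor lemma
`ET L (k+1) (1 - ind (c w < s ∧ c w ≤ τ' ∧ c w ≤ τ'')) = fac E L x w s`, also used below. -/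
theorem ET_tau (hL : 0 < L) (k : ℕ) (x : TS n) (s : ℕ) (hsk : s ≤ k) (hsL : s ≤ L) :
    ET L k (fun ω => ind (s ≤ tau E L k x ω)) = q E L x s :=
  treeprob_ET_tau hL k x s hsk hsL

/-- Let `wt` come from `ChainW`, `Wr r = ∑ r' < r, wt r'`.  Claim (induction on `l`, for all
`k x g r` with `r ≤ k`, `r < L`, `s(x.a,x.b) ∈ E`), writing `w = g.1`, `y = child x g`:
`ET (k+1) [ind (ω([],w) = r ∧ w ∈ ch x ∧ r ≤ tau (k+1) x ω ∧ Ex k y (dl k x w ω) l (sh g ω))
  * Ψ (shL l (sh g ω))] ≤ L⁻¹ * q2 x w r * (Wr r)^|l| / |l|! * ET (k - |l|) Ψ`.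
Proof: `r ≤ tau (k+1) x ω` implies that no `w' ∈ (ch x).erase w` is accepted before `r`; that event
depends on `⋃ C w'` and has probability `q2 x w r`; `ω([],w) = r` has probability `L⁻¹`.
For `l = []` drop the rest (`ET_sh`).  For `l = g' :: l'` (if `k = 0` the event is empty), split by
`r' = (sh g ω)([], g'.1) < dl`, so `r' < r` and `r' ≤ τ(sibling of y)`, an event on the sibling's
coordinates of probability `q (sibling) r'` (`ET_tau`); the remaining event is the one of the
claim for `y, g', r'` composed with `sh g`.  With `q (sibling) r' * q2 y g'.1 r' ≤ L wt r'`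
(`edge_child`) and `∑_{r'<r} wt r' (Wr r')^j / j! ≤ (Wr r)^(j+1)/(j+1)!` (induction on `r` from
`(a+b)^(j+1) ≥ a^(j+1) + (j+1) b a^j`) the claim follows.  Finally sum the claim over
`r < min t L` with `q2 ≤ 1`, `Wr r ≤ W`. -/
theorem chain_bound (hL : 0 < L) {W : ℝ} (hW : ChainW E L W) (k : ℕ) (x : TS n)
    (hx : s(x.a, x.b) ∈ E) (t : ℕ) (ht : t ≤ k) (l : List (Stp n)) (Ψ : (Node n → ℕ) → ℝ)
    (hΨ : ∀ ω, 0 ≤ Ψ ω) :
    ET L k (fun ω => ind (Ex E L k x t l ω) * Ψ (shL l ω)) ≤
      GG W l.length * ET L (k - l.length) Ψ :=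
  have _ := hx
  treeprob_chain_bound hL hW k x t ht l Ψ hΨ

theorem chain_bound' (hL : 0 < L) {W : ℝ} (hW : ChainW E L W) (k : ℕ) (x : TS n)
    (hx : s(x.a, x.b) ∈ E) (t : ℕ) (ht : t ≤ k) (l : List (Stp n)) :
    ET L k (fun ω => ind (Ex E L k x t l ω)) ≤ GG W l.length := by
  have := chain_bound hL hW k x hx t ht l (fun _ => 1) (fun _ => zero_le_one)
  simpa [ET_const hL] using this

lemma treeprob_Ex_cons {k : ℕ} {z : TS n} {g : Stp n} {γ : List (Stp n)} {ω : Node n → ℕ}
    (h : Ex E L (k + 1) z (k + 1) (g :: γ) ω) :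
    g.1 ∈ ch E z ∧ Ex E L k (child z g) k γ (sh g ω) := by
  rw [Ex_succ_cons] at h
  obtain ⟨h1, h2, -, h4⟩ := h
  refine ⟨h1, h4.mono ?_⟩
  have : dl E L k z g.1 ω ≤ ω ([], g.1) := min_le_right _ _
  omega

lemma treeprob_pair0 (hL : 0 < L) {W : ℝ} (hW : ChainW E L W) (k : ℕ) (z : TS n)
    (β : List (Stp n)) (g : Stp n) (γ : List (Stp n)) (hβ : β.head? ≠ some g) :
    ET L k (fun ω => ind (Ex E L k z k β ω ∧ Ex E L k z k (g :: γ) ω)) ≤
      GG W (β.length - 1) * GG W γ.length := by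
  have hW0 := hW.nonneg
  have hRHS : 0 ≤ GG W (β.length - 1) * GG W γ.length :=
    mul_nonneg (GG_nonneg hW0 _) (GG_nonneg hW0 _)
  have hzero : (∀ ω, ¬ (Ex E L k z k β ω ∧ Ex E L k z k (g :: γ) ω)) →
      ET L k (fun ω => ind (Ex E L k z k β ω ∧ Ex E L k z k (g :: γ) ω)) ≤
        GG W (β.length - 1) * GG W γ.length := by
    intro h
    refine le_trans (le_of_eq ?_) hRHS
    rw [← ET_const (n := n) (k := k) hL 0]
    exact ET_congr hL fun ω _ => ind_false (h ω)
  cases k with
  | zero => exact hzero fun ω h => Ex_zero_cons _ _ _ _ _ _ _ h.2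
  | succ k =>
    by_cases hg : g.1 ∈ ch E z
    swap
    · exact hzero fun ω h => hg (treeprob_Ex_cons h.2).1
    have hγ := chain_bound' hL hW k (child z g) (edge_child hg) k le_rfl γ
    cases β with
    | nil =>
      simp only [List.length_nil, Nat.zero_sub, GG_zero, one_mul]
      refine le_trans ?_ hγ
      rw [← ET_sh hL g (fun ω => ind (Ex E L k (child z g) k γ ω))]
      exact ET_mono hL fun ω _ => ind_mono fun h => (treeprob_Ex_cons h.2).2
    | cons g' β =>
      have hne : g' ≠ g := fun e => hβ (by simp [e])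
      by_cases hg' : g'.1 ∈ ch E z
      swap
      · exact hzero fun ω h => hg' (treeprob_Ex_cons h.1).1
      have hβ' := chain_bound' hL hW k (child z g') (edge_child hg') k le_rfl β
      simp only [List.length_cons, Nat.add_sub_cancel]
      calc _ ≤ ET L (k + 1) (fun ω => ind (Ex E L k (child z g') k β (sh g' ω)) *
              ind (Ex E L k (child z g) k γ (sh g ω))) := by
            refine ET_mono hL fun ω _ => ?_
            rw [← ind_and]
            exact ind_mono fun h => ⟨(treeprob_Ex_cons h.1).2, (treeprob_Ex_cons h.2).2⟩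
        _ = _ := treeprob_two hL k hne (fun ω => ind (Ex E L k (child z g') k β ω))
              (fun ω => ind (Ex E L k (child z g) k γ ω))
        _ ≤ _ := mul_le_mul hβ' hγ (ET_nonneg fun _ => ind_nonneg _) (GG_nonneg hW0 _)

/-- If `¬ Val E x α` the event is empty (`Ex.of_append`, `Ex.val`).  Otherwise `z = en x α` is an
edge; by `Ex.append` the indicator is at most `ind (Ex α) * Ψ (shL α ω)` with
`Ψ ω' = ind (Ex k' z k' β ω' ∧ Ex k' z k' (g :: γ) ω')`, `k' = k - |α|`; use `chain_bound`.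
`ET k' Ψ = 0` if `k' = 0` or `g.1 ∉ ch z`; otherwise `k' = k''+1`, `Ex (g :: γ)` implies
`Ex k'' (child z g) k'' γ (sh g ω')` (`Ex.mono`, `dl ≤ ω' < k'`), similarly for `β = g' :: β'`
with `g' ≠ g`, and the two events are independent (`ET_mul_indep`, `ET_sh`, `chain_bound'`). -/
theorem pair_chain (hL : 0 < L) {W : ℝ} (hW : ChainW E L W) (k : ℕ) (x : TS n)
    (hx : s(x.a, x.b) ∈ E) (t : ℕ) (ht : t ≤ k) (α β : List (Stp n)) (g : Stp n)
    (γ : List (Stp n)) (hβ : β.head? ≠ some g) :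
    ET L k (fun ω => ind (Ex E L k x t (α ++ β) ω ∧ Ex E L k x t (α ++ g :: γ) ω)) ≤
      GG W α.length * GG W (β.length - 1) * GG W γ.length := by
  have hW0 := hW.nonneg
  have h1 := chain_bound hL hW k x hx t ht α
    (fun ω' => ind (Ex E L (k - α.length) (en x α) (k - α.length) β ω' ∧
      Ex E L (k - α.length) (en x α) (k - α.length) (g :: γ) ω')) fun _ => ind_nonneg _
  have h2 := treeprob_pair0 hL hW (k - α.length) (en x α) β g γ hβ
  refine le_trans ?_ (h1.trans ?_)
  · refine ET_mono hL fun ω _ => ?_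
    rw [← ind_and]
    exact ind_mono fun h => ⟨h.1.of_append, (h.1.append ht).2, (h.2.append ht).2⟩
  · rw [mul_assoc]
    exact mul_le_mul_of_nonneg_left h2 (GG_nonneg hW0 _)

end Crest.Agent.R30
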