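import Crest.Agent.R30.Coll
import Crest.Agent.R30.TreeProb

/-!
# R30/Sums: summing the collision and hitting probabilities
-/

set_option autoImplicit false

open Finset
open Crest.CombinatoricsR.TriangleRemoval

namespace Crest.Agent.R30

variable {n : ℕ}

/-- Nonnegativity of nested sums of products of indicators. -/
macro "sums_nn" : tactic =>
  `(tactic| repeat' (first
    | exact ind_nonneg _
    | assumption
    | exact GG_nonneg (by assumption) _
    | refine Finset.sum_nonneg (fun _ _ => ?_)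
    | refine add_nonneg ?_ ?_
    | refine mul_nonneg ?_ ?_))

/-- The summand of `Zs`. -/
noncomputable def sumsZ (E : St n) (W : ℝ) (J : ℕ) (e : Fin n × Fin n) : ℝ :=
  (∑ j ∈ range J, ∑ l ∈ LL n j, ∑ w : Fin n, GG W j *
        ind ((w = e.1 ∨ w = e.2) ∧ 2 * j + 2 ≤ (FE (root e) l w).card ∧ FE (root e) l w ⊆ E)) +
      ∑ ja ∈ range J, ∑ jb ∈ range J, ∑ jc ∈ range J,
        ∑ α ∈ LL n ja, ∑ β ∈ LL n jb, ∑ γ ∈ LL n jc, ∑ g : Stp n, ∑ w : Fin n,
          GG W ja * GG W (jb - 1) * GG W jc *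
            ind (need α β g γ w ≤ (FE (root e) (α ++ β) w ∪ FE (root e) (α ++ g :: γ) w).card ∧
              FE (root e) (α ++ β) w ∪ FE (root e) (α ++ g :: γ) w ⊆ E)

lemma sums_Zs_eq (E : St n) (W : ℝ) (J : ℕ) : Zs E W J = ∑ e, sumsZ E W J e := rfl

lemma sumsZ_nonneg (E : St n) {W : ℝ} (hW : 0 ≤ W) (J : ℕ) (e : Fin n × Fin n) :
    0 ≤ sumsZ E W J e := by
  unfold sumsZ
  sums_nn

lemma Zs_nonneg (E : St n) {W : ℝ} (hW : 0 ≤ W) (J : ℕ) : 0 ≤ Zs E W J := by
  exact Finset.sum_nonneg fun e _ => sumsZ_nonneg E hW J e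

lemma sums_push {α : Type*} (μ : St n → ℝ) {s : Finset α} {f : α → St n → ℝ} {b : α → ℝ}
    (h : ∀ a ∈ s, ∑ E, μ E * f a E ≤ b a) : ∑ E, μ E * ∑ a ∈ s, f a E ≤ ∑ a ∈ s, b a := by
  simp only [Finset.mul_sum]
  rw [Finset.sum_comm]
  exact Finset.sum_le_sum h

lemma sums_push_const (μ : St n → ℝ) {c b : ℝ} (hc : 0 ≤ c) {f : St n → ℝ}
    (h : ∑ E, μ E * f E ≤ b) : ∑ E, μ E * (c * f E) ≤ c * b := by
  simp only [mul_left_comm _ c]
  rw [← Finset.mul_sum]
  exact mul_le_mul_of_nonneg_left h hc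

lemma sums_spread {μ : St n → ℝ} {p : ℝ} {s : ℕ} (hμ : Spread μ p s) (hp : 0 ≤ p) (F : St n)
    {m : ℕ} (hm : m ≤ s) : ∑ E, μ E * ind (m ≤ F.card ∧ F ⊆ E) ≤ p ^ m := by
  by_cases h : m ≤ F.card
  · simp only [h, true_and]
    exact hμ.2 F m h hm
  · simp only [h, false_and, ind_false not_false, mul_zero, Finset.sum_const_zero]
    positivity

lemma sums_stp (f : Fin n → ℝ) : ∑ g : Stp n, f g.1 = 2 * ∑ w, f w := by
  rw [Fintype.sum_prod_type, Finset.mul_sum]
  simp

lemma sums_ind_eq (v : Fin n) : ∑ w : Fin n, ind (w = v) = 1 := by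
  simp [ind_eq_ite]

lemma sums_ind_mem (s : Finset (Fin n)) : ∑ w : Fin n, ind (w ∈ s) = s.card := by
  simp [ind_eq_ite]

lemma sums_need {p : ℝ} (hp : 0 ≤ p) (α β γ : List (Stp n)) :
    ∑ g : Stp n, ∑ w : Fin n, p ^ need α β g γ w ≤
      p ^ (2 * (α.length + β.length + γ.length) + 2) *
        (2 * n * p ^ 2 + (2 * n * p ^ 2) ^ 2) := by
  rw [Finset.sum_comm]
  set c := p ^ (2 * (α.length + β.length + γ.length) + 2) with hc
  have hc0 : 0 ≤ c := by positivity
  have h1 : ∀ w : Fin n, ∑ g : Stp n, p ^ need α β g γ w ≤ c * (2 * p ^ 2 + 2 * n * p ^ 4) := by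
    intro w
    have h2 : ∀ g : Stp n, p ^ need α β g γ w ≤
        c * (p ^ 2 * ind (g.1 = (β.head?.map Prod.fst).getD w) + p ^ 4) := by
      intro g
      unfold need
      split_ifs with h
      · rw [ind_true h, hc, mul_one, mul_add _ (p ^ 2), ← pow_add]
        refine le_trans (le_of_eq ?_) (le_add_of_nonneg_right (by positivity))
        congr 1
      · rw [ind_false h, hc, mul_zero, zero_add, ← pow_add]
        refine le_of_eq ?_
        congr 1
    refine (Finset.sum_le_sum fun g _ => h2 g).trans (le_of_eq ?_)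
    rw [← Finset.mul_sum, Finset.sum_add_distrib, ← Finset.mul_sum,
      sums_stp (fun v => ind (v = (β.head?.map Prod.fst).getD w)), sums_ind_eq]
    simp only [Finset.sum_const, Finset.card_univ, Fintype.card_prod, Fintype.card_fin,
      Fintype.card_bool, nsmul_eq_mul]
    push_cast
    ring
  refine (Finset.sum_le_sum fun w _ => h1 w).trans ?_
  simp only [Finset.sum_const, Finset.card_univ, Fintype.card_fin, nsmul_eq_mul]
  rw [mul_left_comm]
  refine mul_le_mul_of_nonneg_left ?_ hc0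
  have : 0 ≤ (n : ℝ) ^ 2 * p ^ 4 := by positivity
  nlinarith

lemma sums_anneal1 {μ : St n → ℝ} {p : ℝ} {s : ℕ} (hμ : Spread μ p s) (hp : 0 ≤ p) {W : ℝ}
    (hW : 0 ≤ W) {J : ℕ} (hs : 6 * J ≤ s) (e : Fin n × Fin n) :
    ∑ E, μ E * (∑ j ∈ range J, ∑ l ∈ LL n j, ∑ w : Fin n, GG W j *
        ind ((w = e.1 ∨ w = e.2) ∧ 2 * j + 2 ≤ (FE (root e) l w).card ∧ FE (root e) l w ⊆ E))
      ≤ p ^ 2 * (2 * Gam (2 * n * p ^ 2) W) := by
  calc _ ≤ ∑ j ∈ range J, ∑ _l ∈ LL n j, ∑ w : Fin n,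
        GG W j * ((ind (w = e.1) + ind (w = e.2)) * p ^ (2 * j + 2)) := by
        refine sums_push μ fun j hj => sums_push μ fun l _ => sums_push μ fun w _ =>
          sums_push_const μ (GG_nonneg hW j) ?_
        simp only [ind_and (w = e.1 ∨ w = e.2)]
        have hj' := Finset.mem_range.1 hj
        exact (sums_push_const μ (ind_nonneg _) (sums_spread hμ hp _ (by omega))).trans
          (mul_le_mul_of_nonneg_right (ind_or_le _ _) (by positivity))
    _ = p ^ 2 * (2 * ∑ j ∈ range J, (2 * n * p ^ 2) ^ j * GG W j) := by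
        rw [Finset.mul_sum, Finset.mul_sum]
        refine Finset.sum_congr rfl fun j _ => ?_
        rw [Finset.sum_const, nsmul_eq_mul, card_LL, ← Finset.mul_sum, ← Finset.sum_mul,
          Finset.sum_add_distrib, sums_ind_eq, sums_ind_eq]
        ring
    _ ≤ _ := by
        have := sum_GG_le (z := 2 * n * p ^ 2) (by positivity) hW J
        gcongr

lemma sums_anneal2 {μ : St n → ℝ} {p : ℝ} {s : ℕ} (hμ : Spread μ p s) (hp : 0 ≤ p) {W : ℝ}
    (hW : 0 ≤ W) {J : ℕ} (hs : 6 * J ≤ s) (e : Fin n × Fin n) (z : ℝ) (hz : z = 2 * n * p ^ 2) :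
    ∑ E, μ E * (∑ ja ∈ range J, ∑ jb ∈ range J, ∑ jc ∈ range J,
        ∑ α ∈ LL n ja, ∑ β ∈ LL n jb, ∑ γ ∈ LL n jc, ∑ g : Stp n, ∑ w : Fin n,
          GG W ja * GG W (jb - 1) * GG W jc *
            ind (need α β g γ w ≤ (FE (root e) (α ++ β) w ∪ FE (root e) (α ++ g :: γ) w).card ∧
              FE (root e) (α ++ β) w ∪ FE (root e) (α ++ g :: γ) w ⊆ E))
      ≤ p ^ 2 * (Gam z W ^ 2 * (1 + z * Gam z W) * (z + z ^ 2)) := by
  have hz0 : 0 ≤ z := by rw [hz]; positivity
  calc _ ≤ ∑ ja ∈ range J, ∑ jb ∈ range J, ∑ jc ∈ range J,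
        ∑ _α ∈ LL n ja, ∑ _β ∈ LL n jb, ∑ _γ ∈ LL n jc, GG W ja * GG W (jb - 1) * GG W jc *
          (p ^ (2 * (ja + jb + jc) + 2) * (z + z ^ 2)) := by
        refine sums_push μ fun ja ha => sums_push μ fun jb hb => sums_push μ fun jc hc =>
          sums_push μ fun α hα => sums_push μ fun β hβ => sums_push μ fun γ hγ => ?_
        have h0 : 0 ≤ GG W ja * GG W (jb - 1) * GG W jc := by sums_nn
        have ha' := Finset.mem_range.1 ha
        have hb' := Finset.mem_range.1 hb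
        have hc' := Finset.mem_range.1 hc
        rw [mem_LL] at hα hβ hγ
        refine le_trans (sums_push μ (b := fun g => ∑ w : Fin n,
          GG W ja * GG W (jb - 1) * GG W jc * p ^ need α β g γ w) fun g _ =>
            sums_push μ fun w _ => sums_push_const μ h0 (sums_spread hμ hp _ ?_)) ?_
        · unfold need
          split_ifs <;> omega
        · simp only [← Finset.mul_sum]
          refine mul_le_mul_of_nonneg_left ?_ h0
          have := sums_need hp α β γ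
          rwa [hα, hβ, hγ, ← hz] at this
    _ = p ^ 2 * ((∑ ja ∈ range J, z ^ ja * GG W ja) * ((∑ jb ∈ range J, z ^ jb * GG W (jb - 1)) *
          (∑ jc ∈ range J, z ^ jc * GG W jc)) * (z + z ^ 2)) := by
        rw [Finset.sum_mul_sum, Finset.sum_mul, Finset.sum_mul, Finset.mul_sum]
        refine Finset.sum_congr rfl fun ja _ => ?_
        rw [Finset.mul_sum, Finset.sum_mul, Finset.mul_sum]
        refine Finset.sum_congr rfl fun jb _ => ?_
        rw [Finset.mul_sum, Finset.sum_mul, Finset.mul_sum]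
        refine Finset.sum_congr rfl fun jc _ => ?_
        simp only [Finset.sum_const, nsmul_eq_mul, card_LL]
        generalize z + z ^ 2 = u
        rw [hz]
        ring
    _ ≤ _ := by
        have h1 := sum_GG_le hz0 hW J
        have h2 := sum_GG_pred_le hz0 hW J
        have h3 : 0 ≤ ∑ jb ∈ range J, z ^ jb * GG W (jb - 1) :=
          Finset.sum_nonneg fun j _ => mul_nonneg (pow_nonneg hz0 _) (GG_nonneg hW _)
        have h4 : 0 ≤ ∑ jb ∈ range J, z ^ jb * GG W jb :=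
          Finset.sum_nonneg fun j _ => mul_nonneg (pow_nonneg hz0 _) (GG_nonneg hW _)
        have h5 : 0 ≤ Gam z W := h4.trans h1
        have h6 : 0 ≤ 1 + z * Gam z W := h3.trans h2
        refine mul_le_mul_of_nonneg_left (mul_le_mul_of_nonneg_right ?_ (by positivity))
          (by positivity)
        calc _ ≤ Gam z W * ((1 + z * Gam z W) * Gam z W) := by gcongr
          _ = _ := by ring

/-- Move `∑ E, μ E *` inside; by `Spread` each term is at most (weights) `* p ^ m` with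
`m = 2j + 2` resp. `m = need ..  ≤ 6J ≤ s` (if `m > #F` the indicator vanishes).  With
`z = 2 n p²`, `#LL n j = (2n)^j` (`card_LL`): the first part is at most
`n² ∑_j GG j (2n)^j 2 p^(2j+2) = 2 n² p² ∑ z^j GG j` (at most two `w`).  In the second part, for
fixed `α β γ w`, `∑_g p^need ≤ p^(2(ja+jb+jc)+2) (2 p² + 2 n p⁴)` (two `g` have the prescribed
first coordinate), and `n (2p² + 2 n p⁴) ≤ z + z²`.  Finish with `sum_GG_le`, `sum_GG_pred_le`. -/
theorem anneal (μ : St n → ℝ) (p : ℝ) (s : ℕ) (hμ : Spread μ p s) (hp : 0 ≤ p) (W : ℝ) (hW : 0 ≤ W)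
    (J : ℕ) (hs : 6 * J ≤ s) (z : ℝ) (hz : z = 2 * n * p ^ 2) :
    ∑ E, μ E * Zs E W J ≤
      (n : ℝ) ^ 2 * p ^ 2 * (2 * Gam z W + Gam z W ^ 2 * (1 + z * Gam z W) * (z + z ^ 2)) := by
  calc ∑ E, μ E * Zs E W J
      ≤ ∑ _e : Fin n × Fin n,
          p ^ 2 * (2 * Gam z W + Gam z W ^ 2 * (1 + z * Gam z W) * (z + z ^ 2)) := by
        simp only [sums_Zs_eq]
        refine sums_push μ fun e _ => ?_
        unfold sumsZ
        simp only [mul_add (μ _)]
        rw [Finset.sum_add_distrib, mul_add]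
        exact add_le_add (hz ▸ sums_anneal1 hμ hp hW hs e) (sums_anneal2 hμ hp hW hs e z hz)
    _ = _ := by
        simp only [Finset.sum_const, Finset.card_univ, Fintype.card_prod, Fintype.card_fin,
          nsmul_eq_mul]
        push_cast
        ring

variable {E : St n} {L : ℕ}

/-- At most `(2 d')^j` paths of length `j` exist below an edge (induction on `j` with
`sum_LL_succ`, `edge_child`, `#ch ≤ #cn ≤ d'`). -/
lemma sum_val_le {d' : ℝ} (hd : ∀ u v, s(u, v) ∈ E → ((cn E u v).card : ℝ) ≤ d') (j : ℕ) (x : TS n)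
    (hx : s(x.a, x.b) ∈ E) : ∑ l ∈ LL n j, ind (Val E x l) ≤ (2 * d') ^ j := by
  induction j generalizing x with
  | zero => simp [LL, Val, ind_true]
  | succ j ih =>
    have hd0 : 0 ≤ d' := (Nat.cast_nonneg _).trans (hd _ _ hx)
    rw [sum_LL_succ]
    calc ∑ g : Stp n, ∑ l ∈ LL n j, ind (Val E x (g :: l))
        ≤ ∑ g : Stp n, ind (g.1 ∈ ch E x) * (2 * d') ^ j := by
          refine Finset.sum_le_sum fun g _ => ?_
          simp only [Val, ind_and]
          rw [← Finset.mul_sum]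
          by_cases hg : g.1 ∈ ch E x
          · exact mul_le_mul_of_nonneg_left (ih _ (edge_child hg)) (ind_nonneg _)
          · rw [ind_false hg, zero_mul, zero_mul]
      _ = 2 * (ch E x).card * (2 * d') ^ j := by
          rw [← Finset.sum_mul, sums_stp (fun w => ind (w ∈ ch E x)), sums_ind_mem]
      _ ≤ 2 * d' * (2 * d') ^ j := by
          have h1 : ((ch E x).card : ℝ) ≤ (cn E x.a x.b).card := by
            exact_mod_cast Finset.card_le_card (Finset.filter_subset _ _)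
          have h2 := h1.trans (hd _ _ hx)
          gcongr
      _ = _ := by ring

lemma sums_single {α : Type*} {s : Finset α} {f : α → ℝ} {c : ℝ} (a : α) (ha : a ∈ s)
    (h0 : ∀ b ∈ s, 0 ≤ f b) (h : c ≤ f a) : c ≤ ∑ b ∈ s, f b :=
  h.trans (Finset.single_le_sum h0 ha)

lemma sums_ET_le {k : ℕ} {β : Type*} {s : Finset β} {Φ : β → (Node n → ℕ) → ℝ} {b : β → ℝ}
    (h : ∀ a ∈ s, ET L k (Φ a) ≤ b a) : ET L k (fun ω => ∑ a ∈ s, Φ a ω) ≤ ∑ a ∈ s, b a := by
  rw [ET_sum]
  exact Finset.sum_le_sum h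

lemma sums_long {x : TS n} {ω : Node n → ℕ} {J : ℕ} {l : List (Stp n)}
    (h : Ex E L L x L l ω) (hl : J ≤ l.length) :
    1 ≤ ∑ l ∈ LL n J, ind (Val E x l) * ind (Ex E L L x L l ω) := by
  have h1 : Ex E L L x L (l.take J) ω := by
    rw [← List.take_append_drop J l] at h
    exact h.of_append
  refine sums_single (l.take J) (mem_LL.2 (by simp [hl])) (fun _ _ => by sums_nn) ?_
  rw [ind_true h1, ind_true h1.val, mul_one]

lemma sums_bad_pt (hE : Simple E) {e : Fin n × Fin n} (he : e ∈ oe E) (J : ℕ)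
    (ω : Node n → ℕ) :
    ind (¬ Set.InjOn (proj (root e)) {i | InS E L L (root e) L ω i}) ≤
      ∑ l ∈ LL n J, ind (Val E (root e) l) * ind (Ex E L L (root e) L l ω) +
      ((∑ j ∈ range J, ∑ l ∈ LL n j, ∑ w : Fin n,
        ind ((w = e.1 ∨ w = e.2) ∧ 2 * j + 2 ≤ (FE (root e) l w).card ∧ FE (root e) l w ⊆ E) *
          ind (Ex E L L (root e) L l ω)) +
      ∑ ja ∈ range J, ∑ jb ∈ range J, ∑ jc ∈ range J,
        ∑ α ∈ LL n ja, ∑ β ∈ LL n jb, ∑ γ ∈ LL n jc, ∑ g : Stp n, ∑ w : Fin n,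
          ind ((need α β g γ w ≤ (FE (root e) (α ++ β) w ∪ FE (root e) (α ++ g :: γ) w).card ∧
              FE (root e) (α ++ β) w ∪ FE (root e) (α ++ g :: γ) w ⊆ E) ∧ β.head? ≠ some g) *
            ind (Ex E L L (root e) L (α ++ β) ω ∧ Ex E L L (root e) L (α ++ g :: γ) ω)) := by
  by_cases hn : Set.InjOn (proj (root e)) {i | InS E L L (root e) L ω i}
  · rw [ind_false (not_not.2 hn)]
    sums_nn
  rw [ind_true hn]
  have hx : s((root e).a, (root e).b) ∈ E := mem_oe.1 he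
  rcases collision hE he _ (fun i hi => InS.val hi) (fun l g w h => InS.parent h) hn with
    ⟨l, w, hS, hw, hc⟩ | ⟨α, β, g, γ, w, hS, hS', hβ, hc⟩
  · have hS : InS E L L (root e) L ω (l, w) := hS
    by_cases hl : J ≤ l.length
    · exact le_add_of_le_of_nonneg (sums_long hS.2.1 hl) (by sums_nn)
    · refine le_add_of_nonneg_of_le (by sums_nn) (le_add_of_le_of_nonneg ?_ (by sums_nn))
      refine sums_single l.length (Finset.mem_range.2 (not_le.1 hl)) (fun _ _ => by sums_nn)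
        (sums_single l (mem_LL.2 rfl) (fun _ _ => by sums_nn)
          (sums_single w (Finset.mem_univ _) (fun _ _ => by sums_nn) ?_))
      rw [ind_true ⟨hw, hc, FE_subset hx hS.val.1 hS.val.2⟩, ind_true hS.2.1, mul_one]
  · have hS : InS E L L (root e) L ω (α ++ β, w) := hS
    have hS' : InS E L L (root e) L ω (α ++ g :: γ, w) := hS'
    by_cases hl : J ≤ (α ++ β).length
    · exact le_add_of_le_of_nonneg (sums_long hS.2.1 hl) (by sums_nn)
    by_cases hl' : J ≤ (α ++ g :: γ).length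
    · exact le_add_of_le_of_nonneg (sums_long hS'.2.1 hl') (by sums_nn)
    simp only [List.length_append, List.length_cons] at hl hl'
    refine le_add_of_nonneg_of_le (by sums_nn) (le_add_of_nonneg_of_le (by sums_nn) ?_)
    refine sums_single α.length (Finset.mem_range.2 (by omega)) (fun _ _ => by sums_nn)
      (sums_single β.length (Finset.mem_range.2 (by omega)) (fun _ _ => by sums_nn)
      (sums_single γ.length (Finset.mem_range.2 (by omega)) (fun _ _ => by sums_nn)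
      (sums_single α (mem_LL.2 rfl) (fun _ _ => by sums_nn)
      (sums_single β (mem_LL.2 rfl) (fun _ _ => by sums_nn)
      (sums_single γ (mem_LL.2 rfl) (fun _ _ => by sums_nn)
      (sums_single g (Finset.mem_univ _) (fun _ _ => by sums_nn)
      (sums_single w (Finset.mem_univ _) (fun _ _ => by sums_nn) ?_)))))))
    rw [ind_true ⟨⟨hc, Finset.union_subset (FE_subset hx hS.val.1 hS.val.2)
      (FE_subset hx hS'.val.1 hS'.val.2)⟩, hβ⟩, ind_true ⟨hS.2.1, hS'.2.1⟩, mul_one]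

lemma sums_bad_one (hE : Simple E) (hL : 0 < L) {W : ℝ} (hW : ChainW E L W) {d' : ℝ}
    (hd : ∀ u v, s(u, v) ∈ E → ((cn E u v).card : ℝ) ≤ d') (J : ℕ) {e : Fin n × Fin n}
    (he : e ∈ oe E) : bad E L (root e) ≤ (2 * d') ^ J * GG W J + sumsZ E W J e := by
  have hx : s((root e).a, (root e).b) ∈ E := mem_oe.1 he
  have hW0 := hW.nonneg
  refine (ET_mono hL fun ω _ => sums_bad_pt hE he J ω).trans ?_
  rw [ET_add, ET_add]
  refine add_le_add ?_ (add_le_add ?_ ?_)
  · refine le_trans (sums_ET_le (b := fun l => ind (Val E (root e) l) * GG W J) fun l hl => ?_) ?_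
    · rw [ET_const_mul, ← mem_LL.1 hl]
      exact mul_le_mul_of_nonneg_left (chain_bound' hL hW L _ hx L le_rfl l) (ind_nonneg _)
    · rw [← Finset.sum_mul]
      exact mul_le_mul_of_nonneg_right (sum_val_le hd J _ hx) (GG_nonneg hW0 _)
  · refine sums_ET_le fun j _ => sums_ET_le fun l hl => sums_ET_le fun w _ => ?_
    rw [ET_const_mul, mul_comm]
    refine mul_le_mul_of_nonneg_right ?_ (ind_nonneg _)
    rw [← mem_LL.1 hl]
    exact chain_bound' hL hW L _ hx L le_rfl l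
  · refine sums_ET_le fun ja _ => sums_ET_le fun jb _ => sums_ET_le fun jc _ =>
      sums_ET_le fun α hα => sums_ET_le fun β hβ => sums_ET_le fun γ hγ =>
      sums_ET_le fun g _ => sums_ET_le fun w _ => ?_
    rw [ET_const_mul]
    by_cases hg : β.head? ≠ some g
    · rw [mul_comm, ind_and, ind_true hg, mul_one]
      refine mul_le_mul_of_nonneg_right ?_ (ind_nonneg _)
      rw [← mem_LL.1 hα, ← mem_LL.1 hβ, ← mem_LL.1 hγ]
      exact pair_chain hL hW L _ hx L le_rfl α β g γ hg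
    · rw [ind_false fun h => hg h.2, zero_mul]
      sums_nn

/-- For `e ∈ oe E`, `x = root e` and each `ω`: apply `collision` to `S = {i | InS E L L x L ω i}`
(`InS.val`, `InS.parent`).  If a path in the output has length `≥ J`, its prefix of length `J` is
examined (`Ex.of_append`, `List.take_append_drop`) and valid.  Otherwise all lengths are `< J` and
`FE ⊆ E` (`FE_subset`).  So `ind (¬ InjOn) ≤ ∑_{l ∈ LL J} ind (Val l) * ind (Ex l) +
∑ ind (condition in Zs) * ind (Ex l) + ∑ ind (condition in Zs ∧ β.head? ≠ some g) * ind (Ex ∧ Ex)`;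
take `ET`, use `chain_bound'`, `pair_chain`, `sum_val_le`, and enlarge `∑ e ∈ oe E` to all `e`. -/
theorem sum_bad_le (hE : Simple E) (hL : 0 < L) {W : ℝ} (hW : ChainW E L W) {d' : ℝ}
    (hd : ∀ u v, s(u, v) ∈ E → ((cn E u v).card : ℝ) ≤ d') (J : ℕ) :
    ∑ e ∈ oe E, bad E L (root e) ≤ (oe E).card * ((2 * d') ^ J * GG W J) + Zs E W J := by
  refine (Finset.sum_le_sum fun e he => sums_bad_one hE hL hW hd J he).trans ?_
  rw [Finset.sum_add_distrib, Finset.sum_const, nsmul_eq_mul, sums_Zs_eq]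
  exact add_le_add le_rfl (Finset.sum_le_sum_of_subset_of_nonneg (Finset.subset_univ _)
    fun e _ _ => sumsZ_nonneg E hW.nonneg J e)

/-- Number of nodes at depth `j` standing for `T`. -/
noncomputable def sumsU (E : St n) (T : Finset (Fin n)) (j : ℕ) (x : TS n) : ℝ :=
  ∑ l ∈ LL n j, ∑ w : Fin n, ind (Val E x l ∧ w ∈ ch E (en x l) ∧ proj x (l, w) = T)

/-- Upper bound for `sumsU`. -/
noncomputable def sumsV (E : St n) (T : Finset (Fin n)) : ℕ → Fin n → Fin n → ℝ
  | 0, a, b => ∑ w : Fin n, ind (({a, b, w} : Finset (Fin n)) = T)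
  | j + 1, a, b => ∑ w : Fin n,
      ind (s(a, w) ∈ E) * ind (s(b, w) ∈ E) * (sumsV E T j a w + sumsV E T j b w)

lemma sumsV_nonneg (T : Finset (Fin n)) (j : ℕ) : ∀ a b, 0 ≤ sumsV E T j a b := by
  induction j with
  | zero => intro a b; unfold sumsV; sums_nn
  | succ j ih =>
    intro a b
    unfold sumsV
    exact Finset.sum_nonneg fun w _ =>
      mul_nonneg (mul_nonneg (ind_nonneg _) (ind_nonneg _)) (add_nonneg (ih _ _) (ih _ _))

lemma sumsU_le (T : Finset (Fin n)) (j : ℕ) : ∀ x : TS n, sumsU E T j x ≤ sumsV E T j x.a x.b := by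
  induction j with
  | zero =>
    intro x
    unfold sumsU sumsV
    rw [LL, Finset.sum_singleton]
    exact Finset.sum_le_sum fun w _ => ind_mono fun h => h.2.2
  | succ j ih =>
    intro x
    have h1 : ∀ g : Stp n, ∑ l ∈ LL n j, ∑ w : Fin n,
        ind (Val E x (g :: l) ∧ w ∈ ch E (en x (g :: l)) ∧ proj x (g :: l, w) = T) ≤
        ind (s(x.a, g.1) ∈ E) * ind (s(x.b, g.1) ∈ E) *
          sumsV E T j (child x g).a (child x g).b := by
      intro g
      refine le_trans ?_ (mul_le_mul_of_nonneg_left (ih (child x g)) (by sums_nn))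
      unfold sumsU
      rw [Finset.mul_sum]
      refine Finset.sum_le_sum fun l _ => ?_
      rw [Finset.mul_sum]
      refine Finset.sum_le_sum fun w _ => ?_
      rw [← ind_and, ← ind_and]
      exact ind_mono fun h => ⟨(mem_ch.1 h.1.1).1, h.1.2, h.2⟩
    unfold sumsU sumsV
    rw [sum_LL_succ]
    refine (Finset.sum_le_sum fun g _ => h1 g).trans (le_of_eq ?_)
    rw [Fintype.sum_prod_type]
    refine Finset.sum_congr rfl fun w _ => ?_
    rw [Fintype.sum_bool]
    simp only [child_false, child_true]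
    ring

lemma sums_tri_swap {d' : ℝ} (hd : ∀ u v, s(u, v) ∈ E → ((cn E u v).card : ℝ) ≤ d')
    (V : Fin n → Fin n → ℝ) (hV : ∀ a b, 0 ≤ V a b) :
    ∑ a, ∑ b, ∑ w, ind (s(a, b) ∈ E) * (ind (s(a, w) ∈ E) * ind (s(b, w) ∈ E) * V a w) ≤
      d' * ∑ a, ∑ w, ind (s(a, w) ∈ E) * V a w := by
  rw [Finset.mul_sum]
  refine Finset.sum_le_sum fun a _ => ?_
  rw [Finset.sum_comm, Finset.mul_sum]
  refine Finset.sum_le_sum fun w _ => ?_
  have h1 : ∑ b, ind (s(a, b) ∈ E) * (ind (s(a, w) ∈ E) * ind (s(b, w) ∈ E) * V a w)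
      = (cn E a w).card * (ind (s(a, w) ∈ E) * V a w) := by
    rw [← sums_ind_mem, Finset.sum_mul]
    refine Finset.sum_congr rfl fun b _ => ?_
    rw [ind_congr mem_cn, ind_and, Sym2.eq_swap (a := w)]
    ring
  rw [h1]
  by_cases h : s(a, w) ∈ E
  · exact mul_le_mul_of_nonneg_right (hd _ _ h) (mul_nonneg (ind_nonneg _) (hV _ _))
  · rw [ind_false h]
    simp

lemma sums_V_le {d' : ℝ} (hd0 : 0 ≤ d') (hd : ∀ u v, s(u, v) ∈ E → ((cn E u v).card : ℝ) ≤ d')
    {T : Finset (Fin n)} (hT : T.card = 3) (j : ℕ) :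
    ∑ a, ∑ b, ind (s(a, b) ∈ E) * sumsV E T j a b ≤ 27 * (2 * d') ^ j := by
  induction j with
  | zero =>
    calc ∑ a, ∑ b, ind (s(a, b) ∈ E) * sumsV E T 0 a b
        ≤ ∑ a : Fin n, ∑ b : Fin n, ∑ w : Fin n, ind (a ∈ T) * (ind (b ∈ T) * ind (w ∈ T)) := by
          refine Finset.sum_le_sum fun a _ => Finset.sum_le_sum fun b _ => ?_
          refine (mul_le_of_le_one_left (sumsV_nonneg T 0 a b) (ind_le_one _)).trans ?_
          unfold sumsV
          refine Finset.sum_le_sum fun w _ => ?_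
          rw [← ind_and, ← ind_and]
          refine ind_mono fun h => ?_
          rw [← h]
          simp
      _ = 27 * (2 * d') ^ 0 := by
          simp only [← Finset.mul_sum, ← Finset.sum_mul, sums_ind_mem, hT]
          norm_num
  | succ j ih =>
    have h1 := sums_tri_swap hd (sumsV E T j) (sumsV_nonneg T j)
    have h2 : ∑ a, ∑ b, ∑ w, ind (s(a, b) ∈ E) *
          (ind (s(a, w) ∈ E) * ind (s(b, w) ∈ E) * sumsV E T j b w) =
        ∑ a, ∑ b, ∑ w, ind (s(a, b) ∈ E) *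
          (ind (s(a, w) ∈ E) * ind (s(b, w) ∈ E) * sumsV E T j a w) := by
      rw [Finset.sum_comm]
      refine Finset.sum_congr rfl fun a _ => Finset.sum_congr rfl fun b _ =>
        Finset.sum_congr rfl fun w _ => ?_
      rw [Sym2.eq_swap (a := b) (b := a)]
      ring
    have h3 : ∑ a, ∑ b, ind (s(a, b) ∈ E) * sumsV E T (j + 1) a b =
        ∑ a, ∑ b, ∑ w, ind (s(a, b) ∈ E) *
          (ind (s(a, w) ∈ E) * ind (s(b, w) ∈ E) * sumsV E T j a w) +
        ∑ a, ∑ b, ∑ w, ind (s(a, b) ∈ E) *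
          (ind (s(a, w) ∈ E) * ind (s(b, w) ∈ E) * sumsV E T j b w) := by
      simp only [sumsV, Finset.mul_sum, mul_add, Finset.sum_add_distrib]
    rw [h3, h2]
    have h4 := mul_le_mul_of_nonneg_left ih hd0
    calc _ ≤ d' * (27 * (2 * d') ^ j) + d' * (27 * (2 * d') ^ j) := by linarith
      _ = _ := by ring

lemma sums_hit_le (hL : 0 < L) {W : ℝ} (hW : ChainW E L W) {x : TS n} (hx : s(x.a, x.b) ∈ E)
    (T : Finset (Fin n)) : hit E L x T ≤ ∑ j ∈ range L, GG W j * sumsU E T j x := by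
  have h1 : ∀ ω : Node n → ℕ, ind (∃ i, InS E L L x L ω i ∧ proj x i = T) ≤
      ∑ j ∈ range L, ∑ l ∈ LL n j, ∑ w : Fin n,
        ind (Val E x l ∧ w ∈ ch E (en x l) ∧ proj x (l, w) = T) * ind (Ex E L L x L l ω) := by
    intro ω
    by_cases h : ∃ i, InS E L L x L ω i ∧ proj x i = T
    · rw [ind_true h]
      obtain ⟨⟨l, w⟩, hS, hT⟩ := h
      refine sums_single l.length (Finset.mem_range.2 hS.1) (fun _ _ => by sums_nn)
        (sums_single l (mem_LL.2 rfl) (fun _ _ => by sums_nn)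
          (sums_single w (Finset.mem_univ _) (fun _ _ => by sums_nn) ?_))
      rw [ind_true ⟨hS.val.1, hS.val.2, hT⟩, ind_true hS.2.1, mul_one]
    · rw [ind_false h]
      sums_nn
  refine (ET_mono hL fun ω _ => h1 ω).trans (sums_ET_le fun j _ => ?_)
  unfold sumsU
  rw [Finset.mul_sum]
  refine sums_ET_le fun l hl => ?_
  rw [Finset.mul_sum]
  refine sums_ET_le fun w _ => ?_
  rw [ET_const_mul, mul_comm]
  refine mul_le_mul_of_nonneg_right ?_ (ind_nonneg _)
  rw [← mem_LL.1 hl]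
  exact chain_bound' hL hW L _ hx L le_rfl l

lemma sums_hit_zero (hE : Simple E) (hL : 0 < L) {x : TS n} (hx : s(x.a, x.b) ∈ E)
    {T : Finset (Fin n)} (hT : T ∉ triangles E) : hit E L x T = 0 := by
  rw [← ET_const (n := n) (k := L) hL 0]
  refine ET_congr hL fun ω _ => ind_false ?_
  rintro ⟨i, hS, rfl⟩
  have h := (mem_ch.1 hS.val.2).1
  exact hT (triple_mem_triangles hE (Val.edge hx hS.val.1) h.1 h.2)

lemma sums_hit_sum (hL : 0 < L) {W : ℝ} (hW : ChainW E L W) {d' : ℝ} (hd0 : 0 ≤ d')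
    (hd : ∀ u v, s(u, v) ∈ E → ((cn E u v).card : ℝ) ≤ d') {T : Finset (Fin n)}
    (hT : T.card = 3) : ∑ e ∈ oe E, hit E L (root e) T ≤ 27 * Gam (2 * d') W := by
  have hW0 := hW.nonneg
  calc ∑ e ∈ oe E, hit E L (root e) T
      ≤ ∑ e ∈ oe E, ∑ j ∈ range L, GG W j * sumsV E T j e.1 e.2 :=
        Finset.sum_le_sum fun e he => (sums_hit_le hL hW (x := root e) (mem_oe.1 he) T).trans
          (Finset.sum_le_sum fun j _ =>
            mul_le_mul_of_nonneg_left (sumsU_le T j (root e)) (GG_nonneg hW0 _))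
    _ = ∑ j ∈ range L, GG W j * ∑ a, ∑ b, ind (s(a, b) ∈ E) * sumsV E T j a b := by
        rw [Finset.sum_comm]
        refine Finset.sum_congr rfl fun j _ => ?_
        rw [← Finset.mul_sum, oe, Finset.sum_filter, Fintype.sum_prod_type]
        simp only [ind_eq_ite, ite_mul, one_mul, zero_mul]
    _ ≤ ∑ j ∈ range L, GG W j * (27 * (2 * d') ^ j) :=
        Finset.sum_le_sum fun j _ =>
          mul_le_mul_of_nonneg_left (sums_V_le hd0 hd hT j) (GG_nonneg hW0 _)
    _ = 27 * ∑ j ∈ range L, (2 * d') ^ j * GG W j := by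
        rw [Finset.mul_sum]
        exact Finset.sum_congr rfl fun j _ => by ring
    _ ≤ _ := mul_le_mul_of_nonneg_left (sum_GG_le (by positivity) hW0 L) (by norm_num)

/-- `hit e T ≤ ∑_{j<L} GG W j * U j (root e) T` with
`U j x T = ∑_{l ∈ LL j} ∑_w ind (Val x l ∧ w ∈ ch (en x l) ∧ proj x (l,w) = T)` (`chain_bound'`).
Let `V 0 a b = ∑_w ind ({a,b,w} = T)`, `V (j+1) a b = ∑_{w ∈ cn a b} (V j a w + V j b w)`; then
`U j x T ≤ V j x.a x.b` (induction, `sum_LL_succ`) and
`∑_{oe} V (j+1) = 2 ∑_{(a,w) ∈ oe} #cn a w * V j a w ≤ 2 d' ∑_{oe} V j`,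
`∑_{oe} V 0 ≤ 27` when `#T ≤ 3` (and `0` otherwise).  So `∑_e hit e T ≤ 27 Gam (2d') W`
(`sum_GG_le`).  Moreover `hit e T = 0` unless `T ∈ triangles E` (`Val.edge`,
`triple_mem_triangles`), and `#triangles ≤ d' #oe` (`six_mul_card_tri`). -/
theorem cross_le (hE : Simple E) (hL : 0 < L) {W : ℝ} (hW : ChainW E L W) {d' : ℝ} (hd0 : 0 ≤ d')
    (hd : ∀ u v, s(u, v) ∈ E → ((cn E u v).card : ℝ) ≤ d') :
    ∑ T, (∑ e ∈ oe E, hit E L (root e) T) ^ 2 ≤ 729 * Gam (2 * d') W ^ 2 * d' * (oe E).card := by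
  have h1 : ∑ T, (∑ e ∈ oe E, hit E L (root e) T) ^ 2 =
      ∑ T ∈ triangles E, (∑ e ∈ oe E, hit E L (root e) T) ^ 2 := by
    refine (Finset.sum_subset (Finset.subset_univ _) fun T _ hT => ?_).symm
    rw [Finset.sum_eq_zero fun e he => sums_hit_zero hE hL (x := root e) (mem_oe.1 he) hT]
    norm_num
  have h2 : ((triangles E).card : ℝ) ≤ d' * (oe E).card := by
    have h3 := six_mul_card_tri hE
    have h4 : ∑ e ∈ oe E, ((cn E e.1 e.2).card : ℝ) ≤ ∑ _e ∈ oe E, d' :=
      Finset.sum_le_sum fun e he => hd _ _ (mem_oe.1 he)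
    rw [Finset.sum_const, nsmul_eq_mul] at h4
    have h5 : (0 : ℝ) ≤ (triangles E).card := Nat.cast_nonneg _
    linarith
  rw [h1]
  calc ∑ T ∈ triangles E, (∑ e ∈ oe E, hit E L (root e) T) ^ 2
      ≤ ∑ _T ∈ triangles E, (27 * Gam (2 * d') W) ^ 2 := by
        refine Finset.sum_le_sum fun T hT => pow_le_pow_left₀ (Finset.sum_nonneg fun e _ =>
          ET_nonneg fun ω => ind_nonneg _) (sums_hit_sum hL hW hd0 hd (mem_triangles.1 hT).1) 2
    _ = (27 * Gam (2 * d') W) ^ 2 * (triangles E).card := by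
        rw [Finset.sum_const, nsmul_eq_mul, mul_comm]
    _ ≤ (27 * Gam (2 * d') W) ^ 2 * (d' * (oe E).card) :=
        mul_le_mul_of_nonneg_left h2 (by positivity)
    _ = _ := by ring

end Crest.Agent.R30
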