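import Crest.Agent.R30.P1Prob
import Crest.Agent.R30.Pair
import Crest.Agent.R30.BP
import Crest.Agent.R30.Sums

/-!
# R30/Final: assembly
-/

set_option autoImplicit false

open Finset
open Crest.CombinatoricsR.TriangleRemoval

namespace Crest.Agent.R30

variable {n : ℕ}

/-- The test function of the statement. -/
noncomputable def phi (n : ℕ) (e : ℕ) : ℝ :=
  ((e : ℝ) / (n : ℝ) ^ ((3 : ℝ) / 2) - 1 / (2 * Real.sqrt 2)) ^ 2

lemma Big.n32 {y : ℝ} (hB : Big n y) : (n : ℝ) ^ ((3 : ℝ) / 2) = y ^ 6000 := by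
  rw [← hB.pow, ← Real.rpow_natCast, ← Real.rpow_mul hB.pos.le, ← Real.rpow_natCast]
  norm_num

lemma Big.mul_pow_le {y : ℝ} (hB : Big n y) {c : ℝ} (hc : c ≤ 10 ^ 40) {a b : ℕ} (hab : a < b) :
    c * y ^ a ≤ y ^ b := by
  have h1 := hB.y_ge
  have h2 : y ^ (a + 1) ≤ y ^ b := pow_le_pow_right₀ hB.one_le hab
  have h3 : 0 < y ^ a := pow_pos hB.pos a
  rw [pow_succ] at h2
  nlinarith

lemma exists_stop {y : ℝ} (hB : Big n y) :
    ∃ N, 0 < pp n N ∧ y ^ 40 ≤ dd n N ∧ dd n N ≤ 2 * y ^ 40 := by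
  have hy := hB.pos
  have hy1 := hB.one_le
  have hn : (0 : ℝ) < n := by rw [← hB.pow]; positivity
  obtain ⟨a, ha⟩ : ∃ a : ℝ, a = (y ^ 1980)⁻¹ := ⟨_, rfl⟩
  have ha0 : 0 < a := by rw [ha]; positivity
  have hna : (n : ℝ) * a ^ 2 = y ^ 40 := by
    rw [← hB.pow, ha]; field_simp
  have ha4 : a ≤ 1 / 4 := by
    rw [ha, inv_le_comm₀ (by positivity) (by norm_num)]
    have := hB.mul_pow_le (c := 4) (by norm_num) (a := 0) (b := 1980) (by norm_num)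
    simpa using this
  have hn4 : 1 / (n : ℝ) ≤ 1 / 4 := by
    apply one_div_le_one_div_of_le (by norm_num)
    have := hB.mul_pow_le (c := 4) (by norm_num) (a := 0) (b := 4000) (by norm_num)
    rw [hB.pow] at this
    simpa using this
  have hsm : 6 / (n : ℝ) ^ 2 ≤ a * (2 / 5) := by
    rw [div_le_iff₀ (by positivity), ha, ← hB.pow, ← pow_mul]
    have := hB.mul_pow_le (c := 15) (by norm_num) (a := 1980) (b := 4000 * 2) (by norm_num)
    have h0 : 0 < y ^ 1980 := by positivity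
    rw [show (y ^ 1980)⁻¹ * (2 / 5) * y ^ (4000 * 2) = (2 / 5) * y ^ (4000 * 2) / y ^ 1980 by ring,
      le_div_iff₀ h0]
    generalize y ^ (4000 * 2) = A at *
    linarith
  obtain ⟨X, hX⟩ : ∃ X : ℝ, X = (1 - 1 / n - a) * n ^ 2 / 6 := ⟨_, rfl⟩
  have hX0 : 0 ≤ X := by
    rw [hX]
    have : 0 ≤ 1 - 1 / (n : ℝ) - a := by linarith
    positivity
  have h1 : (⌊X⌋₊ : ℝ) ≤ X := Nat.floor_le hX0
  have h2 : X < ⌊X⌋₊ + 1 := Nat.lt_floor_add_one X
  have e : pp n ⌊X⌋₊ = a + 6 * (X - ⌊X⌋₊) / n ^ 2 := by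
    unfold pp
    rw [mul_sub, sub_div]
    have : 6 * X / (n : ℝ) ^ 2 = 1 - 1 / n - a := by rw [hX]; field_simp
    rw [this]; ring
  have hlo : a ≤ pp n ⌊X⌋₊ := by
    rw [e]
    have : 0 ≤ 6 * (X - ⌊X⌋₊) / (n : ℝ) ^ 2 := by
      have : 0 ≤ X - ⌊X⌋₊ := by linarith
      positivity
    linarith
  have hhi : pp n ⌊X⌋₊ ≤ a * (7 / 5) := by
    rw [e]
    have : 6 * (X - ⌊X⌋₊) / (n : ℝ) ^ 2 ≤ 6 / n ^ 2 := by
      apply div_le_div_of_nonneg_right _ (by positivity); linarith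
    linarith
  refine ⟨⌊X⌋₊, lt_of_lt_of_le ha0 hlo, ?_, ?_⟩
  · unfold dd; rw [← hna]; gcongr
  · unfold dd; rw [← hna]
    have : pp n ⌊X⌋₊ ^ 2 ≤ (a * (7 / 5)) ^ 2 := by
      apply pow_le_pow_left₀ (by linarith) hhi
    nlinarith [sq_nonneg a]

lemma Big.gam_le {y d z : ℝ} (hB : Big n y) (hd1 : 1 ≤ d) (hd2 : d ≤ 2 * y ^ 40) (hz0 : 0 ≤ z)
    (hz : z ≤ 8 * d) : Gam z (Real.log (2 + 2 * d) / d) ≤ y ^ 370 := by
  have hy := hB.pos
  have hy1 := hB.one_le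
  have h40 : 1 ≤ y ^ 40 := one_le_pow₀ hy1
  have h41 : 16 * y ^ 40 ≤ y ^ 41 := hB.mul_pow_le (by norm_num) (by norm_num)
  have hl : 0 ≤ Real.log (2 + 2 * d) := Real.log_nonneg (by linarith)
  have h1 : z * (Real.log (2 + 2 * d) / d) ≤ (8 : ℕ) * Real.log (2 + 2 * d) := by
    rw [mul_div_assoc', div_le_iff₀ (by linarith)]
    push_cast
    nlinarith
  have h2 : Real.exp (z * (Real.log (2 + 2 * d) / d)) ≤ (y ^ 41) ^ 8 := by
    refine (Real.exp_le_exp.2 h1).trans ?_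
    rw [Real.exp_nat_mul, Real.exp_log (by linarith)]
    apply pow_le_pow_left₀ (by linarith); linarith
  have h3 : z * Real.exp (z * (Real.log (2 + 2 * d) / d)) ≤ y ^ 41 * (y ^ 41) ^ 8 :=
    mul_le_mul (by linarith) h2 (Real.exp_pos _).le (by positivity)
  have h4 : y ^ 41 * (y ^ 41) ^ 8 = y ^ 369 := by ring
  have h5 : 2 * y ^ 369 ≤ y ^ 370 := hB.mul_pow_le (by norm_num) (by norm_num)
  have h6 : 1 ≤ y ^ 369 := one_le_pow₀ hy1
  unfold Gam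
  linarith

lemma Big.n_le_two_pow {y : ℝ} (hB : Big n y) : (n : ℝ) ≤ 2 ^ ⌈y⌉₊ := by
  have h1 := hB.pow_le_exp (k := 1) (by norm_num)
  rw [pow_one] at h1
  refine h1.trans ?_
  have h2 : (2 : ℝ) ^ ⌈y⌉₊ = Real.exp (⌈y⌉₊ * Real.log 2) := by
    rw [Real.exp_nat_mul, Real.exp_log (by norm_num)]
  rw [h2]
  apply Real.exp_le_exp.2
  have h3 := Nat.le_ceil y
  have h4 := Real.log_two_gt_d9
  have := hB.pos
  nlinarith

lemma le_of_sq_le_sq₀' {a b : ℝ} (hb : 0 ≤ b) (h : a ^ 2 ≤ b ^ 2) : a ≤ b :=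
  le_trans (le_abs_self a) (abs_le_of_sq_le_sq' h hb |> fun h => abs_le.2 h)

/-- The main term. -/
lemma main_term {y d p m : ℝ} (hB : Big n y) (hp : 0 < p) (hd : d = n * p ^ 2) (hd1 : y ^ 40 ≤ d)
    (hm : |m * Real.sqrt (1 + 2 * d) - n ^ 2 * p| ≤ 3 * (y ^ 5)⁻¹ * (n ^ 2 * p)) :
    (m - y ^ 6000 / Real.sqrt 2) ^ 2 ≤ 8 * (n : ℝ) ^ 3 * (y ^ 10)⁻¹ := by
  have hy := hB.pos
  have hy1 := hB.one_le
  have hn : (0 : ℝ) < n := by rw [← hB.pow]; positivity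
  have h40 : 1 ≤ y ^ 40 := one_le_pow₀ hy1
  have hd0 : 1 ≤ d := by linarith
  obtain ⟨c, hc⟩ : ∃ c : ℝ, c = y ^ 6000 / Real.sqrt 2 := ⟨_, rfl⟩
  have hc0 : 0 < c := by rw [hc]; positivity
  have hc2 : c ^ 2 = (n : ℝ) ^ 3 / 2 := by
    rw [hc, div_pow, Real.sq_sqrt (by norm_num), ← hB.pow, ← pow_mul, ← pow_mul]
  obtain ⟨s, hs⟩ : ∃ s : ℝ, s = Real.sqrt (1 + 2 * d) := ⟨_, rfl⟩
  have hs0 : 0 < s := by rw [hs]; positivity
  have hs2 : s ^ 2 = 1 + 2 * d := by rw [hs, Real.sq_sqrt (by linarith)]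
  obtain ⟨A, hA⟩ : ∃ A : ℝ, A = n ^ 2 * p / s := ⟨_, rfl⟩
  have hA0 : 0 < A := by rw [hA]; positivity
  have hAs : (n : ℝ) ^ 2 * p = A * s := by rw [hA]; field_simp
  have hA2 : A ^ 2 * (1 + 2 * d) = c ^ 2 * (2 * d) := by
    rw [← hs2, ← mul_pow, ← hAs, hc2, hd]; ring
  obtain ⟨t, ht⟩ : ∃ t : ℝ, t = (y ^ 5)⁻¹ := ⟨_, rfl⟩
  have ht0 : 0 < t := by rw [ht]; positivity
  have htd : 1 ≤ t * d := by
    rw [ht, inv_mul_eq_div, le_div_iff₀ (by positivity), one_mul]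
    exact (pow_le_pow_right₀ hy1 (by norm_num)).trans hd1
  have ht1 : t ≤ 1 := by rw [ht]; exact inv_le_one_of_one_le₀ (one_le_pow₀ hy1)
  have hAc : A ≤ c := by
    apply le_of_sq_le_sq₀' hc0.le
    nlinarith [sq_nonneg A]
  have hAc' : c * (1 - t) ≤ A := by
    apply le_of_sq_le_sq₀' hA0.le
    have h1 : (1 - t) ^ 2 * (1 + 2 * d) ≤ 2 * d := by nlinarith
    have h2 : (c * (1 - t)) ^ 2 * (1 + 2 * d) ≤ A ^ 2 * (1 + 2 * d) := by
      rw [hA2, mul_pow, mul_assoc]; gcongr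
    exact le_of_mul_le_mul_right h2 (by linarith)
  have hmA : |m - A| ≤ 3 * t * A := by
    rw [← hs, ← ht, hAs, ← sub_mul, abs_mul, abs_of_pos hs0, ← mul_assoc] at hm
    exact le_of_mul_le_mul_right hm hs0
  have hmc : |m - c| ≤ 4 * t * c := by
    rw [abs_le] at hmA ⊢
    have : t * A ≤ t * c := by gcongr
    constructor <;> nlinarith
  have h10 : (y ^ 10)⁻¹ = t ^ 2 := by rw [ht, inv_pow, ← pow_mul]
  rw [← hc, h10, ← sq_abs]
  calc |m - c| ^ 2 ≤ (4 * t * c) ^ 2 := pow_le_pow_left₀ (abs_nonneg _) hmc 2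
    _ = 16 * t ^ 2 * c ^ 2 := by ring
    _ = _ := by rw [hc2]; ring

theorem phase2 {y : ℝ} (hB : Big n y) {N : ℕ} (hp : 0 < pp n N) (hd : y ^ 40 ≤ dd n N)
    (hd2 : dd n N ≤ 2 * y ^ 40) {E : St n} (hG : Good (y ^ 10)⁻¹ N E)
    (hC : Contr E 2000 (1 / (500 * (1 + Real.log n) ^ 2))) (r : ℕ) (hr : E.card ≤ r) :
    expectFinal (phi n) r E ≤ 1 / (4 * y) +
      2 * pp n N / n * Zs E (Real.log (2 + 2 * dd n N) / dd n N) ⌈y⌉₊ := by
  have hy := hB.pos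
  have hy1 := hB.one_le
  have h40 : 1 ≤ y ^ 40 := one_le_pow₀ hy1
  have PF := parFacts hp (h40.trans hd)
  have hn : (0 : ℝ) < n := by exact_mod_cast PF.npos
  have hn2 : 2 ≤ n := PF.two_le
  have hn1 : (1 : ℝ) ≤ n := by exact_mod_cast PF.npos
  have hΛ := hB.log_nonneg
  have hp1 := pp_le_one (n := n) N
  obtain ⟨d, hdd⟩ : ∃ d, d = dd n N := ⟨_, rfl⟩
  obtain ⟨p, hpp⟩ : ∃ p, p = pp n N := ⟨_, rfl⟩
  have hdp : d = n * p ^ 2 := by rw [hdd, hpp]; rfl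
  have hR := hG.reg
  have hcard := hG.card
  have hdD := PF.dd_le_DD N le_rfl
  have hDn := PF.DD_le N
  rw [← hdd] at hd hd2 hR hdD ⊢
  rw [← hpp] at hp hp1 hcard ⊢
  have hd1 : 1 ≤ d := h40.trans hd
  have hL0 : 0 < n ^ 8 := pow_pos PF.npos 8
  have hL1 : 2 * n ^ 6 ≤ n ^ 8 := by
    have : n ^ 8 = n ^ 2 * n ^ 6 := by ring
    rw [this]; apply Nat.mul_le_mul_right; nlinarith
  have h41 : 16 * y ^ 40 ≤ y ^ 41 := hB.mul_pow_le (by norm_num) (by norm_num)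
  have h41n : y ^ 41 ≤ n := hB.pow_le_n (by norm_num)
  have hδ0 : 0 < (y ^ 10)⁻¹ := by positivity
  have hδ1 : (y ^ 10)⁻¹ ≤ 1 := inv_le_one_of_one_le₀ (one_le_pow₀ hy1)
  -- the tree
  have hbp := bp hR 2000 (by norm_num) _ (Real.log n) (y ^ 4) (y ^ 5)⁻¹ (n ^ 8) hC
    (by positivity) (by apply le_of_eq; field_simp) (hd1.trans hdD) hDn hd1 hδ0.le
    (Real.log_le_log (by linarith) (by linarith)) (one_le_pow₀ hy1)
    (by rw [← hB.pow, ← pow_mul, ← pow_mul])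
    (by
      push_cast
      have h1 : 2 * d ≤ n := by linarith
      have h2 : (n : ℝ) ^ 2 ≤ n ^ 8 := pow_le_pow_right₀ hn1 (by norm_num)
      nlinarith)
    (inv_le_one_of_one_le₀ (one_le_pow₀ hy1))
    (by
      have h1 : 1 / d ≤ (y ^ 10)⁻¹ := by
        rw [one_div]
        exact inv_anti₀ (by positivity) ((pow_le_pow_right₀ hy1 (by norm_num)).trans hd)
      have h2 : ((y ^ 5)⁻¹) ^ 2 = (y ^ 10)⁻¹ := by rw [inv_pow, ← pow_mul]
      have h3 := hB.pow_le (k := 3) (by norm_num)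
      have h4 : 6000 * (1 + Real.log n) ^ 3 ≤ y := by
        refine le_trans ?_ h3
        rw [mul_pow]
        have : 0 ≤ (1 + Real.log n) ^ 3 := by positivity
        nlinarith
      rw [h2]
      calc 2000 * (1 + Real.log n) ^ 3 * ((y ^ 10)⁻¹ + (y ^ 10)⁻¹ + 1 / d) * y ^ 4
          ≤ 2000 * (1 + Real.log n) ^ 3 * (3 * (y ^ 10)⁻¹) * y ^ 4 := by gcongr; linarith
        _ = 6000 * (1 + Real.log n) ^ 3 * (y ^ 6)⁻¹ := by field_simp; norm_num
        _ ≤ y * (y ^ 6)⁻¹ := by gcongr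
        _ = (y ^ 5)⁻¹ := by field_simp)
  obtain ⟨hq, hW⟩ := hbp
  obtain ⟨W, hWd⟩ : ∃ W, W = Real.log (2 + 2 * d) / d := ⟨_, rfl⟩
  have hG8 : Gam (2 * (2 * (2 * d))) W ≤ y ^ 370 := by
    rw [hWd]; exact hB.gam_le hd1 hd2 (by linarith) (by linarith)
  have hG4 : Gam (2 * (2 * d)) W ≤ y ^ 370 := by
    rw [hWd]; exact hB.gam_le hd1 hd2 (by linarith) (by linarith)
  rw [← hWd] at hW ⊢
  have hW0 := hW.nonneg
  have hcod : ∀ u v, s(u, v) ∈ E → ((cn E u v).card : ℝ) ≤ 2 * d := by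
    intro u v huv
    have h1 := (abs_le.1 (hR.cod u v huv)).2
    have h2 : ((cn E u v).card : ℝ) / d ≤ 2 := by linarith
    rwa [div_le_iff₀ (by linarith)] at h2
  have hoe : ((oe E).card : ℝ) = n ^ 2 * p := by
    rw [card_oe hR.simple]; push_cast; rw [hcard]; ring
  obtain ⟨c, hc⟩ : ∃ c : ℝ, c = y ^ 6000 / Real.sqrt 2 := ⟨_, rfl⟩
  have hc0 : 0 < c := by rw [hc]; positivity
  have hn3 : (y ^ 6000) ^ 2 = (n : ℝ) ^ 3 := by rw [← hB.pow, ← pow_mul, ← pow_mul]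
  have hc2 : c ^ 2 = (n : ℝ) ^ 3 / 2 := by
    rw [hc, div_pow, Real.sq_sqrt (by norm_num), hn3]
  have hcp : c ≤ n ^ 2 * p := by
    apply le_of_sq_le_sq₀' (by positivity)
    have : ((n : ℝ) ^ 2 * p) ^ 2 = n ^ 3 * d := by rw [hdp]; ring
    rw [this, hc2]
    have : 0 < (n : ℝ) ^ 3 := by positivity
    nlinarith
  have hclock := clock (phi n) (fun _ => sq_nonneg _) (n ^ 8) hL0 hL1 r E hr
  have hphi : ∀ e : ℕ, phi n e = (4 * (n : ℝ) ^ 3)⁻¹ * (2 * (e : ℝ) - c) ^ 2 := by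
    intro e
    unfold phi
    rw [hB.n32, ← hn3, hc]
    have : 0 < Real.sqrt 2 := by positivity
    generalize y ^ 6000 = Y at *
    have hY : Y ≠ 0 := by
      intro h0; rw [h0] at hn3; have : 0 < (n : ℝ) ^ 3 := by positivity
      rw [← hn3] at this; simp at this
    field_simp
    ring
  have hEC : EC (n ^ 8) (fun c' => phi n (sweep E c' (n ^ 8)).card) =
      (4 * (n : ℝ) ^ 3)⁻¹ * EC (n ^ 8) (fun c' => (2 * ((sweep E c' (n ^ 8)).card : ℝ) - c) ^ 2) := by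
    unfold EC
    rw [← avg_const_mul]
    exact avg_congr fun _ _ => hphi _
  have h2m := second_moment hR.simple hL0 c hc0.le
  have hbad := sum_bad_le hR.simple hL0 hW hcod ⌈y⌉₊
  have hcr := cross_le hR.simple hL0 hW (by linarith) hcod
  have hmain : (∑ e ∈ oe E, q E (n ^ 8) (root e) (n ^ 8) - c) ^ 2 ≤
      8 * (n : ℝ) ^ 3 * (y ^ 10)⁻¹ := by
    rw [hc]
    refine main_term hB hp hdp hd ?_
    rw [← hoe, sum_mul]
    have : ((oe E).card : ℝ) = ∑ _e ∈ oe E, (1 : ℝ) := by simp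
    rw [this, ← sum_sub_distrib, mul_sum]
    refine (abs_sum_le_sum_abs _ _).trans (sum_le_sum fun e he => ?_)
    rw [mul_one]; exact hq e he
  have htail : (2 * (2 * d)) ^ ⌈y⌉₊ * GG W ⌈y⌉₊ ≤ y ^ 370 / n := by
    refine (pow_mul_GG_le (by linarith) hW0 _).trans ?_
    rw [inv_mul_eq_div]
    exact div_le_div₀ (by positivity) hG8 hn hB.n_le_two_pow
  have hZ := Zs_nonneg E hW0 ⌈y⌉₊
  obtain ⟨Z, hZd⟩ : ∃ Z, Z = Zs E W ⌈y⌉₊ := ⟨_, rfl⟩
  rw [← hZd] at hZ hbad ⊢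
  rw [hoe] at h2m hbad hcr
  have hb2 : 2 * (n ^ 2 * p + c) * ∑ e ∈ oe E, bad E (n ^ 8) (root e) ≤
      4 * (n ^ 2 * p) * (n ^ 2 * p * (y ^ 370 / n) + Z) := by
    have h1 : ∑ e ∈ oe E, bad E (n ^ 8) (root e) ≤ n ^ 2 * p * (y ^ 370 / n) + Z := by
      refine hbad.trans ?_; gcongr
    calc _ ≤ 2 * (n ^ 2 * p + c) * (n ^ 2 * p * (y ^ 370 / n) + Z) := by gcongr
      _ ≤ _ := mul_le_mul_of_nonneg_right (by linarith) (by positivity)
  have hcr2 : ∑ T, (∑ e ∈ oe E, hit E (n ^ 8) (root e) T) ^ 2 ≤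
      729 * (y ^ 370) ^ 2 * (4 * y ^ 40) * n ^ 2 := by
    refine hcr.trans ?_
    have := one_le_Gam (z := 2 * (2 * d)) (W := W) (by linarith)
    have h1 : 2 * d ≤ 4 * y ^ 40 := by linarith
    have h2 : (n : ℝ) ^ 2 * p ≤ n ^ 2 := mul_le_of_le_one_right (by positivity) hp1
    have h3 : Gam (2 * (2 * d)) W ^ 2 ≤ (y ^ 370) ^ 2 := pow_le_pow_left₀ (by linarith) hG4 2
    exact mul_le_mul (mul_le_mul (mul_le_mul_of_nonneg_left h3 (by norm_num)) h1 (by linarith)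
      (by positivity)) h2 (by positivity) (by positivity)
  have hsum := h2m.trans (add_le_add (add_le_add hmain hb2) hcr2)
  refine hclock.trans ?_
  rw [hEC]
  refine (mul_le_mul_of_nonneg_left (mul_le_mul_of_nonneg_left hsum (by positivity))
    (by norm_num)).trans ?_
  have e1 : 2 * ((4 * (n : ℝ) ^ 3)⁻¹ * (8 * (n : ℝ) ^ 3 * (y ^ 10)⁻¹ +
      4 * (n ^ 2 * p) * (n ^ 2 * p * (y ^ 370 / n) + Z) +
      729 * (y ^ 370) ^ 2 * (4 * y ^ 40) * n ^ 2)) =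
      4 * (y ^ 10)⁻¹ + 2 * d * y ^ 370 / n + 1458 * y ^ 780 / n + 2 * p / n * Z := by
    rw [hdp]; field_simp; ring
  rw [e1]
  have t1 : 4 * (y ^ 10)⁻¹ ≤ 1 / (12 * y) := by
    rw [← div_eq_mul_inv, div_le_div_iff₀ (by positivity) (by positivity)]
    have := hB.mul_pow_le (c := 48) (by norm_num) (a := 1) (b := 10) (by norm_num)
    linarith
  have t2 : 2 * d * y ^ 370 / n ≤ 1 / (12 * y) := by
    rw [div_le_div_iff₀ hn (by positivity), one_mul]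
    have h1 := hB.mul_pow_le (c := 48) (by norm_num) (a := 411) (b := 4000) (by norm_num)
    rw [hB.pow] at h1
    calc 2 * d * y ^ 370 * (12 * y) ≤ 2 * (2 * y ^ 40) * y ^ 370 * (12 * y) := by gcongr
      _ = 48 * y ^ 411 := by ring
      _ ≤ n := h1
  have t3 : 1458 * y ^ 780 / n ≤ 1 / (12 * y) := by
    rw [div_le_div_iff₀ hn (by positivity), one_mul]
    have h1 := hB.mul_pow_le (c := 17496) (by norm_num) (a := 781) (b := 4000) (by norm_num)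
    rw [hB.pow] at h1
    calc 1458 * y ^ 780 * (12 * y) = 17496 * y ^ 781 := by ring
      _ ≤ (n : ℝ) := h1
  have t4 : 1 / (4 * y) = 1 / (12 * y) + 1 / (12 * y) + 1 / (12 * y) := by field_simp; norm_num
  linarith

theorem anneal_big {y : ℝ} (hB : Big n y) {N : ℕ} (hp : 0 < pp n N) (hd : y ^ 40 ≤ dd n N)
    (hd2 : dd n N ≤ 2 * y ^ 40) :
    2 * pp n N / n * ∑ E : St n, law (y ^ 10)⁻¹ N E *
      Zs E (Real.log (2 + 2 * dd n N) / dd n N) ⌈y⌉₊ ≤ 1 / (4 * y) := by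
  have hy := hB.pos
  have hy1 := hB.one_le
  have h40 : 1 ≤ y ^ 40 := one_le_pow₀ hy1
  have PF := parFacts hp (h40.trans hd)
  have hn : (0 : ℝ) < n := by exact_mod_cast PF.npos
  have hJ : ((6 * ⌈y⌉₊ : ℕ) : ℝ) ≤ y ^ 11 := by
    have h1 : (⌈y⌉₊ : ℝ) < y + 1 := Nat.ceil_lt_add_one hy.le
    have h2 := hB.mul_pow_le (c := 12) (by norm_num) (a := 1) (b := 11) (by norm_num)
    push_cast; rw [pow_one] at h2; linarith
  have hsp := spread_big hB hp hd _ hJ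
  obtain ⟨d, hdd⟩ : ∃ d, d = dd n N := ⟨_, rfl⟩
  obtain ⟨p, hpp⟩ : ∃ p, p = pp n N := ⟨_, rfl⟩
  have hdp : d = n * p ^ 2 := by rw [hdd, hpp]; rfl
  rw [← hdd] at hd hd2 ⊢
  rw [← hpp] at hp hsp ⊢
  have hd1 : 1 ≤ d := h40.trans hd
  have hexp : Real.exp (y ^ 8)⁻¹ ≤ 2 := by
    have h1 : (y ^ 8)⁻¹ ≤ Real.log 2 := by
      have h2 := hB.mul_pow_le (c := 2) (by norm_num) (a := 0) (b := 8) (by norm_num)
      have h3 : (y ^ 8)⁻¹ ≤ 2⁻¹ := inv_anti₀ (by norm_num) (by simpa using h2)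
      have := Real.log_two_gt_d9
      linarith
    calc _ ≤ Real.exp (Real.log 2) := Real.exp_le_exp.2 h1
      _ = 2 := Real.exp_log (by norm_num)
  obtain ⟨p', hp'⟩ : ∃ p', p' = p * Real.exp (y ^ 8)⁻¹ := ⟨_, rfl⟩
  rw [← hp'] at hsp
  have hp'0 : 0 < p' := by rw [hp']; positivity
  have hp'2 : p' ≤ 2 * p := by rw [hp']; nlinarith
  obtain ⟨z, hz⟩ : ∃ z : ℝ, z = 2 * n * p' ^ 2 := ⟨_, rfl⟩
  have hz0 : 0 ≤ z := by rw [hz]; positivity
  have hz8 : z ≤ 8 * d := by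
    rw [hz, hdp]
    have : p' ^ 2 ≤ (2 * p) ^ 2 := pow_le_pow_left₀ hp'0.le hp'2 2
    nlinarith
  have hG := hB.gam_le hd1 hd2 hz0 hz8
  obtain ⟨W, hWd⟩ : ∃ W, W = Real.log (2 + 2 * d) / d := ⟨_, rfl⟩
  rw [← hWd] at hG ⊢
  have hW0 : 0 ≤ W := by
    rw [hWd]; exact div_nonneg (Real.log_nonneg (by linarith)) (by linarith)
  have han := anneal _ p' _ hsp hp'0.le W hW0 ⌈y⌉₊ le_rfl z hz
  have hG1 := one_le_Gam (z := z) (W := W) hz0
  have h41 : 16 * y ^ 40 ≤ y ^ 41 := hB.mul_pow_le (by norm_num) (by norm_num)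
  have hz41 : z ≤ y ^ 41 := by linarith
  have a1 : 1 + z * Gam z W ≤ y ^ 412 := by
    have h1 : z * Gam z W ≤ y ^ 41 * y ^ 370 := by gcongr
    have h2 : y ^ 41 * y ^ 370 = y ^ 411 := by ring
    have h3 : 2 * y ^ 411 ≤ y ^ 412 := hB.mul_pow_le (by norm_num) (by norm_num)
    have h4 : 1 ≤ y ^ 411 := one_le_pow₀ hy1
    rw [h2] at h1
    generalize y ^ 411 = A at *
    generalize y ^ 412 = B at *
    linarith
  have a2 : z + z ^ 2 ≤ y ^ 83 := by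
    have h1 : z ^ 2 ≤ (y ^ 41) ^ 2 := by gcongr
    have h2 : (y ^ 41) ^ 2 = y ^ 82 := by ring
    have h3 : 2 * y ^ 82 ≤ y ^ 83 := hB.mul_pow_le (by norm_num) (by norm_num)
    have h4 : y ^ 41 ≤ y ^ 82 := pow_le_pow_right₀ hy1 (by norm_num)
    linarith
  have a3 : 2 * Gam z W + Gam z W ^ 2 * (1 + z * Gam z W) * (z + z ^ 2) ≤ 3 * y ^ 1235 := by
    have h1 : Gam z W ^ 2 * (1 + z * Gam z W) * (z + z ^ 2) ≤ (y ^ 370) ^ 2 * y ^ 412 * y ^ 83 := by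
      gcongr
    have h2 : (y ^ 370) ^ 2 * y ^ 412 * y ^ 83 = y ^ 1235 := by ring
    have h4 : y ^ 370 ≤ y ^ 1235 := pow_le_pow_right₀ hy1 (by norm_num)
    rw [h2] at h1
    generalize y ^ 1235 = A at *
    generalize y ^ 370 = B at *
    linarith
  have a4 : (n : ℝ) ^ 2 * p' ^ 2 ≤ n * (8 * y ^ 40) := by
    have : (n : ℝ) ^ 2 * p' ^ 2 = n * (z / 2) := by rw [hz]; ring
    rw [this]; gcongr; linarith
  have a5 : p * y ^ 1980 ≤ 2 := by
    apply le_of_sq_le_sq₀' (by norm_num)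
    have h1 : (p * y ^ 1980) ^ 2 * y ^ 40 = d := by rw [hdp, ← hB.pow]; ring
    have h2 : (p * y ^ 1980) ^ 2 * y ^ 40 ≤ 2 ^ 2 * y ^ 40 := by rw [h1]; linarith
    exact le_of_mul_le_mul_right h2 (by positivity)
  have a6 : p ≤ 2 / y ^ 1980 := by rwa [le_div_iff₀ (by positivity)]
  calc _ ≤ 2 * p / n * ((n * (8 * y ^ 40)) * (3 * y ^ 1235)) := by
        refine mul_le_mul_of_nonneg_left (han.trans ?_) (by positivity)
        gcongr
    _ = 48 * y ^ 1275 * p := by field_simp; ring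
    _ ≤ 48 * y ^ 1275 * (2 / y ^ 1980) := by gcongr
    _ ≤ 1 / (4 * y) := by
        rw [mul_div_assoc', div_le_div_iff₀ (by positivity) (by positivity), one_mul]
        have h1 := hB.mul_pow_le (c := 384) (by norm_num) (a := 1276) (b := 1980) (by norm_num)
        calc 48 * y ^ 1275 * 2 * (4 * y) = 384 * y ^ 1276 := by ring
          _ ≤ _ := h1

lemma phi_le {y : ℝ} (hB : Big n y) {e : ℕ} (he : (e : ℝ) ≤ (n : ℝ) ^ 2) : phi n e ≤ n := by
  have hy := hB.pos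
  have hy1 := hB.one_le
  unfold phi
  rw [hB.n32]
  have h1 : (e : ℝ) / y ^ 6000 ≤ y ^ 2000 := by
    rw [div_le_iff₀ (by positivity), ← pow_add]
    rwa [← hB.pow, ← pow_mul] at he
  have h0 : 0 ≤ (e : ℝ) / y ^ 6000 := by positivity
  have h2 : 1 ≤ y ^ 2000 := one_le_pow₀ hy1
  have h3 : 1 / (2 * Real.sqrt 2) ≤ 1 := by
    rw [div_le_one (by positivity)]
    have : 1 ≤ Real.sqrt 2 := Real.one_le_sqrt.2 (by norm_num)
    linarith
  have h4 : 0 ≤ 1 / (2 * Real.sqrt 2) := by positivity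
  have h5 : |(e : ℝ) / y ^ 6000 - 1 / (2 * Real.sqrt 2)| ≤ y ^ 2000 := by
    rw [abs_le]; constructor <;> linarith
  rw [← sq_abs, ← hB.pow]
  calc _ ≤ (y ^ 2000) ^ 2 := pow_le_pow_left₀ (abs_nonneg _) h5 2
    _ = _ := by rw [← pow_mul]

theorem main_bound {y : ℝ} (hB : Big n y) :
    expectFinal (phi n) (n ^ 2) (allEdges n) ≤ 1 / y := by
  obtain ⟨N, hp, hd, hd2⟩ := exists_stop hB
  have hy := hB.pos
  have hy1 := hB.one_le
  have h40 : 1 ≤ y ^ 40 := one_le_pow₀ hy1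
  have PF := parFacts hp (h40.trans hd)
  have hn : (0 : ℝ) < n := by exact_mod_cast PF.npos
  have hNle := PF.N_le
  obtain ⟨W, hW⟩ : ∃ W, W = Real.log (2 + 2 * dd n N) / dd n N := ⟨_, rfl⟩
  have hW0 : 0 ≤ W := by
    rw [hW]; exact div_nonneg (Real.log_nonneg (by linarith)) (by linarith)
  have e : n ^ 2 = N + (n ^ 2 - N) := by omega
  rw [e, expectFinal_eq_EH]
  have key : EH N (fun h : Hist n => expectFinal (phi n) (n ^ 2 - N) (h N)) ≤
      EH N (fun h : Hist n => (n : ℝ) * ind (¬ ∀ i ≤ N, Good (y ^ 10)⁻¹ i (h i) ∧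
        Contr (h i) 2000 (1 / (500 * (1 + Real.log n) ^ 2))) + (1 / (4 * y) +
        2 * pp n N / n * (ind (∀ j < N, Good (y ^ 10)⁻¹ j (h j)) * Zs (h N) W ⌈y⌉₊))) := by
    refine EH_mono fun h hV => ?_
    have hZ : 0 ≤ Zs (h N) W ⌈y⌉₊ := Zs_nonneg _ hW0 _
    by_cases hg : ∀ i ≤ N, Good (y ^ 10)⁻¹ i (h i) ∧
        Contr (h i) 2000 (1 / (500 * (1 + Real.log n) ^ 2))
    · rw [ind_false (not_not.2 hg), ind_true (fun j hj => (hg j hj.le).1), one_mul, mul_zero,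
        zero_add, hW]
      refine phase2 hB hp hd hd2 (hg N le_rfl).1 (hg N le_rfl).2 _ ?_
      have h1 := (hg N le_rfl).1.card
      have h2 : ((h N).card : ℝ) + N ≤ (n : ℝ) ^ 2 := by
        rw [h1]; unfold pp
        have : (n : ℝ) ^ 2 * (1 - 1 / n - 6 * N / n ^ 2) / 2 = n ^ 2 / 2 - n / 2 - 3 * N := by
          field_simp; ring
        rw [this]
        have : (0 : ℝ) ≤ N := Nat.cast_nonneg N
        nlinarith
      have h3 : (h N).card + N ≤ n ^ 2 := by exact_mod_cast h2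
      omega
    · rw [ind_true hg, mul_one]
      have h1 : expectFinal (phi n) (n ^ 2 - N) (h N) ≤ n := by
        refine expectFinal_le _ _ _ _ fun e he => phi_le hB ?_
        have h2 : (h N).card ≤ (allEdges n).card := by
          rw [← hV.1]; exact card_le_card (hV.subset (Nat.zero_le N) le_rfl)
        have h3 : (e : ℝ) ≤ (allEdges n).card := by exact_mod_cast he.trans h2
        rw [card_allEdges] at h3
        nlinarith
      have h2 : 0 ≤ 2 * pp n N / n * (ind (∀ j < N, Good (y ^ 10)⁻¹ j (h j)) *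
          Zs (h N) W ⌈y⌉₊) := by
        have := ind_nonneg (∀ j < N, Good (y ^ 10)⁻¹ j (h j))
        positivity
      have h3 : 0 ≤ 1 / (4 * y) := by positivity
      linarith
  refine key.trans ?_
  rw [EH_add, EH_add, EH_const, EH_const_mul, EH_const_mul,
    EH_eq_sum_law (y ^ 10)⁻¹ N (fun E => Zs E W ⌈y⌉₊)]
  have h1 := phase1 hB hp hd
  have h2 := anneal_big hB hp hd hd2
  rw [← hW] at h2
  have h3 : (n : ℝ) * ((n : ℝ) ^ 2)⁻¹ ≤ 1 / (2 * y) := by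
    have : (n : ℝ) * ((n : ℝ) ^ 2)⁻¹ = 1 / n := by field_simp
    rw [this]
    apply one_div_le_one_div_of_le (by positivity)
    have := hB.mul_pow_le (c := 2) (by norm_num) (a := 1) (b := 4000) (by norm_num)
    rwa [hB.pow, pow_one] at this
  have h4 := mul_le_mul_of_nonneg_left h1 hn.le
  have h5 : 1 / y = 1 / (2 * y) + (1 / (4 * y) + 1 / (4 * y)) := by field_simp; norm_num
  linarith

theorem tendsto_final :
    Filter.Tendsto (fun n : ℕ => expectFinal (phi n) (n ^ 2) (allEdges n)) Filter.atTop (nhds 0) := by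
  have h1 : Filter.Tendsto (fun n : ℕ => 1 / (n : ℝ) ^ ((1 : ℝ) / 4000)) Filter.atTop (nhds 0) :=
    Filter.Tendsto.const_div_atTop
      ((tendsto_rpow_atTop (by norm_num)).comp tendsto_natCast_atTop_atTop) 1
  refine tendsto_of_tendsto_of_tendsto_of_le_of_le' tendsto_const_nhds h1 ?_ ?_
  · exact Filter.Eventually.of_forall fun n => expectFinal_nonneg _ (fun _ => sq_nonneg _) _ _
  · filter_upwards [eventually_big] with n hB using main_bound hB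

end Crest.Agent.R30
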