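import Crest.Agent.R30.Basic

/-!
# R30/Interp: interpolation between `ℓ²` and `ℓ^∞`
-/

set_option autoImplicit false

open Finset
open Crest.CombinatoricsR.TriangleRemoval

namespace Crest.Agent.R30

variable {n : ℕ}

/-- the truncated power `t ↦ t ^ m · 1[0 < t < a]` -/
noncomputable def interp_F (a : ℝ) (m : ℕ) : ℝ → ℝ := (Set.Ioo 0 a).indicator fun t => t ^ m

theorem interp_F_integrable (a : ℝ) (m : ℕ) : MeasureTheory.Integrable (interp_F a m) := by
  refine (MeasureTheory.integrable_indicator_iff measurableSet_Ioo).2 ?_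
  exact ((continuous_pow m).integrableOn_Icc (a := 0) (b := a)).mono_set Set.Ioo_subset_Icc_self

theorem interp_F_integral {a : ℝ} (ha : 0 ≤ a) (m : ℕ) :
    ∫ t, interp_F a m t = a ^ (m + 1) / (m + 1) := by
  rw [interp_F, MeasureTheory.integral_indicator measurableSet_Ioo,
    ← MeasureTheory.integral_Ioc_eq_integral_Ioo, ← intervalIntegral.integral_of_le ha,
    integral_pow]
  simp

theorem interp_cheb {V : Type*} (s : Finset V) (T : (V → ℝ) → V → ℝ) (lam : ℝ)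
    (hadd : ∀ f g, ∀ v ∈ s, T (fun w => f w + g w) v = T f v + T g v)
    (hsup : ∀ g t, 0 ≤ t → (∀ w ∈ s, |g w| ≤ t) → ∀ v ∈ s, |T g v| ≤ 2 * t)
    (hl2 : ∀ g, ∑ v ∈ s, T g v ^ 2 ≤ lam ^ 2 * ∑ w ∈ s, g w ^ 2) (g : V → ℝ) {t : ℝ}
    (ht : 0 < t) :
    ∑ v ∈ s, (if t < |T g v| then t ^ 2 else 0) ≤
      ∑ w ∈ s, 4 * lam ^ 2 * g w ^ 2 * (if t < 4 * |g w| then 1 else 0) := by
  let g₁ : V → ℝ := fun w => if t < 4 * |g w| then g w else 0
  let g₂ : V → ℝ := fun w => if t < 4 * |g w| then 0 else g w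
  have hg : g = fun w => g₁ w + g₂ w := by
    funext w
    simp only [g₁, g₂]
    split_ifs <;> simp
  have h2 : ∀ v ∈ s, |T g₂ v| ≤ 2 * (t / 4) := hsup g₂ (t / 4) (by positivity) fun w _ => by
    simp only [g₂]
    split_ifs with h
    · simp; positivity
    · linarith [not_lt.1 h]
  calc ∑ v ∈ s, (if t < |T g v| then t ^ 2 else 0) ≤ ∑ v ∈ s, 4 * T g₁ v ^ 2 := by
        refine Finset.sum_le_sum fun v hv => ?_
        split_ifs with h
        · have e : T g v = T g₁ v + T g₂ v := by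
            conv_lhs => rw [hg]
            exact hadd g₁ g₂ v hv
          have h3 : t / 2 ≤ |T g₁ v| := by
            have := abs_add_le (T g₁ v) (T g₂ v)
            rw [← e] at this
            linarith [h2 v hv]
          have h4 : (t / 2) ^ 2 ≤ |T g₁ v| ^ 2 := pow_le_pow_left₀ (by positivity) h3 2
          rw [sq_abs] at h4
          linarith
        · positivity
    _ = 4 * ∑ v ∈ s, T g₁ v ^ 2 := by rw [Finset.mul_sum]
    _ ≤ 4 * (lam ^ 2 * ∑ w ∈ s, g₁ w ^ 2) := by linarith [hl2 g₁]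
    _ = _ := by
        rw [Finset.mul_sum, Finset.mul_sum]
        refine Finset.sum_congr rfl fun w _ => ?_
        simp only [g₁]
        split_ifs <;> ring

/-- Marcinkiewicz by hand.  For `k : ℤ` split `g = g·1[|g| > 2^k/4] + g·1[|g| ≤ 2^k/4]`; the second
part contributes at most `2^k/2`, so by Chebyshev
`#{v ∈ s | 2^k < |T g v|} ≤ 4 λ² 2^(-2k) ∑_{w ∈ s, 2^k < 4|g w|} (g w)²`.  For each `v` with
`T g v ≠ 0` let `k v` be the integer with `2^k < |T g v| ≤ 2^(k+1)` (`Int.clog 2 _ - 1`, or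
`exists_mem_Ioc_zpow`); group by `k` in the finite set `K = image k`:
`∑ |T g v|^P ≤ ∑_{k ∈ K} 2^((k+1)P) #{..} ≤ 4 λ² 2^P ∑_w (g w)² ∑_{k ∈ K, 2^k < 4|g w|} (2^(P-2))^k`
and the inner geometric sum is at most `2 (4|g w|)^(P-2)` since `2^(P-2) ≥ 2`.
(An integral version with `∫ P t^(P-1)` is also possible.) -/
theorem interp {V : Type*} (s : Finset V) (T : (V → ℝ) → V → ℝ) (lam : ℝ) (P : ℕ) (hP : 3 ≤ P)
    (hadd : ∀ f g, ∀ v ∈ s, T (fun w => f w + g w) v = T f v + T g v)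
    (hsup : ∀ g t, 0 ≤ t → (∀ w ∈ s, |g w| ≤ t) → ∀ v ∈ s, |T g v| ≤ 2 * t)
    (hl2 : ∀ g, ∑ v ∈ s, T g v ^ 2 ≤ lam ^ 2 * ∑ w ∈ s, g w ^ 2) (g : V → ℝ) :
    ∑ v ∈ s, |T g v| ^ P ≤ 8 ^ P * lam ^ 2 * ∑ w ∈ s, |g w| ^ P := by
  obtain ⟨m, rfl⟩ : ∃ m, P = m + 3 := ⟨P - 3, by omega⟩
  have key : ∫ t, ∑ v ∈ s, interp_F |T g v| (m + 2) t ≤
      ∫ t, ∑ w ∈ s, 4 * lam ^ 2 * g w ^ 2 * interp_F (4 * |g w|) m t := by
    refine MeasureTheory.integral_mono
      (MeasureTheory.integrable_finset_sum _ fun v _ => interp_F_integrable _ _)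
      (MeasureTheory.integrable_finset_sum _ fun w _ => (interp_F_integrable _ _).const_mul _)
      fun t => ?_
    by_cases ht : 0 < t
    · have h1 := mul_le_mul_of_nonneg_left (interp_cheb s T lam hadd hsup hl2 g ht)
        (pow_nonneg ht.le m)
      rw [Finset.mul_sum, Finset.mul_sum] at h1
      refine le_of_eq_of_le ?_ (h1.trans_eq ?_)
      · refine Finset.sum_congr rfl fun v _ => ?_
        simp only [interp_F, Set.indicator_apply, Set.mem_Ioo, ht, true_and]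
        split_ifs <;> ring
      · refine Finset.sum_congr rfl fun v _ => ?_
        simp only [interp_F, Set.indicator_apply, Set.mem_Ioo, ht, true_and]
        split_ifs <;> ring
    · simp [interp_F, Set.indicator_apply, ht]
  rw [MeasureTheory.integral_finset_sum _ fun v _ => interp_F_integrable _ _,
    MeasureTheory.integral_finset_sum _ fun w _ => (interp_F_integrable _ _).const_mul _] at key
  simp only [MeasureTheory.integral_const_mul, interp_F_integral (abs_nonneg _),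
    interp_F_integral (mul_nonneg (by norm_num : (0 : ℝ) ≤ 4) (abs_nonneg _))] at key
  have hm : (0 : ℝ) ≤ m := Nat.cast_nonneg m
  have e1 : ∑ v ∈ s, |T g v| ^ (m + 2 + 1) / (((m + 2 : ℕ) : ℝ) + 1) =
      (∑ v ∈ s, |T g v| ^ (m + 3)) / ((m : ℝ) + 3) := by
    rw [Finset.sum_div]
    refine Finset.sum_congr rfl fun v _ => ?_
    push_cast
    ring
  have e2 : ∑ w ∈ s, 4 * lam ^ 2 * g w ^ 2 * ((4 * |g w|) ^ (m + 1) / ((m : ℝ) + 1)) =
      4 ^ (m + 2) / ((m : ℝ) + 1) * (lam ^ 2 * ∑ w ∈ s, |g w| ^ (m + 3)) := by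
    rw [Finset.mul_sum, Finset.mul_sum]
    refine Finset.sum_congr rfl fun w _ => ?_
    rw [← sq_abs (g w), mul_pow]
    ring
  rw [e1, e2, div_le_iff₀ (by positivity)] at key
  have hS : 0 ≤ lam ^ 2 * ∑ w ∈ s, |g w| ^ (m + 3) :=
    mul_nonneg (sq_nonneg _) (Finset.sum_nonneg fun w _ => by positivity)
  have h3 : (4 : ℝ) ^ (m + 2) / ((m : ℝ) + 1) * ((m : ℝ) + 3) ≤ 8 ^ (m + 3) := by
    have h4 : (4 : ℝ) ^ (m + 2) ≤ 8 ^ (m + 2) := pow_le_pow_left₀ (by norm_num) (by norm_num) _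
    have h5 : (0 : ℝ) ≤ 8 ^ (m + 2) := by positivity
    rw [div_mul_eq_mul_div, div_le_iff₀ (by positivity), pow_succ (8 : ℝ) (m + 2)]
    nlinarith
  calc ∑ v ∈ s, |T g v| ^ (m + 3)
      ≤ 4 ^ (m + 2) / ((m : ℝ) + 1) * (lam ^ 2 * ∑ w ∈ s, |g w| ^ (m + 3)) * ((m : ℝ) + 3) := key
    _ = 4 ^ (m + 2) / ((m : ℝ) + 1) * ((m : ℝ) + 3) * (lam ^ 2 * ∑ w ∈ s, |g w| ^ (m + 3)) := by
        ring
    _ ≤ 8 ^ (m + 3) * (lam ^ 2 * ∑ w ∈ s, |g w| ^ (m + 3)) := mul_le_mul_of_nonneg_right h3 hS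
    _ = _ := by ring

/-- Apply `interp` with `s = nb E u`, `T g v = avg (cn E u v) g - avg (nb E u) g`
(`avg_add`, `abs_avg_le`, `cn E u v ⊆ nb E u`). -/
theorem contr_of_l2 (E : St n) (lam θ : ℝ) (P : ℕ) (hP : 3 ≤ P) (hθ : 8 ^ P * lam ^ 2 ≤ θ ^ P)
    (h : ∀ (u : Fin n) (g : Fin n → ℝ), ∑ v ∈ nb E u, (avg (cn E u v) g - avg (nb E u) g) ^ 2 ≤
      lam ^ 2 * ∑ v ∈ nb E u, g v ^ 2) : Contr E P θ := by
  intro u g
  have habs : ∀ (s : Finset (Fin n)) (g : Fin n → ℝ) (t : ℝ), 0 ≤ t → (∀ w ∈ s, |g w| ≤ t) →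
      |avg s g| ≤ t := by
    intro s g t ht hg
    rcases s.eq_empty_or_nonempty with rfl | hs
    · simpa [avg] using ht
    · have hc : (0 : ℝ) < s.card := by exact_mod_cast hs.card_pos
      rw [avg, abs_div, abs_of_pos hc, div_le_iff₀ hc]
      calc |∑ x ∈ s, g x| ≤ ∑ x ∈ s, |g x| := Finset.abs_sum_le_sum_abs _ _
        _ ≤ ∑ _x ∈ s, t := Finset.sum_le_sum hg
        _ = t * s.card := by rw [Finset.sum_const, nsmul_eq_mul, mul_comm]
  have key := interp (nb E u) (fun g v => avg (cn E u v) g - avg (nb E u) g) lam P hP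
    (fun f g v _ => by
      simp only [avg, Finset.sum_add_distrib, add_div]
      ring)
    (fun g t ht hg v _ => by
      have h1 := habs (cn E u v) g t ht fun w hw => hg w (by
        simp only [cn, nb, Finset.mem_filter, Finset.mem_univ, true_and] at hw ⊢
        exact hw.1)
      have h2 := habs (nb E u) g t ht hg
      have := abs_sub (avg (cn E u v) g) (avg (nb E u) g)
      linarith)
    (h u) g
  exact key.trans (mul_le_mul_of_nonneg_right hθ (Finset.sum_nonneg fun w _ => by positivity))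

end Crest.Agent.R30
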