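import Crest.Agent.R30.Basic

/-!
# R30/Spec: an upper bound on walk counts gives a spectral gap in the link
-/

set_option autoImplicit false

open Finset
open Crest.CombinatoricsR.TriangleRemoval

namespace Crest.Agent.R30

variable {n : ℕ}

open Matrix

lemma spec_schur {ι : Type*} [Fintype ι] (B K : ι → ι → ℝ) (ρ : ℝ) (hρ : 0 ≤ ρ)
    (hK : ∀ x y, |B x y| ≤ K x y) (hs : ∀ x y, K x y = K y x) (hr : ∀ x, ∑ y, K x y ≤ ρ)
    (f : ι → ℝ) : ∑ x, (∑ y, B x y * f y) ^ 2 ≤ ρ ^ 2 * ∑ y, f y ^ 2 := by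
  have K0 : ∀ x y, 0 ≤ K x y := fun x y => (abs_nonneg _).trans (hK x y)
  have h1 : ∀ x, (∑ y, B x y * f y) ^ 2 ≤ ρ * ∑ y, K x y * f y ^ 2 := by
    intro x
    have a1 : |∑ y, B x y * f y| ≤ ∑ y, K x y * |f y| :=
      (abs_sum_le_sum_abs _ _).trans (sum_le_sum fun y _ => by
        rw [abs_mul]; exact mul_le_mul_of_nonneg_right (hK x y) (abs_nonneg _))
    have a2 : (∑ y, K x y * |f y|) ^ 2 ≤ (∑ y, K x y) * ∑ y, K x y * f y ^ 2 :=
      sum_sq_le_sum_mul_sum_of_sq_le_mul _ (fun y _ => K0 x y)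
        (fun y _ => mul_nonneg (K0 x y) (sq_nonneg _)) fun y _ => by
          rw [mul_pow, sq_abs]; exact le_of_eq (by ring)
    calc (∑ y, B x y * f y) ^ 2 = |∑ y, B x y * f y| ^ 2 := (sq_abs _).symm
      _ ≤ (∑ y, K x y * |f y|) ^ 2 := pow_le_pow_left₀ (abs_nonneg _) a1 2
      _ ≤ _ := a2
      _ ≤ _ := mul_le_mul_of_nonneg_right (hr x)
          (sum_nonneg fun y _ => mul_nonneg (K0 x y) (sq_nonneg _))
  refine (sum_le_sum fun x _ => h1 x).trans ?_
  rw [← mul_sum, sum_comm, sq, mul_assoc]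
  refine mul_le_mul_of_nonneg_left ?_ hρ
  rw [mul_sum]
  refine sum_le_sum fun y _ => ?_
  rw [← sum_mul]
  refine mul_le_mul_of_nonneg_right ?_ (sq_nonneg _)
  simpa only [hs _ y] using hr y

lemma spec_power {ι : Type*} [Fintype ι] [DecidableEq ι] (A : Matrix ι ι ℝ) (hA : Aᵀ = A)
    (f : ι → ℝ) (r : ℕ) :
    ((A *ᵥ f) ⬝ᵥ (A *ᵥ f)) ^ (2 ^ r) ≤
      ((A ^ 2 ^ r *ᵥ f) ⬝ᵥ (A ^ 2 ^ r *ᵥ f)) * (f ⬝ᵥ f) ^ (2 ^ r - 1) := by
  have Q0 : ∀ g : ι → ℝ, 0 ≤ g ⬝ᵥ g := fun g => sum_nonneg fun i _ => mul_self_nonneg _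
  have cs : ∀ g h : ι → ℝ, (g ⬝ᵥ h) ^ 2 ≤ (g ⬝ᵥ g) * (h ⬝ᵥ h) := fun g h => by
    simpa only [dotProduct, sq] using sum_mul_sq_le_sq_mul_sq univ g h
  induction r with
  | zero => simp
  | succ r ih =>
    have e : (A ^ 2 ^ r *ᵥ f) ⬝ᵥ (A ^ 2 ^ r *ᵥ f) = (A ^ 2 ^ (r + 1) *ᵥ f) ⬝ᵥ f := by
      rw [dotProduct_mulVec, ← mulVec_transpose, transpose_pow, hA, mulVec_mulVec, ← pow_add,
        pow_succ, mul_two]
    have h1 := cs (A ^ 2 ^ (r + 1) *ᵥ f) f
    rw [← e] at h1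
    have h2 : 2 ^ (r + 1) - 1 = 1 + (2 ^ r - 1) * 2 := by
      have : 0 < 2 ^ r := Nat.two_pow_pos r
      omega
    calc ((A *ᵥ f) ⬝ᵥ (A *ᵥ f)) ^ (2 ^ (r + 1)) = (((A *ᵥ f) ⬝ᵥ (A *ᵥ f)) ^ (2 ^ r)) ^ 2 := by
          rw [← pow_mul, pow_succ]
      _ ≤ (((A ^ 2 ^ r *ᵥ f) ⬝ᵥ (A ^ 2 ^ r *ᵥ f)) * (f ⬝ᵥ f) ^ (2 ^ r - 1)) ^ 2 :=
          pow_le_pow_left₀ (pow_nonneg (Q0 _) _) ih 2
      _ ≤ _ := by
          rw [mul_pow, h2, pow_add (f ⬝ᵥ f), pow_one, pow_mul (f ⬝ᵥ f), ← mul_assoc]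
          exact mul_le_mul_of_nonneg_right h1 (sq_nonneg _)

/-- self-avoiding walks in the link with a given start -/
def specP (E : St n) (u : Fin n) (k : ℕ) (x : Fin n) (w : Fin (k + 1) → Fin n) : Prop :=
  Function.Injective w ∧ w 0 = x ∧ (∀ i, w i ≠ u ∧ s(u, w i) ∈ E) ∧
    ∀ i : Fin k, s(w i.castSucc, w i.succ) ∈ E

lemma spec_card (E : St n) (u : Fin n) (k : ℕ) (x y : Fin n) :
    ((sawSet E u k x y).card : ℝ) = ∑ w, ind (specP E u k x w ∧ w (Fin.last k) = y) := by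
  rw [sawSet, card_filter]
  push_cast
  refine sum_congr rfl fun w _ => ?_
  rw [← ind_eq_ite]
  exact ind_congr (by unfold specP; tauto)

lemma spec_snoc (E : St n) (u : Fin n) (k : ℕ) (x y : Fin n) (w : Fin (k + 1) → Fin n) :
    specP E u (k + 1) x (Fin.snoc w y : Fin (k + 2) → Fin n) ↔ specP E u k x w ∧
      (y ∉ Set.range w ∧ y ≠ u ∧ s(u, y) ∈ E ∧ s(w (Fin.last k), y) ∈ E) := by
  unfold specP
  have e1 := Fin.forall_fin_succ' (P := fun i : Fin (k + 2) =>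
    (Fin.snoc w y : Fin (k + 2) → Fin n) i ≠ u ∧ s(u, (Fin.snoc w y : Fin (k + 2) → Fin n) i) ∈ E)
  have e2 := Fin.forall_fin_succ' (P := fun i : Fin (k + 1) =>
    s((Fin.snoc w y : Fin (k + 2) → Fin n) i.castSucc,
      (Fin.snoc w y : Fin (k + 2) → Fin n) i.succ) ∈ E)
  rw [Fin.snoc_injective_iff, e1, e2]
  simp only [Fin.snoc_castSucc, Fin.snoc_last, Fin.succ_last, Fin.succ_castSucc,
    Fin.snoc_apply_zero]
  tauto

lemma spec_succ (E : St n) (u : Fin n) (k : ℕ) (x y : Fin n) :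
    ((sawSet E u (k + 1) x y).card : ℝ) = ∑ w, ind (specP E u k x w) *
      ind (y ∉ Set.range w ∧ y ≠ u ∧ s(u, y) ∈ E ∧ s(w (Fin.last k), y) ∈ E) := by
  rw [spec_card, ← (Fin.snocEquiv fun _ : Fin (k + 2) => Fin n).sum_comp, Fintype.sum_prod_type,
    sum_comm]
  refine sum_congr rfl fun w _ => ?_
  rw [sum_eq_single y, ← ind_and]
  · refine ind_congr ?_
    rw [← spec_snoc]
    simp [Fin.snocEquiv]
  · intro z _ hz
    refine ind_false fun h => hz ?_
    simpa [Fin.snocEquiv] using h.2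
  · simp

lemma spec_fiber (E : St n) (u : Fin n) (k : ℕ) (x : Fin n) (F : Fin n → ℝ) :
    ∑ w, ind (specP E u k x w) * F (w (Fin.last k)) =
      ∑ z, ((sawSet E u k x z).card : ℝ) * F z := by
  simp only [spec_card, sum_mul]
  rw [sum_comm]
  refine sum_congr rfl fun w _ => ?_
  rw [sum_eq_single (w (Fin.last k))]
  · simp
  · intro z _ hz
    rw [ind_false fun h => hz h.2.symm, zero_mul]
  · simp

lemma spec_symm_le (E : St n) (u : Fin n) (k : ℕ) (x y : Fin n) :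
    (sawSet E u k x y).card ≤ (sawSet E u k y x).card := by
  refine card_le_card_of_injOn (fun w => w ∘ Fin.rev) ?_ ?_
  · intro w hw
    simp only [sawSet, coe_filter, mem_univ, true_and, Set.mem_ofPred_eq] at hw ⊢
    obtain ⟨h1, h2, h3, h4, h5⟩ := hw
    refine ⟨h1.comp Fin.rev_injective, by simpa using h3, by simpa using h2, fun i => h4 _,
      fun i => ?_⟩
    simp only [Function.comp_apply, Fin.rev_castSucc, Fin.rev_succ]
    rw [Sym2.eq_swap]
    exact h5 _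
  · intro w _ w' _ h
    exact Fin.rev_surjective.injective_comp_right h

/-- adjacency matrix of the link -/
noncomputable def specA (E : St n) (u : Fin n) : Matrix (Fin n) (Fin n) ℝ :=
  fun x y => ind (s(u, x) ∈ E ∧ s(u, y) ∈ E ∧ s(x, y) ∈ E)

lemma specA_symm (E : St n) (u : Fin n) : (specA E u)ᵀ = specA E u := by
  ext x y
  rw [transpose_apply]
  refine ind_congr ?_
  rw [Sym2.eq_swap (a := y) (b := x)]
  tauto

lemma specA_pow_nonneg (E : St n) (u : Fin n) (k : ℕ) (x y : Fin n) : 0 ≤ (specA E u ^ k) x y := by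
  induction k generalizing y with
  | zero => rw [pow_zero, one_apply]; split_ifs <;> norm_num
  | succ k ih =>
    rw [pow_succ, mul_apply]
    exact sum_nonneg fun z _ => mul_nonneg (ih z) (ind_nonneg _)

lemma spec_le_pow (E : St n) (u : Fin n) (k : ℕ) (x y : Fin n) :
    ((sawSet E u k x y).card : ℝ) ≤ (specA E u ^ k) x y := by
  induction k generalizing y with
  | zero =>
    rw [pow_zero, one_apply]
    split_ifs with h
    · have : (sawSet E u 0 x y).card ≤ 1 := card_le_one.2 fun a ha b hb => by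
        simp only [sawSet, mem_filter] at ha hb
        funext i
        rw [Fin.eq_zero i, ha.2.2.1, hb.2.2.1]
      exact_mod_cast this
    · have : sawSet E u 0 x y = ∅ := by
        rw [sawSet, filter_eq_empty_iff]
        intro w _ hw
        exact h (hw.2.1.symm.trans hw.2.2.1)
      simp [this]
  | succ k ih =>
    rw [spec_succ, pow_succ, mul_apply]
    refine le_trans ?_ (sum_le_sum fun z _ => mul_le_mul_of_nonneg_right (ih z) (ind_nonneg _))
    rw [← spec_fiber E u k x fun z => specA E u z y]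
    refine sum_le_sum fun w _ => ?_
    rw [← ind_and, specA, ← ind_and]
    exact ind_mono fun h => ⟨h.1, (h.1.2.2.1 _).2, h.2.2.2.1, h.2.2.2.2⟩

lemma specA_mulVec (E : St n) (u : Fin n) (f : Fin n → ℝ) (x : Fin n) :
    (specA E u *ᵥ f) x = ind (s(u, x) ∈ E) * ∑ y ∈ cn E u x, f y := by
  rw [cn, sum_filter, mul_sum, mulVec, dotProduct]
  refine sum_congr rfl fun y _ => ?_
  rw [specA, ind_and, mul_assoc, ind_eq_ite (s(u, y) ∈ E ∧ s(x, y) ∈ E)]
  simp

lemma spec_row_le (E : St n) (u : Fin n) {b : ℝ} (hb0 : 0 ≤ b)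
    (hb : ∀ x, s(u, x) ∈ E → ((cn E u x).card : ℝ) ≤ b) (k : ℕ) (x : Fin n) :
    ∑ y, (specA E u ^ k) x y ≤ b ^ k := by
  have h1 : ∀ z, ∑ y, specA E u z y ≤ b := by
    intro z
    have := specA_mulVec E u (fun _ => 1) z
    simp only [mulVec, dotProduct, mul_one, sum_const, nsmul_eq_mul] at this
    rw [this]
    by_cases h : s(u, z) ∈ E
    · rw [ind_true h, one_mul]; exact hb z h
    · rw [ind_false h, zero_mul]; exact hb0
  induction k with
  | zero => simp [one_apply]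
  | succ k ih =>
    simp only [pow_succ, mul_apply]
    rw [sum_comm]
    simp only [← mul_sum]
    refine le_trans (sum_le_sum fun z _ =>
      mul_le_mul_of_nonneg_left (h1 z) (specA_pow_nonneg E u k x z)) ?_
    rw [← sum_mul]
    exact mul_le_mul_of_nonneg_right ih hb0

lemma spec_row_ge {E : St n} (hE : Simple E) (u : Fin n) {a : ℝ} {j : ℕ} (ha0 : 0 ≤ a)
    (ha : ∀ x, s(u, x) ∈ E → a + j ≤ ((cn E u x).card : ℝ)) {x : Fin n} (hx : s(u, x) ∈ E)
    (k : ℕ) (hk : k ≤ j) : a ^ k ≤ ∑ y, ((sawSet E u k x y).card : ℝ) := by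
  induction k with
  | zero =>
    rw [pow_zero]
    refine le_trans ?_ (single_le_sum (f := fun y => ((sawSet E u 0 x y).card : ℝ))
      (fun y _ => Nat.cast_nonneg _) (mem_univ x))
    have : 1 ≤ (sawSet E u 0 x x).card := card_pos.2 ⟨fun _ => x, by
      simp only [sawSet, mem_filter, mem_univ, true_and]
      exact ⟨fun a b _ => (Fin.eq_zero a).trans (Fin.eq_zero b).symm,
        fun _ => ⟨(hE.ne hx).symm, hx⟩, fun i => i.elim0⟩⟩
    exact_mod_cast this
  | succ k ih =>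
    have h1 := spec_fiber E u k x fun _ => a
    rw [← sum_mul] at h1
    rw [← sum_mul] at h1
    simp only [spec_succ]
    rw [sum_comm, pow_succ]
    refine (mul_le_mul_of_nonneg_right (ih (by omega)) ha0).trans ?_
    rw [← h1, sum_mul]
    refine sum_le_sum fun w _ => ?_
    rw [← mul_sum]
    by_cases hw : specP E u k x w
    · refine mul_le_mul_of_nonneg_left ?_ (ind_nonneg _)
      have h2 := ha _ (hw.2.2.1 (Fin.last k)).2
      have h3 : (cn E u (w (Fin.last k))).card ≤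
          (cn E u (w (Fin.last k)) \ univ.image w).card + (k + 1) := by
        refine (card_le_card_sdiff_add_card (t := univ.image w)).trans ?_
        have : (univ.image w).card ≤ k + 1 := card_image_le.trans (by simp)
        omega
      have h4 : ((cn E u (w (Fin.last k)) \ univ.image w).card : ℝ) ≤
          ∑ y, ind (y ∉ Set.range w ∧ y ≠ u ∧ s(u, y) ∈ E ∧ s(w (Fin.last k), y) ∈ E) := by
        rw [card_eq_sum_ones]
        push_cast
        refine le_trans (sum_le_sum fun y hy => (ind_true ?_).ge)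
          (sum_le_sum_of_subset_of_nonneg (subset_univ _) fun y _ _ => ind_nonneg _)
        simp only [mem_sdiff, mem_cn, mem_image, mem_univ, true_and] at hy
        exact ⟨hy.2, (hE.ne hy.1.1).symm, hy.1.1, hy.1.2⟩
      have h5 : ((k + 1 : ℕ) : ℝ) ≤ j := by exact_mod_cast hk
      have h6 : ((cn E u (w (Fin.last k))).card : ℝ) ≤
          (cn E u (w (Fin.last k)) \ univ.image w).card + ((k + 1 : ℕ) : ℝ) := by
        exact_mod_cast h3
      linarith
    · rw [ind_false hw, zero_mul, zero_mul]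

lemma spec_pow_le {τ : ℝ} (h0 : 0 ≤ τ) {j : ℕ} (hτ : j * τ ≤ 1 / 4) (k : ℕ) (hk : k ≤ j) :
    (1 + τ) ^ k ≤ 1 + 2 * k * τ := by
  induction k with
  | zero => simp
  | succ k ih =>
    have h1 : (k : ℝ) ≤ j := by exact_mod_cast (by omega : k ≤ j)
    have h2 : (k : ℝ) * τ ≤ 1 / 4 := (mul_le_mul_of_nonneg_right h1 h0).trans hτ
    rw [pow_succ]
    refine (mul_le_mul_of_nonneg_right (ih (by omega)) (by linarith)).trans ?_
    push_cast
    nlinarith

/-- Work on `V = nb E u` with the symmetric 0/1 matrix `A x y = ind (x ∈ V ∧ y ∈ V ∧ s(x,y) ∈ E)`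
(a `Matrix (Fin n) (Fin n) ℝ`); for `x ∈ V` the row sum is `#cn E u x ∈ [d(1-δ), d(1+δ)]`.
Let `M x y = #sawSet E u j x y` (symmetric: reverse the walk with `Fin.rev`; zero unless
`x, y ∈ V`), `c = (1+τ) d^j / D`, `N x y = c - M x y ≥ 0` on `V × V` (0 elsewhere),
`R = A^j - M ≥ 0` (`(A^j) x y` counts all walks).  Row sums for `x ∈ V`:
`∑ M ≥ (d(1-δ) - j)^j ≥ d^j (1-2τ)^j ≥ d^j (1 - 2jτ)` (extend a self-avoiding walk step by
step, at least `d(1-δ) - j` choices), `∑ A^j ≤ d^j (1+τ)^j ≤ d^j (1+2jτ)`, hence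
`∑ N ≤ 5jτ d^j` (as `#V ≤ D(1+δ)`), `∑ R ≤ 4jτ d^j`.  Schur test: a symmetric nonnegative matrix
with row sums `≤ ρ` satisfies `‖B f‖₂ ≤ ρ ‖f‖₂` (Cauchy-Schwarz).  For `f` supported on `V` with
`∑ f = 0`: `A^j f = (R - N) f`, so `‖A^j f‖ ≤ 9jτ d^j ‖f‖ ≤ (λ d)^j ‖f‖`.  By induction on `r`,
`‖A f‖^(2^r) ≤ ‖A^(2^r) f‖ ‖f‖^(2^r - 1)` (from `‖A^k f‖² = ⟨A^(2k) f, f⟩`), so `‖A f‖ ≤ λ d ‖f‖`.
Take `f = g - avg V g` on `V`: `‖f‖ ≤ ‖g‖_V`, and for `v ∈ V`,
`avg (cn E u v) g - avg V g = (A f) v / #cn E u v` with `#cn ≥ d(1-δ) ≥ d/2`. -/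
theorem spec {E : St n} {D d δ : ℝ} (hR : Reg E D d δ) (hD : 0 < D) (hd : 0 < d) (r j : ℕ)
    (hj : j = 2 ^ r) (τ lam : ℝ) (hδ : δ ≤ τ) (hjd : (j : ℝ) ≤ τ * d) (hτ : j * τ ≤ 1 / 4)
    (hl0 : 0 ≤ lam) (hl : 10 * j * τ ≤ lam ^ j) (u : Fin n)
    (hs : ∀ x y, ((sawSet E u j x y).card : ℝ) ≤ (1 + τ) * d ^ j / D) (g : Fin n → ℝ) :
    ∑ v ∈ nb E u, (avg (cn E u v) g - avg (nb E u) g) ^ 2 ≤
      (2 * lam) ^ 2 * ∑ v ∈ nb E u, g v ^ 2 := by
  have hδ0 : 0 ≤ δ := (abs_nonneg _).trans (hR.deg u)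
  have hτ0 : 0 ≤ τ := hδ0.trans hδ
  have hj1 : 1 ≤ j := by rw [hj]; exact Nat.two_pow_pos r
  have hj1' : (1 : ℝ) ≤ j := by exact_mod_cast hj1
  have hτ4 : τ ≤ 1 / 4 := by nlinarith
  have hτj : τ ≤ j * τ := by nlinarith
  have hcn : ∀ x, s(u, x) ∈ E → d * (1 - τ) ≤ ((cn E u x).card : ℝ) ∧
      ((cn E u x).card : ℝ) ≤ d * (1 + τ) := by
    intro x hx
    have h := abs_le.1 (hR.cod u x hx)
    have e : ((cn E u x).card : ℝ) = d * (((cn E u x).card : ℝ) / d) := by field_simp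
    rw [e]
    exact ⟨mul_le_mul_of_nonneg_left (by linarith [h.1]) hd.le,
      mul_le_mul_of_nonneg_left (by linarith [h.2]) hd.le⟩
  have hV : ((nb E u).card : ℝ) ≤ D * (1 + τ) := by
    have h := abs_le.1 (hR.deg u)
    have e : ((nb E u).card : ℝ) = D * (((nb E u).card : ℝ) / D) := by field_simp
    rw [e]
    exact mul_le_mul_of_nonneg_left (by linarith [h.2]) hD.le
  set A := specA E u with hA
  set c := (1 + τ) * d ^ j / D with hc
  set a := d ^ j with ha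
  have ha0 : 0 < a := pow_pos hd j
  let M : Fin n → Fin n → ℝ := fun x y => ((sawSet E u j x y).card : ℝ)
  have Msym : ∀ x y, M x y = M y x := fun x y => by
    simp only [M]
    rw [le_antisymm (spec_symm_le E u j x y) (spec_symm_le E u j y x)]
  have Asym : ∀ x y, (A ^ j) x y = (A ^ j) y x := fun x y => by
    rw [← transpose_apply (A ^ j), transpose_pow, hA, specA_symm]
  let B : Fin n → Fin n → ℝ := fun x y => ind (s(u, x) ∈ E ∧ s(u, y) ∈ E) * ((A ^ j) x y - c)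
  let K : Fin n → Fin n → ℝ := fun x y => ((A ^ j) x y - M x y) +
    (ind (s(u, x) ∈ E ∧ s(u, y) ∈ E) * c - M x y)
  have Mz : ∀ x y, ¬ (s(u, x) ∈ E ∧ s(u, y) ∈ E) → M x y = 0 := by
    intro x y h
    have : sawSet E u j x y = ∅ := by
      rw [sawSet, filter_eq_empty_iff]
      rintro w - ⟨-, rfl, rfl, h4, -⟩
      exact h ⟨(h4 _).2, (h4 _).2⟩
    simp [M, this]
  have hK : ∀ x y, |B x y| ≤ K x y := by
    intro x y
    have h1 : M x y ≤ (A ^ j) x y := spec_le_pow E u j x y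
    have h2 : M x y ≤ c := hs x y
    simp only [B, K]
    by_cases h : s(u, x) ∈ E ∧ s(u, y) ∈ E
    · rw [ind_true h, one_mul, one_mul, abs_le]
      constructor <;> linarith
    · have h3 := Mz x y h
      rw [ind_false h, zero_mul, zero_mul, abs_zero]
      linarith
  have Az : ∀ (f : Fin n → ℝ) x, s(u, x) ∉ E → (A ^ j *ᵥ f) x = 0 := by
    intro f x hx
    obtain ⟨k, rfl⟩ : ∃ k, j = k + 1 := ⟨j - 1, by omega⟩
    rw [pow_succ', ← mulVec_mulVec, hA, specA_mulVec, ind_false hx, zero_mul]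
  have hrow : ∀ x, ∑ y, K x y ≤ (lam * d) ^ j := by
    intro x
    by_cases hx : s(u, x) ∈ E
    · have h1 : ∑ y, (A ^ j) x y ≤ a * (1 + 2 * j * τ) := by
        refine (spec_row_le E u (b := d * (1 + τ)) (by positivity)
          (fun z hz => (hcn z hz).2) j x).trans ?_
        rw [mul_pow]
        exact mul_le_mul_of_nonneg_left (spec_pow_le hτ0 hτ j le_rfl) ha0.le
      have h2 : a * (1 - 2 * j * τ) ≤ ∑ y, M x y := by
        refine le_trans ?_ (spec_row_ge hR.simple u (a := d * (1 - 2 * τ)) (j := j)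
          (mul_nonneg hd.le (by linarith)) (fun z hz => by linarith [(hcn z hz).1]) hx j le_rfl)
        rw [mul_pow]
        refine mul_le_mul_of_nonneg_left ?_ ha0.le
        have := one_add_mul_le_pow (a := -(2 * τ)) (by linarith) j
        rw [← sub_eq_add_neg] at this
        linarith
      have h3 : ∑ y, ind (s(u, x) ∈ E ∧ s(u, y) ∈ E) * c ≤ a * (1 + 3 * τ) := by
        have e : ∑ y, ind (s(u, x) ∈ E ∧ s(u, y) ∈ E) = ((nb E u).card : ℝ) := by
          rw [nb, card_filter]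
          push_cast
          refine sum_congr rfl fun y _ => ?_
          rw [← ind_eq_ite]
          exact ind_congr (by tauto)
        rw [← sum_mul, e]
        refine (mul_le_mul_of_nonneg_right hV (by positivity)).trans ?_
        have e2 : D * (1 + τ) * c = a * ((1 + τ) * (1 + τ)) := by
          rw [hc]; field_simp
        rw [e2]
        exact mul_le_mul_of_nonneg_left (by nlinarith) ha0.le
      simp only [K, sum_add_distrib, sum_sub_distrib]
      rw [mul_pow]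
      nlinarith
    · have h1 : ∑ y, (A ^ j) x y = 0 := by
        simpa [mulVec, dotProduct] using Az (fun _ => 1) x hx
      have h2 : ∀ y, M x y = 0 := fun y => Mz x y fun h => hx h.1
      have h3 : ∀ y, ind (s(u, x) ∈ E ∧ s(u, y) ∈ E) = 0 := fun y => ind_false fun h => hx h.1
      simp only [K, h2, h3, sub_zero, zero_mul, add_zero, h1]
      positivity
  set m := avg (nb E u) g with hm
  let f : Fin n → ℝ := fun x => if s(u, x) ∈ E then g x - m else 0
  have hsum : ∀ F : Fin n → ℝ, ∑ y, (if s(u, y) ∈ E then F y else 0) = ∑ y ∈ nb E u, F y :=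
    fun F => by rw [nb, sum_filter]
  have hg : ∑ y ∈ nb E u, g y = (nb E u).card * m := (card_mul_avg _ _).symm
  have hf0 : ∑ y, f y = 0 := by
    rw [hsum fun y => g y - m, sum_sub_distrib, hg]
    simp
  have hfQ : f ⬝ᵥ f ≤ ∑ v ∈ nb E u, g v ^ 2 := by
    have e : f ⬝ᵥ f = ∑ y ∈ nb E u, (g y ^ 2 - 2 * m * g y + m ^ 2) := by
      rw [← hsum, dotProduct]
      refine sum_congr rfl fun y _ => ?_
      simp only [f]
      split_ifs <;> ring
    rw [e, sum_add_distrib, sum_sub_distrib, ← mul_sum, hg, sum_const, nsmul_eq_mul]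
    nlinarith [mul_nonneg (Nat.cast_nonneg (α := ℝ) (nb E u).card) (sq_nonneg m)]
  have hBf : ∀ x, (A ^ j *ᵥ f) x = ∑ y, B x y * f y := by
    intro x
    by_cases hx : s(u, x) ∈ E
    · have : ∑ y, B x y * f y = ∑ y, ((A ^ j) x y * f y - c * f y) := by
        refine sum_congr rfl fun y _ => ?_
        simp only [B, f]
        by_cases hy : s(u, y) ∈ E
        · rw [ind_true ⟨hx, hy⟩]; ring
        · simp [hy]
      rw [this, sum_sub_distrib, ← mul_sum, hf0, mul_zero, sub_zero]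
      rfl
    · rw [Az f x hx]
      refine (sum_eq_zero fun y _ => ?_).symm
      simp only [B]
      rw [ind_false fun h => hx h.1, zero_mul, zero_mul]
  have Q0 : ∀ g : Fin n → ℝ, 0 ≤ g ⬝ᵥ g := fun g => sum_nonneg fun i _ => mul_self_nonneg _
  have h1 : (A ^ j *ᵥ f) ⬝ᵥ (A ^ j *ᵥ f) ≤ ((lam * d) ^ j) ^ 2 * (f ⬝ᵥ f) := by
    have := spec_schur B K _ (by positivity) hK
      (fun x y => by simp only [K]; rw [Asym x y, Msym x y, ind_congr and_comm]) hrow f
    simpa only [dotProduct, hBf, sq] using this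
  have h2 : (A *ᵥ f) ⬝ᵥ (A *ᵥ f) ≤ (lam * d) ^ 2 * (f ⬝ᵥ f) := by
    have h3 := spec_power A (specA_symm E u) f r
    rw [← hj] at h3
    refine (pow_le_pow_iff_left₀ (Q0 _) (mul_nonneg (sq_nonneg _) (Q0 _)) (by omega : j ≠ 0)).1
      (h3.trans ?_)
    refine (mul_le_mul_of_nonneg_right h1 (pow_nonneg (Q0 _) _)).trans (le_of_eq ?_)
    rw [mul_assoc, ← pow_succ', Nat.sub_add_cancel hj1, mul_pow ((lam * d) ^ 2), ← pow_mul,
      ← pow_mul, mul_comm j]
  have h4 : ∀ v ∈ nb E u, (d / 2) ^ 2 * (avg (cn E u v) g - m) ^ 2 ≤ (A *ᵥ f) v * (A *ᵥ f) v := by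
    intro v hv
    have hv' := mem_nb.1 hv
    have e : (A *ᵥ f) v = (cn E u v).card * (avg (cn E u v) g - m) := by
      rw [hA, specA_mulVec, ind_true hv', one_mul, mul_sub, card_mul_avg, ← nsmul_eq_mul,
        ← sum_const, ← sum_sub_distrib]
      exact sum_congr rfl fun y hy => if_pos (mem_cn.1 hy).1
    rw [e, ← sq, mul_pow]
    refine mul_le_mul_of_nonneg_right (pow_le_pow_left₀ (by positivity) ?_ 2) (sq_nonneg _)
    nlinarith [(hcn v hv').1]
  have h5 : (d / 2) ^ 2 * ∑ v ∈ nb E u, (avg (cn E u v) g - m) ^ 2 ≤ (A *ᵥ f) ⬝ᵥ (A *ᵥ f) := by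
    rw [mul_sum]
    exact (sum_le_sum h4).trans
      (sum_le_sum_of_subset_of_nonneg (subset_univ _) fun y _ _ => mul_self_nonneg _)
  refine le_of_mul_le_mul_left (a := (d / 2) ^ 2) ?_ (by positivity)
  refine (h5.trans h2).trans ((mul_le_mul_of_nonneg_left hfQ (sq_nonneg _)).trans (le_of_eq ?_))
  ring

end Crest.Agent.R30
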