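import Crest.Agent.R30.Tri

/-!
# R30/Stab: the deterministic `ℓ^P` Gronwall lemma
-/

set_option autoImplicit false

open Finset
open Crest.CombinatoricsR.TriangleRemoval

namespace Crest.Agent.R30

variable {n : ℕ}

/-- The `ℓ^P` norm on a finset. -/
noncomputable def stab_nrm {α : Type*} (P : ℕ) (s : Finset α) (g : α → ℝ) : ℝ :=
  (∑ x ∈ s, |g x| ^ P) ^ ((P : ℝ)⁻¹)

section nrm

variable {α : Type*} {P : ℕ}

lemma stab_sum_nonneg (s : Finset α) (g : α → ℝ) : 0 ≤ ∑ x ∈ s, |g x| ^ P :=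
  sum_nonneg fun _ _ => pow_nonneg (abs_nonneg _) _

lemma stab_nrm_nonneg (s : Finset α) (g : α → ℝ) : 0 ≤ stab_nrm P s g :=
  Real.rpow_nonneg (stab_sum_nonneg s g) _

lemma stab_nrm_pow (hP : 1 ≤ P) (s : Finset α) (g : α → ℝ) :
    stab_nrm P s g ^ P = ∑ x ∈ s, |g x| ^ P :=
  Real.rpow_inv_natCast_pow (stab_sum_nonneg s g) (by omega)

lemma stab_nrm_le (hP : 1 ≤ P) {s : Finset α} {g : α → ℝ} {c : ℝ} (hc : 0 ≤ c)
    (h : ∑ x ∈ s, |g x| ^ P ≤ c ^ P) : stab_nrm P s g ≤ c := by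
  rw [← stab_nrm_pow hP] at h
  exact (pow_le_pow_iff_left₀ (stab_nrm_nonneg s g) hc (by omega)).1 h

lemma stab_nrm_add (hP : 1 ≤ P) (s : Finset α) (f g : α → ℝ) :
    stab_nrm P s (fun x => f x + g x) ≤ stab_nrm P s f + stab_nrm P s g := by
  have h := Real.Lp_add_le s f g (p := (P : ℝ)) (by exact_mod_cast hP)
  simpa only [stab_nrm, one_div, Real.rpow_natCast] using h

lemma stab_nrm_mono (hP : 1 ≤ P) {s : Finset α} {f g : α → ℝ} (h : ∀ x ∈ s, |f x| ≤ |g x|) :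
    stab_nrm P s f ≤ stab_nrm P s g := by
  refine stab_nrm_le hP (stab_nrm_nonneg _ _) ?_
  rw [stab_nrm_pow hP]
  exact sum_le_sum fun x hx => pow_le_pow_left₀ (abs_nonneg _) (h x hx) _

lemma stab_nrm_congr {s : Finset α} {f g : α → ℝ} (h : ∀ x ∈ s, f x = g x) :
    stab_nrm P s f = stab_nrm P s g := by
  unfold stab_nrm
  rw [sum_congr rfl fun x hx => by rw [h x hx]]

lemma stab_nrm_subset (hP : 1 ≤ P) {s t : Finset α} (h : s ⊆ t) (g : α → ℝ) :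
    stab_nrm P s g ≤ stab_nrm P t g := by
  refine stab_nrm_le hP (stab_nrm_nonneg _ _) ?_
  rw [stab_nrm_pow hP]
  exact sum_le_sum_of_subset_of_nonneg h fun _ _ _ => pow_nonneg (abs_nonneg _) _

lemma stab_nrm_mul (hP : 1 ≤ P) (s : Finset α) {c : ℝ} (hc : 0 ≤ c) (g : α → ℝ) :
    stab_nrm P s (fun x => c * g x) ≤ c * stab_nrm P s g := by
  refine stab_nrm_le hP (mul_nonneg hc (stab_nrm_nonneg _ _)) ?_
  rw [mul_pow, stab_nrm_pow hP, mul_sum]
  refine le_of_eq (sum_congr rfl fun x _ => ?_)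
  rw [abs_mul, abs_of_nonneg hc, mul_pow]

lemma stab_nrm_neg (s : Finset α) (g : α → ℝ) :
    stab_nrm P s (fun x => - g x) = stab_nrm P s g := by
  simp only [stab_nrm, abs_neg]

lemma stab_nrm_sub (hP : 1 ≤ P) (s : Finset α) (f g : α → ℝ) :
    stab_nrm P s (fun x => f x - g x) ≤ stab_nrm P s f + stab_nrm P s g := by
  have h := stab_nrm_add hP s f (fun x => - g x)
  rw [stab_nrm_neg] at h
  simpa only [sub_eq_add_neg] using h

lemma stab_nrm_bdd (hP : 1 ≤ P) {s : Finset α} {g : α → ℝ} {c M : ℝ} (hc : 0 ≤ c) (hM : 0 ≤ M)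
    (hs : (s.card : ℝ) ≤ M ^ P) (h : ∀ x ∈ s, |g x| ≤ c) : stab_nrm P s g ≤ c * M := by
  refine stab_nrm_le hP (mul_nonneg hc hM) ?_
  calc ∑ x ∈ s, |g x| ^ P ≤ ∑ _x ∈ s, c ^ P :=
        sum_le_sum fun x hx => pow_le_pow_left₀ (abs_nonneg _) (h x hx) _
    _ = s.card * c ^ P := by rw [sum_const, nsmul_eq_mul]
    _ ≤ M ^ P * c ^ P := mul_le_mul_of_nonneg_right hs (pow_nonneg hc _)
    _ = (c * M) ^ P := by rw [mul_pow, mul_comm]

lemma stab_nrm_sum {β : Type*} (hP : 1 ≤ P) (s : Finset α) (t : Finset β) (g : β → α → ℝ) :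
    stab_nrm P s (fun x => ∑ j ∈ t, g j x) ≤ ∑ j ∈ t, stab_nrm P s (g j) := by
  classical
  induction t using Finset.induction_on with
  | empty =>
    simp only [sum_empty]
    refine stab_nrm_le hP le_rfl ?_
    have : P ≠ 0 := by omega
    simp [this]
  | insert a t ha ih =>
    simp only [sum_insert ha]
    exact (stab_nrm_add hP s _ _).trans (by linarith)

lemma stab_abs_le_nrm (hP : 1 ≤ P) {s : Finset α} (g : α → ℝ) {x : α} (hx : x ∈ s) :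
    |g x| ≤ stab_nrm P s g := by
  have h : |g x| ^ P ≤ stab_nrm P s g ^ P := by
    rw [stab_nrm_pow hP]
    exact single_le_sum (f := fun x => |g x| ^ P) (fun _ _ => pow_nonneg (abs_nonneg _) _) hx
  exact (pow_le_pow_iff_left₀ (abs_nonneg _) (stab_nrm_nonneg s g) (by omega)).1 h

/-- Jensen. -/
lemma stab_jensen (hP : 1 ≤ P) (s : Finset α) (g : α → ℝ) :
    (s.card : ℝ) * |avg s g| ^ P ≤ ∑ x ∈ s, |g x| ^ P := by
  rcases s.eq_empty_or_nonempty with rfl | hs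
  · simp
  obtain ⟨k, rfl⟩ : ∃ k, P = k + 1 := ⟨P - 1, by omega⟩
  have hc : (0 : ℝ) < s.card := by exact_mod_cast hs.card_pos
  have h1 := pow_sum_div_card_le_sum_pow (s := s) (f := fun x => |g x|)
    (fun _ _ => abs_nonneg _) k
  refine le_trans ?_ h1
  have h2 : |avg s g| ≤ (∑ x ∈ s, |g x|) / s.card := by
    unfold avg
    rw [abs_div, abs_of_pos hc]
    exact div_le_div_of_nonneg_right (abs_sum_le_sum_abs _ _) hc.le
  calc (s.card : ℝ) * |avg s g| ^ (k + 1)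
      ≤ s.card * ((∑ x ∈ s, |g x|) / s.card) ^ (k + 1) :=
        mul_le_mul_of_nonneg_left (pow_le_pow_left₀ (abs_nonneg _) h2 _) hc.le
    _ = (∑ x ∈ s, |g x|) ^ (k + 1) / (s.card : ℝ) ^ k := by
        rw [div_pow]; field_simp; ring

end nrm

lemma stab_card_oe_le (E : St n) : ((oe E).card : ℝ) ≤ (n : ℝ) ^ 2 := by
  have h : (oe E).card ≤ (univ : Finset (Fin n × Fin n)).card := card_le_card (subset_univ _)
  rw [card_univ, Fintype.card_prod, Fintype.card_fin] at h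
  have : ((oe E).card : ℝ) ≤ (n * n : ℕ) := by exact_mod_cast h
  push_cast at this
  nlinarith

lemma stab_two_le_pow {P : ℕ} (hP : 1 ≤ P) : (2 : ℝ) ≤ 2 ^ P :=
  le_self_pow₀ (by norm_num) (by omega)

/-- The contraction, summed over the base vertex. -/
lemma stab_contr {E : St n} {P : ℕ} (hP : 1 ≤ P) {θ : ℝ} (hθ : 0 ≤ θ) (hC : Contr E P θ)
    (e : Fin n → Fin n → ℝ) :
    stab_nrm P (oe E) (fun x => avg (cn E x.1 x.2) (e x.1) - avg (nb E x.1) (e x.1)) ≤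
      θ * stab_nrm P (oe E) (fun x => e x.1 x.2) := by
  refine stab_nrm_le hP (mul_nonneg hθ (stab_nrm_nonneg _ _)) ?_
  rw [mul_pow, stab_nrm_pow hP,
    sum_oe E (fun u v => |avg (cn E u v) (e u) - avg (nb E u) (e u)| ^ P),
    sum_oe E (fun u v => |e u v| ^ P), mul_sum]
  exact sum_le_sum fun u _ => hC u (e u)

lemma stab_swap (E : St n) (P : ℕ) (e : Fin n → Fin n → ℝ) :
    stab_nrm P (oe E) (fun x => e x.2 x.1) = stab_nrm P (oe E) (fun x => e x.1 x.2) := by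
  unfold stab_nrm
  rw [sum_oe_swap E (fun u v => |e u v| ^ P)]

/-- A function of the first end point. -/
lemma stab_fst {E : St n} {P : ℕ} (hP : 1 ≤ P) {r : ℝ} (hr : 0 ≤ r)
    (hdeg : ∀ u, ((nb E u).card : ℝ) ≤ 2 * r ^ P) (g : Fin n → ℝ) :
    stab_nrm P (oe E) (fun x => g x.1) ≤ 2 * r * stab_nrm P univ g := by
  refine stab_nrm_le hP (mul_nonneg (by positivity) (stab_nrm_nonneg _ _)) ?_
  rw [mul_pow, stab_nrm_pow hP, sum_oe E (fun u _ => |g u| ^ P), mul_sum]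
  refine sum_le_sum fun u _ => ?_
  rw [sum_const, nsmul_eq_mul]
  refine mul_le_mul_of_nonneg_right ((hdeg u).trans ?_) (pow_nonneg (abs_nonneg _) _)
  rw [mul_pow]
  exact mul_le_mul_of_nonneg_right (stab_two_le_pow hP) (pow_nonneg hr _)

/-- Averaging over the neighbours almost contracts. -/
lemma stab_avg_nb {E : St n} {P : ℕ} (hP : 1 ≤ P) {D δ : ℝ} (hD : 0 < D) (hδ0 : 0 ≤ δ)
    (hδ : δ ≤ 1 / 3) (hlo : ∀ u, (1 - δ) * D ≤ ((nb E u).card : ℝ))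
    (hhi : ∀ u, ((nb E u).card : ℝ) ≤ (1 + δ) * D) (g : Fin n → ℝ) :
    stab_nrm P univ (fun u => avg (nb E u) g) ≤ (1 + 3 * δ) * stab_nrm P univ g := by
  refine stab_nrm_le hP (mul_nonneg (by positivity) (stab_nrm_nonneg _ _)) ?_
  rw [mul_pow, stab_nrm_pow hP]
  have hpos : 0 < (1 - δ) * D := mul_pos (by linarith) hD
  have h1 : (1 - δ) * D * ∑ u, |avg (nb E u) g| ^ P ≤ ∑ u, ∑ v ∈ nb E u, |g v| ^ P := by
    rw [mul_sum]
    refine sum_le_sum fun u _ => le_trans ?_ (stab_jensen hP _ g)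
    exact mul_le_mul_of_nonneg_right (hlo u) (pow_nonneg (abs_nonneg _) _)
  have h2 : ∑ u, ∑ v ∈ nb E u, |g v| ^ P ≤ (1 + δ) * D * ∑ u, |g u| ^ P := by
    rw [← sum_oe E (fun _ v => |g v| ^ P), sum_oe_swap E (fun _ v => |g v| ^ P),
      sum_oe E (fun u _ => |g u| ^ P), mul_sum]
    refine sum_le_sum fun u _ => ?_
    rw [sum_const, nsmul_eq_mul]
    exact mul_le_mul_of_nonneg_right (hhi u) (pow_nonneg (abs_nonneg _) _)
  have hS := stab_sum_nonneg (P := P) univ g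
  have h3 : (1 + δ) * D * ∑ u, |g u| ^ P ≤
      (1 - δ) * D * ((1 + 3 * δ) ^ P * ∑ u, |g u| ^ P) := by
    have h4 : 1 + 3 * δ ≤ (1 + 3 * δ) ^ P := le_self_pow₀ (by linarith) (by omega)
    have h5 : 1 + δ ≤ (1 - δ) * (1 + 3 * δ) ^ P := by
      have : 1 + δ ≤ (1 - δ) * (1 + 3 * δ) := by nlinarith
      exact this.trans (mul_le_mul_of_nonneg_left h4 (by linarith))
    calc (1 + δ) * D * ∑ u, |g u| ^ P = (1 + δ) * (D * ∑ u, |g u| ^ P) := by ring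
      _ ≤ ((1 - δ) * (1 + 3 * δ) ^ P) * (D * ∑ u, |g u| ^ P) :=
          mul_le_mul_of_nonneg_right h5 (mul_nonneg hD.le hS)
      _ = _ := by ring
  exact le_of_mul_le_mul_left (h1.trans (h2.trans h3)) hpos

/-- Averaging an edge function over the neighbours. -/
lemma stab_avg_edge {E : St n} {P : ℕ} (hP : 1 ≤ P) {s : ℝ} (hs : 0 ≤ s)
    (hlo : ∀ u, s ^ P ≤ 2 * ((nb E u).card : ℝ)) (e : Fin n → Fin n → ℝ) :
    s * stab_nrm P univ (fun u => avg (nb E u) (e u)) ≤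
      2 * stab_nrm P (oe E) (fun x => e x.1 x.2) := by
  have h : (s * stab_nrm P univ (fun u => avg (nb E u) (e u))) ^ P ≤
      (2 * stab_nrm P (oe E) (fun x => e x.1 x.2)) ^ P := by
    rw [mul_pow, mul_pow, stab_nrm_pow hP, stab_nrm_pow hP, sum_oe E (fun u v => |e u v| ^ P),
      mul_sum, mul_sum]
    refine sum_le_sum fun u _ => ?_
    have h1 := stab_jensen hP (nb E u) (e u)
    have h0 : 0 ≤ |avg (nb E u) (e u)| ^ P := pow_nonneg (abs_nonneg _) _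
    calc s ^ P * |avg (nb E u) (e u)| ^ P
        ≤ (2 * ((nb E u).card : ℝ)) * |avg (nb E u) (e u)| ^ P :=
          mul_le_mul_of_nonneg_right (hlo u) h0
      _ ≤ 2 * ∑ v ∈ nb E u, |e u v| ^ P := by linarith
      _ ≤ 2 ^ P * ∑ v ∈ nb E u, |e u v| ^ P :=
          mul_le_mul_of_nonneg_right (stab_two_le_pow hP) (stab_sum_nonneg _ _)
  exact (pow_le_pow_iff_left₀ (mul_nonneg hs (stab_nrm_nonneg _ _))
    (mul_nonneg (by norm_num) (stab_nrm_nonneg _ _)) (by omega)).1 h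

/-- The global average of an edge function. -/
lemma stab_avg_all {E : St n} {P : ℕ} (hP : 1 ≤ P) {s m : ℝ} (hs : 0 ≤ s) (hm : 0 ≤ m)
    (hmP : m ^ P = n) (hlo : ∀ u, s ^ P ≤ 2 * ((nb E u).card : ℝ)) (e : Fin n × Fin n → ℝ) :
    s * (m * |avg (oe E) e|) ≤ 2 * stab_nrm P (oe E) e := by
  have h : (s * (m * |avg (oe E) e|)) ^ P ≤ (2 * stab_nrm P (oe E) e) ^ P := by
    rw [mul_pow, mul_pow, mul_pow, stab_nrm_pow hP, hmP]
    have h1 := stab_jensen hP (oe E) e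
    have h0 : 0 ≤ |avg (oe E) e| ^ P := pow_nonneg (abs_nonneg _) _
    have h2 : s ^ P * n ≤ 2 * ((oe E).card : ℝ) := by
      rw [← sum_card_nb, mul_sum]
      calc s ^ P * n = ∑ _u : Fin n, s ^ P := by
            rw [sum_const, card_univ, Fintype.card_fin, nsmul_eq_mul, mul_comm]
        _ ≤ _ := sum_le_sum fun u _ => hlo u
    calc s ^ P * (n * |avg (oe E) e| ^ P) = (s ^ P * n) * |avg (oe E) e| ^ P := by ring
      _ ≤ (2 * ((oe E).card : ℝ)) * |avg (oe E) e| ^ P := mul_le_mul_of_nonneg_right h2 h0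
      _ ≤ 2 * ∑ x ∈ oe E, |e x| ^ P := by linarith
      _ ≤ 2 ^ P * ∑ x ∈ oe E, |e x| ^ P :=
          mul_le_mul_of_nonneg_right (stab_two_le_pow hP) (stab_sum_nonneg _ _)
  exact (pow_le_pow_iff_left₀ (mul_nonneg hs (mul_nonneg hm (abs_nonneg _)))
    (mul_nonneg (by norm_num) (stab_nrm_nonneg _ _)) (by omega)).1 h

/-- Discrete Gronwall. -/
lemma stab_gron (J : ℕ) (Y κ : ℕ → ℝ) (δ Λ a : ℝ) (hδ0 : 0 ≤ δ) (hδΛ : 6 * δ * Λ ≤ 1)
    (ha : 0 ≤ a) (hκ0 : ∀ j < J, 0 ≤ κ j) (hΛ : ∑ j ∈ range J, κ j ≤ Λ) (h0 : Y 0 ≤ 0)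
    (hstep : ∀ j < J, Y (j + 1) ≤ Y j + κ j * (3 * δ * Y j + a)) : Y J ≤ 2 * a * Λ := by
  have hS : ∀ k ≤ J, ∑ j ∈ range k, κ j ≤ Λ := fun k hk =>
    le_trans (sum_le_sum_of_subset_of_nonneg (range_mono hk)
      fun j hj _ => hκ0 j (mem_range.1 hj)) hΛ
  have key : ∀ k ≤ J, Y k ≤ 2 * a * ∑ j ∈ range k, κ j := by
    intro k
    induction k with
    | zero => intro _; simpa using h0
    | succ k ih =>
      intro hk
      have h1 := ih (by omega)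
      have h2 := hstep k (by omega)
      have h3 : Y k ≤ 2 * a * Λ :=
        h1.trans (mul_le_mul_of_nonneg_left (hS k (by omega)) (by positivity))
      have h4 : 3 * δ * Y k ≤ a := by
        calc 3 * δ * Y k ≤ 3 * δ * (2 * a * Λ) := mul_le_mul_of_nonneg_left h3 (by positivity)
          _ = a * (6 * δ * Λ) := by ring
          _ ≤ a * 1 := mul_le_mul_of_nonneg_left hδΛ ha
          _ = a := mul_one a
      have h5 : κ k * (3 * δ * Y k + a) ≤ κ k * (2 * a) :=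
        mul_le_mul_of_nonneg_left (by linarith) (hκ0 k (by omega))
      rw [sum_range_succ]
      nlinarith
  exact (key J le_rfl).trans (mul_le_mul_of_nonneg_left hΛ (by positivity))

/-- Step 1: the bound for `ρ i`. -/
lemma stab_step1 {P : ℕ} (hP : 1 ≤ P) (i : ℕ) (E : ℕ → St n) (κ γ : ℕ → ℝ)
    (ε : ℕ → Fin n → Fin n → ℝ) (bi : Fin n → ℝ) {θ f ν : ℝ}
    (hsub : ∀ j < i, E i ⊆ E j) (hC : ∀ j < i, Contr (E j) P θ) (hθ0 : 0 ≤ θ)
    (hκ0 : ∀ j < i, 0 ≤ κ j) (hf : 0 ≤ f) (hν0 : 0 ≤ ν) (hν : (n : ℝ) ^ 2 ≤ ν ^ P)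
    (hε : ∀ u v, s(u, v) ∈ E i → |ε i u v + ∑ j ∈ range i, κ j *
      (avg (cn (E j) u v) (ε j u) + avg (cn (E j) u v) (ε j v) - 2 * γ j)| ≤ f)
    (hb : ∀ u, |bi u + ∑ j ∈ range i, κ j * (avg (nb (E j) u) (ε j u) - γ j)| ≤ f) :
    stab_nrm P (oe (E i)) (fun x => ε i x.1 x.2 - bi x.1 - bi x.2) ≤
      3 * f * ν + ∑ j ∈ range i,
        κ j * (2 * θ * stab_nrm P (oe (E j)) (fun x => ε j x.1 x.2)) := by
  set T : ℕ → Fin n → Fin n → ℝ :=
    fun j u v => avg (cn (E j) u v) (ε j u) - avg (nb (E j) u) (ε j u) with hT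
  set S : Fin n × Fin n → ℝ := fun x => ∑ j ∈ range i, κ j * (T j x.1 x.2 + T j x.2 x.1) with hS
  have h1 : stab_nrm P (oe (E i)) (fun x => ε i x.1 x.2 - bi x.1 - bi x.2) =
      stab_nrm P (oe (E i)) (fun x => (ε i x.1 x.2 - bi x.1 - bi x.2 + S x) - S x) :=
    stab_nrm_congr fun x _ => by ring
  rw [h1]
  refine (stab_nrm_sub hP _ _ _).trans (add_le_add ?_ ?_)
  · refine stab_nrm_bdd hP (by positivity) hν0 ((stab_card_oe_le _).trans hν) ?_
    rintro ⟨u, v⟩ hx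
    have e1 := hε u v (mem_oe.1 hx)
    have e2 := hb u
    have e3 := hb v
    have e4 : S (u, v) = ∑ j ∈ range i, κ j *
        (avg (cn (E j) u v) (ε j u) + avg (cn (E j) u v) (ε j v) - 2 * γ j) -
        ∑ j ∈ range i, κ j * (avg (nb (E j) u) (ε j u) - γ j) -
        ∑ j ∈ range i, κ j * (avg (nb (E j) v) (ε j v) - γ j) := by
      rw [← sum_sub_distrib, ← sum_sub_distrib]
      refine sum_congr rfl fun j _ => ?_
      simp only [hT]
      rw [cn_comm (E j) v u]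
      ring
    simp only
    rw [e4]
    rw [abs_le] at e1 e2 e3 ⊢
    constructor <;> linarith [e1.1, e1.2, e2.1, e2.2, e3.1, e3.2]
  · refine (stab_nrm_sum hP _ (range i)
      (fun j (x : Fin n × Fin n) => κ j * (T j x.1 x.2 + T j x.2 x.1))).trans
      (sum_le_sum fun j hj => ?_)
    have hj' := mem_range.1 hj
    refine (stab_nrm_mul hP _ (hκ0 j hj') _).trans (mul_le_mul_of_nonneg_left ?_ (hκ0 j hj'))
    have hs : oe (E i) ⊆ oe (E j) := fun x hx => mem_oe.2 (hsub j hj' (mem_oe.1 hx))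
    refine (stab_nrm_subset hP hs _).trans ((stab_nrm_add hP _ _ _).trans ?_)
    rw [stab_swap (E j) P (T j)]
    have := stab_contr hP hθ0 (hC j hj') (ε j)
    simp only [hT]
    linarith

/-- Step 2: one step of `β`, multiplied by the scale `s`. -/
lemma stab_step2 {P : ℕ} (hP : 1 ≤ P) (E : St n) (κ γ : ℝ) (ε : Fin n → Fin n → ℝ)
    (b β β' : Fin n → ℝ) {D δ f ν s m : ℝ} (hD : 0 < D) (hδ0 : 0 ≤ δ) (hδ : δ ≤ 1 / 3)
    (hlo : ∀ u, (1 - δ) * D ≤ ((nb E u).card : ℝ))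
    (hhi : ∀ u, ((nb E u).card : ℝ) ≤ (1 + δ) * D)
    (hκ0 : 0 ≤ κ) (hκ1 : κ ≤ 1) (hf : 0 ≤ f) (hs : 0 ≤ s) (hsD : s ^ P ≤ D) (hm : 0 ≤ m)
    (hmP : m ^ P = n) (hsm : s * m ≤ ν) (hb : ∀ u, |b u - β u| ≤ f)
    (hβ : ∀ u, β' u = β u - κ * (avg (nb E u) (ε u) - γ))
    (hγ : |γ| ≤ |avg (oe E) (fun e => ε e.1 e.2 - b e.1 - b e.2)| + f) :
    s * stab_nrm P univ β' ≤ s * stab_nrm P univ β + κ * (3 * δ * (s * stab_nrm P univ β) +
      (4 * stab_nrm P (oe E) (fun e => ε e.1 e.2 - b e.1 - b e.2) + 3 * f * ν)) := by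
  set ρ : Fin n → Fin n → ℝ := fun u v => ε u v - b u - b v with hρ
  set R := stab_nrm P (oe E) (fun e => ε e.1 e.2 - b e.1 - b e.2) with hR
  set B := stab_nrm P univ β with hB
  set A := |avg (oe E) (fun e => ε e.1 e.2 - b e.1 - b e.2)| with hA
  have hne : ∀ u, (nb E u).Nonempty := by
    intro u
    have h1 : (0 : ℝ) < (nb E u).card := lt_of_lt_of_le (mul_pos (by linarith) hD) (hlo u)
    exact card_pos.1 (by exact_mod_cast h1)
  have hlo2 : ∀ u, s ^ P ≤ 2 * ((nb E u).card : ℝ) := by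
    intro u
    have := hlo u
    nlinarith
  set w : Fin n → ℝ := fun u => (b u - β u) + avg (nb E u) (fun v => b v - β v) - γ with hw
  have hdec : ∀ u, β' u = ((1 - κ) * β u - κ * avg (nb E u) β) -
      κ * (avg (nb E u) (ρ u) + w u) := by
    intro u
    have e1 : avg (nb E u) (ρ u) = avg (nb E u) (ε u) - b u - avg (nb E u) b := by
      simp only [hρ]
      rw [avg_sub (nb E u) (fun v => ε u v - b u) b, avg_sub (nb E u) (ε u) (fun _ => b u),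
        avg_const (hne u)]
    have e2 : avg (nb E u) (fun v => b v - β v) = avg (nb E u) b - avg (nb E u) β :=
      avg_sub _ _ _
    rw [hβ u, e1]
    simp only [hw]
    rw [e2]
    ring
  have hwb : ∀ u, |w u| ≤ A + 3 * f := by
    intro u
    have e1 := hb u
    have e2 : |avg (nb E u) (fun v => b v - β v)| ≤ f := abs_avg_le hf fun v _ => hb v
    have e3 := abs_le.1 hγ
    simp only [hw]
    rw [abs_le] at e1 e2 ⊢
    constructor <;> linarith [e1.1, e1.2, e2.1, e2.2, e3.1, e3.2]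
  have hA0 : 0 ≤ A := abs_nonneg _
  have n1 : stab_nrm P univ (fun u => (1 - κ) * β u) ≤ (1 - κ) * B :=
    stab_nrm_mul hP _ (by linarith) _
  have n2 : stab_nrm P univ (fun u => κ * avg (nb E u) β) ≤ κ * ((1 + 3 * δ) * B) :=
    (stab_nrm_mul hP _ hκ0 _).trans
      (mul_le_mul_of_nonneg_left (stab_avg_nb hP hD hδ0 hδ hlo hhi β) hκ0)
  have n3 : s * stab_nrm P univ (fun u => avg (nb E u) (ρ u)) ≤ 2 * R :=
    stab_avg_edge hP hs hlo2 ρ
  have n4 : stab_nrm P univ w ≤ (A + 3 * f) * m :=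
    stab_nrm_bdd hP (by positivity) hm (by rw [hmP, card_univ, Fintype.card_fin])
      fun u _ => hwb u
  have n5 : s * (m * A) ≤ 2 * R := stab_avg_all hP hs hm hmP hlo2 _
  have n6 : stab_nrm P univ (fun u => κ * (avg (nb E u) (ρ u) + w u)) ≤
      κ * (stab_nrm P univ (fun u => avg (nb E u) (ρ u)) + (A + 3 * f) * m) :=
    (stab_nrm_mul hP _ hκ0 _).trans (mul_le_mul_of_nonneg_left
      ((stab_nrm_add hP _ _ _).trans (by linarith)) hκ0)
  have n7 : stab_nrm P univ β' ≤ (1 - κ) * B + κ * ((1 + 3 * δ) * B) +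
      κ * (stab_nrm P univ (fun u => avg (nb E u) (ρ u)) + (A + 3 * f) * m) := by
    rw [stab_nrm_congr (g := fun u => ((1 - κ) * β u - κ * avg (nb E u) β) -
      κ * (avg (nb E u) (ρ u) + w u)) fun u _ => hdec u]
    refine (stab_nrm_sub hP _ _ _).trans (add_le_add ?_ n6)
    exact (stab_nrm_sub hP _ _ _).trans (add_le_add n1 n2)
  set Q := stab_nrm P univ (fun u => avg (nb E u) (ρ u)) with hQ
  have n8 : s * (Q + (A + 3 * f) * m) ≤ 4 * R + 3 * f * ν := by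
    have : 3 * f * (s * m) ≤ 3 * f * ν := mul_le_mul_of_nonneg_left hsm (by positivity)
    nlinarith
  calc s * stab_nrm P univ β' ≤ s * ((1 - κ) * B + κ * ((1 + 3 * δ) * B) +
        κ * (Q + (A + 3 * f) * m)) := mul_le_mul_of_nonneg_left n7 hs
    _ = s * B + κ * (3 * δ * (s * B) + s * (Q + (A + 3 * f) * m)) := by ring
    _ ≤ _ := by
        have := mul_le_mul_of_nonneg_left n8 hκ0
        nlinarith

/-- Write `‖g‖_s = (∑ x ∈ s, |g x|^P)^(1/P)` (Minkowski: `Real.Lp_add_le`; monotone in `s`;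
`|g x| ≤ ‖g‖_s`; `‖c‖_s = c #s^(1/P)`; Jensen `|avg s g|^P ≤ avg s |g|^P`, e.g. from
`Real.pow_arith_mean_le_arith_mean_pow` or `inner_le_Lp_mul_Lq`/`pow_sum_div_card_le_sum_pow`).
Put `ρ i u v = ε i u v - b i u - b i v`, `R i = ‖ρ i‖_{oe (E i)}`, `R* = max_{i ≤ N} R i`,
`β i u = -∑_{j<i} κ j (avg (nb (E j) u) (ε j u) - γ j)` (so `|b - β| ≤ f`), `B i = ‖β i‖_univ`,
`T j u g v = avg (cn (E j) u v) g - avg (nb (E j) u) g`.

1. For `(u,v) ∈ oe (E i)`: `ρ i u v = -∑_{j<i} κ j (T j u (ε j u) v + T j v (ε j v) u) + O(3f)`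
   (`cn_comm`; the `γ` terms cancel).  As `oe (E i) ⊆ oe (E j)`, `Contr` summed over `u`
   (`sum_oe`, `sum_oe_swap`) gives `R i ≤ 3fν + 2θ ∑_{j<i} κ j ‖ε j‖_{oe (E j)}` and
   `‖ε j‖ ≤ R j + 2 (∑_u deg u |b j u|^P)^(1/P) ≤ R j + 4 X j + 4fν`, `X j = (D j)^(1/P) B j`
   (`deg ≤ 2 D j`, `(n D j)^(1/P) ≤ ν`, `#oe ≤ n²`).
2. `nb` is nonempty (`deg ≥ 2/3 D > 0`), so `avg (nb u) (ε j u) = avg (nb u) (ρ j u) + b j u +
   avg (nb u) (b j)`, hence `β (j+1) u = (1-κ) β j u - κ avg (nb u) (β j) - κ (avg (nb u) (ρ j u)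
   - γ j + O(2f))`.  Norms over `univ`: `‖avg (nb ·) β‖ ≤ ((1+δ)/(1-δ))^(1/P) B ≤ (1+3δ) B`
   (Jensen, swap the sums), `‖avg (nb ·) (ρ ·)‖ ≤ 2 R j / (D j)^(1/P)`,
   `n^(1/P) |avg_oe ρ| ≤ 2 R j / (D j)^(1/P)` (`#oe = ∑ deg ≥ 2/3 n D`).  So
   `B (j+1) ≤ B j + κ j (3δ B j + 4 R* / (D j)^(1/P) + 3 f n^(1/P))`, `B 0 = 0`.
   For `j ≤ N` let `B* = max_{k ≤ j} B k` and `D' = D j` if `j < N`, `D' = 1` if `j = N`
   (`D' ≤ D k` for `k < j`): `B* ≤ 3δΛ B* + Λ (4R*/D'^(1/P) + 3 f n^(1/P))`, so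
   `X j ≤ 8Λ R* + 6Λ fν` for `j < N` and `B N ≤ 8Λ R* + 6Λ fν`.
3. `R* ≤ 3fν + 2θΛ (R* + 32Λ R* + 24Λ fν + 4fν)`; with `θ (1+Λ)² ≤ 1/500` this gives `R* ≤ 7fν`,
   `|b N u| ≤ 62Λ fν + f`, `|ε N u v| ≤ R* + 2 max |b N| ≤ 131 (1+Λ) fν`. -/
theorem stab (N P : ℕ) (hP : 1 ≤ P) (E : ℕ → St n) (D κ γ : ℕ → ℝ) (ε : ℕ → Fin n → Fin n → ℝ)
    (b : ℕ → Fin n → ℝ) (δ θ Λ f ν : ℝ)
    (hdec : ∀ j < N, E (j + 1) ⊆ E j)
    (hD1 : ∀ j < N, 1 ≤ D j) (hDn : ∀ j < N, D j ≤ n) (hDanti : ∀ j k, j ≤ k → k < N → D k ≤ D j)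
    (hδ0 : 0 ≤ δ) (hδ : δ ≤ 1 / 3) (hδΛ : 6 * δ * Λ ≤ 1)
    (hdeg : ∀ j < N, ∀ u, |((nb (E j) u).card : ℝ) / D j - 1| ≤ δ)
    (hC : ∀ j < N, Contr (E j) P θ) (hθ0 : 0 ≤ θ) (hθ : θ * (1 + Λ) ^ 2 ≤ 1 / 500)
    (hκ0 : ∀ j < N, 0 ≤ κ j) (hκ1 : ∀ j < N, κ j ≤ 1) (hΛ : ∑ j ∈ range N, κ j ≤ Λ)
    (hf : 0 ≤ f) (hν1 : 1 ≤ ν) (hν : (n : ℝ) ^ 2 ≤ ν ^ P)
    (hε : ∀ i ≤ N, ∀ u v, s(u, v) ∈ E i → |ε i u v + ∑ j ∈ range i, κ j *
      (avg (cn (E j) u v) (ε j u) + avg (cn (E j) u v) (ε j v) - 2 * γ j)| ≤ f)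
    (hb : ∀ i ≤ N, ∀ u, |b i u + ∑ j ∈ range i, κ j * (avg (nb (E j) u) (ε j u) - γ j)| ≤ f)
    (hγ : ∀ j < N, |γ j| ≤ |avg (oe (E j)) (fun e => ε j e.1 e.2 - b j e.1 - b j e.2)| + f) :
    (∀ u v, s(u, v) ∈ E N → |ε N u v| ≤ 200 * (1 + Λ) * f * ν) ∧
      ∀ u, |b N u| ≤ 200 * (1 + Λ) * f * ν := by
  have hP0 : P ≠ 0 := by omega
  have hν0 : 0 ≤ ν := by linarith
  have hΛ0 : 0 ≤ Λ := le_trans (sum_nonneg fun j hj => hκ0 j (mem_range.1 hj)) hΛ
  have hS : ∀ k ≤ N, ∑ j ∈ range k, κ j ≤ Λ := fun k hk =>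
    le_trans (sum_le_sum_of_subset_of_nonneg (range_mono hk)
      fun j hj _ => hκ0 j (mem_range.1 hj)) hΛ
  have hsub : ∀ i ≤ N, ∀ j < i, E i ⊆ E j := by
    intro i
    induction i with
    | zero => intro _ j hj; omega
    | succ i ih =>
      intro hi j hj
      rcases Nat.lt_succ_iff_lt_or_eq.1 hj with h | rfl
      · exact (hdec i (by omega)).trans (ih (by omega) j h)
      · exact hdec j (by omega)
  have hD0 : ∀ j < N, 0 < D j := fun j hj => lt_of_lt_of_le one_pos (hD1 j hj)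
  have hlo : ∀ j < N, ∀ u, (1 - δ) * D j ≤ ((nb (E j) u).card : ℝ) := by
    intro j hj u
    have h := (abs_le.1 (hdeg j hj u)).1
    rw [← le_div_iff₀ (hD0 j hj)]
    linarith
  have hhi : ∀ j < N, ∀ u, ((nb (E j) u).card : ℝ) ≤ (1 + δ) * D j := by
    intro j hj u
    have h := (abs_le.1 (hdeg j hj u)).2
    rw [← div_le_iff₀ (hD0 j hj)]
    linarith
  obtain ⟨m, hm, hmP⟩ : ∃ m : ℝ, 0 ≤ m ∧ m ^ P = n :=
    ⟨(n : ℝ) ^ ((P : ℝ)⁻¹), Real.rpow_nonneg (Nat.cast_nonneg _) _,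
      Real.rpow_inv_natCast_pow (Nat.cast_nonneg _) hP0⟩
  set β : ℕ → Fin n → ℝ :=
    fun i u => -∑ j ∈ range i, κ j * (avg (nb (E j) u) (ε j u) - γ j) with hβ
  set R : ℕ → ℝ := fun i => stab_nrm P (oe (E i)) (fun x => ε i x.1 x.2 - b i x.1 - b i x.2)
    with hR
  have hbβ : ∀ i ≤ N, ∀ u, |b i u - β i u| ≤ f := by
    intro i hi u
    simpa only [hβ, sub_neg_eq_add] using hb i hi u
  obtain ⟨i0, hi0, hmax⟩ := exists_max_image (range (N + 1)) R ⟨0, by simp⟩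
  have hi0' : i0 ≤ N := Nat.lt_succ_iff.1 (mem_range.1 hi0)
  have hRle : ∀ i ≤ N, R i ≤ R i0 := fun i hi => hmax i (mem_range.2 (by omega))
  have hR0 : 0 ≤ R i0 := stab_nrm_nonneg _ _
  have hfν : 0 ≤ f * ν := mul_nonneg hf hν0
  -- the bound for `β`
  have hX : ∀ J ≤ N, ∀ s : ℝ, 0 ≤ s → (∀ k < J, s ^ P ≤ D k) → s * m ≤ ν →
      s * stab_nrm P univ (β J) ≤ 2 * (4 * R i0 + 3 * f * ν) * Λ := by
    intro J hJ s hs hsD hsm
    refine stab_gron J (fun k => s * stab_nrm P univ (β k)) κ δ Λ _ hδ0 hδΛ (by linarith)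
      (fun j hj => hκ0 j (by omega)) (hS J hJ) ?_ ?_
    · have : stab_nrm P univ (β 0) ≤ 0 := by
        refine stab_nrm_le hP le_rfl ?_
        simp [hβ, hP0]
      exact mul_nonpos_of_nonneg_of_nonpos hs this
    · intro j hj
      have hjN : j < N := by omega
      have h := stab_step2 hP (E j) (κ j) (γ j) (ε j) (b j) (β j) (β (j + 1)) (hD0 j hjN) hδ0 hδ
        (hlo j hjN) (hhi j hjN) (hκ0 j hjN) (hκ1 j hjN) hf hs (hsD j hj) hm hmP hsm
        (hbβ j hjN.le) (fun u => by simp only [hβ, sum_range_succ]; ring) (hγ j hjN)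
      refine h.trans (add_le_add le_rfl (mul_le_mul_of_nonneg_left ?_ (hκ0 j hjN)))
      have := hRle j hjN.le
      simp only [hR] at this ⊢
      linarith
  -- the bound for `ε j`
  have hE : ∀ j < N, stab_nrm P (oe (E j)) (fun x => ε j x.1 x.2) ≤
      R i0 + 8 * (4 * R i0 + 3 * f * ν) * Λ + 2 * f * ν := by
    intro j hj
    obtain ⟨r, hr, hrP⟩ : ∃ r : ℝ, 0 ≤ r ∧ r ^ P = D j :=
      ⟨(D j) ^ ((P : ℝ)⁻¹), Real.rpow_nonneg (hD0 j hj).le _,
        Real.rpow_inv_natCast_pow (hD0 j hj).le hP0⟩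
    have hrm : r * m ≤ ν := by
      refine (pow_le_pow_iff_left₀ (mul_nonneg hr hm) hν0 hP0).1 ?_
      rw [mul_pow, hrP, hmP]
      refine le_trans ?_ hν
      rw [sq]
      exact mul_le_mul_of_nonneg_right (hDn j hj) (Nat.cast_nonneg _)
    have h1 := hX j hj.le r hr (fun k hk => by rw [hrP]; exact hDanti k j hk.le hj) hrm
    have h2 : stab_nrm P (oe (E j)) (fun x => β j x.1) ≤ 2 * r * stab_nrm P univ (β j) := by
      refine stab_fst hP hr (fun u => (hhi j hj u).trans ?_) _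
      rw [hrP]
      exact mul_le_mul_of_nonneg_right (by linarith) (hD0 j hj).le
    have h3 : stab_nrm P (oe (E j)) (fun x => b j x.1) ≤
        f * ν + 2 * r * stab_nrm P univ (β j) := by
      rw [stab_nrm_congr (g := fun x : Fin n × Fin n => (b j x.1 - β j x.1) + β j x.1)
        fun x _ => by ring]
      refine (stab_nrm_add hP _ _ _).trans (add_le_add ?_ h2)
      exact stab_nrm_bdd hP hf hν0 ((stab_card_oe_le _).trans hν) fun x _ => hbβ j hj.le x.1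
    have h4 : stab_nrm P (oe (E j)) (fun x => b j x.2) =
        stab_nrm P (oe (E j)) (fun x => b j x.1) := stab_swap (E j) P (fun u _ => b j u)
    rw [stab_nrm_congr (g := fun x : Fin n × Fin n =>
      ((ε j x.1 x.2 - b j x.1 - b j x.2) + b j x.1) + b j x.2) fun x _ => by ring]
    have h5 := stab_nrm_add hP (oe (E j))
      (fun x : Fin n × Fin n => (ε j x.1 x.2 - b j x.1 - b j x.2) + b j x.1) (fun x => b j x.2)
    have h6 := stab_nrm_add hP (oe (E j))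
      (fun x : Fin n × Fin n => ε j x.1 x.2 - b j x.1 - b j x.2) (fun x => b j x.1)
    have h7 := hRle j hj.le
    simp only [hR] at h7 ⊢
    linarith
  -- closing the loop
  have hRs : R i0 ≤ 4 * (f * ν) := by
    have h1 := stab_step1 hP i0 E κ γ ε (b i0) (hsub i0 hi0') (fun j hj => hC j (by omega)) hθ0
      (fun j hj => hκ0 j (by omega)) hf hν0 hν (hε i0 hi0') (hb i0 hi0')
    set K := R i0 + 8 * (4 * R i0 + 3 * f * ν) * Λ + 2 * f * ν with hK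
    have hK0 : 0 ≤ K := by
      have : 0 ≤ 8 * (4 * R i0 + 3 * f * ν) * Λ := mul_nonneg (by linarith) hΛ0
      linarith
    have h2 : ∑ j ∈ range i0, κ j * (2 * θ * stab_nrm P (oe (E j)) (fun x => ε j x.1 x.2)) ≤
        Λ * (2 * θ * K) := by
      calc ∑ j ∈ range i0, κ j * (2 * θ * stab_nrm P (oe (E j)) (fun x => ε j x.1 x.2))
          ≤ ∑ j ∈ range i0, κ j * (2 * θ * K) := by
            refine sum_le_sum fun j hj => ?_
            have hj' : j < N := lt_of_lt_of_le (mem_range.1 hj) hi0'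
            exact mul_le_mul_of_nonneg_left
              (mul_le_mul_of_nonneg_left (hE j hj') (by positivity)) (hκ0 j hj')
        _ = (∑ j ∈ range i0, κ j) * (2 * θ * K) := by rw [sum_mul]
        _ ≤ Λ * (2 * θ * K) := mul_le_mul_of_nonneg_right (hS i0 hi0') (by positivity)
    have h3 : R i0 ≤ 3 * f * ν + Λ * (2 * θ * K) := le_trans h1 (by linarith)
    have a1 : θ * Λ ≤ 1 / 1000 := by
      have : θ * (2 * Λ) ≤ θ * (1 + Λ) ^ 2 :=
        mul_le_mul_of_nonneg_left (by nlinarith) hθ0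
      linarith
    have a2 : θ * Λ ^ 2 ≤ 1 / 500 := by
      have : θ * Λ ^ 2 ≤ θ * (1 + Λ) ^ 2 :=
        mul_le_mul_of_nonneg_left (by nlinarith) hθ0
      linarith
    have e : Λ * (2 * θ * K) = (θ * Λ) * (2 * R i0 + 4 * (f * ν)) +
        (θ * Λ ^ 2) * (64 * R i0 + 48 * (f * ν)) := by rw [hK]; ring
    have b1 : (θ * Λ) * (2 * R i0 + 4 * (f * ν)) ≤ 1 / 1000 * (2 * R i0 + 4 * (f * ν)) :=
      mul_le_mul_of_nonneg_right a1 (by linarith)
    have b2 : (θ * Λ ^ 2) * (64 * R i0 + 48 * (f * ν)) ≤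
        1 / 500 * (64 * R i0 + 48 * (f * ν)) := mul_le_mul_of_nonneg_right a2 (by linarith)
    linarith
  have hmν : 1 * m ≤ ν := by
    rw [one_mul]
    refine (pow_le_pow_iff_left₀ hm hν0 hP0).1 ?_
    rw [hmP]
    refine le_trans ?_ hν
    exact_mod_cast Nat.le_self_pow (by norm_num) n
  have hBN := hX N le_rfl 1 zero_le_one (fun k hk => by rw [one_pow]; exact hD1 k hk) hmν
  rw [one_mul] at hBN
  have hfle : f ≤ f * ν := le_mul_of_one_le_right hf hν1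
  have hΛf : 0 ≤ Λ * (f * ν) := mul_nonneg hΛ0 hfν
  have hbN : ∀ u, |b N u| ≤ 38 * (Λ * (f * ν)) + f * ν := by
    intro u
    have h1 := stab_abs_le_nrm hP (β N) (mem_univ u)
    have h2 := hbβ N le_rfl u
    have h3 : 2 * (4 * R i0 + 3 * f * ν) * Λ ≤ 2 * (19 * (f * ν)) * Λ :=
      mul_le_mul_of_nonneg_right (by linarith) hΛ0
    have h4 : |b N u| ≤ |b N u - β N u| + |β N u| := by
      simpa using abs_add_le (b N u - β N u) (β N u)
    linarith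
  refine ⟨fun u v huv => ?_, fun u => ?_⟩
  · have h1 := stab_abs_le_nrm hP (s := oe (E N))
      (fun x : Fin n × Fin n => ε N x.1 x.2 - b N x.1 - b N x.2) (x := (u, v)) (mem_oe.2 huv)
    have h2 := hRle N le_rfl
    have h3 := abs_le.1 (hbN u)
    have h4 := abs_le.1 (hbN v)
    simp only [hR] at h1 h2 hRs
    have h5 := abs_le.1 (h1.trans (h2.trans hRs))
    rw [abs_le]
    constructor <;> linarith [h3.1, h3.2, h4.1, h4.2, h5.1, h5.2]
  · have := hbN u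
    linarith

end Crest.Agent.R30
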