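import Crest.Agent.R30.Drift
import Crest.Agent.R30.Spec
import Crest.Agent.R30.Interp
import Crest.Agent.R30.Stab

/-!
# R30/P1Det: the deterministic part of phase 1
-/

set_option autoImplicit false

open Finset
open Crest.CombinatoricsR.TriangleRemoval

namespace Crest.Agent.R30

variable {n : ℕ}

lemma p1det_pow {z y : ℝ} (hz : 10000 ≤ z) {a : ℕ} (hy : z ^ a ≤ y) (k m : ℕ) (hkm : k + 1 ≤ a * m) :
    10000 * z ^ k ≤ y ^ m := by
  have hz0 : 0 ≤ z := by linarith
  calc 10000 * z ^ k ≤ z * z ^ k := mul_le_mul_of_nonneg_right hz (pow_nonneg hz0 _)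
    _ = z ^ (k + 1) := (pow_succ' z k).symm
    _ ≤ z ^ (a * m) := pow_le_pow_right₀ (by linarith) hkm
    _ = (z ^ a) ^ m := pow_mul z a m
    _ ≤ y ^ m := pow_le_pow_left₀ (pow_nonneg hz0 _) hy m

lemma p1det_theta {z θ : ℝ} (hz : 2 ≤ z) (hθ : 8 / z ^ 2 ≤ θ) (P : ℕ) :
    8 ^ P * (2 * (z ^ (P + 1))⁻¹) ^ 2 ≤ θ ^ P := by
  have hz0 : 0 < z := by linarith
  have e : 8 ^ P * (2 * (z ^ (P + 1))⁻¹) ^ 2 = (8 / z ^ 2) ^ P * (2 / z) ^ 2 := by
    rw [div_pow, ← pow_mul, mul_comm 2 P, pow_mul, pow_succ z P]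
    field_simp
  have h1 : (2 / z) ^ 2 ≤ 1 := pow_le_one₀ (by positivity) ((div_le_one hz0).2 hz)
  rw [e]
  exact (mul_le_of_le_one_right (by positivity) h1).trans (pow_le_pow_left₀ (by positivity) hθ P)

lemma p1det_lam {z y : ℝ} (hz : 10000 ≤ z) {a : ℕ} (hy : z ^ a ≤ y) (k j m : ℕ)
    (hkm : k * j + 1 ≤ a * m) {c : ℝ} (hc : c ≤ 10000) : c * (y ^ m)⁻¹ ≤ ((z ^ k)⁻¹) ^ j := by
  have hz0 : 0 < z := by linarith
  have h1 := p1det_pow hz hy (k * j) m hkm
  have h2 : 0 < z ^ (k * j) := pow_pos hz0 _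
  have h3 : 0 < y ^ m := lt_of_lt_of_le (by positivity) h1
  rw [inv_pow, ← pow_mul, ← div_eq_mul_inv, ← one_div, div_le_div_iff₀ h3 h2, one_mul]
  exact (mul_le_mul_of_nonneg_right hc h2.le).trans h1

lemma p1det_tele (a m c e : ℕ → ℝ) (i : ℕ) (h : ∀ j < i, |m j - a j + c j| ≤ e j) :
    |a i + ∑ j ∈ range i, c j| ≤
      |a 0| + |∑ j ∈ range i, (a (j + 1) - m j)| + ∑ j ∈ range i, e j := by
  have e1 : a i + ∑ j ∈ range i, c j =
      a 0 + ∑ j ∈ range i, (a (j + 1) - m j) + ∑ j ∈ range i, (m j - a j + c j) := by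
    have := sum_range_sub a i
    simp only [sum_add_distrib, sum_sub_distrib] at this ⊢
    linarith
  rw [e1]
  refine (abs_add_le _ _).trans (add_le_add (abs_add_le _ _) ?_)
  exact (abs_sum_le_sum_abs _ _).trans (sum_le_sum fun j hj => h j (mem_range.1 hj))

/-- Walk bound ⇒ contraction.  With `z = 10000 (1 + log n)`, `λ = (z ^ 2001)⁻¹`, `τ = (y^7)⁻¹`,
`r = 8`, `j = 256`: `spec` needs `δ ≤ τ`, `256 ≤ τ d` (as `d ≥ y^40`), `256 τ ≤ 1/4`,
`2560 τ ≤ λ^256 = (z^512256)⁻¹` (from `z^100000 ≤ y`, i.e. `hB.big`, so `y^7 ≥ z^700000`); then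
`contr_of_l2` with `lam = 2λ` needs `8^2000 (2λ)² ≤ θ^2000`, true since
`8/θ = 4000 (1+log n)² ≤ z²` and `2 ≤ z`.  Keep `z` as an opaque real with `10000 ≤ z`; never let
`norm_num`/`ring` expand the big powers (use `pow_le_pow_right₀`, `pow_le_pow_left₀`, `pow_mul`). -/
theorem contr_of_saw {y : ℝ} (hB : Big n y) {E : St n} {D d : ℝ} (hR : Reg E D d (y ^ 10)⁻¹)
    (hD : 0 < D) (hd : y ^ 40 ≤ d)
    (hs : ∀ u x x', ((sawSet E u 256 x x').card : ℝ) ≤ (1 + (y ^ 7)⁻¹) * d ^ 256 / D) :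
    Contr E 2000 (1 / (500 * (1 + Real.log n) ^ 2)) := by
  have hy := hB.pos
  have hy1 := hB.one_le
  have hy2 : (10000 : ℝ) ≤ y := le_trans (by norm_num) hB.y_ge
  have hl := hB.log_nonneg
  have hbig := hB.big
  obtain ⟨z, hz⟩ : ∃ z : ℝ, z = 10000 * (1 + Real.log n) := ⟨_, rfl⟩
  rw [← hz] at hbig
  have hz1 : 10000 ≤ z := by rw [hz]; linarith
  have hd0 : 0 < d := lt_of_lt_of_le (by positivity) hd
  have h7 : y ≤ y ^ 7 := le_self_pow₀ hy1 (by norm_num)
  have hθ : 8 / z ^ 2 ≤ 1 / (500 * (1 + Real.log n) ^ 2) := by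
    rw [div_le_div_iff₀ (by positivity) (by positivity), hz]
    nlinarith [sq_nonneg (1 + Real.log n)]
  refine contr_of_l2 E (2 * (z ^ (2000 + 1))⁻¹) _ 2000 (by norm_num)
    (p1det_theta (by linarith) hθ 2000) fun u g => ?_
  refine spec hR hD hd0 8 256 (by norm_num) (y ^ 7)⁻¹ _
    (inv_anti₀ (by positivity) (pow_le_pow_right₀ hy1 (by norm_num))) ?_ ?_
    (inv_nonneg.2 (pow_nonneg (by linarith) _))
    (p1det_lam hz1 hbig (2000 + 1) 256 7 (by norm_num) (by norm_num)) u (hs u) g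
  · rw [← div_eq_inv_mul, le_div_iff₀ (by positivity)]
    calc ((256 : ℕ) : ℝ) * y ^ 7 ≤ y * y ^ 7 :=
          mul_le_mul_of_nonneg_right (by push_cast; linarith) (by positivity)
      _ = y ^ 8 := by ring
      _ ≤ y ^ 40 := pow_le_pow_right₀ hy1 (by norm_num)
      _ ≤ d := hd
  · rw [← div_eq_mul_inv, div_le_iff₀ (by positivity)]
    push_cast
    linarith

lemma dpar_of_big {y : ℝ} (hB : Big n y) {N : ℕ} (hp : 0 < pp n N) (hd : y ^ 40 ≤ dd n N) {j : ℕ}
    (hj : j ≤ N) : DPar n j (y ^ 10)⁻¹ := by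
  have hy := hB.pos
  have hy1 := hB.one_le
  have hy2 : (10000 : ℝ) ≤ y := le_trans (by norm_num) hB.y_ge
  have hF := parFacts hp ((one_le_pow₀ hy1).trans hd)
  have hn : y ≤ n := by simpa using hB.pow_le_n (k := 1) (by norm_num)
  refine ⟨hF.pp_pos j hj, by positivity, ?_, ?_, (hF.kap_le j hj).trans ?_⟩
  · rw [one_div]
    exact inv_anti₀ (by norm_num) (le_trans (by linarith) (le_self_pow₀ hy1 (by norm_num)))
  · exact le_trans (le_trans (by linarith) (le_self_pow₀ hy1 (by norm_num)))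
      (hd.trans (hF.dd_anti j N hj le_rfl))
  · rw [div_le_iff₀ (by linarith)]
    linarith

lemma p1det_w {y : ℝ} (hB : Big n y) : y * (y ^ 20)⁻¹ ≤ (y ^ 16)⁻¹ := by
  have hy := hB.pos
  have e : (y ^ 16)⁻¹ = y ^ 4 * (y ^ 20)⁻¹ := by field_simp
  rw [e]
  exact mul_le_mul_of_nonneg_right (le_self_pow₀ hB.one_le (by norm_num)) (by positivity)

lemma p1det_err {y : ℝ} (hB : Big n y) {N : ℕ} (hp : 0 < pp n N) (hd : y ^ 40 ≤ dd n N) {i : ℕ}
    (hi : i ≤ N) :
    ∑ j ∈ range i, 30 * kap n j * ((y ^ 10)⁻¹ ^ 2 + 1 / dd n j + kap n j) ≤ (y ^ 16)⁻¹ / 2 := by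
  have hy := hB.pos
  have hy1 := hB.one_le
  have hF := parFacts hp ((one_le_pow₀ hy1).trans hd)
  have hw : 0 < (y ^ 20)⁻¹ := by positivity
  have h1 : (y ^ 10)⁻¹ ^ 2 = (y ^ 20)⁻¹ := by rw [inv_pow, ← pow_mul]
  have h2 : ∀ j ≤ N, 1 / dd n j ≤ (y ^ 20)⁻¹ := fun j hj => by
    rw [one_div]
    exact inv_anti₀ (by positivity)
      ((pow_le_pow_right₀ hy1 (by norm_num)).trans (hd.trans (hF.dd_anti j N hj le_rfl)))
  have h3 : ∀ j ≤ N, kap n j ≤ 6 * (y ^ 20)⁻¹ := fun j hj => by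
    refine (hF.kap_le j hj).trans ?_
    rw [div_eq_mul_inv]
    exact mul_le_mul_of_nonneg_left (inv_anti₀ (by positivity) (hB.pow_le_n (by norm_num)))
      (by norm_num)
  have h4 := hB.le_y
  have h5 := p1det_w hB
  calc ∑ j ∈ range i, 30 * kap n j * ((y ^ 10)⁻¹ ^ 2 + 1 / dd n j + kap n j)
      ≤ ∑ j ∈ range i, 240 * (y ^ 20)⁻¹ * kap n j := by
        refine sum_le_sum fun j hj => ?_
        have hj' : j ≤ N := (mem_range.1 hj).le.trans hi
        have a1 := hF.kap_pos j hj'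
        have a2 : (y ^ 10)⁻¹ ^ 2 + 1 / dd n j + kap n j ≤ 8 * (y ^ 20)⁻¹ := by
          linarith [h2 j hj', h3 j hj']
        calc _ ≤ 30 * kap n j * (8 * (y ^ 20)⁻¹) := mul_le_mul_of_nonneg_left a2 (by positivity)
          _ = _ := by ring
    _ ≤ 240 * (y ^ 20)⁻¹ * Real.log n := by
        rw [← mul_sum]
        exact mul_le_mul_of_nonneg_left (hF.sum_kap i hi) (by positivity)
    _ ≤ (y ^ 16)⁻¹ / 2 := by
        have : 480 * Real.log n ≤ y := by linarith [hB.log_nonneg]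
        have := mul_le_mul_of_nonneg_right this hw.le
        linarith

lemma p1det_n {y : ℝ} (hB : Big n y) : (10 : ℝ) ≤ n := by
  have h1 := hB.pow_le_n (k := 1) (by norm_num)
  rw [pow_one] at h1
  exact le_trans (le_trans (by norm_num) hB.y_ge) h1

lemma p1det_eps0 {y : ℝ} (hB : Big n y) {u v : Fin n} (huv : u ≠ v) :
    |eps 0 (allEdges n) u v| ≤ (y ^ 16)⁻¹ / 2 := by
  have hn := p1det_n hB
  have hy := hB.pos
  have hn1 : (0 : ℝ) < n - 1 := by linarith
  have hn0 : (0 : ℝ) < n := by linarith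
  have e : eps 0 (allEdges n) u v = -(1 / ((n : ℝ) - 1) ^ 2) := by
    have e1 : dd n 0 = ((n : ℝ) - 1) ^ 2 / n := by
      unfold dd pp
      push_cast
      field_simp
      ring
    unfold eps
    rw [card_cn_allEdges huv, e1]
    field_simp
    ring
  rw [e, abs_neg, abs_of_pos (by positivity)]
  have h1 : 1 / ((n : ℝ) - 1) ^ 2 ≤ (y ^ 20)⁻¹ := by
    rw [one_div]
    exact inv_anti₀ (by positivity) ((hB.pow_le_n (by norm_num)).trans (by nlinarith))
  have h2 : 2 * (y ^ 20)⁻¹ ≤ y * (y ^ 20)⁻¹ :=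
    mul_le_mul_of_nonneg_right (le_trans (by norm_num) hB.y_ge) (by positivity)
  linarith [p1det_w hB]

lemma p1det_bb0 {y : ℝ} (hB : Big n y) (u : Fin n) : bb 0 (allEdges n) u = 0 := by
  have hn := p1det_n hB
  have hn1 : (0 : ℝ) < n - 1 := by linarith
  have hn0 : (0 : ℝ) < n := by linarith
  have e1 : DD n 0 = (n : ℝ) - 1 := by
    unfold DD pp
    push_cast
    field_simp
    ring
  unfold bb
  rw [card_nb_allEdges, e1, div_self hn1.ne', sub_self]

lemma p1det_fin {y : ℝ} (hB : Big n y) :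
    200 * (1 + Real.log n) * (2 * (y ^ 16)⁻¹) * y ^ 4 ≤ (y ^ 10)⁻¹ := by
  have hy := hB.pos
  have h1 : 400 * (1 + Real.log n) ≤ y ^ 2 := by
    have := le_self_pow₀ hB.one_le (two_ne_zero)
    linarith [hB.le_y, hB.log_nonneg]
  calc 200 * (1 + Real.log n) * (2 * (y ^ 16)⁻¹) * y ^ 4
      = 400 * (1 + Real.log n) * ((y ^ 16)⁻¹ * y ^ 4) := by ring
    _ ≤ y ^ 2 * ((y ^ 16)⁻¹ * y ^ 4) := mul_le_mul_of_nonneg_right h1 (by positivity)
    _ = (y ^ 10)⁻¹ := by field_simp

lemma p1det_contr {y : ℝ} (hB : Big n y) {N : ℕ} (hp : 0 < pp n N) (hd : y ^ 40 ≤ dd n N)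
    {h : Hist n} (hS : SawOK (y ^ 10)⁻¹ (y ^ 7)⁻¹ 256 N h) {i : ℕ} (hi : i ≤ N)
    (hG : ∀ j ≤ i, Good (y ^ 10)⁻¹ j (h j)) :
    Contr (h i) 2000 (1 / (500 * (1 + Real.log n) ^ 2)) := by
  have hF := parFacts hp ((one_le_pow₀ hB.one_le).trans hd)
  exact contr_of_saw hB (hG i le_rfl).reg (dpar_of_big hB hp hd hi).DD_pos
    (hd.trans (hF.dd_anti i N hi le_rfl)) (hS i hi fun j hj => hG j hj.le)

/-- Strong induction on `i` for `Good`; `Contr` then follows from `hS` and `contr_of_saw`.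
Assume `Good δ j (h j)` (hence `Contr (h j)`) for all `j < i`.  The card condition: `i = 0` by
`card_allEdges`, otherwise `card_step`.  Simplicity: `Valid.simple`.  For the rest apply `stab`
with `N := i`, `P = 2000`, `E = h`, `D = DD n`, `κ = kap n`, `γ j = gam j (h j)`,
`ε j = eps j (h j)`, `b j = bb j (h j)`, `Λ = log n`, `f = 2 (y^16)⁻¹`, `ν = y^4`
(`(y^4)^2000 = (y^4000)² = n²`).  For `hε`: if `s(u,v) ∈ h i'` then it is in `h j` for `j ≤ i'`
(`Valid.subset`), so `Xe δ u v j (h j) (h (j+1)) = eps (j+1) (h (j+1)) u v - av (h j) (eps (j+1))`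
and telescoping gives `eps i' + ∑ κ(..) = eps 0 + ∑ Xe + ∑ (drift errors)`, with
`|eps 0| = 1/(n-1)²` (`card_cn_allEdges`), `bb 0 = 0` (`card_nb_allEdges`), and
`∑ 30 κ (δ² + 1/d + κ) ≤ 30 log n (y⁻²⁰ + y⁻⁴⁰ + 6/n) ≤ y⁻¹⁶/2` (`drift_eps`, `drift_bb`,
`parFacts`).  `hγ` is `gam_le`.  The conclusion `200 (1+Λ) 2 y⁻¹⁶ y⁴ ≤ y⁻¹⁰` is `Reg`. -/
theorem p1_det {y : ℝ} (hB : Big n y) {N : ℕ} (hp : 0 < pp n N) (hd : y ^ 40 ≤ dd n N)
    {h : Hist n} (hV : Valid N h) (hM : MartOK (y ^ 10)⁻¹ (y ^ 16)⁻¹ N h)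
    (hS : SawOK (y ^ 10)⁻¹ (y ^ 7)⁻¹ 256 N h) :
    ∀ i ≤ N, Good (y ^ 10)⁻¹ i (h i) ∧ Contr (h i) 2000 (1 / (500 * (1 + Real.log n) ^ 2)) := by
  have hy := hB.pos
  have hy1 := hB.one_le
  have hl := hB.log_nonneg
  have hF := parFacts hp ((one_le_pow₀ hy1).trans hd)
  have hP : ∀ j ≤ N, DPar n j (y ^ 10)⁻¹ := fun j hj => dpar_of_big hB hp hd hj
  have hf : 0 < (y ^ 16)⁻¹ := by positivity
  have key : ∀ i ≤ N, Good (y ^ 10)⁻¹ i (h i) := by
    intro i
    induction i using Nat.strong_induction_on with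
    | _ i ih =>
      intro hi
      have hG : ∀ j < i, Good (y ^ 10)⁻¹ j (h j) := fun j hj => ih j hj (by omega)
      have hst := stab i 2000 (by norm_num) h (DD n) (kap n) (fun j => gam j (h j))
        (fun j => eps j (h j)) (fun j => bb j (h j)) (y ^ 10)⁻¹
        (1 / (500 * (1 + Real.log n) ^ 2)) (Real.log n) (2 * (y ^ 16)⁻¹) (y ^ 4)
        (fun j hj => (hV.2 j (by omega)).subset)
        (fun j hj => by linarith [(hP j (by omega)).dd_ge, (hP j (by omega)).dd_le_DD])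
        (fun j _ => hF.DD_le j) (fun j k hjk _ => hF.DD_anti j k hjk) (by positivity)
        (by linarith [(hP 0 (Nat.zero_le _)).δ_le])
        (by
          rw [mul_assoc, mul_comm _ (Real.log n), ← mul_assoc, ← div_eq_mul_inv,
            div_le_one (by positivity)]
          have := le_self_pow₀ hy1 (show 10 ≠ 0 by norm_num)
          linarith [hB.le_y])
        (fun j hj => (hG j hj).reg.deg)
        (fun j hj => p1det_contr hB hp hd hS (by omega) fun j' hj' => hG j' (by omega))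
        (by positivity) (le_of_eq (by field_simp))
        (fun j hj => (hP j (by omega)).kap_pos.le)
        (fun j hj => by linarith [(hP j (by omega)).kap_le])
        (hF.sum_kap i hi) (by positivity) (one_le_pow₀ hy1)
        (by rw [← hB.pow, ← pow_mul, ← pow_mul])
        (fun k hk u v huv => by
          have hmem : ∀ j ≤ k, s(u, v) ∈ h j := fun j hj => hV.subset hj (by omega) huv
          refine (p1det_tele (fun j => eps j (h j) u v)
            (fun j => av (h j) (fun E' => eps (j + 1) E' u v)) _ _ k fun j hj =>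
              drift_eps (hP j (by omega)) (hG j (by omega)) (hmem j hj.le)).trans ?_
          have a1 : |eps 0 (h 0) u v| ≤ (y ^ 16)⁻¹ / 2 := by
            rw [hV.1]
            exact p1det_eps0 hB ((hV.simple (show k ≤ N by omega)).ne huv)
          have a2 := (hM k (by omega) u v).1
          rw [sum_congr rfl fun j hj => (show Xe (y ^ 10)⁻¹ u v j (h j) (h (j + 1)) =
              eps (j + 1) (h (j + 1)) u v - av (h j) (fun E' => eps (j + 1) E' u v) by
            unfold Xe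
            rw [ind_true ⟨hG j (by have := mem_range.1 hj; omega), hmem j (mem_range.1 hj).le⟩,
              one_mul])] at a2
          have a3 := p1det_err hB hp hd (show k ≤ N by omega)
          linarith)
        (fun k hk u => by
          refine (p1det_tele (fun j => bb j (h j) u)
            (fun j => av (h j) (fun E' => bb (j + 1) E' u)) _ _ k fun j hj =>
              drift_bb (hP j (by omega)) (hG j (by omega)) u).trans ?_
          have a1 : |bb 0 (h 0) u| = 0 := by rw [hV.1, p1det_bb0 hB, abs_zero]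
          have a2 := (hM k (by omega) u u).2
          rw [sum_congr rfl fun j hj => (show Xb (y ^ 10)⁻¹ u j (h j) (h (j + 1)) =
              bb (j + 1) (h (j + 1)) u - av (h j) (fun E' => bb (j + 1) E' u) by
            unfold Xb
            rw [ind_true (hG j (by have := mem_range.1 hj; omega)), one_mul])] at a2
          have a3 := p1det_err hB hp hd (show k ≤ N by omega)
          linarith)
        (fun j hj => by
          refine (gam_le (hP j (by omega)) (hG j hj)).trans (add_le_add le_rfl ?_)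
          rw [inv_pow, ← pow_mul]
          exact mul_le_mul_of_nonneg_left
            (inv_anti₀ (by positivity) (pow_le_pow_right₀ hy1 (by norm_num))) (by norm_num))
      refine ⟨⟨hV.simple hi, fun u => (hst.2 u).trans (p1det_fin hB),
        fun u v huv => (hst.1 u v huv).trans (p1det_fin hB)⟩, ?_⟩
      rcases i with _ | i
      · have hn := p1det_n hB
        rw [hV.1, card_allEdges]
        unfold pp
        push_cast
        field_simp
        ring
      · exact card_step (hP i (by omega)) (hG i (by omega)) (hV.2 i (by omega))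
  exact fun i hi => ⟨key i hi, p1det_contr hB hp hd hS hi fun j hj => key j (by omega)⟩

end Crest.Agent.R30
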