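import Crest.Agent.R30.Basic

/-!
# R30/Paths: moment bound for self-avoiding walks in a link
-/

set_option autoImplicit false

open Finset
open Crest.CombinatoricsR.TriangleRemoval

namespace Crest.Agent.R30

variable {n : ℕ}

/-- Candidate walks. -/
def paths_Pa (u : Fin n) (j : ℕ) (x y : Fin n) : Finset (Fin (j + 1) → Fin n) :=
  univ.filter (fun w => Function.Injective w ∧ w 0 = x ∧ w (Fin.last j) = y ∧ ∀ k, w k ≠ u)

/-- The edges needed by a walk. -/
def paths_F (u : Fin n) {j : ℕ} (w : Fin (j + 1) → Fin n) : St n :=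
  univ.image (fun k : Fin j => s(u, w k.succ)) ∪
    univ.image (fun k : Fin j => s(w k.castSucc, w k.succ))

lemma paths_F_card (u : Fin n) {j : ℕ} (w : Fin (j + 1) → Fin n) : (paths_F u w).card ≤ 2 * j := by
  refine (card_union_le _ _).trans ?_
  have h1 := card_image_le (s := univ) (f := fun k : Fin j => s(u, w k.succ))
  have h2 := card_image_le (s := univ) (f := fun k : Fin j => s(w k.castSucc, w k.succ))
  rw [card_univ, Fintype.card_fin] at h1 h2
  omega

lemma paths_card_le (E : St n) (u : Fin n) (j : ℕ) (x y : Fin n) :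
    ((sawSet E u j x y).card : ℝ) ≤ ∑ w ∈ paths_Pa u j x y, ind (paths_F u w ⊆ E) := by
  have hsub : sawSet E u j x y ⊆ paths_Pa u j x y := fun w hw => by
    simp only [sawSet, paths_Pa, mem_filter, mem_univ, true_and] at hw ⊢
    exact ⟨hw.1, hw.2.1, hw.2.2.1, fun k => (hw.2.2.2.1 k).1⟩
  calc _ = ∑ w ∈ sawSet E u j x y, ind (paths_F u w ⊆ E) := by
        rw [card_eq_sum_ones, Nat.cast_sum]
        refine sum_congr rfl fun w hw => ?_
        simp only [sawSet, mem_filter, mem_univ, true_and] at hw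
        rw [ind_true, Nat.cast_one]
        refine union_subset (image_subset_iff.2 fun k _ => (hw.2.2.2.1 _).2)
          (image_subset_iff.2 fun k _ => hw.2.2.2.2 k)
    _ ≤ _ := sum_le_sum_of_subset_of_nonneg hsub fun _ _ _ => ind_nonneg _

/-- New vertices force new edges. -/
lemma paths_new {u x y : Fin n} {j : ℕ} {w : Fin (j + 1) → Fin n} (hw : w ∈ paths_Pa u j x y)
    {S : Finset (Fin n)} (hy : y ∈ S) {U : St n} (hU : ∀ a b, s(a, b) ∈ U → a ∈ S ∧ b ∈ S)
    (hne : (univ.filter fun k : Fin j => w k.succ ∉ S).Nonempty) :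
    2 * (univ.filter fun k : Fin j => w k.succ ∉ S).card + 1 ≤ (paths_F u w \ U).card := by
  simp only [paths_Pa, mem_filter, mem_univ, true_and] at hw
  obtain ⟨hinj, -, hl, hu⟩ := hw
  set B := univ.filter fun k : Fin j => w k.succ ∉ S with hB
  have hB0 := max'_mem B hne
  have h0 : w (B.max' hne).succ ∉ S := (mem_filter.1 hB0).2
  have hlt : (B.max' hne : ℕ) + 1 < j := by
    have h1 := (B.max' hne).2
    by_contra h
    refine h0 ?_
    rw [show (B.max' hne).succ = Fin.last j from Fin.ext (by simp; omega), hl]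
    exact hy
  set k1 : Fin j := ⟨(B.max' hne : ℕ) + 1, hlt⟩ with hk1
  have hk1B : k1 ∉ B := fun h => by
    have := le_max' B k1 h
    rw [Fin.le_def] at this
    simp [hk1] at this
  have hc : k1.castSucc = (B.max' hne).succ := Fin.ext (by simp [hk1])
  have i1 : Function.Injective fun k : Fin j => s(u, w k.succ) := fun a b h => by
    simp only [Sym2.eq_iff, true_and] at h
    rcases h with h | h
    · exact Fin.succ_injective _ (hinj h)
    · exact absurd h.2 (hu _)
  have i2 : Function.Injective fun k : Fin j => s(w k.castSucc, w k.succ) := fun a b h => by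
    simp only [Sym2.eq_iff] at h
    rcases h with h | h
    · exact Fin.succ_injective _ (hinj h.2)
    · have e1 := congrArg Fin.val (hinj h.1)
      have e2 := congrArg Fin.val (hinj h.2)
      simp at e1 e2
      omega
  have hd : Disjoint (B.image fun k : Fin j => s(u, w k.succ))
      ((insert k1 B).image fun k : Fin j => s(w k.castSucc, w k.succ)) := by
    rw [disjoint_left]
    intro e h1 h2
    obtain ⟨a, -, rfl⟩ := mem_image.1 h1
    obtain ⟨b, -, h⟩ := mem_image.1 h2
    simp only [Sym2.eq_iff] at h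
    rcases h with h | h
    · exact hu _ h.1
    · exact hu _ h.2
  have hsub : (B.image fun k : Fin j => s(u, w k.succ)) ∪
      ((insert k1 B).image fun k : Fin j => s(w k.castSucc, w k.succ)) ⊆ paths_F u w \ U := by
    refine union_subset (image_subset_iff.2 fun k hk => mem_sdiff.2 ⟨?_, fun h => ?_⟩)
      (image_subset_iff.2 fun k hk => mem_sdiff.2 ⟨?_, fun h => ?_⟩)
    · exact mem_union_left _ (mem_image_of_mem _ (mem_univ k))
    · exact (mem_filter.1 hk).2 (hU _ _ h).2
    · exact mem_union_right _ (mem_image_of_mem _ (mem_univ k))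
    · rcases mem_insert.1 hk with rfl | hk
      · exact h0 (hc ▸ (hU _ _ h).1)
      · exact (mem_filter.1 hk).2 (hU _ _ h).2
  have := card_le_card hsub
  rw [card_union_of_disjoint hd, card_image_of_injective _ i1, card_image_of_injective _ i2,
    card_insert_of_notMem hk1B] at this
  omega

lemma paths_sum_prod (u x y : Fin n) (i : ℕ) (g : Fin n → ℝ) (hg : ∀ z, 0 ≤ g z) (hy : g y = 1) :
    ∑ w ∈ paths_Pa u (i + 1) x y, ∏ k : Fin (i + 1), g (w k.succ) ≤ (∑ z, g z) ^ i := by
  have hinj : Set.InjOn (fun (w : Fin (i + 2) → Fin n) (k : Fin i) => w k.castSucc.succ)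
      (paths_Pa u (i + 1) x y : Set _) := by
    intro w hw w' hw' h
    simp only [paths_Pa, coe_filter, mem_univ, true_and, Set.mem_ofPred_eq] at hw hw'
    funext k
    refine Fin.cases ?_ (fun k => ?_) k
    · rw [hw.2.1, hw'.2.1]
    · refine Fin.lastCases ?_ (fun k => ?_) k
      · rw [Fin.succ_last, hw.2.2.1, hw'.2.2.1]
      · exact congrFun h k
  calc _ = ∑ w ∈ paths_Pa u (i + 1) x y, ∏ k : Fin i, g (w k.castSucc.succ) := by
        refine sum_congr rfl fun w hw => ?_
        simp only [paths_Pa, mem_filter, mem_univ, true_and] at hw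
        rw [Fin.prod_univ_castSucc, Fin.succ_last, hw.2.2.1, hy, mul_one]
    _ = ∑ v ∈ (paths_Pa u (i + 1) x y).image
          (fun (w : Fin (i + 2) → Fin n) (k : Fin i) => w k.castSucc.succ), ∏ k, g (v k) := by
        rw [sum_image hinj]
    _ ≤ ∑ v : Fin i → Fin n, ∏ k, g (v k) :=
        sum_le_sum_of_subset_of_nonneg (subset_univ _) fun _ _ _ => prod_nonneg fun _ _ => hg _
    _ = _ := by rw [Fintype.sum_pow]

/-- The key estimate. -/
lemma paths_key {p : ℝ} (hp : 0 ≤ p) (hp1 : p ≤ 1) (u x y : Fin n) (i : ℕ) {S : Finset (Fin n)}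
    (hy : y ∈ S) {s : ℝ} (hs : (S.card : ℝ) ≤ s) {U : St n}
    (hU : ∀ a b, s(a, b) ∈ U → a ∈ S ∧ b ∈ S) :
    ∑ w ∈ paths_Pa u (i + 1) x y, p ^ (paths_F u w \ U).card ≤
      p * (n * p ^ 2 + s) ^ i + s ^ i := by
  have h1 := paths_sum_prod u x y i (fun z => if z ∈ S then 1 else p ^ 2)
    (fun z => by split_ifs <;> positivity) (if_pos hy)
  have h2 := paths_sum_prod u x y i (fun z => if z ∈ S then 1 else 0)
    (fun z => by split_ifs <;> norm_num) (if_pos hy)
  have e2 : ∑ z : Fin n, (if z ∈ S then (1 : ℝ) else 0) = S.card := by simp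
  have e1 : ∑ z : Fin n, (if z ∈ S then (1 : ℝ) else p ^ 2) ≤ n * p ^ 2 + s := by
    calc _ ≤ ∑ z : Fin n, (p ^ 2 + if z ∈ S then (1 : ℝ) else 0) :=
          sum_le_sum fun z _ => by split_ifs <;> nlinarith [sq_nonneg p]
      _ ≤ _ := by rw [sum_add_distrib, e2]; simpa using hs
  rw [e2] at h2
  have h3 := h1.trans (pow_le_pow_left₀
    (sum_nonneg fun z _ => by split_ifs <;> positivity) e1 i)
  have h4 := h2.trans (pow_le_pow_left₀ (Nat.cast_nonneg _) hs i)
  refine le_trans ?_ (add_le_add (mul_le_mul_of_nonneg_left h3 hp) h4)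
  rw [mul_sum, ← sum_add_distrib]
  refine sum_le_sum fun w hw => ?_
  have n1 : 0 ≤ p * ∏ k : Fin (i + 1), (if w k.succ ∈ S then (1 : ℝ) else p ^ 2) :=
    mul_nonneg hp (prod_nonneg fun _ _ => by split_ifs <;> positivity)
  have n2 : 0 ≤ ∏ k : Fin (i + 1), (if w k.succ ∈ S then (1 : ℝ) else 0) :=
    prod_nonneg fun _ _ => by split_ifs <;> norm_num
  by_cases hne : (univ.filter fun k : Fin (i + 1) => w k.succ ∉ S).Nonempty
  · refine le_trans ?_ (le_add_of_nonneg_right n2)
    rw [prod_ite, prod_const_one, one_mul, prod_const, ← pow_mul, ← pow_succ']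
    exact pow_le_pow_of_le_one hp hp1 (paths_new hw hy hU hne)
  · refine le_trans ?_ (le_add_of_nonneg_left n1)
    rw [prod_eq_one fun k _ => if_pos (by
      by_contra h
      exact hne ⟨k, mem_filter.2 ⟨mem_univ _, h⟩⟩)]
    exact pow_le_one₀ hp hp1

lemma paths_moment {μ : St n → ℝ} {p : ℝ} {se : ℕ} (hμ : Spread μ p se) (hp : 0 ≤ p) (hp1 : p ≤ 1)
    (i : ℕ) (u x y : Fin n) (s : ℕ) (h : ℕ) : ∀ (S : Finset (Fin n)) (U : St n), u ∈ S → x ∈ S →
    y ∈ S → S.card + (i + 1) * h ≤ s → U.card + 2 * (i + 1) * h ≤ se →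
    (∀ a b, s(a, b) ∈ U → a ∈ S ∧ b ∈ S) →
    ∑ E, μ E * (ind (U ⊆ E) * (∑ w ∈ paths_Pa u (i + 1) x y, ind (paths_F u w ⊆ E)) ^ h) ≤
      p ^ U.card * (p * (n * p ^ 2 + s) ^ i + s ^ i) ^ h := by
  induction h with
  | zero =>
    intro S U _ _ _ _ hU _
    simpa using hμ.2 U U.card le_rfl (by simpa using hU)
  | succ h ih =>
    intro S U hu hx hy hS hUc hU
    have hM : 0 ≤ (p * (n * p ^ 2 + s) ^ i + (s : ℝ) ^ i) ^ h := by positivity
    calc _ = ∑ w ∈ paths_Pa u (i + 1) x y, ∑ E, μ E * (ind (U ∪ paths_F u w ⊆ E) *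
          (∑ w ∈ paths_Pa u (i + 1) x y, ind (paths_F u w ⊆ E)) ^ h) := by
          rw [sum_comm]
          refine sum_congr rfl fun E _ => ?_
          rw [pow_succ', sum_mul, mul_sum, mul_sum]
          refine sum_congr rfl fun w _ => ?_
          rw [ind_congr union_subset_iff, ind_and]
          ring
      _ ≤ ∑ w ∈ paths_Pa u (i + 1) x y, p ^ U.card * (p * (n * p ^ 2 + s) ^ i + (s : ℝ) ^ i) ^ h *
          p ^ (paths_F u w \ U).card := by
          refine sum_le_sum fun w hw => ?_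
          have hw' := hw
          simp only [paths_Pa, mem_filter, mem_univ, true_and] at hw'
          have hall : ∀ k, w k ∈ S ∪ univ.image fun k : Fin (i + 1) => w k.succ := fun k => by
            refine Fin.cases ?_ (fun k => ?_) k
            · rw [hw'.2.1]; exact mem_union_left _ hx
            · exact mem_union_right _ (mem_image_of_mem _ (mem_univ k))
          refine (ih (S ∪ univ.image fun k : Fin (i + 1) => w k.succ) (U ∪ paths_F u w)
            (mem_union_left _ hu) (mem_union_left _ hx) (mem_union_left _ hy) ?_ ?_ ?_).trans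
            (le_of_eq ?_)
          · have h1 := card_union_le S (univ.image fun k : Fin (i + 1) => w k.succ)
            have h2 := card_image_le (s := univ) (f := fun k : Fin (i + 1) => w k.succ)
            rw [card_univ, Fintype.card_fin] at h2
            rw [Nat.mul_succ] at hS
            omega
          · have h1 := card_union_le U (paths_F u w)
            have h2 := paths_F_card u w
            rw [Nat.mul_succ] at hUc
            omega
          · intro a b hab
            rcases mem_union.1 hab with hab | hab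
            · exact ⟨mem_union_left _ (hU a b hab).1, mem_union_left _ (hU a b hab).2⟩
            · rcases mem_union.1 hab with hab | hab
              · obtain ⟨k, -, hk⟩ := mem_image.1 hab
                rcases Sym2.eq_iff.1 hk with ⟨rfl, rfl⟩ | ⟨rfl, rfl⟩
                · exact ⟨mem_union_left _ hu, hall _⟩
                · exact ⟨hall _, mem_union_left _ hu⟩
              · obtain ⟨k, -, hk⟩ := mem_image.1 hab
                rcases Sym2.eq_iff.1 hk with ⟨rfl, rfl⟩ | ⟨rfl, rfl⟩
                · exact ⟨hall _, hall _⟩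
                · exact ⟨hall _, hall _⟩
          · rw [union_comm, ← card_sdiff_add_card, pow_add]
            ring
      _ ≤ _ := by
          rw [← mul_sum, pow_succ _ h, ← mul_assoc]
          refine mul_le_mul_of_nonneg_left (paths_key hp hp1 u x y i hy ?_ hU) (by positivity)
          exact_mod_cast le_trans (Nat.le_add_right _ _) hS

/-- Moment method.  First replace `p` by `min p 1` (`Spread` still holds: use `m = 0` when
`p > 1`; the threshold is monotone in `p`), so that `∑ μ E ind (F ⊆ E) ≤ p ^ #F` for `#F ≤ se`.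
Let `Pa` be the set of injective `w : Fin (j+1) → Fin n` avoiding `u` with ends `x, y`, and
`Fw w` the set of the `≤ 2j - 1` edges `s(u, w k)` (`0 < k < j`) and `s(w k, w (k+1))`; then
`#sawSet E ≤ ∑ w ∈ Pa, ind (Fw w ⊆ E)`, hence
`∑ μ E (#sawSet E)^h ≤ ∑ (w₁,…,w_h), p ^ #(⋃ Fw wₜ) ≤ M ^ h`, `M = p (n p² + s)^(j-1) + s^(j-1)`,
`s = 3 + j h`.  The last step is an induction on `h` from the key estimate: for a vertex set
`S ∋ u, x, y` with `#S ≤ s` and an edge set `U` all of whose edges have both ends in `S`,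
`∑ w ∈ Pa, p ^ #(Fw w \ U) ≤ M`.  Indeed if `a ≥ 1` interior vertices `w k` lie outside `S`, then
`Fw w \ U` contains the `a` edges `s(u, w k)`, the `a` edges `s(w k, w (k+1))` and the edge
`s(w (k₀-1), w k₀)` for the least such `k₀`; these are distinct, so the weight is at most
`p * ∏_{k interior} (if w k ∈ S then 1 else p²)`; if `a = 0` the weight is at most
`∏ (if w k ∈ S then 1 else 0)`.  Summing the products over all choices of the interior vertices
(`Finset.prod_univ_sum` / `Fintype.sum_pow`) gives `p (s + n p²)^(j-1) + s^(j-1)`.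
Finish with Markov: `ind (T < X) ≤ (X/T)^h`, `T = (1+η) M > 0`. -/
theorem saw_tail (μ : St n → ℝ) (p : ℝ) (se : ℕ) (hμ : Spread μ p se) (hp : 0 ≤ p) (j h : ℕ)
    (hj : 1 ≤ j) (hse : 2 * j * h ≤ se) (u x y : Fin n) (η : ℝ) (hη : 0 < η) :
    ∑ E, μ E * ind ((1 + η) * (p * (n * p ^ 2 + (3 + j * h)) ^ (j - 1) + (3 + j * h) ^ (j - 1)) <
      ((sawSet E u j x y).card : ℝ)) ≤ ((1 + η) ^ h)⁻¹ := by
  obtain ⟨i, rfl⟩ : ∃ i, j = i + 1 := ⟨j - 1, by omega⟩
  rw [Nat.add_sub_cancel]
  have hq0 : 0 ≤ min p 1 := le_min hp zero_le_one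
  have hq : Spread μ (min p 1) se := by
    refine ⟨hμ.1, fun F m h1 h2 => ?_⟩
    rcases le_total p 1 with h | h
    · rw [min_eq_left h]; exact hμ.2 F m h1 h2
    · rw [min_eq_right h, one_pow]
      simpa using hμ.2 F 0 (Nat.zero_le _) (Nat.zero_le _)
  have hmom := paths_moment hq hq0 (min_le_right _ _) i u x y (3 + (i + 1) * h) h {u, x, y} ∅
    (by simp) (by simp) (by simp) (Nat.add_le_add_right card_le_three _) (by simpa using hse)
    (by simp)
  simp only [empty_subset, ind_true, one_mul, card_empty, pow_zero] at hmom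
  push_cast at hmom ⊢
  set M : ℝ := min p 1 * (n * min p 1 ^ 2 + (3 + (i + 1) * h)) ^ i + (3 + (i + 1) * h) ^ i with hM
  have hM0 : 0 < M := by positivity
  have hMle : M ≤ p * (n * p ^ 2 + (3 + (i + 1) * h)) ^ i + (3 + (i + 1) * h) ^ i := by
    have := min_le_left p 1
    rw [hM]
    gcongr
  have hT : 0 < (1 + η) * M := by positivity
  calc _ ≤ ∑ E, μ E * ((∑ w ∈ paths_Pa u (i + 1) x y, ind (paths_F u w ⊆ E)) ^ h /
        ((1 + η) * M) ^ h) := by
        refine sum_le_sum fun E _ => mul_le_mul_of_nonneg_left ?_ (hμ.1 E)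
        have hX := paths_card_le E u (i + 1) x y
        have hX0 := (Nat.cast_nonneg _).trans hX
        by_cases hlt : (1 + η) * (p * (n * p ^ 2 + (3 + (i + 1) * h)) ^ i + (3 + (i + 1) * h) ^ i) <
            ((sawSet E u (i + 1) x y).card : ℝ)
        · rw [ind_true hlt, ← div_pow]
          refine one_le_pow₀ ((one_le_div hT).2 ?_)
          exact ((mul_le_mul_of_nonneg_left hMle (by linarith)).trans hlt.le).trans hX
        · rw [ind_false hlt]
          positivity
    _ = (∑ E, μ E * (∑ w ∈ paths_Pa u (i + 1) x y, ind (paths_F u w ⊆ E)) ^ h) /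
        ((1 + η) * M) ^ h := by
        rw [sum_div]
        exact sum_congr rfl fun E _ => (mul_div_assoc _ _ _).symm
    _ ≤ M ^ h / ((1 + η) * M) ^ h := div_le_div_of_nonneg_right hmom (by positivity)
    _ = _ := by
        rw [mul_pow]
        field_simp

/-- `p' (n p'² + s)^(j-1) ≤ (d^j/D) e^η (e^(2η) + η)^(j-1) ≤ (d^j/D) e^(3jη)` as `p d^(j-1) = d^j/D`;
`(1+η)(e^(3jη) + η) ≤ e^(5jη) ≤ 1 + 10 j η`. -/
theorem saw_numeric (p ζ η s : ℝ) (j : ℕ) (hj : 1 ≤ j) (hn : 0 < n) (hp : 0 < p) (hζ0 : 0 ≤ ζ)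
    (hζ : ζ ≤ η) (hs0 : 0 ≤ s) (hs : s ≤ η * (n * p ^ 2))
    (hsj : s ^ (j - 1) * (n * p) ≤ η * (n * p ^ 2) ^ j) (hη : 5 * j * η ≤ 1) :
    (1 + η) * (p * Real.exp ζ * (n * (p * Real.exp ζ) ^ 2 + s) ^ (j - 1) + s ^ (j - 1)) ≤
      (1 + 10 * j * η) * (n * p ^ 2) ^ j / (n * p) := by
  obtain ⟨i, rfl⟩ : ∃ i, j = i + 1 := ⟨j - 1, by omega⟩
  rw [Nat.add_sub_cancel] at hsj ⊢
  push_cast at hη ⊢
  have hη0 : 0 ≤ η := hζ0.trans hζ
  have hn' : (0 : ℝ) < n := by exact_mod_cast hn
  have hi : (0 : ℝ) ≤ i := Nat.cast_nonneg _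
  set d : ℝ := n * p ^ 2 with hd
  have hd0 : 0 < d := by positivity
  have eR : d ^ (i + 1) / (n * p) = p * d ^ i := by
    rw [pow_succ, mul_div_assoc, hd]
    field_simp
  have h1 : s ^ i ≤ η * (p * d ^ i) := by
    rw [← eR, ← mul_div_assoc, le_div_iff₀ (by positivity)]
    exact hsj
  have he : Real.exp ζ ≤ Real.exp η := Real.exp_le_exp.2 hζ
  have he1 : 1 + η ≤ Real.exp η := by linarith [Real.add_one_le_exp η]
  have he0 : 1 ≤ Real.exp η := by linarith
  have h2 : n * (p * Real.exp ζ) ^ 2 + s ≤ d * Real.exp η ^ 3 := by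
    have a1 : n * (p * Real.exp ζ) ^ 2 ≤ d * Real.exp η ^ 2 := by
      rw [mul_pow, ← mul_assoc, ← hd]
      gcongr
    have a2 : 1 ≤ Real.exp η ^ 2 := one_le_pow₀ he0
    have a3 : Real.exp η ^ 2 + η ≤ Real.exp η ^ 3 := by
      calc _ ≤ Real.exp η ^ 2 * (1 + η) := by nlinarith
        _ ≤ Real.exp η ^ 2 * Real.exp η := by gcongr
        _ = _ := by ring
    nlinarith
  have h3 : p * Real.exp ζ * (n * (p * Real.exp ζ) ^ 2 + s) ^ i ≤
      p * d ^ i * Real.exp η ^ (3 * i + 1) := by
    calc _ ≤ p * Real.exp η * (d * Real.exp η ^ 3) ^ i := by gcongr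
      _ = _ := by rw [mul_pow, ← pow_mul]; ring
  have h4 : (1 + η) * (Real.exp η ^ (3 * i + 1) + η) ≤ 1 + 10 * (i + 1) * η := by
    have a1 : 1 ≤ Real.exp η ^ (3 * i + 1) := one_le_pow₀ he0
    have a2 : |5 * ((i : ℝ) + 1) * η| ≤ 1 := by
      rw [abs_of_nonneg (by positivity)]; exact hη
    have a3 := (abs_le.1 (Real.abs_exp_sub_one_sub_id_le a2)).2
    have a4 : 0 ≤ 5 * ((i : ℝ) + 1) * η := by positivity
    calc _ ≤ Real.exp η * (Real.exp η ^ (3 * i + 1) * (1 + η)) :=
          mul_le_mul he1 (by nlinarith) (by positivity) (by positivity)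
      _ ≤ Real.exp η * (Real.exp η ^ (3 * i + 1) * Real.exp η) := by gcongr
      _ = Real.exp η ^ (3 * i + 3) := by ring
      _ ≤ Real.exp η ^ (5 * (i + 1)) := pow_le_pow_right₀ he0 (by omega)
      _ = Real.exp (5 * ((i : ℝ) + 1) * η) := by rw [← Real.exp_nat_mul]; push_cast; rfl
      _ ≤ _ := by nlinarith
  rw [mul_div_assoc, eR]
  have hR : 0 ≤ p * d ^ i := by positivity
  calc _ ≤ (1 + η) * (p * d ^ i * Real.exp η ^ (3 * i + 1) + η * (p * d ^ i)) := by gcongr
    _ = (1 + η) * (Real.exp η ^ (3 * i + 1) + η) * (p * d ^ i) := by ring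
    _ ≤ _ := mul_le_mul_of_nonneg_right h4 hR

end Crest.Agent.R30
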