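import Crest.Agent.R30.P1Det
import Crest.Agent.R30.FProb
import Crest.Agent.R30.Paths

/-!
# R30/P1Prob: phase 1 succeeds with probability `1 - n⁻²`
-/

set_option autoImplicit false

open Finset
open Crest.CombinatoricsR.TriangleRemoval

namespace Crest.Agent.R30

variable {n : ℕ}

lemma p1prob_union {β : Type*} (k : ℕ) (s : Finset β) (P : β → Hist n → Prop) (Q : Hist n → Prop)
    (ε : ℝ) (hQ : ∀ h, Q h → ∃ b ∈ s, P b h) (hP : ∀ b ∈ s, EH k (fun h => ind (P b h)) ≤ ε) :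
    EH k (fun h => ind (Q h)) ≤ s.card * ε := by
  calc _ ≤ EH k (fun h => ∑ b ∈ s, ind (P b h)) :=
        EH_mono fun h _ => (ind_mono (hQ h)).trans (ind_exists_le s fun b => P b h)
    _ = ∑ b ∈ s, EH k (fun h => ind (P b h)) := EH_sum k s fun b h => ind (P b h)
    _ ≤ ∑ _b ∈ s, ε := sum_le_sum hP
    _ = _ := by rw [sum_const, nsmul_eq_mul]

lemma p1prob_n {y : ℝ} (hB : Big n y) : (1000 : ℝ) ≤ n := by
  have h1 := hB.pow_le_n (k := 1) (by norm_num)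
  have h2 := hB.y_ge
  rw [pow_one] at h1
  exact le_trans (le_trans (by norm_num) h2) h1

lemma p1prob_dd {y : ℝ} (hB : Big n y) {N : ℕ} (hp : 0 < pp n N) (hd : y ^ 40 ≤ dd n N) :
    ParFacts n N ∧ ∀ j ≤ N, y ^ 40 ≤ dd n j := by
  have hF := parFacts hp ((one_le_pow₀ hB.one_le).trans hd)
  exact ⟨hF, fun j hj => hd.trans (hF.dd_anti j N hj le_rfl)⟩

lemma p1prob_freedman {y : ℝ} (hB : Big n y) {N : ℕ} (hp : 0 < pp n N) (hd : y ^ 40 ≤ dd n N)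
    (X : ℕ → St n → St n → ℝ) {i : ℕ} (hi : i ≤ N) (h0 : ∀ j E, av E (X j E) = 0)
    (hb : ∀ j ≤ N, ∀ E E', Step E E' → |X j E E'| ≤ 30 / dd n j)
    (hv : ∀ j ≤ N, ∀ E, av E (fun E' => X j E E' ^ 2) ≤ 30 * kap n j / dd n j) :
    EH N (fun h : Hist n => ind ((y ^ 16)⁻¹ < |∑ j ∈ range i, X j (h j) (h (j + 1))|)) ≤
      2 * ((n : ℝ) ^ 7)⁻¹ := by
  obtain ⟨hF, hdd⟩ := p1prob_dd hB hp hd
  have hy := hB.pos
  have hy1 := hB.one_le
  have hn := p1prob_n hB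
  have hn0 : (0 : ℝ) < n := by linarith
  have h40 : 0 < y ^ 40 := by positivity
  have hθc : y ^ 20 * (30 / y ^ 40) ≤ 1 := by
    have h1 : (30 : ℝ) ≤ y ^ 20 := by
      have := hB.y_ge
      calc (30 : ℝ) ≤ y := le_trans (by norm_num) this
        _ ≤ y ^ 20 := le_self_pow₀ hy1 (by norm_num)
    rw [show y ^ 40 = y ^ 20 * y ^ 20 by ring, ← mul_div_assoc, mul_div_mul_left _ _ (by positivity),
      div_le_one (by positivity)]
    exact h1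
  refine (freedman X (fun j => 30 * kap n j / y ^ 40) (30 / y ^ 40) (y ^ 20) (y ^ 16)⁻¹ i N hi
    (by positivity) hθc (fun j _ E => h0 j E) (fun j hj E E' hE => ?_) (fun j hj E => ?_)).trans ?_
  · exact (hb j (by omega) E E' hE).trans
      (div_le_div_of_nonneg_left (by norm_num) h40 (hdd j (by omega)))
  · exact (hv j (by omega) E).trans (div_le_div_of_nonneg_left
      (mul_nonneg (by norm_num) (hF.kap_pos j (by omega)).le) h40 (hdd j (by omega)))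
  · refine mul_le_mul_of_nonneg_left ?_ (by norm_num)
    have e1 : (y ^ 20) ^ 2 * ∑ j ∈ range i, 30 * kap n j / y ^ 40 = 30 * ∑ j ∈ range i, kap n j := by
      rw [← sum_div, ← mul_sum]; field_simp
    have e2 : -y ^ 20 * (y ^ 16)⁻¹ = -y ^ 4 := by field_simp
    have e3 : ((n : ℝ) ^ 7)⁻¹ = Real.exp (-(7 * Real.log n)) := by
      rw [Real.exp_neg, show (7 : ℝ) = ((7 : ℕ) : ℝ) by norm_num, Real.exp_nat_mul,
        Real.exp_log hn0]
    rw [e1, e2, e3]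
    refine Real.exp_le_exp.2 ?_
    have h1 := hF.sum_kap i hi
    have h2 := hB.le_y
    have h3 : y ≤ y ^ 4 := le_self_pow₀ hy1 (by norm_num)
    have h4 := hB.log_nonneg
    linarith

/-- Union bound (`ind_exists_le`, `EH_sum`) over `i ≤ N` (`N + 1 ≤ n²`), `u, v` and the two
martingales; each term by `freedman` with `θ = y^20`, `c = 30/y^40`, `v j = 30 kap n j / y^40`,
`f = (y^16)⁻¹` (`av_Xe`, `abs_Xe_le`, `var_Xe_le`, `dpar_of_big`): it is at most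
`2 exp (-y⁴ + 30 log n)`.  Total `≤ 4 n⁴ n³⁰ exp (-y⁴)`, and `exp (y⁴) ≥ exp (y/2) ≥ n^5000`
(`Big.pow_le_exp`). -/
theorem mart_prob {y : ℝ} (hB : Big n y) {N : ℕ} (hp : 0 < pp n N) (hd : y ^ 40 ≤ dd n N) :
    EH N (fun h : Hist n => ind (¬ MartOK (y ^ 10)⁻¹ (y ^ 16)⁻¹ N h)) ≤ ((n : ℝ) ^ 2)⁻¹ / 2 := by
  obtain ⟨hF, hdd⟩ := p1prob_dd hB hp hd
  have hn := p1prob_n hB
  have hn0 : (0 : ℝ) < n := by linarith
  refine (p1prob_union N (range (N + 1) ×ˢ (univ : Finset (Fin n × Fin n)))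
    (fun b h => (y ^ 16)⁻¹ < |∑ j ∈ range b.1, Xe (y ^ 10)⁻¹ b.2.1 b.2.2 j (h j) (h (j + 1))| ∨
      (y ^ 16)⁻¹ < |∑ j ∈ range b.1, Xb (y ^ 10)⁻¹ b.2.1 j (h j) (h (j + 1))|) _
    (2 * ((n : ℝ) ^ 7)⁻¹ + 2 * ((n : ℝ) ^ 7)⁻¹) (fun h hh => ?_) (fun b hb => ?_)).trans ?_
  · unfold MartOK at hh
    push Not at hh
    obtain ⟨i, hi, u, v, huv⟩ := hh
    refine ⟨(i, u, v), by simp; omega, ?_⟩
    by_cases hc : |∑ j ∈ range i, Xe (y ^ 10)⁻¹ u v j (h j) (h (j + 1))| ≤ (y ^ 16)⁻¹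
    · exact Or.inr (huv hc)
    · exact Or.inl (not_le.1 hc)
  · have hi : b.1 ≤ N := by
      have := (mem_product.1 hb).1
      rw [mem_range] at this; omega
    refine (EH_mono fun h _ => ind_or_le _ _).trans ?_
    rw [EH_add]
    exact add_le_add
      (p1prob_freedman hB hp hd _ hi (fun j E => av_Xe _ _ _ j E)
        (fun j hj E E' hE => abs_Xe_le (dpar_of_big hB hp hd hj) _ _ hE)
        (fun j hj E => var_Xe_le (dpar_of_big hB hp hd hj) _ _ E))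
      (p1prob_freedman hB hp hd _ hi (fun j E => av_Xb _ _ j E)
        (fun j hj E E' hE => abs_Xb_le (dpar_of_big hB hp hd hj) _ hE)
        (fun j hj E => var_Xb_le (dpar_of_big hB hp hd hj) _ E))
  · have hc : (((range (N + 1) ×ˢ (univ : Finset (Fin n × Fin n))).card : ℕ) : ℝ) ≤ (n : ℝ) ^ 4 := by
      rw [card_product, card_range, card_univ, Fintype.card_prod, Fintype.card_fin]
      have : (N + 1) * (n * n) ≤ n ^ 4 := by
        calc _ ≤ n ^ 2 * (n * n) := Nat.mul_le_mul_right _ hF.N_le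
          _ = _ := by ring
      exact_mod_cast this
    refine (mul_le_mul_of_nonneg_right hc (by positivity)).trans ?_
    rw [show (n : ℝ) ^ 4 * (2 * ((n : ℝ) ^ 7)⁻¹ + 2 * ((n : ℝ) ^ 7)⁻¹)
      = (8 / n) * (((n : ℝ) ^ 2)⁻¹ / 2) by field_simp; ring]
    exact mul_le_of_le_one_left (by positivity) (by rw [div_le_one hn0]; linarith)

/-- The spread bound with the parameters of phase 1: `spread_law` with `ω = y^40`; for
`s ≤ y^11`, `(2δ + s/ω + 6/n) log n + 2/n ≤ (y^8)⁻¹`. -/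
theorem spread_big {y : ℝ} (hB : Big n y) {i : ℕ} (hp : 0 < pp n i) (hd : y ^ 40 ≤ dd n i)
    (s : ℕ) (hs : (s : ℝ) ≤ y ^ 11) :
    Spread (law (n := n) (y ^ 10)⁻¹ i) (pp n i * Real.exp (y ^ 8)⁻¹) s := by
  have hy := hB.pos
  have hy1 := hB.one_le
  have hn := p1prob_n hB
  have hn0 : (0 : ℝ) < n := by linarith
  have hY : (10000 : ℝ) ≤ y := le_trans (by norm_num) hB.y_ge
  have h10 : y ≤ y ^ 10 := le_self_pow₀ hy1 (by norm_num)
  have ha : 0 < (y ^ 10)⁻¹ := by positivity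
  refine spread_law _ (y ^ 40) _ i s hp ?_ hd ?_ ha.le ?_ ?_
  · have : y ≤ y ^ 40 := le_self_pow₀ hy1 (by norm_num)
    linarith
  · have : (60 : ℝ) ≤ n := by linarith
    exact_mod_cast this
  · rw [one_div]
    exact inv_anti₀ (by norm_num) (by linarith)
  · have h1 : (s : ℝ) / y ^ 40 ≤ (y ^ 10)⁻¹ := by
      rw [div_le_iff₀ (by positivity), show (y ^ 10)⁻¹ * y ^ 40 = y ^ 30 by field_simp]
      exact hs.trans (pow_le_pow_right₀ hy1 (by norm_num))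
    have h2 : (n : ℝ)⁻¹ ≤ (y ^ 10)⁻¹ := inv_anti₀ (by positivity) (hB.pow_le_n (by norm_num))
    have h3 : Real.log n ≤ y := by have := hB.le_y; have := hB.log_nonneg; linarith
    have h4 : (y ^ 8)⁻¹ = y * y * (y ^ 10)⁻¹ := by field_simp
    have h5 : (2 * (y ^ 10)⁻¹ + s / y ^ 40 + 6 / n) * Real.log n ≤ (9 * (y ^ 10)⁻¹) * y := by
      refine mul_le_mul ?_ h3 hB.log_nonneg (by positivity)
      rw [div_eq_mul_inv (6 : ℝ)]; linarith
    rw [h4, div_eq_mul_inv (2 : ℝ)]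
    have h6 : 9 * y + 2 ≤ y * y := by nlinarith
    have h7 := mul_le_mul_of_nonneg_right h6 ha.le
    nlinarith

lemma p1prob_h {y : ℝ} (hB : Big n y) {h : ℕ} (hh1 : y ^ 10 ≤ h) :
    (n : ℝ) ^ 8 ≤ (1 + (y ^ 8)⁻¹) ^ h := by
  have hy := hB.pos
  have hy1 := hB.one_le
  have hη : 0 < (y ^ 8)⁻¹ := by positivity
  have hη1 : (y ^ 8)⁻¹ ≤ 1 := inv_le_one_of_one_le₀ (one_le_pow₀ hy1)
  have b1 : Real.exp ((y ^ 8)⁻¹ / 2) ≤ 1 + (y ^ 8)⁻¹ := by
    have := (abs_le.1 (Real.abs_exp_sub_one_sub_id_le (x := (y ^ 8)⁻¹ / 2)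
      (by rw [abs_of_pos (by positivity)]; linarith))).2
    generalize (y ^ 8)⁻¹ = a at *
    nlinarith
  calc (n : ℝ) ^ 8 ≤ Real.exp (y / 2) := hB.pow_le_exp (by norm_num)
    _ ≤ Real.exp (h * ((y ^ 8)⁻¹ / 2)) := by
        refine Real.exp_le_exp.2 ?_
        have b2 : y ^ 10 * (y ^ 8)⁻¹ ≤ h * (y ^ 8)⁻¹ := mul_le_mul_of_nonneg_right hh1 hη.le
        rw [show y ^ 10 * (y ^ 8)⁻¹ = y * y by field_simp] at b2
        have b3 : y ≤ y * y := le_mul_of_one_le_left hy.le hy1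
        generalize (y ^ 8)⁻¹ = a at *
        linarith
    _ = Real.exp ((y ^ 8)⁻¹ / 2) ^ h := Real.exp_nat_mul _ _
    _ ≤ _ := pow_le_pow_left₀ (Real.exp_pos _).le b1 _

lemma p1prob_num {y : ℝ} (hB : Big n y) {i : ℕ} (hp : 0 < pp n i) (hd : y ^ 40 ≤ dd n i)
    (j : ℕ) (hj : j = 256) {s : ℝ} (hs0 : 0 ≤ s) (hs1 : s ≤ y ^ 11) :
    s ^ (j - 1) * (n * pp n i) ≤ (y ^ 8)⁻¹ * (n * pp n i ^ 2) ^ j := by
  have hy := hB.pos
  have hy1 := hB.one_le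
  have hn0 : (0 : ℝ) ≤ n := Nat.cast_nonneg _
  have hη : 0 < (y ^ 8)⁻¹ := by positivity
  have hd' : y ^ 40 ≤ n * pp n i ^ 2 := hd
  have a1 : s ^ (j - 1) ≤ (y ^ 11) ^ (j - 1) := pow_le_pow_left₀ hs0 hs1 _
  have a2 : (n : ℝ) * pp n i ≤ y ^ 4000 := by
    rw [hB.pow]; exact mul_le_of_le_one_right hn0 (pp_le_one i)
  have a3 : (y ^ 40) ^ j ≤ (n * pp n i ^ 2) ^ j := pow_le_pow_left₀ (by positivity) hd' _
  refine (mul_le_mul a1 a2 (by positivity) (by positivity)).trans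
    (le_trans ?_ (mul_le_mul_of_nonneg_left a3 hη.le))
  rw [le_inv_mul_iff₀ (by positivity), ← pow_mul, ← pow_mul, ← pow_add, ← pow_add]
  exact pow_le_pow_right₀ hy1 (by omega)

lemma p1prob_saw {y : ℝ} (hB : Big n y) {i : ℕ} (hp : 0 < pp n i) (hd : y ^ 40 ≤ dd n i)
    (u x x' : Fin n) (j : ℕ) (hj : j = 256) :
    ∑ E, law (y ^ 10)⁻¹ i E * ind ((1 + (y ^ 7)⁻¹) * dd n i ^ j / DD n i <
      ((sawSet E u j x x').card : ℝ)) ≤ ((n : ℝ) ^ 8)⁻¹ := by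
  have hy := hB.pos
  have hy1 := hB.one_le
  have hn := p1prob_n hB
  have hn0 : (0 : ℝ) < n := by linarith
  have hY : (10000 : ℝ) ≤ y := le_trans (by norm_num) hB.y_ge
  have h10 : 1 ≤ y ^ 10 := one_le_pow₀ hy1
  have hjR : (j : ℝ) = 256 := by rw [hj]; norm_num
  obtain ⟨h, hh1, hh2⟩ : ∃ h : ℕ, y ^ 10 ≤ h ∧ (h : ℝ) ≤ 2 * y ^ 10 :=
    ⟨⌈y ^ 10⌉₊, Nat.le_ceil _, by
      have := Nat.ceil_lt_add_one (a := y ^ 10) (by positivity); linarith⟩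
  have h11 : 2000 * y ^ 10 ≤ y ^ 11 := by rw [pow_succ y 10]; nlinarith
  have hη : 0 < (y ^ 8)⁻¹ := by positivity
  have hη2 : 2560 * (y ^ 8)⁻¹ ≤ (y ^ 7)⁻¹ := by
    rw [show (y ^ 7)⁻¹ = y * (y ^ 8)⁻¹ by field_simp]
    exact mul_le_mul_of_nonneg_right (by linarith) hη.le
  have hη3 : (y ^ 7)⁻¹ ≤ 1 := inv_le_one_of_one_le₀ (one_le_pow₀ hy1)
  have hs0 : (0 : ℝ) ≤ 3 + (j : ℝ) * h := by positivity
  have hs1 : 3 + (j : ℝ) * h ≤ y ^ 11 := by rw [hjR]; linarith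
  have hs2 : ((2 * j * h : ℕ) : ℝ) ≤ y ^ 11 := by push_cast; rw [hjR]; linarith
  have hd' : y ^ 40 ≤ n * pp n i ^ 2 := hd
  have c1 : 3 + (j : ℝ) * h ≤ (y ^ 8)⁻¹ * (n * pp n i ^ 2) := by
    refine hs1.trans (le_trans ?_ (mul_le_mul_of_nonneg_left hd' hη.le))
    rw [show (y ^ 8)⁻¹ * y ^ 40 = y ^ 32 by field_simp]
    exact pow_le_pow_right₀ hy1 (by norm_num)
  have c2 : 5 * (j : ℝ) * (y ^ 8)⁻¹ ≤ 1 := by rw [hjR]; linarith
  have c3 : 1 + 10 * (j : ℝ) * (y ^ 8)⁻¹ ≤ 1 + (y ^ 7)⁻¹ := by rw [hjR]; linarith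
  have c4 := p1prob_h hB hh1
  have hsp := spread_big hB hp hd (2 * j * h) hs2
  have htail := saw_tail _ _ _ hsp (by positivity) j h (by omega) le_rfl u x x' _ hη
  have hnum := saw_numeric (n := n) (pp n i) (y ^ 8)⁻¹ (y ^ 8)⁻¹ (3 + (j : ℝ) * h) j
    (by omega) (by exact_mod_cast hn0) hp hη.le le_rfl hs0 c1
    (p1prob_num hB hp hd j hj hs0 hs1) c2
  refine le_trans (sum_le_sum fun E _ => mul_le_mul_of_nonneg_left (ind_mono fun hE => ?_)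
    (law_nonneg _ _ _)) (htail.trans (inv_anti₀ (by positivity) c4))
  refine lt_of_le_of_lt (hnum.trans ?_) hE
  unfold dd DD
  exact div_le_div_of_nonneg_right (mul_le_mul_of_nonneg_right c3 (by positivity))
    (by positivity)

/-- Union bound over `i ≤ N`, `u, x, y`.  For each: `EH_adapted` (to horizon `i`),
`EH_eq_sum_law`, then `saw_tail` with `μ = law δ i`, `p = pp n i * exp η`, `η = (y^8)⁻¹`,
`j = 256`, `h = ⌈y^10⌉₊ ≤ 2 y^10`, `se = 2 * 256 * h ≤ y^11` (`spread_big`), and `saw_numeric`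
with `ζ = η`, `s = 3 + 256 h ≤ y^11 ≤ η d`, `s^255 D ≤ y^2805 y^4000 ≤ η d^256`,
`1 + 2560 η ≤ 1 + (y^7)⁻¹`.  Finally `(1+η)^h ≥ exp (η h / 2) ≥ exp (y²/2) ≥ n^5000`. -/
theorem saw_prob {y : ℝ} (hB : Big n y) {N : ℕ} (hp : 0 < pp n N) (hd : y ^ 40 ≤ dd n N) :
    EH N (fun h : Hist n => ind (¬ SawOK (y ^ 10)⁻¹ (y ^ 7)⁻¹ 256 N h)) ≤
      ((n : ℝ) ^ 2)⁻¹ / 2 := by
  obtain ⟨hF, hdd⟩ := p1prob_dd hB hp hd
  have hn := p1prob_n hB
  have hn0 : (0 : ℝ) < n := by linarith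
  refine (p1prob_union N (range (N + 1) ×ˢ (univ : Finset (Fin n × Fin n × Fin n)))
    (fun b h => (∀ j < b.1, Good (y ^ 10)⁻¹ j (h j)) ∧
      (1 + (y ^ 7)⁻¹) * dd n b.1 ^ 256 / DD n b.1 <
        ((sawSet (h b.1) b.2.1 256 b.2.2.1 b.2.2.2).card : ℝ)) _
    ((n : ℝ) ^ 8)⁻¹ (fun h hh => ?_) (fun b hb => ?_)).trans ?_
  · unfold SawOK at hh
    push Not at hh
    obtain ⟨i, hi, hg, u, x, x', hx⟩ := hh
    exact ⟨(i, u, x, x'), by simp; omega, hg, hx⟩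
  · have hi : b.1 ≤ N := by
      have := (mem_product.1 hb).1
      rw [mem_range] at this; omega
    rw [EH_adapted hi _ fun h h' hh => by
      rw [hh b.1 le_rfl]
      refine ind_congr (and_congr_left' (forall_congr' fun j => forall_congr' fun hj => ?_))
      rw [hh j hj.le]]
    simp only [ind_and]
    rw [EH_eq_sum_law (y ^ 10)⁻¹ b.1 fun E => ind ((1 + (y ^ 7)⁻¹) * dd n b.1 ^ 256 / DD n b.1 <
        ((sawSet E b.2.1 256 b.2.2.1 b.2.2.2).card : ℝ))]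
    exact p1prob_saw hB (hF.pp_pos _ hi) (hdd _ hi) _ _ _ 256 rfl
  · have hc : (((range (N + 1) ×ˢ (univ : Finset (Fin n × Fin n × Fin n))).card : ℕ) : ℝ)
        ≤ (n : ℝ) ^ 5 := by
      rw [card_product, card_range, card_univ, Fintype.card_prod, Fintype.card_prod,
        Fintype.card_fin]
      have : (N + 1) * (n * (n * n)) ≤ n ^ 5 := by
        calc _ ≤ n ^ 2 * (n * (n * n)) := Nat.mul_le_mul_right _ hF.N_le
          _ = _ := by ring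
      exact_mod_cast this
    refine (mul_le_mul_of_nonneg_right hc (by positivity)).trans ?_
    rw [show (n : ℝ) ^ 5 * ((n : ℝ) ^ 8)⁻¹ = (2 / n) * (((n : ℝ) ^ 2)⁻¹ / 2) by field_simp]
    exact mul_le_of_le_one_left (by positivity) (by rw [div_le_one hn0]; linarith)

theorem phase1 {y : ℝ} (hB : Big n y) {N : ℕ} (hp : 0 < pp n N) (hd : y ^ 40 ≤ dd n N) :
    EH N (fun h : Hist n => ind (¬ ∀ i ≤ N, Good (y ^ 10)⁻¹ i (h i) ∧
      Contr (h i) 2000 (1 / (500 * (1 + Real.log n) ^ 2)))) ≤ ((n : ℝ) ^ 2)⁻¹ := by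
  have h1 := mart_prob hB hp hd
  have h2 := saw_prob hB hp hd
  have h3 : EH N (fun h : Hist n => ind (¬ ∀ i ≤ N, Good (y ^ 10)⁻¹ i (h i) ∧
      Contr (h i) 2000 (1 / (500 * (1 + Real.log n) ^ 2)))) ≤
      EH N (fun h : Hist n => ind (¬ MartOK (y ^ 10)⁻¹ (y ^ 16)⁻¹ N h) +
        ind (¬ SawOK (y ^ 10)⁻¹ (y ^ 7)⁻¹ 256 N h)) := by
    refine EH_mono fun h hV => le_trans (ind_mono ?_) (ind_or_le _ _)
    intro hn
    by_contra hc
    rw [not_or, not_not, not_not] at hc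
    exact hn (p1_det hB hp hd hV hc.1 hc.2)
  rw [EH_add] at h3
  linarith

end Crest.Agent.R30
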