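import Crest.Agent.R30.Basic

/-!
# R30/Prod: uniform measure on finite products, the stopping-set coupling, and `ET`
-/

set_option autoImplicit false

open Finset
open Crest.CombinatoricsR.TriangleRemoval

namespace Crest.Agent.R30

variable {n : ℕ}

lemma prod_avg_equiv {α β : Type*} [Fintype α] [Fintype β] (e : α ≃ β) (f : β → ℝ) :
    avg univ (fun a => f (e a)) = avg univ f := by
  unfold avg
  rw [Equiv.sum_comp e f, card_univ, card_univ, Fintype.card_congr e]

lemma prod_avg_prod {α β : Type*} [Fintype α] [Fintype β] (f : α → ℝ) (g : β → ℝ) :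
    avg univ (fun p : α × β => f p.1 * g p.2) = avg univ f * avg univ g := by
  unfold avg
  rw [Fintype.sum_prod_type, ← sum_mul_sum, card_univ, card_univ, card_univ, Fintype.card_prod,
    Nat.cast_mul, div_mul_div_comm]

lemma prod_avg_sum_type {ι κ A : Type*} [Fintype ι] [DecidableEq ι] [Fintype κ] [DecidableEq κ]
    [Fintype A] (f : (ι → A) → ℝ) (g : (κ → A) → ℝ) :
    avg univ (fun η : ι ⊕ κ → A => f (η ∘ Sum.inl) * g (η ∘ Sum.inr)) =
      avg univ f * avg univ g := by
  rw [← prod_avg_prod, ← prod_avg_equiv (Equiv.sumArrowEquivProdArrow ι κ A)]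
  rfl

section General

variable {ι κ A : Type*} [Fintype ι] [DecidableEq ι] [Fintype κ] [DecidableEq κ] [Fintype A]
  [Nonempty A]

/-- Split `κ → A ≃ (range e → A) × ((range e)ᶜ → A)` (`Equiv.piEquivPiSubtypeProd`,
`Equiv.ofInjective`), or count the fibres of `c ↦ c ∘ e`. -/
theorem avg_comp_injective (e : ι → κ) (he : Function.Injective e) (f : (ι → A) → ℝ) :
    avg univ (fun c : κ → A => f (c ∘ e)) = avg univ f := by
  classical
  let σ : ι ⊕ ↥(Set.range e)ᶜ ≃ κ :=
    ((Equiv.ofInjective e he).sumCongr (Equiv.refl _)).trans (Equiv.Set.sumCompl (Set.range e))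
  have h := prod_avg_sum_type (κ := ↥(Set.range e)ᶜ) f (fun _ => 1)
  rw [avg_const univ_nonempty, mul_one,
    ← prod_avg_equiv (σ.symm.arrowCongr (Equiv.refl A))] at h
  rw [← h]
  refine avg_congr fun c _ => ?_
  rw [mul_one]
  rfl

theorem avg_coord (i : ι) (f : A → ℝ) : avg univ (fun η : ι → A => f (η i)) = avg univ f := by
  have h := avg_comp_injective (fun _ : Unit => i) (fun _ _ _ => rfl) (fun c : Unit → A => f (c ()))
  rw [← prod_avg_equiv (Equiv.funUnique Unit A) f]
  exact h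

/-- `Equiv.sumArrowEquivProdArrow`, `Finset.sum_mul_sum`. -/
theorem avg_sum_type (f : (ι → A) → ℝ) (g : (κ → A) → ℝ) :
    avg univ (fun η : ι ⊕ κ → A => f (η ∘ Sum.inl) * g (η ∘ Sum.inr)) =
      avg univ f * avg univ g :=
  prod_avg_sum_type f g

/-- Functions of disjoint sets of coordinates are independent.  E.g. apply `avg_comp_injective`
to `e : ι → ι ⊕ ι`, `e i = if i ∈ S then inl i else inr i`, and `avg_sum_type`. -/
theorem avg_mul_indep (f g : (ι → A) → ℝ) (S T : Set ι) (hST : Disjoint S T)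
    (hf : DependsOn f S) (hg : DependsOn g T) :
    avg univ (fun η => f η * g η) = avg univ f * avg univ g := by
  classical
  let e : ι → ι ⊕ ι := fun i => if i ∈ S then Sum.inl i else Sum.inr i
  have he : Function.Injective e := by
    intro i j h
    have := congrArg (Sum.elim id id) h
    simp only [e] at this
    split_ifs at this <;> exact this
  rw [← avg_comp_injective e he, ← avg_sum_type]
  refine avg_congr fun c _ => ?_
  rw [hf (y := c ∘ Sum.inl) fun i hi => by simp [e, hi],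
    hg (y := c ∘ Sum.inr) fun i hi => by simp [e, Set.disjoint_right.1 hST hi]]

lemma prod_couple_aux (π : ι → κ) (S : (ι → A) → Set ι)
    (hS : ∀ η η', (∀ i ∈ S η, η' i = η i) → S η' = S η) (g : (ι → A) → ℝ)
    (hg : ∀ η η', (∀ i ∈ S η, η' i = η i) → g η' = g η)
    (hinj : ∀ η, g η ≠ 0 → Set.InjOn π (S η)) :
    avg univ (fun c : κ → A => g (c ∘ π)) = avg univ g := by
  classical
  let ag : (ι → A) → (ι → A) → Prop := fun η η' => ∀ i ∈ S η, η' i = η i
  have symm : ∀ η η', ag η η' → ag η' η := fun η η' h i hi => (h i (hS η η' h ▸ hi)).symm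
  have trans : ∀ η η' η'', ag η η' → ag η' η'' → ag η η'' := fun η η' η'' h h' i hi =>
    (h' i ((hS η η' h).symm ▸ hi)).trans (h i hi)
  let m : (ι → A) → ℝ := fun η => ∑ η', ind (ag η η')
  have hm : ∀ η, 0 < m η := fun η =>
    sum_pos' (fun _ _ => ind_nonneg _) ⟨η, mem_univ _, by rw [ind_true fun _ _ => rfl]; norm_num⟩
  have hrep : ∀ η', g η' = ∑ η, g η / m η * ind (ag η η') := by
    intro η'
    have h1 : ∀ η, g η / m η * ind (ag η η') = g η' / m η' * ind (ag η' η) := by
      intro η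
      by_cases h : ag η η'
      · have e : m η = m η' := sum_congr rfl fun η'' _ =>
          ind_congr ⟨fun h' => trans _ _ _ (symm _ _ h) h', fun h' => trans _ _ _ h h'⟩
        rw [ind_true h, ind_true (symm _ _ h), hg η η' h, e]
      · rw [ind_false h, ind_false fun h' => h (symm _ _ h'), mul_zero, mul_zero]
    rw [sum_congr rfl fun η _ => h1 η, ← mul_sum, div_mul_cancel₀ _ (hm η').ne']
  rw [avg_congr fun c _ => hrep (c ∘ π), avg_congr (f := g) fun η' _ => hrep η', avg_sum, avg_sum]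
  refine sum_congr rfl fun η _ => ?_
  rw [avg_const_mul, avg_const_mul]
  by_cases h0 : g η = 0
  · simp [h0]
  congr 1
  let F : (S η → A) → ℝ := fun x => ind (∀ i : S η, x i = η i)
  have h1 := avg_comp_injective (fun i : S η => π i)
    (fun i j h => Subtype.ext (hinj η h0 i.2 j.2 h)) F
  have h2 := avg_comp_injective (fun i : S η => (i : ι)) Subtype.val_injective F
  refine Eq.trans (avg_congr fun c _ => ?_) (h1.trans (h2.symm.trans (avg_congr fun c _ => ?_)))
  · exact ind_congr ⟨fun h i => h i i.2, fun h i hi => h ⟨i, hi⟩⟩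
  · exact ind_congr ⟨fun h i hi => h ⟨i, hi⟩, fun h i => h i i.2⟩

/-- Stopping-set coupling.  The relation "`η'` agrees with `η` on `S η`" is an equivalence
relation whose class of `η` has `N η = #A ^ (#ι - #S η)` elements.  If `g` is constant on classes
and vanishes unless `π` is injective on `S η`, then `avg_c g (c ∘ π) = avg_η g η`: write
`g η' = ∑_η ind (η' agrees with η on S η) g η / N η`, and for `π` injective on `S η` the fraction
of `c` with `c ∘ π = η` on `S η` is `#A ^ (-#S η)` = the fraction of such `η'`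
(`avg_comp_injective` for `S η → κ` and `S η → ι`; so one may also compare the two averages
term by term).  Apply this to `g = f · ind (InjOn)` and `g = ind (InjOn)`: the two averages of
`ind (¬ InjOn)` agree, and `f - f · ind (InjOn) ∈ [0, ind (¬ InjOn)]`. -/
theorem couple (π : ι → κ) (S : (ι → A) → Set ι)
    (hS : ∀ η η', (∀ i ∈ S η, η' i = η i) → S η' = S η) (f : (ι → A) → ℝ)
    (hf0 : ∀ η, 0 ≤ f η) (hf1 : ∀ η, f η ≤ 1)
    (hf : ∀ η η', (∀ i ∈ S η, η' i = η i) → f η' = f η) :
    |avg univ (fun c : κ → A => f (c ∘ π)) - avg univ f| ≤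
      avg univ (fun η => ind (¬ Set.InjOn π (S η))) := by
  have hI : ∀ η, ind (Set.InjOn π (S η)) ≠ 0 → Set.InjOn π (S η) := fun η h => by
    by_contra h'
    exact h (ind_false h')
  have h1 := prod_couple_aux π S hS (fun η => f η * ind (Set.InjOn π (S η)))
    (fun η η' h => by rw [hf η η' h, hS η η' h]) fun η h => hI η (right_ne_zero_of_mul h)
  have h2 := prod_couple_aux π S hS (fun η => ind (Set.InjOn π (S η)))
    (fun η η' h => by rw [hS η η' h]) hI
  have h3 : avg univ (fun c : κ → A => ind (¬ Set.InjOn π (S (c ∘ π)))) =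
      avg univ (fun η => ind (¬ Set.InjOn π (S η))) := by
    simp only [ind_not]
    rw [avg_sub, avg_sub, avg_const univ_nonempty, avg_const univ_nonempty, h2]
  have lo : ∀ η, f η * ind (Set.InjOn π (S η)) ≤ f η := fun η =>
    mul_le_of_le_one_right (hf0 η) (ind_le_one _)
  have hi : ∀ η, f η ≤ f η * ind (Set.InjOn π (S η)) + ind (¬ Set.InjOn π (S η)) := by
    intro η
    by_cases h : Set.InjOn π (S η)
    · rw [ind_true h, ind_false (not_not.2 h), mul_one, add_zero]
    · rw [ind_false h, ind_true h, mul_zero, zero_add]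
      exact hf1 η
  have a1 := avg_mono (s := univ) fun η _ => lo η
  have a2 := avg_mono (s := univ) fun η _ => hi η
  have a3 := avg_mono (s := univ) fun (c : κ → A) _ => lo (c ∘ π)
  have a4 := avg_mono (s := univ) fun (c : κ → A) _ => hi (c ∘ π)
  rw [avg_add] at a2 a4
  rw [abs_le]
  constructor <;> linarith

end General

variable {L k : ℕ}

lemma ext_lt (hL : 0 < L) (η : Idx n k → Fin L) (i : Node n) : ext η i < L := by
  unfold ext; split_ifs
  · exact Fin.is_lt _
  · exact hL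

lemma ET_mono (hL : 0 < L) {Φ Ψ : (Node n → ℕ) → ℝ} (h : ∀ ω, (∀ i, ω i < L) → Φ ω ≤ Ψ ω) :
    ET L k Φ ≤ ET L k Ψ :=
  avg_mono fun η _ => h _ (ext_lt hL η)

lemma ET_congr (hL : 0 < L) {Φ Ψ : (Node n → ℕ) → ℝ} (h : ∀ ω, (∀ i, ω i < L) → Φ ω = Ψ ω) :
    ET L k Φ = ET L k Ψ :=
  avg_congr fun η _ => h _ (ext_lt hL η)

lemma ET_nonneg {Φ : (Node n → ℕ) → ℝ} (h : ∀ ω, 0 ≤ Φ ω) : 0 ≤ ET L k Φ :=
  avg_nonneg fun _ _ => h _

lemma ET_const (hL : 0 < L) (c : ℝ) : ET L k (fun _ : Node n → ℕ => c) = c := by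
  haveI : Nonempty (Fin L) := ⟨⟨0, hL⟩⟩
  exact avg_const univ_nonempty c

lemma ET_add (Φ Ψ : (Node n → ℕ) → ℝ) : ET L k (fun ω => Φ ω + Ψ ω) = ET L k Φ + ET L k Ψ :=
  avg_add _ _ _

lemma ET_sub (Φ Ψ : (Node n → ℕ) → ℝ) : ET L k (fun ω => Φ ω - Ψ ω) = ET L k Φ - ET L k Ψ :=
  avg_sub _ _ _

lemma ET_const_mul (c : ℝ) (Φ : (Node n → ℕ) → ℝ) : ET L k (fun ω => c * Φ ω) = c * ET L k Φ :=
  avg_const_mul _ _ _

lemma ET_sum {β : Type*} (s : Finset β) (Φ : β → (Node n → ℕ) → ℝ) :
    ET L k (fun ω => ∑ b ∈ s, Φ b ω) = ∑ b ∈ s, ET L k (Φ b) :=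
  avg_sum _ _ _

/-- From `avg_mul_indep` with the preimages of `S`, `T` under `Subtype.val`. -/
theorem ET_mul_indep (hL : 0 < L) (Φ Ψ : (Node n → ℕ) → ℝ) (S T : Set (Node n))
    (hST : Disjoint S T) (hΦ : DependsOn Φ S) (hΨ : DependsOn Ψ T) :
    ET L k (fun ω => Φ ω * Ψ ω) = ET L k Φ * ET L k Ψ := by
  have : Nonempty (Fin L) := ⟨⟨0, hL⟩⟩
  have key : ∀ (Φ : (Node n → ℕ) → ℝ) (S : Set (Node n)), DependsOn Φ S →
      DependsOn (fun η : Idx n k → Fin L => Φ (ext η)) {i | i.1 ∈ S} := by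
    intro Φ S hΦ η η' h
    refine hΦ fun i hi => ?_
    unfold ext
    split_ifs with hk
    · rw [h ⟨i, hk⟩ hi]
    · rfl
  exact avg_mul_indep _ _ _ _ (Set.disjoint_left.2 fun i hi hi' => Set.disjoint_left.1 hST hi hi')
    (key Φ S hΦ) (key Ψ T hΨ)

/-- Induction on `s`. -/
theorem ET_prod_indep (hL : 0 < L) {β : Type*} (s : Finset β) (Φ : β → (Node n → ℕ) → ℝ)
    (S : β → Set (Node n)) (hS : ∀ b ∈ s, ∀ b' ∈ s, b ≠ b' → Disjoint (S b) (S b'))
    (hΦ : ∀ b ∈ s, DependsOn (Φ b) (S b)) :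
    ET L k (fun ω => ∏ b ∈ s, Φ b ω) = ∏ b ∈ s, ET L k (Φ b) := by
  classical
  induction s using Finset.induction_on with
  | empty => simpa using ET_const (n := n) (k := k) hL 1
  | insert a s ha ih =>
    simp only [prod_insert ha]
    rw [ET_mul_indep hL (Φ a) (fun ω => ∏ b ∈ s, Φ b ω) (S a) (⋃ b ∈ s, S b) ?_
      (hΦ a (mem_insert_self a s)) ?_,
      ih (fun b hb b' hb' => hS b (mem_insert_of_mem hb) b' (mem_insert_of_mem hb'))
        fun b hb => hΦ b (mem_insert_of_mem hb)]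
    · simp only [Set.disjoint_iUnion_right]
      intro b hb
      exact hS a (mem_insert_self a s) b (mem_insert_of_mem hb) fun e => ha (e ▸ hb)
    · intro ω ω' h
      exact prod_congr rfl fun b hb => hΦ b (mem_insert_of_mem hb) fun i hi =>
        h i (Set.mem_biUnion hb hi)

/-- `sh g (ext η) = ext (η ∘ e)` for the injection `e : Idx n k → Idx n (k+1)`,
`(l, w) ↦ (g :: l, w)`; use `avg_comp_injective`. -/
theorem ET_sh (hL : 0 < L) (g : Stp n) (Φ : (Node n → ℕ) → ℝ) :
    ET L (k + 1) (fun ω => Φ (sh g ω)) = ET L k Φ := by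
  have : Nonempty (Fin L) := ⟨⟨0, hL⟩⟩
  let e : Idx n k → Idx n (k + 1) := fun i =>
    ⟨(g :: i.1.1, i.1.2), by simpa using i.2⟩
  have he : Function.Injective e := by
    intro i j h
    have h1 := congrArg Subtype.val h
    simp only [e, Prod.mk.injEq, List.cons.injEq, true_and] at h1
    exact Subtype.ext (Prod.ext h1.1 h1.2)
  unfold ET
  rw [← avg_comp_injective e he (fun η : Idx n k → Fin L => Φ (ext η))]
  refine avg_congr fun η _ => congrArg Φ ?_
  funext i
  by_cases hi : i.1.length < k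
  · have hi' : (g :: i.1).length < k + 1 := by simpa using hi
    simp only [sh, ext, dif_pos hi, dif_pos hi']
    rfl
  · have hi' : ¬ (g :: i.1).length < k + 1 := by simpa using hi
    simp only [sh, ext, dif_neg hi, dif_neg hi']

theorem ET_coord (hL : 0 < L) (w : Fin n) (f : ℕ → ℝ) :
    ET L (k + 1) (fun ω : Node n → ℕ => f (ω ([], w))) = (L : ℝ)⁻¹ * ∑ r ∈ range L, f r := by
  have : Nonempty (Fin L) := ⟨⟨0, hL⟩⟩
  let i : Idx n (k + 1) := ⟨([], w), Nat.succ_pos k⟩
  have h := avg_coord i (fun a : Fin L => f a)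
  have h2 : ET L (k + 1) (fun ω : Node n → ℕ => f (ω ([], w))) =
      avg univ (fun η : Idx n (k + 1) → Fin L => f (η i)) :=
    avg_congr fun η _ => by simp only [ext, List.length_nil, Nat.succ_pos, dif_pos]; rfl
  rw [h2, h, avg, card_univ, Fintype.card_fin, sum_range, div_eq_inv_mul]

end Crest.Agent.R30
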