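import Crest.Agent.R30.Prod
import Crest.Agent.R30.Stop

/-!
# R30/TreeProbAux1: coordinate sets, the factor lemma and `ET_tau` (helper68)
-/

set_option autoImplicit false

open Finset
open Crest.CombinatoricsR.TriangleRemoval

namespace Crest.Agent.R30

variable {n : ℕ}

variable {E : St n} {L : ℕ}

/-- Coordinates below the step `g`. -/
def tpB (g : Stp n) : Set (Node n) := {i | i.1.head? = some g}

/-- Coordinates below the apex `w` (both steps). -/
def tpD (w : Fin n) : Set (Node n) := {i | i.1.head?.map Prod.fst = some w}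

/-- Coordinates attached to the apex `w`. -/
def tpC (w : Fin n) : Set (Node n) := {i | i = ([], w) ∨ i.1.head?.map Prod.fst = some w}

lemma treeprob_dep_sh {β : Type*} (g : Stp n) (Φ : (Node n → ℕ) → β) :
    DependsOn (fun ω => Φ (sh g ω)) (tpB g) := by
  intro ω ω' h
  have : sh g ω = sh g ω' := by
    funext i
    exact h (g :: i.1, i.2) rfl
  simp only [this]

lemma treeprob_sh_eq_of_D {w : Fin n} {ω ω' : Node n → ℕ} (h : ∀ i ∈ tpD w, ω i = ω' i)
    (g : Stp n) (hg : g.1 = w) : sh g ω = sh g ω' := by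
  funext i
  exact h (g :: i.1, i.2) (congrArg some hg)

lemma treeprob_sh_eq_of_C {w : Fin n} {ω ω' : Node n → ℕ} (h : ∀ i ∈ tpC w, ω i = ω' i)
    (g : Stp n) (hg : g.1 = w) : sh g ω = sh g ω' := by
  funext i
  exact h (g :: i.1, i.2) (Or.inr (by simp [hg]))

lemma treeprob_disj_B {g g' : Stp n} (h : g ≠ g') : Disjoint (tpB g) (tpB g') := by
  rw [Set.disjoint_left]
  intro i h1 h2
  simp only [tpB, Set.mem_ofPred_eq] at h1 h2
  rw [h1] at h2
  exact h (Option.some.inj h2)

lemma treeprob_disj_C {w w' : Fin n} (h : w ≠ w') : Disjoint (tpC w) (tpC w') := by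
  rw [Set.disjoint_left]
  intro i h1 h2
  simp only [tpC, Set.mem_ofPred_eq] at h1 h2
  rcases h1 with h1 | h1 <;> rcases h2 with h2 | h2
  · rw [h1] at h2
    exact h (Prod.mk.inj h2).2
  · rw [h1] at h2; simp at h2
  · rw [h2] at h1; simp at h1
  · rw [h1] at h2
    exact h (Option.some.inj h2)

lemma treeprob_disj_RD (w w' : Fin n) : Disjoint ({([], w)} : Set (Node n)) (tpD w') := by
  rw [Set.disjoint_left]
  intro i h1 h2
  simp only [Set.mem_singleton_iff] at h1
  subst h1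
  simp [tpD] at h2

lemma treeprob_dep_coord (w : Fin n) (f : ℕ → ℝ) :
    DependsOn (fun ω : Node n → ℕ => f (ω ([], w))) ({([], w)} : Set (Node n)) := by
  intro ω ω' h
  simp only [h ([], w) rfl]

/-- The probability that a given clock has a given value. -/
lemma treeprob_coord (hL : 0 < L) (k : ℕ) (w : Fin n) (r : ℕ) (hr : r < L) :
    ET L (k + 1) (fun ω : Node n → ℕ => ind (ω ([], w) = r)) = (L : ℝ)⁻¹ := by
  rw [ET_coord hL w (fun c => ind (c = r))]
  have : ∑ r' ∈ range L, ind (r' = r) = 1 := by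
    rw [sum_eq_single r]
    · exact ind_true rfl
    · intro b _ hb; exact ind_false hb
    · intro h; exact absurd (mem_range.2 hr) h
  rw [this, mul_one]

/-- Splitting off the clock of the apex `w`. -/
lemma treeprob_coord_mul (hL : 0 < L) (k : ℕ) (w : Fin n) (r : ℕ) (hr : r < L)
    (Θ : (Node n → ℕ) → ℝ) (hΘ : DependsOn Θ (tpD w)) :
    ET L (k + 1) (fun ω => ind (ω ([], w) = r) * Θ ω) = (L : ℝ)⁻¹ * ET L (k + 1) Θ := by
  rw [ET_mul_indep hL (fun ω : Node n → ℕ => ind (ω ([], w) = r)) Θ _ _ (treeprob_disj_RD w w)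
    (treeprob_dep_coord w (fun c => ind (c = r))) hΘ, treeprob_coord hL k w r hr]

/-- Two different steps are independent. -/
lemma treeprob_two (hL : 0 < L) (k : ℕ) {g g' : Stp n} (h : g ≠ g')
    (Φ Ψ : (Node n → ℕ) → ℝ) :
    ET L (k + 1) (fun ω => Φ (sh g ω) * Ψ (sh g' ω)) = ET L k Φ * ET L k Ψ := by
  rw [ET_mul_indep hL (fun ω => Φ (sh g ω)) (fun ω => Ψ (sh g' ω)) _ _ (treeprob_disj_B h)
    (treeprob_dep_sh g Φ) (treeprob_dep_sh g' Ψ), ET_sh hL, ET_sh hL]

/-- The triangle with apex `w` is accepted before time `s`. -/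
def tpAcc (E : St n) (L k : ℕ) (x : TS n) (w : Fin n) (s : ℕ) (ω : Node n → ℕ) : Prop :=
  ω ([], w) < s ∧ ω ([], w) ≤ tau E L k (child x (w, false)) (sh (w, false) ω) ∧
    ω ([], w) ≤ tau E L k (child x (w, true)) (sh (w, true) ω)

lemma treeprob_dep_acc (k : ℕ) (x : TS n) (w : Fin n) (s : ℕ) :
    DependsOn (fun ω => 1 - ind (tpAcc E L k x w s ω)) (tpC w) := by
  intro ω ω' h
  have h1 : ω ([], w) = ω' ([], w) := h _ (Or.inl rfl)
  have h2 := treeprob_sh_eq_of_C h (w, false) rfl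
  have h3 := treeprob_sh_eq_of_C h (w, true) rfl
  simp only [tpAcc, h1, h2, h3]

lemma treeprob_acc_eq (k : ℕ) (x : TS n) (w : Fin n) (s : ℕ) (ω : Node n → ℕ) :
    ind (tpAcc E L k x w s ω) = ∑ r ∈ range s, ind (ω ([], w) = r) *
      (ind (r ≤ tau E L k (child x (w, false)) (sh (w, false) ω)) *
        ind (r ≤ tau E L k (child x (w, true)) (sh (w, true) ω))) := by
  by_cases h : ω ([], w) < s
  · rw [sum_eq_single (ω ([], w))]
    · rw [ind_true rfl, one_mul, ← ind_and]
      exact ind_congr (by simp [tpAcc, h])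
    · intro b _ hb
      rw [ind_false (Ne.symm hb), zero_mul]
    · intro h'; exact absurd (mem_range.2 h) h'
  · rw [ind_false (fun h' => h h'.1)]
    symm
    refine sum_eq_zero fun r hr => ?_
    rw [ind_false, zero_mul]
    intro e
    exact h (e ▸ mem_range.1 hr)

/-- The factor lemma. -/
lemma treeprob_fac (hL : 0 < L) (k : ℕ)
    (ih : ∀ (y : TS n) (r : ℕ), r ≤ k → r ≤ L →
      ET L k (fun ω => ind (r ≤ tau E L k y ω)) = q E L y r)
    (x : TS n) (w : Fin n) (s : ℕ) (hsk : s ≤ k + 1) (hsL : s ≤ L) :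
    ET L (k + 1) (fun ω => 1 - ind (tpAcc E L k x w s ω)) = fac E L x w s := by
  rw [ET_sub, ET_const hL, fac]
  congr 1
  simp only [treeprob_acc_eq]
  rw [ET_sum, mul_sum]
  refine sum_congr rfl fun r hr => ?_
  have hr' := mem_range.1 hr
  rw [treeprob_coord_mul hL k w r (by omega)]
  · congr 1
    rw [treeprob_two hL k (g := (w, false)) (g' := (w, true)) (by simp)
      (fun ω => ind (r ≤ tau E L k (child x (w, false)) ω))
      (fun ω => ind (r ≤ tau E L k (child x (w, true)) ω)),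
      ih _ r (by omega) (by omega), ih _ r (by omega) (by omega)]
  · intro ω ω' h
    have h2 := treeprob_sh_eq_of_D h (w, false) rfl
    have h3 := treeprob_sh_eq_of_D h (w, true) rfl
    simp only [h2, h3]

lemma treeprob_prod_fac (hL : 0 < L) (k : ℕ)
    (ih : ∀ (y : TS n) (r : ℕ), r ≤ k → r ≤ L →
      ET L k (fun ω => ind (r ≤ tau E L k y ω)) = q E L y r)
    (x : TS n) (A : Finset (Fin n)) (s : ℕ) (hsk : s ≤ k + 1) (hsL : s ≤ L) :
    ET L (k + 1) (fun ω => ∏ w ∈ A, (1 - ind (tpAcc E L k x w s ω))) =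
      ∏ w ∈ A, fac E L x w s := by
  rw [ET_prod_indep hL A (fun w ω => 1 - ind (tpAcc E L k x w s ω)) tpC
    (fun b _ b' _ h => treeprob_disj_C h) (fun b _ => treeprob_dep_acc k x b s)]
  exact prod_congr rfl fun w _ => treeprob_fac hL k ih x w s hsk hsL

lemma treeprob_prod_ind {α : Type*} (A : Finset α) (P : α → Prop) :
    ∏ a ∈ A, (1 - ind (P a)) = ind (∀ a ∈ A, ¬ P a) := by
  by_cases h : ∀ a ∈ A, ¬ P a
  · rw [ind_true h]
    refine prod_eq_one fun a ha => ?_
    rw [ind_false (h a ha), sub_zero]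
  · rw [ind_false h]
    push Not at h
    obtain ⟨a, ha, hP⟩ := h
    exact prod_eq_zero ha (by rw [ind_true hP, sub_self])

lemma treeprob_le_tau (k : ℕ) (x : TS n) (ω : Node n → ℕ) (s : ℕ) (hsL : s ≤ L) :
    s ≤ tau E L (k + 1) x ω ↔ ∀ w ∈ ch E x, ¬ tpAcc E L k x w s ω := by
  rw [le_tau_succ]
  constructor
  · rintro ⟨-, h⟩ w hw ⟨h1, h2, h3⟩
    have := h w hw h2 h3
    omega
  · intro h
    refine ⟨hsL, fun w hw h2 h3 => ?_⟩
    by_contra hc
    exact h w hw ⟨by omega, h2, h3⟩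

theorem treeprob_ET_tau (hL : 0 < L) (k : ℕ) : ∀ (x : TS n) (s : ℕ), s ≤ k → s ≤ L →
    ET L k (fun ω => ind (s ≤ tau E L k x ω)) = q E L x s := by
  induction k with
  | zero =>
    intro x s hsk _
    obtain rfl : s = 0 := by omega
    have h1 : q E L x 0 = 1 := by
      rw [q_eq]
      exact prod_eq_one fun w _ => by simp [fac]
    rw [h1, ← ET_const (n := n) (k := 0) hL 1]
    exact ET_congr hL fun ω _ => ind_true (Nat.zero_le _)
  | succ k ih =>
    intro x s hsk hsL
    rw [q_eq, ← treeprob_prod_fac hL k ih x (ch E x) s hsk hsL]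
    refine ET_congr hL fun ω _ => ?_
    rw [treeprob_prod_ind]
    exact ind_congr (treeprob_le_tau k x ω s hsL)

end Crest.Agent.R30
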