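import Crest.Agent.R30.Basic

/-!
# R30/Tri: counting triangles (finite combinatorics)

All statements are about a loopless edge set `E`.  Note that `t.sym2` contains the diagonal
pairs `s(u,u)`, `u ∈ t`, which are not in `E`; `Finset.mk_mem_sym2_iff : s(a,b) ∈ t.sym2 ↔ a ∈ t ∧ b ∈ t`.
-/

set_option autoImplicit false

open Finset
open Crest.CombinatoricsR.TriangleRemoval

namespace Crest.Agent.R30

variable {n : ℕ}

lemma mem_triangles {E : St n} {t : Finset (Fin n)} :
    t ∈ triangles E ↔ t.card = 3 ∧ ∀ u ∈ t, ∀ v ∈ t, u ≠ v → s(u, v) ∈ E := by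
  simp [triangles, mem_powersetCard]

lemma Simple.subset {E E' : St n} (h : Simple E) (hs : E' ⊆ E) : Simple E' :=
  fun e he => h e (hs he)

lemma Step.subset {E E' : St n} (h : Step E E') : E' ⊆ E := by
  rcases h with ⟨-, rfl⟩ | ⟨t, -, rfl⟩
  · exact Subset.refl _
  · exact sdiff_subset

lemma triangles_mono {E E' : St n} (h : E' ⊆ E) : triangles E' ⊆ triangles E := by
  intro t ht
  rw [mem_triangles] at ht ⊢
  exact ⟨ht.1, fun u hu v hv huv => h (ht.2 u hu v hv huv)⟩

lemma simple_allEdges : Simple (allEdges n) := by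
  intro e he; simpa [allEdges] using he

lemma sum_oe (E : St n) (f : Fin n → Fin n → ℝ) :
    ∑ e ∈ oe E, f e.1 e.2 = ∑ u, ∑ v ∈ nb E u, f u v := by
  simp only [oe, nb, sum_filter]
  rw [Fintype.sum_prod_type]

lemma sum_oe_swap (E : St n) (f : Fin n → Fin n → ℝ) :
    ∑ e ∈ oe E, f e.1 e.2 = ∑ e ∈ oe E, f e.2 e.1 := by
  refine sum_equiv (Equiv.prodComm _ _) (fun e => ?_) (fun e _ => rfl)
  simp only [mem_oe, Equiv.prodComm_apply, Prod.fst_swap, Prod.snd_swap]
  rw [Sym2.eq_swap]

lemma sum_card_nb (E : St n) : ∑ u, ((nb E u).card : ℝ) = (oe E).card := by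
  have h := sum_oe E (fun _ _ => (1 : ℝ))
  simp only [sum_const, nsmul_eq_mul, mul_one] at h
  exact h.symm

/-- Every edge has two orientations (fibres of `(u,v) ↦ s(u,v)` have two elements). -/
lemma card_oe {E : St n} (hE : Simple E) : (oe E).card = 2 * E.card := by
  rw [card_eq_sum_card_fiberwise (f := fun e : Fin n × Fin n => s(e.1, e.2)) (t := E)
    (fun e he => mem_oe.1 he), mul_comm, ← smul_eq_mul, ← sum_const]
  refine sum_congr rfl fun e he => ?_
  induction e using Sym2.ind with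
  | h a b =>
    have hab := hE.ne he
    have : (oe E).filter (fun e : Fin n × Fin n => s(e.1, e.2) = s(a, b)) = {(a, b), (b, a)} := by
      ext ⟨x, y⟩
      simp only [mem_filter, mem_oe, mem_insert, mem_singleton, Prod.mk.injEq]
      constructor
      · rintro ⟨-, h⟩
        exact Sym2.eq_iff.1 h
      · rintro (⟨rfl, rfl⟩ | ⟨rfl, rfl⟩)
        · exact ⟨he, rfl⟩
        · exact ⟨by rw [Sym2.eq_swap]; exact he, Sym2.eq_swap⟩
    rw [this, card_pair]
    intro h
    exact hab (Prod.mk.inj h).1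

lemma card_nb_allEdges (u : Fin n) : ((nb (allEdges n) u).card : ℝ) = n - 1 := by
  have h : nb (allEdges n) u = univ.erase u := by
    ext w
    simp [allEdges, eq_comm]
  rw [h, card_erase_of_mem (mem_univ _), card_univ, Fintype.card_fin, Nat.cast_sub u.pos]
  simp

/-- `2 * #allEdges = n (n-1)`, e.g. from `card_oe` and `sum_card_nb`, or `Sym2.card_subtype_not_diag`. -/
lemma card_allEdges : ((allEdges n).card : ℝ) = (n : ℝ) * (n - 1) / 2 := by
  have h1 := sum_card_nb (allEdges n)
  rw [card_oe simple_allEdges] at h1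
  simp only [card_nb_allEdges, sum_const, card_univ, Fintype.card_fin, nsmul_eq_mul] at h1
  push_cast at h1
  linarith

lemma card_cn_allEdges {u v : Fin n} (h : u ≠ v) : ((cn (allEdges n) u v).card : ℝ) = n - 2 := by
  have h1 : cn (allEdges n) u v = (univ.erase u).erase v := by
    ext w
    simp only [mem_cn, allEdges, mem_filter, mem_univ, true_and, Sym2.mk_isDiag_iff, mem_erase,
      and_true]
    constructor
    · rintro ⟨a, b⟩
      exact ⟨fun e => b e.symm, fun e => a e.symm⟩
    · rintro ⟨a, b⟩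
      exact ⟨fun e => b e.symm, fun e => a e.symm⟩
  have h2 := card_erase_add_one (s := (univ : Finset (Fin n)).erase u) (a := v)
    (by simp [Ne.symm h])
  have h3 := card_erase_add_one (s := (univ : Finset (Fin n))) (a := u) (mem_univ _)
  rw [card_univ, Fintype.card_fin] at h3
  rw [h1]
  have h4 : ((univ.erase u).erase v).card + 2 = n := by omega
  have h5 : ((((univ.erase u).erase v).card + 2 : ℕ) : ℝ) = n := by rw [h4]
  push_cast at h5
  linarith

/-- At most `n ^ 3` triangles. -/
lemma card_triangles_le (E : St n) : (triangles E).card ≤ n ^ 3 := by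
  calc (triangles E).card ≤ ((univ : Finset (Fin n)).powersetCard 3).card :=
        card_le_card (filter_subset _ _)
    _ = n.choose 3 := by rw [card_powersetCard, card_univ, Fintype.card_fin]
    _ ≤ n ^ 3 := Nat.choose_le_pow _ _

/-- `{u, v, w}` is a triangle when its three pairs are edges. -/
lemma triple_mem_triangles {E : St n} (hE : Simple E) {u v w : Fin n} (huv : s(u, v) ∈ E)
    (huw : s(u, w) ∈ E) (hvw : s(v, w) ∈ E) : ({u, v, w} : Finset (Fin n)) ∈ triangles E := by
  rw [mem_triangles]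
  refine ⟨card_eq_three.2 ⟨u, v, w, hE.ne huv, hE.ne huw, hE.ne hvw, rfl⟩, ?_⟩
  have hvu : s(v, u) ∈ E := by rw [Sym2.eq_swap]; exact huv
  have hwu : s(w, u) ∈ E := by rw [Sym2.eq_swap]; exact huw
  have hwv : s(w, v) ∈ E := by rw [Sym2.eq_swap]; exact hvw
  intro a ha b hb hab
  simp only [mem_insert, mem_singleton] at ha hb
  rcases ha with rfl | rfl | rfl <;> rcases hb with rfl | rfl | rfl <;>
    first | assumption | exact absurd rfl hab

/-- A triangle containing three distinct vertices is the set of these. -/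
lemma tri_eq_of_mem {E : St n} {t : Finset (Fin n)} (ht : t ∈ triangles E) {a b c : Fin n}
    (hab : a ≠ b) (hac : a ≠ c) (hbc : b ≠ c) (ha : a ∈ t) (hb : b ∈ t) (hc : c ∈ t) :
    t = {a, b, c} := by
  symm
  refine eq_of_subset_of_card_le ?_ ?_
  · intro x hx
    simp only [mem_insert, mem_singleton] at hx
    rcases hx with rfl | rfl | rfl <;> assumption
  · rw [(mem_triangles.1 ht).1, card_eq_three.2 ⟨a, b, c, hab, hac, hbc, rfl⟩]

/-- A triangle through two distinct vertices `u, v` is `{u, v, w}` with `w` a common neighbour. -/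
lemma exists_cn_of_mem_triangles {E : St n} {t : Finset (Fin n)} (ht : t ∈ triangles E)
    {u v : Fin n} (huv : u ≠ v) (hu : u ∈ t) (hv : v ∈ t) :
    ∃ w ∈ cn E u v, w ≠ u ∧ w ≠ v ∧ t = {u, v, w} := by
  obtain ⟨h3, hE⟩ := mem_triangles.1 ht
  have h1 := card_erase_add_one (s := t.erase u) (a := v) (mem_erase.2 ⟨huv.symm, hv⟩)
  have h2 := card_erase_add_one hu
  have h4 : 0 < ((t.erase u).erase v).card := by omega
  obtain ⟨w, hw⟩ := card_pos.1 h4
  simp only [mem_erase] at hw
  obtain ⟨hwv, hwu, hwt⟩ := hw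
  exact ⟨w, mem_cn.2 ⟨hE u hu w hwt hwu.symm, hE v hv w hwt hwv.symm⟩, hwu, hwv,
    tri_eq_of_mem ht huv hwu.symm hwv.symm hu hv hwt⟩

/-- Removing a triangle removes exactly three edges. -/
lemma card_sdiff_tri {E : St n} (hE : Simple E) {t : Finset (Fin n)} (ht : t ∈ triangles E) :
    (E \ t.sym2).card + 3 = E.card := by
  obtain ⟨h3, hT⟩ := mem_triangles.1 ht
  obtain ⟨a, b, c, hab, hac, hbc, rfl⟩ := card_eq_three.1 h3
  have h : E ∩ ({a, b, c} : Finset (Fin n)).sym2 = {s(a, b), s(a, c), s(b, c)} := by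
    ext e
    induction e using Sym2.ind with
    | h x y =>
      simp only [mem_inter, mk_mem_sym2_iff, mem_insert, mem_singleton]
      constructor
      · rintro ⟨he, hx, hy⟩
        have hxy := hE.ne he
        rcases hx with rfl | rfl | rfl <;> rcases hy with rfl | rfl | rfl <;>
          first | exact absurd rfl hxy | simp [Sym2.eq_swap]
      · intro h
        have e1 : s(a, b) ∈ E := hT a (by simp) b (by simp) hab
        have e2 : s(a, c) ∈ E := hT a (by simp) c (by simp) hac
        have e3 : s(b, c) ∈ E := hT b (by simp) c (by simp) hbc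
        rcases h with h | h | h
        · refine ⟨h ▸ e1, ?_⟩
          rcases Sym2.eq_iff.1 h with ⟨rfl, rfl⟩ | ⟨rfl, rfl⟩ <;> simp
        · refine ⟨h ▸ e2, ?_⟩
          rcases Sym2.eq_iff.1 h with ⟨rfl, rfl⟩ | ⟨rfl, rfl⟩ <;> simp
        · refine ⟨h ▸ e3, ?_⟩
          rcases Sym2.eq_iff.1 h with ⟨rfl, rfl⟩ | ⟨rfl, rfl⟩ <;> simp
  have h2 : (E ∩ ({a, b, c} : Finset (Fin n)).sym2).card = 3 := by
    rw [h]
    refine card_eq_three.2 ⟨_, _, _, ?_, ?_, ?_, rfl⟩
    · simp [hac, hbc, hab.symm]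
    · simp [hab, hac, hbc]
    · simp [hab, hac, hbc.symm]
  rw [← h2]
  exact card_sdiff_add_card_inter _ _

/-- Removing a triangle removes at least one edge (no simplicity needed). -/
lemma card_sdiff_tri_lt {E : St n} {t : Finset (Fin n)} (ht : t ∈ triangles E) :
    (E \ t.sym2).card < E.card := by
  obtain ⟨h3, hT⟩ := mem_triangles.1 ht
  obtain ⟨a, b, c, hab, hac, hbc, rfl⟩ := card_eq_three.1 h3
  refine card_lt_card ⟨sdiff_subset, fun h => ?_⟩
  have e1 : s(a, b) ∈ E := hT a (by simp) b (by simp) hab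
  exact (mem_sdiff.1 (h e1)).2 (by simp)

/-- The triangles through an edge correspond to common neighbours (`w ↦ {u,v,w}`). -/
lemma card_tri_edge {E : St n} (hE : Simple E) {u v : Fin n} (huv : s(u, v) ∈ E) :
    ((triangles E).filter (fun t => s(u, v) ∈ t.sym2)).card = (cn E u v).card := by
  have hne := hE.ne huv
  have h : (triangles E).filter (fun t => s(u, v) ∈ t.sym2) =
      (cn E u v).image (fun w => ({u, v, w} : Finset (Fin n))) := by
    ext t
    simp only [mem_filter, mk_mem_sym2_iff, mem_image]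
    constructor
    · rintro ⟨ht, hu, hv⟩
      obtain ⟨w, hw, -, -, rfl⟩ := exists_cn_of_mem_triangles ht hne hu hv
      exact ⟨w, hw, rfl⟩
    · rintro ⟨w, hw, rfl⟩
      exact ⟨triple_mem_triangles hE huv (mem_cn.1 hw).1 (mem_cn.1 hw).2, by simp, by simp⟩
  rw [h, card_image_of_injOn]
  intro w hw w' _ e
  have hw1 := mem_cn.1 (mem_coe.1 hw)
  have h1 : w ∈ ({u, v, w'} : Finset (Fin n)) := by
    have e' : ({u, v, w} : Finset (Fin n)) = {u, v, w'} := e
    rw [← e']; simp
  simp only [mem_insert, mem_singleton] at h1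
  rcases h1 with h1 | h1 | h1
  · exact absurd h1.symm (hE.ne hw1.1)
  · exact absurd h1.symm (hE.ne hw1.2)
  · exact h1

/-- `card_tri_edge` as a sum of indicators. -/
lemma tri_sum_ite_edge {E : St n} (hE : Simple E) {u v : Fin n} (huv : s(u, v) ∈ E) :
    ∑ t ∈ triangles E, (if s(u, v) ∈ t.sym2 then (1 : ℝ) else 0) = (cn E u v).card := by
  rw [← card_tri_edge hE huv, sum_boole]

/-- Double counting: each triangle contains 6 oriented edges (`t.offDiag`); use `card_tri_edge`. -/
lemma six_mul_card_tri {E : St n} (hE : Simple E) :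
    6 * ((triangles E).card : ℝ) = ∑ e ∈ oe E, ((cn E e.1 e.2).card : ℝ) := by
  rw [sum_congr rfl fun e he => (tri_sum_ite_edge hE (mem_oe.1 he)).symm, sum_comm, mul_comm,
    ← nsmul_eq_mul, ← sum_const]
  refine sum_congr rfl fun t ht => ?_
  obtain ⟨h3, hT⟩ := mem_triangles.1 ht
  have h : (oe E).filter (fun e : Fin n × Fin n => s(e.1, e.2) ∈ t.sym2) = t.offDiag := by
    ext ⟨x, y⟩
    simp only [mem_filter, mem_oe, mk_mem_sym2_iff, mem_offDiag]
    constructor
    · rintro ⟨he, hx, hy⟩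
      exact ⟨hx, hy, hE.ne he⟩
    · rintro ⟨hx, hy, hxy⟩
      exact ⟨hT x hx y hy hxy, hx, hy⟩
  rw [sum_boole, h, offDiag_card, h3]
  norm_num

/-- `#cn E u v - #cn (E \ t) u v = #{w ∈ cn E u v | uw ∈ t ∨ vw ∈ t}`; sum over `t`, swap, and use
inclusion-exclusion: `#{t ∋ uw} = #cn E u w`, `#{t ∋ vw} = #cn E v w`, and `{u,v,w}` is the only
triangle containing both. -/
lemma sum_tri_cn_drop {E : St n} (hE : Simple E) {u v : Fin n} (huv : s(u, v) ∈ E) :
    ∑ t ∈ triangles E, (((cn E u v).card : ℝ) - (cn (E \ t.sym2) u v).card) =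
      ∑ w ∈ cn E u v, (((cn E u w).card : ℝ) + (cn E v w).card - 1) := by
  have h1 : ∀ t : Finset (Fin n), ((cn E u v).card : ℝ) - (cn (E \ t.sym2) u v).card =
      ∑ w ∈ cn E u v, ((if s(u, w) ∈ t.sym2 then (1 : ℝ) else 0) +
        (if s(v, w) ∈ t.sym2 then (1 : ℝ) else 0) -
        (if s(u, w) ∈ t.sym2 ∧ s(v, w) ∈ t.sym2 then (1 : ℝ) else 0)) := by
    intro t
    have e : cn (E \ t.sym2) u v =
        (cn E u v).filter (fun w => s(u, w) ∉ t.sym2 ∧ s(v, w) ∉ t.sym2) := by
      ext w
      simp only [mem_cn, mem_sdiff, mem_filter]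
      tauto
    rw [e, ← sum_boole, card_eq_sum_ones (cn E u v)]
    push_cast
    rw [← sum_sub_distrib]
    refine sum_congr rfl fun w _ => ?_
    by_cases a : s(u, w) ∈ t.sym2 <;> by_cases b : s(v, w) ∈ t.sym2 <;> simp only [a, b] <;> simp
  rw [sum_congr rfl fun t _ => h1 t, sum_comm]
  refine sum_congr rfl fun w hw => ?_
  obtain ⟨huw, hvw⟩ := mem_cn.1 hw
  rw [sum_sub_distrib, sum_add_distrib, tri_sum_ite_edge hE huw, tri_sum_ite_edge hE hvw,
    sum_boole]
  have e : (triangles E).filter (fun t => s(u, w) ∈ t.sym2 ∧ s(v, w) ∈ t.sym2) = {{u, v, w}} := by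
    ext t
    simp only [mem_filter, mk_mem_sym2_iff, mem_singleton]
    constructor
    · rintro ⟨ht, ⟨hu, hw'⟩, hv, -⟩
      exact tri_eq_of_mem ht (hE.ne huv) (hE.ne huw) (hE.ne hvw) hu hv hw'
    · rintro rfl
      exact ⟨triple_mem_triangles hE huv huw hvw, by simp, by simp⟩
  rw [e, card_singleton, Nat.cast_one]

/-- `#nb E u - #nb (E \ t) u = #{w ∈ nb E u | uw ∈ t}`; sum over `t` and swap. -/
lemma sum_tri_nb_drop {E : St n} (hE : Simple E) (u : Fin n) :
    ∑ t ∈ triangles E, (((nb E u).card : ℝ) - (nb (E \ t.sym2) u).card) =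
      ∑ w ∈ nb E u, ((cn E u w).card : ℝ) := by
  have h1 : ∀ t : Finset (Fin n), ((nb E u).card : ℝ) - (nb (E \ t.sym2) u).card =
      ∑ w ∈ nb E u, (if s(u, w) ∈ t.sym2 then (1 : ℝ) else 0) := by
    intro t
    have e : nb (E \ t.sym2) u = (nb E u).filter (fun w => s(u, w) ∉ t.sym2) := by
      ext w
      simp only [mem_nb, mem_sdiff, mem_filter]
    rw [e, ← sum_boole, card_eq_sum_ones (nb E u)]
    push_cast
    rw [← sum_sub_distrib]
    refine sum_congr rfl fun w _ => ?_
    by_cases a : s(u, w) ∈ t.sym2 <;> simp only [a] <;> simp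
  rw [sum_congr rfl fun t _ => h1 t, sum_comm]
  exact sum_congr rfl fun w hw => tri_sum_ite_edge hE (mem_nb.1 hw)

/-- The lost common neighbours lie in `t.erase u` (if `u ∈ t`) or else in `t.erase v`. -/
lemma cn_drop_bounds {E : St n} (hE : Simple E) {t : Finset (Fin n)} (ht : t ∈ triangles E)
    (u v : Fin n) : (cn (E \ t.sym2) u v).card ≤ (cn E u v).card ∧
      (cn E u v).card ≤ (cn (E \ t.sym2) u v).card + 2 := by
  have h3 := (mem_triangles.1 ht).1
  refine ⟨card_le_card fun w hw => ?_, ?_⟩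
  · simp only [mem_cn, mem_sdiff] at hw ⊢
    exact ⟨hw.1.1, hw.2.1⟩
  have key : ∀ x ∈ t, (∀ w ∈ cn E u v, w ≠ x) →
      (cn E u v).card ≤ (cn (E \ t.sym2) u v).card + 2 := by
    intro x hx hne
    have h1 : cn E u v ⊆ cn (E \ t.sym2) u v ∪ t.erase x := by
      intro w hw
      by_cases hwt : w ∈ t
      · exact mem_union_right _ (mem_erase.2 ⟨hne w hw, hwt⟩)
      · refine mem_union_left _ ?_
        simp only [mem_cn, mem_sdiff, mk_mem_sym2_iff] at hw ⊢
        tauto
    have h2 := card_erase_add_one hx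
    have h4 := (card_le_card h1).trans (card_union_le _ _)
    omega
  by_cases hu : u ∈ t
  · exact key u hu fun w hw => (hE.ne (mem_cn.1 hw).1).symm
  by_cases hv : v ∈ t
  · exact key v hv fun w hw => (hE.ne (mem_cn.1 hw).2).symm
  refine le_trans (card_le_card fun w hw => ?_) (Nat.le_add_right _ _)
  simp only [mem_cn, mem_sdiff, mk_mem_sym2_iff] at hw ⊢
  tauto

lemma nb_drop_bounds {E : St n} (hE : Simple E) {t : Finset (Fin n)} (ht : t ∈ triangles E)
    (u : Fin n) : (nb (E \ t.sym2) u).card ≤ (nb E u).card ∧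
      (nb E u).card ≤ (nb (E \ t.sym2) u).card + 2 := by
  have e : ∀ E' : St n, nb E' u = cn E' u u := fun E' => by ext w; simp
  rw [e, e]
  exact cn_drop_bounds hE ht u u

/-- Two distinct edges lie in at most one triangle. -/
lemma tri_card_two_edges {E : St n} {e e' : Sym2 (Fin n)} (he : ¬ e.IsDiag) (he' : ¬ e'.IsDiag)
    (hne : e ≠ e') : ((triangles E).filter (fun t => e ∈ t.sym2 ∧ e' ∈ t.sym2)).card ≤ 1 := by
  induction e using Sym2.ind with
  | h a b =>
  induction e' using Sym2.ind with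
  | h c d =>
  rw [Sym2.mk_isDiag_iff] at he he'
  obtain ⟨x, hxa, hxb, hx⟩ : ∃ x, x ≠ a ∧ x ≠ b ∧ (x = c ∨ x = d) := by
    by_contra hcon
    push Not at hcon
    apply hne
    by_cases hca : c = a
    · by_cases hdb : d = b
      · rw [hca, hdb]
      · exact absurd rfl (hcon d (fun h => he' (hca.trans h.symm)) hdb).2
    · by_cases hcb : c = b
      · by_cases hda : d = a
        · rw [hcb, hda, Sym2.eq_swap]
        · exact absurd rfl (hcon d hda (fun h => he' (hcb.trans h.symm))).2
      · exact absurd rfl (hcon c hca hcb).1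
  have key : ∀ t ∈ (triangles E).filter (fun t => s(a, b) ∈ t.sym2 ∧ s(c, d) ∈ t.sym2),
      t = {a, b, x} := by
    intro t ht
    simp only [mem_filter, mk_mem_sym2_iff] at ht
    obtain ⟨ht, ⟨ha, hb⟩, hc, hd⟩ := ht
    refine tri_eq_of_mem ht he hxa.symm hxb.symm ha hb ?_
    rcases hx with rfl | rfl <;> assumption
  exact card_le_one.2 fun t ht t' ht' => (key t ht).trans (key t' ht').symm

/-- Number of triangles that destroy `F ⊆ E`.  With `A e = {t | e ∈ t.sym2}`, `#A e ≥ c`
(`card_tri_edge`) and `#(A e ∩ A e') ≤ 1` for `e ≠ e'` (two distinct edges span three vertices);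
by induction on `F` (or Bonferroni) `#⋃ A e ≥ |F| c - |F|²`. -/
lemma card_hit_ge {E F : St n} (hE : Simple E) (hF : F ⊆ E) (c : ℝ)
    (hc : ∀ u v, s(u, v) ∈ F → c ≤ (cn E u v).card) :
    (F.card : ℝ) * c - (F.card : ℝ) ^ 2 ≤
      (((triangles E).filter (fun t => ¬ F ⊆ E \ t.sym2)).card : ℝ) := by
  have e : (triangles E).filter (fun t => ¬ F ⊆ E \ t.sym2) =
      F.biUnion (fun e => (triangles E).filter (fun t => e ∈ t.sym2)) := by
    ext t
    simp only [mem_filter, mem_biUnion]
    constructor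
    · rintro ⟨ht, h⟩
      obtain ⟨e, he, hn⟩ := not_subset.1 h
      refine ⟨e, he, ht, ?_⟩
      by_contra h'
      exact hn (mem_sdiff.2 ⟨hF he, h'⟩)
    · rintro ⟨e, he, ht, h⟩
      exact ⟨ht, fun h' => (mem_sdiff.1 (h' he)).2 h⟩
  rw [e]
  clear e
  induction F using Finset.induction_on with
  | empty => simp
  | insert e F heF ih =>
    have ih' := ih (fun x hx => hF (mem_insert_of_mem hx))
      (fun u v h => hc u v (mem_insert_of_mem h))
    have heE : e ∈ E := hF (mem_insert_self _ _)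
    rw [biUnion_insert, card_insert_of_notMem heF]
    set A := (triangles E).filter (fun t => e ∈ t.sym2) with hA
    set U := F.biUnion (fun e => (triangles E).filter (fun t => e ∈ t.sym2)) with hU
    have h1 : c ≤ (A.card : ℝ) := by
      induction e using Sym2.ind with
      | h a b =>
        rw [hA, card_tri_edge hE heE]
        exact hc a b (mem_insert_self _ _)
    have h2 : (A ∩ U).card ≤ F.card := by
      have h3 : A ∩ U ⊆
          F.biUnion (fun e' => (triangles E).filter (fun t => e ∈ t.sym2 ∧ e' ∈ t.sym2)) := by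
        intro t ht
        simp only [hA, hU, mem_inter, mem_filter, mem_biUnion] at ht ⊢
        obtain ⟨⟨h4, h5⟩, e', he', -, h6⟩ := ht
        exact ⟨e', he', h4, h5, h6⟩
      refine (card_le_card h3).trans (card_biUnion_le.trans ?_)
      rw [card_eq_sum_ones F]
      refine sum_le_sum fun e' he' => tri_card_two_edges (hE e heE)
        (hE e' (hF (mem_insert_of_mem he'))) ?_
      rintro rfl
      exact heF he'
    have h3 : (((A ∪ U).card + (A ∩ U).card : ℕ) : ℝ) = (A.card + U.card : ℕ) := by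
      rw [card_union_add_card_inter]
    have h4 : ((A ∩ U).card : ℝ) ≤ F.card := by exact_mod_cast h2
    have h5 : (0 : ℝ) ≤ F.card := Nat.cast_nonneg _
    push_cast at h3 ⊢
    nlinarith

end Crest.Agent.R30
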